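import Vale.Agent.P096.BStep

/-! P096 part B (notes/P096F.md, section B): assembly. -/

namespace Vale.Agent.P096

open Vale.Agent.P104 Vale.Agent.P132 MulOpposite

universe u

section

variable {K : Type*} [NormedAddCommGroup K] [InnerProductSpace ℂ K] [CompleteSpace K]

/-- The algebra of the pairs which agree on the vector. -/
def bGr (Q : VonNeumannAlgebra K) (Ω : K) : Subalgebra ℂ (Op K × (Op K)ᵐᵒᵖ) where
  carrier := {p | Gr Q Ω p.1 p.2.unop}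
  mul_mem' := fun {a b} ha hb => ⟨mul_mem ha.mem hb.mem, mul_mem hb.mem' ha.mem', by
    change a.1 (b.1 Ω) = b.2.unop (a.2.unop Ω)
    rw [hb.eq, ← ha.eq]
    exact congrArg (fun T : Op K => T Ω) (comm_of_mem hb.mem' ha.mem).symm⟩
  add_mem' := fun {a b} ha hb => ⟨add_mem ha.mem hb.mem, add_mem ha.mem' hb.mem', by
    change a.1 Ω + b.1 Ω = a.2.unop Ω + b.2.unop Ω
    rw [ha.eq, hb.eq]⟩
  algebraMap_mem' c := ⟨Q.toStarSubalgebra.algebraMap_mem c,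
    Q.commutant.toStarSubalgebra.algebraMap_mem c, rfl⟩

theorem bGr_closed (Q : VonNeumannAlgebra K) (Ω : K) :
    IsClosed (bGr Q Ω : Set (Op K × (Op K)ᵐᵒᵖ)) := by
  have e : (bGr Q Ω : Set (Op K × (Op K)ᵐᵒᵖ)) = (Prod.fst ⁻¹' (Q : Set (Op K)) ∩
      (fun p => p.2.unop) ⁻¹' (Q.commutant : Set (Op K))) ∩ {p | p.1 Ω = p.2.unop Ω} :=
    Set.ext fun p => ⟨fun h => ⟨⟨h.mem, h.mem'⟩, h.eq⟩, fun h => ⟨h.1.1, h.1.2, h.2⟩⟩
  rw [e]
  exact (((vn_isClosed Q).preimage continuous_fst).inter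
    ((vn_isClosed Q.commutant).preimage (by fun_prop))).inter
    (isClosed_eq (by fun_prop) (by fun_prop))

theorem bGr_norm {Q : VonNeumannAlgebra K} {Ω : K} (a : bGr Q Ω) {C : ℝ} :
    ‖a‖ ≤ C ↔ ‖a.1.1‖ ≤ C ∧ ‖a.1.2.unop‖ ≤ C := max_le_iff

/-- The two actions of the algebra of pairs. -/
noncomputable def bBi (Q : VonNeumannAlgebra K) (Ω : K) (h : ‖Ω‖ = 1) (h1 : Dense (orb Q Ω))
    (h2 : Dense (orb Q.commutant Ω)) : BBi (bGr Q Ω) K where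
  L := (AlgHom.fst ℂ _ _).comp (bGr Q Ω).val
  R' a := a.1.2.unop
  Ω := Ω
  nL a := ((bGr_norm a).1 le_rfl).1
  nR a := ((bGr_norm a).1 le_rfl).2
  comm a b := (comm_of_mem b.2.mem' a.2.mem).symm
  eq a := a.2.eq
  inj a ha := Subtype.ext (Prod.ext (sep_of_cyc h2 a.2.mem ha) (unop_injective
    (sep_of_cyc (by rwa [VonNeumannAlgebra.commutant_commutant]) a.2.mem' (a.2.eq.symm.trans ha))))
  one := (bGr_norm 1).2 ⟨ContinuousLinearMap.norm_id_le, ContinuousLinearMap.norm_id_le⟩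
  nΩ := h.le

theorem bBi_cl (Q : VonNeumannAlgebra K) (Ω : K) (h : ‖Ω‖ = 1) (h1 : Dense (orb Q Ω))
    (h2 : Dense (orb Q.commutant Ω)) (I : Type*) : (bBi Q Ω h h1 h2).Cl I := by
  intro m f C hC hf
  obtain ⟨T, t1, t2, t3⟩ := m.exists_op (fun p => (f p).1.1) hC fun p => ((bGr_norm _).1 (hf p)).1
  obtain ⟨S, s1, s2, s3⟩ := m.exists_op (fun p => (f p).1.2.unop) hC
    fun p => ((bGr_norm _).1 (hf p)).2
  refine ⟨⟨(T, op S), t3 _ fun p => (f p).2.mem, s3 _ fun p => (f p).2.mem', ?_⟩,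
    (bGr_norm _).2 ⟨t1, s1⟩, t2 Ω⟩
  exact (t2 Ω).trans ((congrArg m.m (funext fun p => (f p).2.eq)).trans (s2 Ω).symm)

end

theorem partB : FTStmt.{u} := by
  intro ε hε
  refine ⟨min (1 / 500) (ε / 122), by positivity,
    fun K _ _ _ P _ Q Ω ρ y y' hΩ h1 h2 hρ hg h3 h4 h5 h6 h7 h8 => ?_⟩
  have hδ := min_le_left (1 / 500) (ε / 122)
  have hδ' := min_le_right (1 / 500) (ε / 122)
  generalize min (1 / 500) (ε / 122) = δ at *
  have : CompleteSpace (bGr Q Ω) := (bGr_closed Q Ω).completeSpace_coe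
  have k3 : ∀ v, ‖y v‖ ≤ 2 := fun v => by
    have k1 : ‖(v : P)‖ ≤ 1 := by
      rcases subsingleton_or_nontrivial P with hP | hP
      · rw [Subsingleton.elim (v : P) 0, norm_zero]
        exact zero_le_one
      · exact (CStarRing.norm_coe_unitary v).le
    have k2 := norm_sub_le_of_le ((hρ v).trans k1) (h3 v)
    rw [sub_sub_cancel] at k2
    linarith
  have k4 : ∀ v, ‖y' v‖ ≤ 2 := fun v => by linarith [h4 v]
  obtain ⟨Φ, hΦ⟩ := (bBi Q Ω hΩ h1 h2).final (ρ := ρ) (Y := fun v => ⟨(y v, op (y' v)), hg v⟩)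
    (bBi_cl Q Ω hΩ h1 h2 _) (bBi_cl Q Ω hΩ h1 h2 _) hδ (fun v => (bGr_norm _).2 ⟨k3 v, k4 v⟩)
    (fun v w => (bGr_norm _).2 ⟨h7 v w, h8 v w⟩) ((bGr_norm _).2 ⟨h5, h6⟩) h3
  refine ⟨(bBi Q Ω hΩ h1 h2).L.toLinearMap ∘ₗ Φ, fun x => ⟨(Φ x).2.mem, (hΦ x).trans ?_⟩⟩
  exact mul_le_mul_of_nonneg_right (by linarith) (norm_nonneg x)

end Vale.Agent.P096
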