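import Vale.Agent.P096.BMean

/-! P096 part B: the martingale chain lemma and the mean with the exchange property. -/

namespace Vale.Agent.P096

open Vale.Agent.P104 Vale.Agent.P132 Filter Topology Finset
open scoped InnerProductSpace

variable {G : Type*} [Group G]

/-- One step of the random walk. -/
noncomputable def bT (𝕜 : Type) [Field 𝕜] (E : Type*) [AddCommGroup E] [Module 𝕜 E] (F : Finset G) :
    Module.End 𝕜 (G → E) where
  toFun h w := (F.card : 𝕜)⁻¹ • ∑ s ∈ F, h (s * w)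
  map_add' f g := funext fun w => by simp only [Pi.add_apply, sum_add_distrib, smul_add]
  map_smul' c f := funext fun w => by
    simp only [Pi.smul_apply, ← smul_sum, RingHom.id_apply, smul_comm c]

section Gen

variable {𝕜 : Type} [Field 𝕜] {E E' : Type*} [AddCommGroup E] [Module 𝕜 E] [AddCommGroup E']
  [Module 𝕜 E'] {F : Finset G}

theorem bT_apply (h : G → E) (w : G) :
    bT 𝕜 E F h w = (F.card : 𝕜)⁻¹ • ∑ s ∈ F, h (s * w) := rfl

theorem bT_succ (k : ℕ) (h : G → E) : (bT 𝕜 E F ^ (k + 1)) h = (bT 𝕜 E F ^ k) (bT 𝕜 E F h) := by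
  rw [pow_succ]; rfl

theorem bT_map (L : E →ₗ[𝕜] E') (k : ℕ) (h : G → E) (w : G) :
    (bT 𝕜 E' F ^ k) (fun a => L (h a)) w = L ((bT 𝕜 E F ^ k) h w) := by
  induction k generalizing h with
  | zero => rfl
  | succ k ih =>
    rw [bT_succ, bT_succ, ← ih]
    exact congrFun (congrArg _ (funext fun a => by simp only [bT_apply, map_smul, map_sum])) w

theorem bT_right (k : ℕ) (h : G → E) (v w : G) :
    (bT 𝕜 E F ^ k) (fun a => h (a * v)) w = (bT 𝕜 E F ^ k) h (w * v) := by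
  induction k generalizing h with
  | zero => rfl
  | succ k ih =>
    rw [bT_succ, bT_succ, ← ih]
    exact congrFun (congrArg _ (funext fun a => by simp only [bT_apply, mul_assoc])) w

theorem bT_const [CharZero 𝕜] (hF : F.Nonempty) (k : ℕ) (v : E) (w : G) :
    (bT 𝕜 E F ^ k) (fun _ => v) w = v := by
  induction k with
  | zero => rfl
  | succ k ih =>
    have e : bT 𝕜 E F (fun _ => v) = fun _ => v := funext fun a => by
      rw [bT_apply, sum_const, ← Nat.cast_smul_eq_nsmul 𝕜, smul_smul,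
        inv_mul_cancel₀ (Nat.cast_ne_zero.2 hF.card_pos.ne'), one_smul]
    rw [bT_succ, e, ih]

end Gen

variable {K : Type*} [NormedAddCommGroup K] [InnerProductSpace ℂ K] {F : Finset G}

theorem bT_mono (k : ℕ) {g g' : G → ℝ} (h : ∀ a, g a ≤ g' a) (w : G) :
    (bT ℝ ℝ F ^ k) g w ≤ (bT ℝ ℝ F ^ k) g' w := by
  induction k generalizing g g' with
  | zero => exact h w
  | succ k ih =>
    rw [bT_succ, bT_succ]
    exact ih fun a => mul_le_mul_of_nonneg_left (sum_le_sum fun s _ => h _) (by positivity)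

theorem bT_norm (k : ℕ) {h : G → K} {g : G → ℝ} (hg : ∀ a, ‖h a‖ ≤ g a) (w : G) :
    ‖(bT ℂ K F ^ k) h w‖ ≤ (bT ℝ ℝ F ^ k) g w := by
  induction k generalizing h g with
  | zero => exact hg w
  | succ k ih =>
    rw [bT_succ, bT_succ]
    refine ih fun a => ?_
    rw [bT_apply, bT_apply, norm_smul, norm_inv, Complex.norm_natCast]
    exact mul_le_mul_of_nonneg_left (norm_sum_le_of_le _ fun s _ => hg _) (by positivity)

theorem bT_bound (hF : F.Nonempty) (k : ℕ) {h : G → K} {C : ℝ} (hg : ∀ a, ‖h a‖ ≤ C) (w : G) :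
    ‖(bT ℂ K F ^ k) h w‖ ≤ C :=
  (bT_norm k hg w).trans_eq (bT_const hF k C w)

theorem bT_var (h1 : 1 ∈ F) {x : G} (hx : x ∈ F) (u : G → K) (w : G) :
    ‖u (x * w) - u w‖ ^ 2 ≤
      4 * F.card * (bT ℝ ℝ F (fun a => ‖u a‖ ^ 2) w - ‖bT ℂ K F u w‖ ^ 2) := by
  have hc : (F.card : ℝ) ≠ 0 := Nat.cast_ne_zero.2 (card_pos.2 ⟨1, h1⟩).ne'
  have hc' : (F.card : ℂ) ≠ 0 := Nat.cast_ne_zero.2 (card_pos.2 ⟨1, h1⟩).ne'
  obtain ⟨v, hv⟩ : ∃ v, v = bT ℂ K F u w := ⟨_, rfl⟩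
  have e1 : ∑ s ∈ F, u (s * w) = ((F.card : ℝ) : ℂ) • v := by
    rw [hv, bT_apply, smul_smul, Complex.ofReal_natCast, mul_inv_cancel₀ hc', one_smul]
  have e2 : ∑ s ∈ F, ‖u (s * w) - v‖ ^ 2 = ∑ s ∈ F, ‖u (s * w)‖ ^ 2 - F.card * ‖v‖ ^ 2 := by
    have e3 : ∑ s ∈ F, RCLike.re ⟪u (s * w), v⟫_ℂ = F.card * ‖v‖ ^ 2 := by
      rw [← map_sum, ← sum_inner, e1, inner_smul_left, Complex.conj_ofReal,
        ← inner_self_eq_norm_sq (𝕜 := ℂ)]
      exact Complex.re_ofReal_mul _ _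
    simp only [norm_sub_sq (𝕜 := ℂ), sum_add_distrib, sum_sub_distrib, ← mul_sum, e3, sum_const,
      nsmul_eq_mul]
    ring
  have h2 : ∀ s ∈ F, ‖u (s * w) - v‖ ^ 2 ≤ ∑ s ∈ F, ‖u (s * w) - v‖ ^ 2 := fun s hs =>
    single_le_sum (f := fun s => ‖u (s * w) - v‖ ^ 2) (fun _ _ => sq_nonneg _) hs
  have h3 := h2 x hx
  have h4 := h2 1 h1
  rw [one_mul] at h4
  have h5 : ‖u (x * w) - u w‖ ≤ ‖u (x * w) - v‖ + ‖u w - v‖ := by
    simpa using norm_sub_le (u (x * w) - v) (u w - v)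
  have h6 := pow_le_pow_left₀ (norm_nonneg _) h5 2
  rw [← hv, bT_apply, smul_eq_mul, mul_sub, mul_assoc, mul_inv_cancel_left₀ hc]
  nlinarith [sq_nonneg (‖u (x * w) - v‖ - ‖u w - v‖)]

theorem bT_chain (h1 : 1 ∈ F) {x : G} (hx : x ∈ F) (N : ℕ) (h : G → K) :
    ∑ q ∈ antidiagonal N, (bT ℝ ℝ F ^ q.1)
        (fun c => ‖(bT ℂ K F ^ q.2) h (x * c) - (bT ℂ K F ^ q.2) h c‖ ^ 2) 1 ≤
      4 * F.card * ((bT ℝ ℝ F ^ (N + 1)) (fun a => ‖h a‖ ^ 2) 1 -
        ‖(bT ℂ K F ^ (N + 1)) h 1‖ ^ 2) := by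
  induction N generalizing h with
  | zero => simpa using bT_var h1 hx h 1
  | succ N ih =>
    rw [Nat.sum_antidiagonal_succ']
    have h2 := ih (bT ℂ K F h)
    have h3 := bT_mono (F := F) (N + 1) (bT_var h1 hx h) 1
    have h4 : (bT ℝ ℝ F ^ (N + 1)) (fun w => 4 * F.card *
        (bT ℝ ℝ F (fun a => ‖h a‖ ^ 2) w - ‖bT ℂ K F h w‖ ^ 2)) 1 =
        4 * F.card * ((bT ℝ ℝ F ^ (N + 1)) (bT ℝ ℝ F fun a => ‖h a‖ ^ 2) 1 -
          (bT ℝ ℝ F ^ (N + 1)) (fun a => ‖bT ℂ K F h a‖ ^ 2) 1) := by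
      have e := map_smul (bT ℝ ℝ F ^ (N + 1)) (4 * F.card : ℝ)
        ((bT ℝ ℝ F fun a => ‖h a‖ ^ 2) - fun a => ‖bT ℂ K F h a‖ ^ 2)
      rw [map_sub] at e
      exact congrFun e 1
    simp only [← bT_succ] at h2 h4
    rw [h4] at h3
    simp only [pow_zero, Module.End.one_apply]
    linarith

/-- The two sided average. -/
noncomputable def bA (K : Type*) [NormedAddCommGroup K] [InnerProductSpace ℂ K] (F : Finset G)
    (N : ℕ) : (G × G → K) →ₗ[ℂ] K :=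
  ((N : ℂ) + 1)⁻¹ • ∑ q ∈ antidiagonal N, LinearMap.proj 1 ∘ₗ (bT ℂ K F ^ q.1) ∘ₗ
    LinearMap.pi fun c => LinearMap.proj 1 ∘ₗ (bT ℂ K F ^ q.2) ∘ₗ
      LinearMap.funLeft ℂ K fun a => (a, c)

theorem bA_apply (N : ℕ) (f : G × G → K) : bA K F N f = ((N : ℂ) + 1)⁻¹ • ∑ q ∈ antidiagonal N,
    (bT ℂ K F ^ q.1) (fun c => (bT ℂ K F ^ q.2) (fun a => f (a, c)) 1) 1 := by
  rw [bA, LinearMap.smul_apply, LinearMap.sum_apply]
  rfl

theorem bA_norm (N : ℕ) {f : G × G → K} {C : ℝ}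
    (h : ∑ q ∈ antidiagonal N, ‖(bT ℂ K F ^ q.1)
      (fun c => (bT ℂ K F ^ q.2) (fun a => f (a, c)) 1) 1‖ ≤ (N + 1) * C) : ‖bA K F N f‖ ≤ C := by
  have e : ‖(N : ℂ) + 1‖ = N + 1 := by exact_mod_cast Complex.norm_natCast (N + 1)
  rw [bA_apply, norm_smul, norm_inv, e, inv_mul_le_iff₀ (by positivity)]
  exact (norm_sum_le _ _).trans h

/-- The two sided average as a mean. -/
noncomputable def bAM (K : Type*) [NormedAddCommGroup K] [InnerProductSpace ℂ K] {F : Finset G}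
    (hF : F.Nonempty) (N : ℕ) : BMean (G × G) K where
  m := bA K F N
  norm_le f C hf := bA_norm N <| by
    refine (sum_le_card_nsmul _ _ C fun q _ =>
      bT_bound hF _ (fun c => bT_bound hF _ (fun a => hf _) 1) 1).trans_eq ?_
    rw [Nat.card_antidiagonal, nsmul_eq_mul, Nat.cast_succ]
  map f _ _ T := by
    rw [bA_apply, bA_apply, map_smul, map_sum]
    refine congrArg _ (sum_congr rfl fun q _ => Eq.trans ?_ (bT_map (T : K →ₗ[ℂ] K) _ _ _))
    exact congrFun (congrArg _ (funext fun c => bT_map (T : K →ₗ[ℂ] K) _ _ _)) 1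
  const v := by
    simp only [bA_apply, bT_const hF, sum_const, Nat.card_antidiagonal]
    rw [← Nat.cast_smul_eq_nsmul ℂ, smul_smul, Nat.cast_succ,
      inv_mul_cancel₀ (Nat.cast_add_one_ne_zero N), one_smul]

theorem bA_key (h1 : 1 ∈ F) {x : G} (hx : x ∈ F) {h : G → K} {w : G → Op K} {C D : ℝ}
    (hC : ∀ g, ‖h g‖ ≤ C) (hD : ∀ g, ‖w g‖ ≤ D) {n : ℕ} (hn : 1 ≤ n) :
    ‖bA K F (n ^ 2 * F.card) (fun p => w p.2 (h (p.1 * x * p.2) - h (p.1 * p.2)))‖ ≤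
      D * (1 + 4 * C ^ 2) / n := by
  have hF : F.Nonempty := ⟨1, h1⟩
  have hn' : (0 : ℝ) < n := by exact_mod_cast hn
  have hD0 : 0 ≤ D := (norm_nonneg _).trans (hD 1)
  obtain ⟨N, hN⟩ : ∃ N, N = n ^ 2 * F.card := ⟨_, rfl⟩
  rw [← hN]
  refine bA_norm N ?_
  have k1 : ∀ (j : ℕ) (c : G),
      (bT ℂ K F ^ j) (fun a => w c (h (a * x * c) - h (a * c))) 1 =
        w c ((bT ℂ K F ^ j) h (x * c) - (bT ℂ K F ^ j) h c) := fun j c => by
    refine (bT_map (w c : K →ₗ[ℂ] K) j _ 1).trans (congrArg (w c) ?_)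
    have e := map_sub (bT ℂ K F ^ j) (fun a => h (a * (x * c))) fun a => h (a * c)
    have e' := congrFun e 1
    rw [Pi.sub_apply, bT_right, bT_right, one_mul, one_mul] at e'
    simp only [mul_assoc]
    exact e'
  have k2 : ∀ q : ℕ × ℕ, ‖(bT ℂ K F ^ q.1)
      (fun c => w c ((bT ℂ K F ^ q.2) h (x * c) - (bT ℂ K F ^ q.2) h c)) 1‖ ≤
      D / n + D * n * (bT ℝ ℝ F ^ q.1)
        (fun c => ‖(bT ℂ K F ^ q.2) h (x * c) - (bT ℂ K F ^ q.2) h c‖ ^ 2) 1 := fun q => by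
    have e := map_add (bT ℝ ℝ F ^ q.1) (fun _ => D / n) ((D * n) •
      fun c => ‖(bT ℂ K F ^ q.2) h (x * c) - (bT ℂ K F ^ q.2) h c‖ ^ 2)
    have e' := congrFun e 1
    rw [map_smul, Pi.add_apply, bT_const hF] at e'
    refine (bT_norm _ (fun c => ?_) 1).trans_eq e'
    refine ((w c).le_of_opNorm_le (hD c) _).trans ?_
    change _ ≤ D / n + D * n * ‖_‖ ^ 2
    generalize ‖(bT ℂ K F ^ q.2) h (x * c) - (bT ℂ K F ^ q.2) h c‖ = t
    have e2 : D / n + D * n * t ^ 2 - D * t = D / n * ((n * t - 1 / 2) ^ 2 + 3 / 4) := by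
      field_simp
      ring
    have e3 : 0 ≤ D / n * ((n * t - 1 / 2) ^ 2 + 3 / 4) := by positivity
    linarith
  have k3 := bT_chain h1 hx N h
  have k4 : (bT ℝ ℝ F ^ (N + 1)) (fun a => ‖h a‖ ^ 2) 1 ≤ C ^ 2 :=
    (bT_mono _ (fun a => pow_le_pow_left₀ (norm_nonneg _) (hC a) 2) 1).trans_eq
      (bT_const hF _ _ _)
  have k5 : (4 : ℝ) * F.card * ((bT ℝ ℝ F ^ (N + 1)) (fun a => ‖h a‖ ^ 2) 1 -
      ‖(bT ℂ K F ^ (N + 1)) h 1‖ ^ 2) ≤ 4 * F.card * C ^ 2 :=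
    mul_le_mul_of_nonneg_left (by linarith [sq_nonneg ‖(bT ℂ K F ^ (N + 1)) h 1‖]) (by positivity)
  simp only [k1]
  refine (sum_le_sum fun q _ => k2 q).trans ?_
  rw [sum_add_distrib, ← mul_sum, sum_const, Nat.card_antidiagonal, nsmul_eq_mul, Nat.cast_succ]
  have k6 := mul_le_mul_of_nonneg_left (k3.trans k5) (show 0 ≤ D * n by positivity)
  have k7 : D * n * (4 * F.card * C ^ 2) = N * (D * (4 * C ^ 2) / n) := by
    rw [hN]
    push_cast
    field_simp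
  have k8 : 0 ≤ D * (4 * C ^ 2) / n := by positivity
  have k9 : D * (1 + 4 * C ^ 2) / n = D / n + D * (4 * C ^ 2) / n := by ring
  rw [k9]
  linarith

/-- The exchange property. -/
def BKey (m : BMean (G × G) K) : Prop :=
  ∀ (x : G) (h : G → K) (w : G → Op K) (C D : ℝ), (∀ g, ‖h g‖ ≤ C) → (∀ g, ‖w g‖ ≤ D) →
    m.m (fun p => w p.2 (h (p.1 * x * p.2) - h (p.1 * p.2))) = 0

theorem exists_bkey (G K : Type*) [Group G] [NormedAddCommGroup K] [InnerProductSpace ℂ K]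
    [CompleteSpace K] : ∃ m : BMean (G × G) K, BKey m := by
  classical
  obtain ⟨m, hm⟩ := BMean.exists_lim (atTop : Filter (Finset G × ℕ))
    fun j => bAM K (insert_nonempty 1 j.1) (j.2 ^ 2 * (insert 1 j.1).card)
  refine ⟨m, fun x h w C D hC hD => norm_le_zero_iff.1 ?_⟩
  have hD0 : 0 ≤ D := (norm_nonneg _).trans (hD 1)
  refine ge_of_tendsto (tendsto_const_div_atTop_nhds_zero_nat (D * (1 + 4 * C ^ 2))) ?_
  filter_upwards [eventually_ge_atTop 1] with n hn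
  refine hm _ (D * (C + C)) _
    (fun p => (w p.2).le_of_opNorm_le_of_le (hD _) (norm_sub_le_of_le (hC _) (hC _))) ?_
  filter_upwards [eventually_ge_atTop (({x}, n) : Finset G × ℕ)] with j hj
  refine (bA_key (mem_insert_self _ _) (mem_insert_of_mem (hj.1 (mem_singleton_self x))) hC hD
    (hn.trans hj.2)).trans ?_
  exact div_le_div_of_nonneg_left (by positivity) (by exact_mod_cast hn) (by exact_mod_cast hj.2)

end Vale.Agent.P096
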