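import Vale.Agent.P096.Basic

/-! P096 part B: vector valued means and their weak limits. -/

namespace Vale.Agent.P096

open Vale.Agent.P104 Vale.Agent.P132 Filter Topology
open scoped InnerProductSpace

/-- A mean on the bounded functions with values in `K` (extended linearly to all functions). -/
structure BMean (I K : Type*) [NormedAddCommGroup K] [InnerProductSpace ℂ K] where
  m : (I → K) →ₗ[ℂ] K
  norm_le : ∀ (f : I → K) (C : ℝ), (∀ p, ‖f p‖ ≤ C) → ‖m f‖ ≤ C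
  map : ∀ (f : I → K) (C : ℝ), (∀ p, ‖f p‖ ≤ C) → ∀ T : Op K, m (fun p => T (f p)) = T (m f)
  const : ∀ v, m (fun _ => v) = v

variable {I J K : Type*} [NormedAddCommGroup K] [InnerProductSpace ℂ K]

/-- Evaluation at a point. -/
def BMean.eval (K : Type*) [NormedAddCommGroup K] [InnerProductSpace ℂ K] (p : I) : BMean I K where
  m := LinearMap.proj p
  norm_le _ _ h := h p
  map _ _ _ _ := rfl
  const _ := rfl

theorem BMean.sub (m : BMean I K) (f g : I → K) : m.m (fun p => f p - g p) = m.m f - m.m g :=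
  map_sub m.m f g

/-- The bounded functions. -/
def bmeanB (I K : Type*) [NormedAddCommGroup K] [InnerProductSpace ℂ K] : Submodule ℂ (I → K) where
  carrier := {f | ∃ C, ∀ p, ‖f p‖ ≤ C}
  zero_mem' := ⟨0, fun _ => norm_zero.le⟩
  add_mem' := by
    rintro f g ⟨C, hf⟩ ⟨D, hg⟩
    exact ⟨C + D, fun p => norm_add_le_of_le (hf p) (hg p)⟩
  smul_mem' := by
    rintro c f ⟨C, hf⟩
    exact ⟨‖c‖ * C, fun p => (norm_smul c (f p)).trans_le
      (mul_le_mul_of_nonneg_left (hf p) (norm_nonneg c))⟩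

variable [CompleteSpace K]

theorem BMean.exists_lim (l : Filter J) [l.NeBot] (A : J → BMean I K) :
    ∃ m : BMean I K, ∀ (f : I → K) (C D : ℝ), (∀ p, ‖f p‖ ≤ C) →
      (∀ᶠ j in l, ‖(A j).m f‖ ≤ D) → ‖m.m f‖ ≤ D := by
  have h0 : ∀ f : bmeanB I K, ∃ w : K, ∀ η, Tendsto (fun j => ⟪η, (A j).m f⟫_ℂ) (Ultrafilter.of l)
      (𝓝 ⟪η, w⟫_ℂ) := by
    rintro ⟨f, C, hf⟩
    obtain ⟨w, -, hw⟩ := exists_weak (Ultrafilter.of l) (fun j => (A j).m f)
      (Eventually.of_forall fun j => (A j).norm_le f C hf)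
    exact ⟨w, hw⟩
  choose w hw using h0
  let w' : bmeanB I K →ₗ[ℂ] K :=
    { toFun := w
      map_add' := fun f g => ext_inner_left ℂ fun η => by
        refine tendsto_nhds_unique (hw (f + g) η) ?_
        simpa only [Submodule.coe_add, map_add, inner_add_right] using (hw f η).add (hw g η)
      map_smul' := fun c f => ext_inner_left ℂ fun η => by
        refine tendsto_nhds_unique (hw (c • f) η) ?_
        simpa only [Submodule.coe_smul, map_smul, inner_smul_right, RingHom.id_apply] using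
          (hw f η).const_mul c }
  obtain ⟨m, hm⟩ := LinearMap.exists_extend w'
  have h1 : ∀ (f : I → K) (C : ℝ), (∀ p, ‖f p‖ ≤ C) → ∀ η,
      Tendsto (fun j => ⟪η, (A j).m f⟫_ℂ) (Ultrafilter.of l) (𝓝 ⟪η, m f⟫_ℂ) := fun f C hf η => by
    have e : m f = w ⟨f, C, hf⟩ := LinearMap.congr_fun hm ⟨f, C, hf⟩
    rw [e]
    exact hw ⟨f, C, hf⟩ η
  have h2 : ∀ (f : I → K) (C D : ℝ), (∀ p, ‖f p‖ ≤ C) →
      (∀ᶠ j in l, ‖(A j).m f‖ ≤ D) → ‖m f‖ ≤ D := fun f C D hf hD => by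
    obtain ⟨v, hv, hv'⟩ := exists_weak (Ultrafilter.of l) (fun j => (A j).m f)
      (hD.filter_mono (Ultrafilter.of_le l))
    rwa [ext_inner_left ℂ fun η => tendsto_nhds_unique (h1 f C hf η) (hv' η)]
  refine ⟨⟨m, fun f C hf => h2 f C C hf (Eventually.of_forall fun j => (A j).norm_le f C hf),
    fun f C hf T => ext_inner_left ℂ fun η => ?_, fun v => ext_inner_left ℂ fun η => ?_⟩, h2⟩
  · refine tendsto_nhds_unique (h1 _ (‖T‖ * C) (fun p => T.le_of_opNorm_le_of_le le_rfl (hf p)) η) ?_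
    simpa only [(A _).map f C hf T, inner_star_left] using h1 f C hf (star T η)
  · refine tendsto_nhds_unique (h1 _ ‖v‖ (fun _ => le_rfl) η) ?_
    simpa only [(A _).const] using tendsto_const_nhds

theorem BMean.exists_op (m : BMean I K) (F : I → Op K) {C : ℝ} (hC : 0 ≤ C) (hF : ∀ p, ‖F p‖ ≤ C) :
    ∃ T : Op K, ‖T‖ ≤ C ∧ (∀ ξ, T ξ = m.m fun p => F p ξ) ∧
      ∀ M : VonNeumannAlgebra K, (∀ p, F p ∈ M) → T ∈ M := by
  have hb : ∀ ξ p, ‖F p ξ‖ ≤ C * ‖ξ‖ := fun ξ p => (F p).le_of_opNorm_le (hF p) ξ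
  let T₀ : K →ₗ[ℂ] K := m.m ∘ₗ LinearMap.pi fun p => (F p : K →ₗ[ℂ] K)
  have h0 : ∀ ξ, ‖T₀ ξ‖ ≤ C * ‖ξ‖ := fun ξ => m.norm_le _ _ (hb ξ)
  refine ⟨T₀.mkContinuous C h0, T₀.mkContinuous_norm_le hC h0, fun _ => rfl, fun M hM => ?_⟩
  refine (mem_iff_comm M).2 fun s hs => ContinuousLinearMap.ext fun ξ => ?_
  refine (m.map _ _ (hb ξ) s).symm.trans (congrArg m.m (funext fun p => ?_))
  exact congrArg (fun T : Op K => T ξ) (comm_of_mem hs (hM p))

end Vale.Agent.P096
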