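import Vale.Agent.P096.BChain

/-! P096 part B: the averaging step and the limit, for an abstract algebra of pairs. -/

namespace Vale.Agent.P096

open Vale.Agent.P104 Vale.Agent.P132 Filter Topology Finset
open scoped InnerProductSpace

/-- An algebra which acts on `K` from both sides, the actions agree on a separating vector. -/
structure BBi (R K : Type*) [NormedRing R] [NormedAlgebra ℂ R] [NormedAddCommGroup K]
    [InnerProductSpace ℂ K] where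
  L : R →ₐ[ℂ] Op K
  R' : R → Op K
  Ω : K
  nL : ∀ a, ‖L a‖ ≤ ‖a‖
  nR : ∀ a, ‖R' a‖ ≤ ‖a‖
  comm : ∀ a b, L a * R' b = R' b * L a
  eq : ∀ a, L a Ω = R' a Ω
  inj : ∀ a, L a Ω = 0 → a = 0
  one : ‖(1 : R)‖ ≤ 1
  nΩ : ‖Ω‖ ≤ 1

variable {R K : Type*} [NormedRing R] [NormedAlgebra ℂ R] [NormedAddCommGroup K]
  [InnerProductSpace ℂ K]

/-- Means of bounded families exist in the algebra. -/
def BBi.Cl (B : BBi R K) (I : Type*) : Prop :=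
  ∀ (m : BMean I K) (f : I → R) (C : ℝ), 0 ≤ C → (∀ p, ‖f p‖ ≤ C) →
    ∃ r, ‖r‖ ≤ C ∧ B.L r B.Ω = m.m fun p => B.L (f p) B.Ω

section Ring

omit [NormedAlgebra ℂ R] in
theorem bstep_mul {a b : R} {s t : ℝ} (ha : ‖a‖ ≤ s) (hb : ‖b‖ ≤ t) : ‖a * b‖ ≤ s * t :=
  (norm_mul_le a b).trans (mul_le_mul ha hb (norm_nonneg b) ((norm_nonneg a).trans ha))

omit [NormedAlgebra ℂ R] in
theorem bstep_inv [CompleteSpace R] (h1 : ‖(1 : R)‖ ≤ 1) {b : R} (hb : ‖b - 1‖ ≤ 1 / 2) :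
    ∃ c : R, b * c = 1 ∧ ‖c‖ ≤ 2 := by
  rw [norm_sub_rev] at hb
  obtain ⟨c, hc⟩ : ∃ c : R, b * c = 1 := by
    have h0 : ‖1 - b‖ < 1 := by linarith
    have h2 := (Units.oneSub (1 - b) h0).mul_inv
    rw [Units.val_oneSub, sub_sub_cancel] at h2
    exact ⟨_, h2⟩
  refine ⟨c, hc, ?_⟩
  have h2 : ‖c‖ ≤ 1 + 1 / 2 * ‖c‖ := by
    calc ‖c‖ = ‖1 + (1 - b) * c‖ := by rw [sub_mul, hc, one_mul, add_sub_cancel]
      _ ≤ _ := norm_add_le_of_le h1 (bstep_mul hb le_rfl)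
  linarith

variable {G : Type*} [Group G] {Y : G → R} {δ : ℝ}

omit [NormedAlgebra ℂ R] in
theorem bstep_D2 (hm : ∀ u v, ‖Y (u * v) - Y u * Y v‖ ≤ δ) (a c : G) :
    ‖Y a⁻¹ - Y c * Y (a * c)⁻¹‖ ≤ δ := by
  simpa using hm c (a * c)⁻¹

omit [NormedAlgebra ℂ R] in
theorem bstep_D1 (hY : ∀ u, ‖Y u‖ ≤ 2) (hm : ∀ u v, ‖Y (u * v) - Y u * Y v‖ ≤ δ) (a x c : G) :
    ‖Y a⁻¹ - Y x * (Y c * Y (a * x * c)⁻¹)‖ ≤ 3 * δ := by
  have h1 := norm_add_le_of_le (bstep_D2 hm a x) (bstep_mul (hY x) (bstep_D2 hm (a * x) c))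
  rw [mul_sub, sub_add_sub_cancel] at h1
  linarith

omit [NormedAlgebra ℂ R] in
theorem bstep_E3 (hY : ∀ u, ‖Y u‖ ≤ 2) (hm : ∀ u v, ‖Y (u * v) - Y u * Y v‖ ≤ δ)
    (h1 : ‖Y 1 - 1‖ ≤ δ) {φ : G → R} (hφ : ∀ u, ‖φ u - Y u‖ ≤ 60 * δ) (a c : G) :
    ‖Y a⁻¹ * φ (a * c) * Y c⁻¹ - 1‖ ≤ 244 * δ := by
  have k1 := bstep_mul (bstep_mul (hY a⁻¹) (hφ (a * c))) (hY c⁻¹)
  have k2 := bstep_mul (hm a⁻¹ (a * c)) (hY c⁻¹)
  have k3 := hm c c⁻¹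
  rw [inv_mul_cancel_left] at k2
  rw [mul_inv_cancel] at k3
  have k4 := norm_add_le_of_le (norm_sub_le_of_le (norm_sub_le_of_le k1 k2) k3) h1
  have e : Y a⁻¹ * (φ (a * c) - Y (a * c)) * Y c⁻¹ - (Y c - Y a⁻¹ * Y (a * c)) * Y c⁻¹ -
      (Y 1 - Y c * Y c⁻¹) + (Y 1 - 1) = Y a⁻¹ * φ (a * c) * Y c⁻¹ - 1 := by noncomm_ring
  rw [e] at k4
  linarith

end Ring

namespace BBi

variable (B : BBi R K)

theorem L_le {a : R} {v : K} {s t : ℝ} (ha : ‖a‖ ≤ s) (hv : ‖v‖ ≤ t) : ‖B.L a v‖ ≤ s * t :=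
  (B.L a).le_of_opNorm_le_of_le ((B.nL a).trans ha) hv

theorem R_le {a : R} {v : K} {s t : ℝ} (ha : ‖a‖ ≤ s) (hv : ‖v‖ ≤ t) : ‖B.R' a v‖ ≤ s * t :=
  (B.R' a).le_of_opNorm_le_of_le ((B.nR a).trans ha) hv

theorem j_le {a : R} {s : ℝ} (ha : ‖a‖ ≤ s) : ‖B.L a B.Ω‖ ≤ s := by
  simpa using B.L_le ha B.nΩ

theorem L_R (a b : R) (v : K) : B.L a (B.R' b v) = B.R' b (B.L a v) :=
  congrArg (fun T : Op K => T v) (B.comm a b)

theorem L_L (a b : R) (v : K) : B.L (a * b) v = B.L a (B.L b v) := by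
  rw [map_mul]; rfl

theorem R_j (a b : R) : B.R' b (B.L a B.Ω) = B.L (a * b) B.Ω := by
  rw [← B.L_R, ← B.eq, B.L_L]

theorem ext_j {a b : R} (h : B.L a B.Ω = B.L b B.Ω) : a = b :=
  sub_eq_zero.1 (B.inj _ (by rw [map_sub, sub_apply, h, sub_self]))

variable {G : Type*} [Group G] {Y : G → R} {δ : ℝ} {m : BMean (G × G) K}

/-- The two sided average of a vector valued function. -/
noncomputable def av (m : BMean (G × G) K) (Y : G → R) (e : G → K) (x : G) : K :=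
  m.m fun p => B.L (Y p.1⁻¹) (B.R' (Y p.2⁻¹) (e (p.1 * x * p.2)))

theorem av_le (hY : ∀ u, ‖Y u‖ ≤ 2) {e : G → K} {θ : ℝ} (he : ∀ u, ‖e u‖ ≤ θ) (x : G) :
    ‖B.av m Y e x‖ ≤ 2 * (2 * θ) :=
  m.norm_le _ _ fun _ => B.L_le (hY _) (B.R_le (hY _) (he _))

theorem av_id (hk : BKey m) (hY : ∀ u, ‖Y u‖ ≤ 2) {e : G → K} {θ : ℝ} (he : ∀ u, ‖e u‖ ≤ θ)
    (x : G) : B.av m Y e x - B.L (Y x) (B.av m Y e 1) = m.m fun p => B.R' (Y p.2⁻¹)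
      (B.L (Y p.1⁻¹ - Y x * (Y p.2 * Y (p.1 * x * p.2)⁻¹)) (e (p.1 * x * p.2)) -
        B.L (Y x * (Y p.1⁻¹ - Y p.2 * Y (p.1 * p.2)⁻¹)) (e (p.1 * p.2))) := by
  have h1 := hk x (fun z => B.L (Y z⁻¹) (e z)) (fun c => B.R' (Y c⁻¹) * B.L (Y x * Y c)) _ _
    (fun z => B.L_le (hY _) (he z))
    fun c => bstep_mul ((B.nR _).trans (hY _)) ((B.nL _).trans (bstep_mul (hY x) (hY c)))
  rw [av, av, ← m.map _ _ (fun _ => B.L_le (hY _) (B.R_le (hY _) (he _))), ← m.sub,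
    ← sub_zero (m.m _), ← h1, ← m.sub]
  refine congrArg m.m (funext fun p => ?_)
  simp only [mul_one, B.L_R, mul_apply_eq_comp, map_sub, sub_apply, B.L_L, mul_sub]
  abel

variable {P : Type*} [CStarAlgebra P] {ρ : P →ₗ[ℂ] Op K} {Y : unitary P → R}

/-- The state of the iteration. -/
def St (Y : unitary P → R) (δ θ : ℝ) : Prop :=
  ∃ (l : P →ₗ[ℂ] K) (φ : unitary P → R), (∀ u, ‖φ u - Y u‖ ≤ 60 * δ) ∧
    ∀ u : unitary P, ‖l u - B.L (φ u) B.Ω‖ ≤ θ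

theorem step [CompleteSpace K] [CompleteSpace R] (hcl : B.Cl (unitary P × unitary P))
    (hδ : δ ≤ 1 / 500) (hY : ∀ u, ‖Y u‖ ≤ 2) (hm : ∀ u v, ‖Y (u * v) - Y u * Y v‖ ≤ δ)
    (h1 : ‖Y 1 - 1‖ ≤ δ) (hρ : ∀ u : unitary P, ‖ρ u - B.L (Y u)‖ ≤ δ) {θ : ℝ}
    (h : B.St Y δ θ) : B.St Y δ (θ / 2) := by
  obtain ⟨l, φ, hφ, hl⟩ := h
  obtain ⟨m, hk⟩ := exists_bkey (unitary P) K
  have hδ0 : 0 ≤ δ := (norm_nonneg _).trans h1
  have hθ : 0 ≤ θ := (norm_nonneg _).trans (hl 1)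
  have hφ3 : ∀ u, ‖φ u‖ ≤ 3 := fun u => by
    have := norm_add_le_of_le (hφ u) (hY u)
    rw [sub_add_cancel] at this
    linarith
  choose ψ _ hψ using fun x : unitary P => hcl m
    (fun p => Y p.1⁻¹ * φ (p.1 * x * p.2) * Y p.2⁻¹) _ (by norm_num)
    fun p => bstep_mul (bstep_mul (hY _) (hφ3 _)) (hY _)
  have hψ' : ∀ x, B.L (ψ x) B.Ω = B.av m Y (fun u => B.L (φ u) B.Ω) x := fun x => by
    rw [hψ, av]
    simp only [← B.L_L, B.R_j, mul_assoc]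
  have k1 : ∀ x, ‖ψ x - Y x * ψ 1‖ ≤ 30 * δ := fun x => by
    obtain ⟨r, hr, hr'⟩ := hcl m (fun p =>
      ((Y p.1⁻¹ - Y x * (Y p.2 * Y (p.1 * x * p.2)⁻¹)) * φ (p.1 * x * p.2) -
        Y x * (Y p.1⁻¹ - Y p.2 * Y (p.1 * p.2)⁻¹) * φ (p.1 * p.2)) * Y p.2⁻¹) _ (by positivity)
      fun p => bstep_mul (norm_sub_le_of_le (bstep_mul (bstep_D1 hY hm _ _ _) (hφ3 _))
        (bstep_mul (bstep_mul (hY x) (bstep_D2 hm _ _)) (hφ3 _))) (hY _)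
    have e : ψ x - Y x * ψ 1 = r := B.ext_j <| by
      rw [map_sub, sub_apply, B.L_L, hψ', hψ', B.av_id hk hY fun u => B.j_le (hφ3 u), hr']
      simp only [← B.L_L, ← B.R_j, map_sub B.L (_ * φ _), sub_apply]
    rw [e]
    linarith
  have k2 : ‖ψ 1 - 1‖ ≤ 244 * δ := by
    obtain ⟨r, hr, hr'⟩ := hcl m (fun p => Y p.1⁻¹ * φ (p.1 * p.2) * Y p.2⁻¹ - 1) _
      (by positivity) fun p => bstep_E3 hY hm h1 hφ _ _
    have e : ψ 1 - 1 = r := B.ext_j <| by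
      rw [hr', map_sub, sub_apply, hψ, ← m.const (B.L 1 B.Ω), ← m.sub]
      simp only [mul_one, map_sub, sub_apply]
    rwa [e]
  obtain ⟨c, hc, hc2⟩ := bstep_inv B.one (k2.trans (by linarith))
  let lb : P →ₗ[ℂ] K := m.m ∘ₗ LinearMap.pi fun p : unitary P × unitary P =>
    (B.L (Y p.1⁻¹) : K →ₗ[ℂ] K) ∘ₗ (B.R' (Y p.2⁻¹) : K →ₗ[ℂ] K) ∘ₗ l ∘ₗ
      LinearMap.mulRight ℂ (p.2 : P) ∘ₗ LinearMap.mulLeft ℂ (p.1 : P)
  obtain ⟨e, he⟩ : ∃ e : unitary P → K, e = B.av m Y fun u => l u - B.L (φ u) B.Ω := ⟨_, rfl⟩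
  have k3 : ∀ x : unitary P, lb x - B.L (ψ x) B.Ω = e x := fun x => by
    rw [hψ', he, av, av]
    simp only [map_sub, m.sub]
    rfl
  have k4 : ‖e 1‖ ≤ 2 * (2 * θ) := he ▸ B.av_le hY hl 1
  have k5 : ∀ x, ‖e x - B.L (Y x) (e 1)‖ ≤ 2 * (3 * δ * θ + 2 * δ * θ) := fun x => by
    rw [he, B.av_id hk hY hl]
    exact m.norm_le _ _ fun p => B.R_le (hY _) (norm_sub_le_of_le
      (B.L_le (bstep_D1 hY hm _ _ _) (hl _)) (B.L_le (bstep_mul (hY x) (bstep_D2 hm _ _)) (hl _)))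
  refine ⟨(B.R' c : K →ₗ[ℂ] K) ∘ₗ (lb - (ContinuousLinearMap.apply ℂ K (e 1)).toLinearMap ∘ₗ ρ),
    fun u => ψ u * c, fun u => ?_, fun u => ?_⟩
  · have k6 := bstep_mul (k1 u) hc2
    rw [sub_mul, mul_assoc, hc, mul_one] at k6
    linarith
  · change ‖B.R' c (lb u - ρ u (e 1)) - B.L (ψ u * c) B.Ω‖ ≤ _
    have k6 := B.R_le hc2 (norm_sub_le_of_le (k5 u)
      ((ρ u - B.L (Y u)).le_of_opNorm_le_of_le (hρ u) k4))
    rw [sub_apply, sub_sub_sub_cancel_right, ← k3 u] at k6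
    rw [← B.R_j, ← map_sub, sub_right_comm]
    nlinarith

theorem final [CompleteSpace K] [CompleteSpace R] (hcl : B.Cl (unitary P × unitary P))
    (hcl' : B.Cl ℕ) (hδ : δ ≤ 1 / 500) (hY : ∀ u, ‖Y u‖ ≤ 2)
    (hm : ∀ u v, ‖Y (u * v) - Y u * Y v‖ ≤ δ) (h1 : ‖Y 1 - 1‖ ≤ δ)
    (hρ : ∀ u : unitary P, ‖ρ u - B.L (Y u)‖ ≤ δ) :
    ∃ Φ : P →ₗ[ℂ] R, ∀ x, ‖B.L (Φ x) - ρ x‖ ≤ 122 * δ * ‖x‖ := by
  have hδ0 : 0 ≤ δ := (norm_nonneg _).trans h1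
  have h0 : ∀ k : ℕ, B.St Y δ (δ / 2 ^ k) := fun k => by
    induction k with
    | zero =>
      refine ⟨(ContinuousLinearMap.apply ℂ K B.Ω).toLinearMap ∘ₗ ρ, Y, fun u => ?_, fun u => ?_⟩
      · rw [sub_self, norm_zero]; positivity
      · simpa using (ρ u - B.L (Y u)).le_of_opNorm_le_of_le (hρ u) B.nΩ
    | succ k ih =>
      rw [pow_succ, ← div_div]
      exact B.step hcl hδ hY hm h1 hρ ih
  choose l φ hφ hl using h0
  obtain ⟨m, hm'⟩ := BMean.exists_lim (atTop : Filter ℕ) (BMean.eval K)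
  let li : P →ₗ[ℂ] K := m.m ∘ₗ LinearMap.pi l
  have k1 : ∀ u : unitary P, ∃ r, ‖B.L r - ρ u‖ ≤ 61 * δ ∧ B.L r B.Ω = li u := fun u => by
    obtain ⟨r, hr, hr'⟩ := hcl' m (fun k => φ k u - Y u) _ (by positivity) fun k => hφ k u
    refine ⟨r + Y u, ?_, ?_⟩
    · have k2 := norm_sub_le_of_le ((B.nL r).trans hr) (hρ u)
      rw [map_add, add_sub_assoc, ← neg_sub, ← sub_eq_add_neg]
      linarith
    · have k2 : ‖m.m fun k => l k u - B.L (φ k u) B.Ω‖ ≤ 0 := by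
        refine ge_of_tendsto ((tendsto_pow_atTop_atTop_of_one_lt one_lt_two).const_div_atTop δ)
          (Eventually.of_forall fun n => hm' _ δ _ (fun k => (hl k u).trans ?_) ?_)
        · exact div_le_self hδ0 (one_le_pow₀ one_le_two)
        · filter_upwards [eventually_ge_atTop n] with k hk
          exact (hl k u).trans
            (div_le_div_of_nonneg_left hδ0 (by positivity) (pow_le_pow_right₀ one_le_two hk))
      rw [norm_le_zero_iff, m.sub, sub_eq_zero] at k2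
      rw [map_add, add_apply, hr']
      simp only [map_sub, sub_apply, m.sub, m.const, sub_add_cancel]
      exact k2.symm
  choose r hr hr' using k1
  have k2 : ∀ x : P, ∃ s, ‖B.L s - ρ x‖ ≤ 122 * δ * ‖x‖ ∧ B.L s B.Ω = li x := fun x => by
    obtain ⟨u, c, hx, hc⟩ := CStarAlgebra.exists_sum_four_unitary x
    refine ⟨∑ i, c i • r (u i), ?_, ?_⟩
    · have e : B.L (∑ i, c i • r (u i)) - ρ x = ∑ i, c i • (B.L (r (u i)) - ρ (u i)) := by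
        conv_lhs => rw [hx]
        simp only [map_sum, map_smul, smul_sub, sum_sub_distrib]
      rw [e]
      refine (norm_sum_le_of_le _ fun i _ => (norm_smul _ _).trans_le
        (mul_le_mul (hc i) (hr (u i)) (norm_nonneg _) (by positivity))).trans_eq ?_
      rw [sum_const, card_univ, Fintype.card_fin, nsmul_eq_mul]
      push_cast
      ring
    · conv_rhs => rw [hx]
      simp only [map_sum, map_smul, _root_.sum_apply, smul_apply, hr']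
  choose Φ hΦ hΦ' using k2
  refine ⟨⟨⟨Φ, fun x y => B.ext_j ?_⟩, fun c x => B.ext_j ?_⟩, hΦ⟩
  · simp only [map_add, add_apply, hΦ']
  · simp only [map_smul, smul_apply, hΦ', RingHom.id_apply]

end BBi

end Vale.Agent.P096
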