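import Vale.Agent.P096.Defs
import Vale.Agent.P104.Dist
import Vale.Agent.P132.L2

/-!
# P096: common tools (near inclusions, weak limits)
* `near_of_comm`: split `T` in real and imaginary part (`[T*, y] = -[T, y*]*`), scale by `c` (case `c = 0`: `T` itself is in the commutant), `hyperreflexive`.
* `NI.comm_le`: `[x, s] = [x - y, s]`. `NI.commutant`: `near_of_comm` with `c = 2 δ ‖s‖`.
* `mem_alg_commutant`: `Y` commutes with the `A.E a b`, so `Y = amp (entry a₀ a₀)`; the entry commutes with `M` because `Y` commutes with `amp x`.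
* `Cl.amp`: `amp s` is near `amp s₁`, so `X` almost commutes with the commutant of `A.alg N`; `near_of_comm` and `commutant_commutant`.
* weak limits: `W l G L` says `G i → L` in the weak operator topology.
-/

namespace Vale.Agent.P096

open Vale.Agent.P104 Vale.Agent.P132 Filter Topology
open scoped InnerProductSpace

variable {H : Type*} [NormedAddCommGroup H] [InnerProductSpace ℂ H] [CompleteSpace H]
  {M N : VonNeumannAlgebra H} {δ : ℝ}

theorem near_of_comm_sa {T : Op H} (hT : IsSelfAdjoint T) {c : ℝ} (hc : 0 ≤ c)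
    (h : ∀ y ∈ M, ‖T * y - y * T‖ ≤ c * ‖y‖) :
    ∃ b ∈ M.commutant, IsSelfAdjoint b ∧ ‖T - b‖ ≤ 40 * c := by
  rcases hc.eq_or_lt with rfl | hc
  · refine ⟨T, VonNeumannAlgebra.mem_commutant_iff.2 fun y hy => ?_, hT, by simp⟩
    exact (sub_eq_zero.1 (norm_le_zero_iff.1 (by simpa using h y hy))).symm
  obtain ⟨b, hb, hs, h1⟩ := hyperreflexive (M := M) (T := c⁻¹ • T)
    ⟨(IsSelfAdjoint.all c⁻¹).smul hT, fun y hy => by
      rw [smul_mul_assoc, mul_smul_comm, ← smul_sub, norm_smul, norm_inv,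
        Real.norm_of_nonneg hc.le, inv_mul_le_iff₀ hc]
      exact h y hy⟩
  refine ⟨c • b, vn_rsmul_mem _ hb, (IsSelfAdjoint.all c).smul hs, ?_⟩
  rw [show T - c • b = c • (c⁻¹ • T - b) by rw [smul_sub, smul_inv_smul₀ hc.ne'], norm_smul,
    Real.norm_of_nonneg hc.le, mul_comm]
  exact mul_le_mul_of_nonneg_right h1 hc.le

theorem near_of_comm {T : Op H} {c : ℝ} (hc : 0 ≤ c) (h : ∀ y ∈ M, ‖T * y - y * T‖ ≤ c * ‖y‖) :
    ∃ b ∈ M.commutant, ‖T - b‖ ≤ 80 * c := by
  have h' : ∀ y ∈ M, ‖star T * y - y * star T‖ ≤ c * ‖y‖ := fun y hy => by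
    have := h _ (star_mem hy)
    rw [← norm_star, star_sub, star_mul, star_mul, star_star, norm_sub_rev, norm_star] at this
    exact this
  have key : ∀ (a : Op H) (s t : ℂ), IsSelfAdjoint a → a = s • T + t • star T →
      ‖s‖ = 2⁻¹ → ‖t‖ = 2⁻¹ → ∃ b ∈ M.commutant, ‖a - b‖ ≤ 40 * c := fun a s t ha e hs ht => by
    obtain ⟨b, hb, -, h1⟩ := near_of_comm_sa (M := M) ha hc fun y hy => by
      have e1 : a * y - y * a = s • (T * y - y * T) + t • (star T * y - y * star T) := by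
        simp only [e, add_mul, mul_add, smul_mul_assoc, mul_smul_comm, smul_sub]
        abel
      rw [e1]
      refine (norm_add_le _ _).trans ?_
      rw [norm_smul, norm_smul, hs, ht]
      linarith [h y hy, h' y hy]
    exact ⟨b, hb, h1⟩
  obtain ⟨b, hb, h1⟩ := key _ 2⁻¹ 2⁻¹ (by simp [IsSelfAdjoint, add_comm]) rfl (by simp) (by simp)
  obtain ⟨b', hb', h2⟩ := key _ (-(Complex.I * 2⁻¹)) (Complex.I * 2⁻¹)
    (by simp [IsSelfAdjoint, add_comm]) rfl (by simp) (by simp)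
  refine ⟨b + Complex.I • b', add_mem hb (SMulMemClass.smul_mem _ hb'), ?_⟩
  have e : T - (b + Complex.I • b') = ((2⁻¹ : ℂ) • T + (2⁻¹ : ℂ) • star T - b) + Complex.I •
      (-(Complex.I * 2⁻¹) • T + (Complex.I * 2⁻¹) • star T - b') := by
    simp only [smul_sub, smul_add, smul_smul, mul_neg, ← mul_assoc, Complex.I_mul_I]
    module
  rw [e]
  refine (norm_add_le _ _).trans ?_
  rw [norm_smul, Complex.norm_I]
  linarith

/-- the version for the algebra itself -/
theorem near_of_comm' {T : Op H} {c : ℝ} (hc : 0 ≤ c)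
    (h : ∀ y ∈ M.commutant, ‖T * y - y * T‖ ≤ c * ‖y‖) : ∃ b ∈ M, ‖T - b‖ ≤ 80 * c := by
  simpa using near_of_comm hc h

theorem NI.mono (h : NI M N δ) {δ' : ℝ} (hδ : δ ≤ δ') : NI M N δ' := by
  intro x hx
  obtain ⟨y, hy, h1⟩ := h x hx
  exact ⟨y, hy, h1.trans (mul_le_mul_of_nonneg_right hδ (norm_nonneg x))⟩

/-- selfadjoint elements have selfadjoint approximants -/
theorem NI.sa (h : NI M N δ) {x : Op H} (hx : x ∈ M) (hs : IsSelfAdjoint x) :
    ∃ y ∈ N, IsSelfAdjoint y ∧ ‖x - y‖ ≤ δ * ‖x‖ := by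
  obtain ⟨y, hy, h1⟩ := h x hx
  refine ⟨(2⁻¹ : ℝ) • (y + star y), vn_rsmul_mem _ (add_mem hy (star_mem hy)),
    (IsSelfAdjoint.all _).smul (IsSelfAdjoint.add_star_self y), ?_⟩
  have e : x - (2⁻¹ : ℝ) • (y + star y) = (2⁻¹ : ℝ) • ((x - y) + star (x - y)) := by
    rw [star_sub, hs.star_eq]
    module
  have h2 := norm_add_le (x - y) (star (x - y))
  rw [norm_star] at h2
  rw [e, norm_smul, norm_inv, Real.norm_two]
  linarith

theorem NI.comm_le (h : NI M N δ) {x s : Op H} (hx : x ∈ M) (hs : s ∈ N.commutant) :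
    ‖x * s - s * x‖ ≤ 2 * δ * ‖x‖ * ‖s‖ := by
  obtain ⟨y, hy, h1⟩ := h x hx
  have e : x * s - s * x = (x - y) * s - s * (x - y) := by
    rw [sub_mul, mul_sub, comm_of_mem hs hy]
    abel
  have h2 := norm_sub_le ((x - y) * s) (s * (x - y))
  have h3 := norm_mul_le (x - y) s
  have h4 := norm_mul_le s (x - y)
  have h5 := mul_le_mul_of_nonneg_right h1 (norm_nonneg s)
  rw [e]
  linarith

theorem NI.commutant (h : NI M N δ) (hδ : 0 ≤ δ) : NI N.commutant M.commutant (160 * δ) := by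
  intro s hs
  obtain ⟨b, hb, h1⟩ := near_of_comm (M := M) (T := s) (c := 2 * δ * ‖s‖) (by positivity)
    fun y hy => by
      rw [norm_sub_rev]
      exact (h.comm_le hy hs).trans (le_of_eq (by ring))
  exact ⟨b, hb, h1.trans (le_of_eq (by ring))⟩

theorem cl_of_ni (h : NI M N δ) (h' : NI N M δ) (hδ : 0 ≤ δ) : Cl M N (160 * δ) := by
  have h1 : δ ≤ 160 * δ := by linarith
  exact ⟨h.mono h1, h'.mono h1, h'.commutant hδ, h.commutant hδ⟩

theorem Cl.mono (h : Cl M N δ) {δ' : ℝ} (hδ : δ ≤ δ') : Cl M N δ' :=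
  ⟨h.mn.mono hδ, h.nm.mono hδ, h.mn'.mono hδ, h.nm'.mono hδ⟩

theorem Cl.symm (h : Cl M N δ) : Cl N M δ := ⟨h.nm, h.mn, h.nm', h.mn'⟩

theorem Cl.comm (h : Cl M N δ) : Cl M.commutant N.commutant δ :=
  ⟨h.mn', h.nm', by simpa using h.mn, by simpa using h.nm⟩

section Amp

variable {K : Type*} [NormedAddCommGroup K] [InnerProductSpace ℂ K] [CompleteSpace K]
  {ι : Type*} [Fintype ι] [DecidableEq ι]

theorem norm_amp [Nonempty ι] (A : Amp H K ι) (x : Op H) : ‖A.amp x‖ = ‖x‖ := by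
  refine le_antisymm (A.norm_amp_le x) ?_
  obtain ⟨a⟩ := ‹Nonempty ι›
  refine x.opNorm_le_bound (norm_nonneg _) fun ξ => ?_
  rw [← A.norm_J a, ← A.amp_J, ← A.norm_J a ξ]
  exact (A.amp x).le_opNorm _

theorem mem_alg_commutant [Nonempty ι] (A : Amp H K ι) {Y : Op K} :
    Y ∈ (A.alg M).commutant ↔ ∃ s ∈ M.commutant, Y = A.amp s := by
  constructor
  · intro hY
    obtain ⟨a₀⟩ := ‹Nonempty ι›
    have hE : ∀ a b ζ, Y (A.E a b ζ) = A.E a b (Y ζ) := fun a b ζ =>
      congrArg (fun y : Op K => y ζ) (comm_of_mem hY (A.E_mem M a b))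
    refine ⟨(A.J a₀).adjoint ∘L Y ∘L A.J a₀, ?_, ?_⟩
    · rw [VonNeumannAlgebra.mem_commutant_iff]
      intro x hx
      ext ξ
      have h1 := congrArg (fun y : Op K => y (A.J a₀ ξ)) (comm_of_mem hY (A.amp_mem hx))
      simp only [mul_apply_eq_comp, A.amp_J] at h1
      simp only [mul_apply_eq_comp, ContinuousLinearMap.comp_apply, h1, A.adj_amp]
    · ext ζ
      refine A.ext_adj fun a => ?_
      have h1 := hE a₀ a ζ
      rw [A.E_apply, A.E_apply] at h1
      rw [A.adj_amp, ContinuousLinearMap.comp_apply, ContinuousLinearMap.comp_apply, h1,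
        A.adj_J_apply, if_pos rfl]
  · rintro ⟨s, hs, rfl⟩
    exact A.amp_mem_commutant hs

theorem Cl.amp [Nonempty ι] (h : Cl M N δ) (hδ : 0 ≤ δ) (A : Amp H K ι) :
    Cl (A.alg M) (A.alg N) (160 * δ) := by
  have k1 : ∀ {P Q : VonNeumannAlgebra H}, NI P.commutant Q.commutant δ →
      NI (A.alg P).commutant (A.alg Q).commutant δ := fun {P Q} hPQ Y hY => by
    obtain ⟨s, hs, rfl⟩ := (mem_alg_commutant A).1 hY
    obtain ⟨t, ht, h1⟩ := hPQ s hs
    refine ⟨A.amp t, A.amp_mem_commutant ht, ?_⟩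
    rw [← A.amp_sub, norm_amp, norm_amp]
    exact h1
  have h1 : δ ≤ 160 * δ := by linarith
  refine ⟨?_, ?_, (k1 h.mn').mono h1, (k1 h.nm').mono h1⟩
  · simpa using (k1 h.nm').commutant hδ
  · simpa using (k1 h.mn').commutant hδ

end Amp

/-- exchange the two algebras -/
def MS.swap {ξ : H} (D : MS M N ξ) : MS N M ξ :=
  { D with dM := D.dN, dN := D.dM, dM' := D.dN', dN' := D.dM' }

/-- pass to the commutants -/
def MS.comm {ξ : H} (D : MS M N ξ) : MS M.commutant N.commutant ξ where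
  n := D.n
  d := D.d'
  d' := D.d
  proj := D.proj'
  proj' := D.proj
  dM := D.dM'
  dN := D.dN'
  dM' := fun k a => by simpa using D.dM k a
  dN' := fun k a => by simpa using D.dN k a
  orth := D.orth'
  orth' := D.orth
  sum := D.sum'
  sum' := D.sum
  ref := fun k l h b => (D.ref k l h b).imp fun _ h => h.symm
  vec := fun k a => (D.vec k a).symm
  ms := fun η ε hε => (D.ms η ε hε).mono fun k ⟨c, hc⟩ => ⟨c, by
    refine le_of_eq_of_le (Finset.sum_congr rfl fun a _ => ?_) hc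
    rw [← D.vec, ← mul_apply_eq_comp, comm_of_mem (D.dM' k a) (D.dM k a), mul_apply_eq_comp]⟩

/-- a map which is linear on `M` extends to a linear map (`LinearMap.exists_extend`) -/
theorem lift_of_fun {ε : ℝ} (Φ : Op H → Op H) (h1 : ∀ x ∈ M, ∀ y ∈ M, Φ (x + y) = Φ x + Φ y)
    (h2 : ∀ (c : ℂ), ∀ x ∈ M, Φ (c • x) = c • Φ x)
    (h3 : ∀ x ∈ M, Φ x ∈ N ∧ ‖Φ x - x‖ ≤ ε * ‖x‖) : Lift M N ε := by
  let V : Submodule ℂ (Op H) := M.toStarSubalgebra.toSubalgebra.toSubmodule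
  let f : V →ₗ[ℂ] Op H :=
    { toFun := fun x => Φ x
      map_add' := fun x y => h1 x x.2 y y.2
      map_smul' := fun c x => h2 c x x.2 }
  obtain ⟨g, hg⟩ := LinearMap.exists_extend f
  refine ⟨g, fun x hx => ?_⟩
  have e : g x = Φ x := congrArg (fun k : V →ₗ[ℂ] Op H => k ⟨x, hx⟩) hg
  rw [e]
  exact h3 x hx

theorem Lift.mono {ε ε' : ℝ} (h : Lift M N ε) (hε : ε ≤ ε') : Lift M N ε' := by
  obtain ⟨Φ, hΦ⟩ := h
  exact ⟨Φ, fun x hx => ⟨(hΦ x hx).1,
    (hΦ x hx).2.trans (mul_le_mul_of_nonneg_right hε (norm_nonneg x))⟩⟩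

section Wot

variable {I : Type*} {l : Filter I} {G G' : I → Op H} {L L' : Op H}

/-- convergence in the weak operator topology -/
def W (l : Filter I) (G : I → Op H) (L : Op H) : Prop :=
  ∀ ξ η, Tendsto (fun i => ⟪η, G i ξ⟫_ℂ) l (𝓝 ⟪η, L ξ⟫_ℂ)

/-- version of `exists_wot_lim` with an eventual bound -/
theorem exists_W (U : Ultrafilter I) (G : I → Op H) {C : ℝ} (h : ∀ᶠ i in U, ‖G i‖ ≤ C) :
    ∃ L, W U G L := by
  classical
  obtain ⟨i₀, hi₀⟩ := h.exists
  obtain ⟨L, -, hL⟩ := exists_wot_lim U (fun i => if ‖G i‖ ≤ C then G i else 0) C fun i => by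
    split_ifs with hi
    · exact hi
    · rw [norm_zero]
      exact (norm_nonneg _).trans hi₀
  refine ⟨L, fun ξ η => (hL ξ η).congr' (h.mono fun i hi => ?_)⟩
  simp only [if_pos hi]

theorem W.unique [l.NeBot] (h : W l G L) (h' : W l G L') : L = L' := by
  ext ξ
  exact ext_inner_left ℂ fun η => tendsto_nhds_unique (h ξ η) (h' ξ η)

theorem W.congr (h : W l G L) (e : ∀ᶠ i in l, G i = G' i) : W l G' L := by
  exact fun ξ η => (h ξ η).congr' (e.mono fun i hi => by simp only [hi])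

theorem W.const (L : Op H) : W l (fun _ => L) L := fun _ _ => tendsto_const_nhds

theorem W.add (h : W l G L) (h' : W l G' L') : W l (fun i => G i + G' i) (L + L') := by
  intro ξ η
  simp only [add_apply, inner_add_right]
  exact (h ξ η).add (h' ξ η)

theorem W.sub (h : W l G L) (h' : W l G' L') : W l (fun i => G i - G' i) (L - L') := by
  intro ξ η
  simp only [sub_apply, inner_sub_right]
  exact (h ξ η).sub (h' ξ η)

theorem W.smul (h : W l G L) (c : ℂ) : W l (fun i => c • G i) (c • L) := by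
  intro ξ η
  simp only [smul_apply, inner_smul_right]
  exact (h ξ η).const_mul c

theorem W.mul_left (h : W l G L) (a : Op H) : W l (fun i => a * G i) (a * L) := by
  intro ξ η
  simp only [mul_apply_eq_comp, ← inner_star_left a]
  exact h ξ _

theorem W.mul_right (h : W l G L) (a : Op H) : W l (fun i => G i * a) (L * a) := by
  intro ξ η
  simp only [mul_apply_eq_comp]
  exact h _ η

theorem W.star (h : W l G L) : W l (fun i => star (G i)) (star L) := by
  intro ξ η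
  simp only [inner_star_right]
  have h1 := (Complex.continuous_conj.tendsto _).comp (h η ξ)
  rw [inner_conj_symm] at h1
  exact h1.congr fun i => inner_conj_symm _ _

theorem W.norm_apply_le [l.NeBot] (h : W l G L) (ξ : H) {C : ℝ} (hC : ∀ᶠ i in l, ‖G i ξ‖ ≤ C) :
    ‖L ξ‖ ≤ C := by
  have h1 : ‖⟪L ξ, L ξ⟫_ℂ‖ ≤ ‖L ξ‖ * C := le_of_tendsto (h ξ (L ξ)).norm (hC.mono fun i hi =>
    (norm_inner_le_norm _ _).trans (mul_le_mul_of_nonneg_left hi (norm_nonneg _)))
  obtain ⟨i, hi⟩ := hC.exists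
  rw [inner_self_eq_norm_sq_to_K, norm_pow, RCLike.norm_ofReal, abs_norm] at h1
  by_contra h2
  nlinarith [norm_nonneg (G i ξ)]

theorem W.norm_le [l.NeBot] (h : W l G L) {C : ℝ} (hC : ∀ᶠ i in l, ‖G i‖ ≤ C) : ‖L‖ ≤ C := by
  obtain ⟨i, hi⟩ := hC.exists
  exact L.opNorm_le_bound ((norm_nonneg _).trans hi) fun ξ => h.norm_apply_le ξ
    (hC.mono fun j hj => ((G j).le_opNorm ξ).trans
      (mul_le_mul_of_nonneg_right hj (norm_nonneg ξ)))

theorem W.mem [l.NeBot] (h : W l G L) (hM : ∀ᶠ i in l, G i ∈ M) : L ∈ M := by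
  rw [mem_iff_comm]
  intro s hs
  exact ((h.mul_left s).congr (hM.mono fun i hi => comm_of_mem hs hi)).unique (h.mul_right s)

theorem W.of_strong (h : ∀ ξ, Tendsto (fun i => G i ξ) l (𝓝 (L ξ))) : W l G L := by
  exact fun ξ η => tendsto_const_nhds.inner (h ξ)

/-- weak limits of bounded families of vectors along an ultrafilter -/
theorem exists_weak (U : Ultrafilter I) (v : I → H) {C : ℝ} (h : ∀ᶠ i in U, ‖v i‖ ≤ C) :
    ∃ w, ‖w‖ ≤ C ∧ ∀ η, Tendsto (fun i => ⟪η, v i⟫_ℂ) U (𝓝 ⟪η, w⟫_ℂ) := by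
  obtain ⟨i₀, hi₀⟩ := h.exists
  have hC : 0 ≤ C := (norm_nonneg _).trans hi₀
  have hex : ∀ η : H, ∃ z : ℂ, ‖z‖ ≤ C * ‖η‖ ∧ Tendsto (fun i => ⟪v i, η⟫_ℂ) U (𝓝 z) := by
    intro η
    obtain ⟨z, hz, hlim⟩ := (isCompact_closedBall (0 : ℂ) (C * ‖η‖)).ultrafilter_le_nhds
      (U.map fun i => ⟪v i, η⟫_ℂ) (by
        rw [Filter.le_principal_iff, Ultrafilter.mem_coe, Ultrafilter.mem_map]
        refine Filter.mem_of_superset h fun i hi => ?_
        simpa using (norm_inner_le_norm _ _).trans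
          (mul_le_mul_of_nonneg_right hi (norm_nonneg η)))
    exact ⟨z, by simpa using hz, hlim⟩
  choose b hb1 hb2 using hex
  let f₀ : H →ₗ[ℂ] ℂ :=
    { toFun := b
      map_add' := fun x y => tendsto_nhds_unique (hb2 _) (by
        simpa [inner_add_right] using (hb2 x).add (hb2 y))
      map_smul' := fun c x => tendsto_nhds_unique (hb2 _) (by
        simpa [inner_smul_right] using (hb2 x).const_mul c) }
  let f : H →L[ℂ] ℂ := f₀.mkContinuous C hb1
  refine ⟨(InnerProductSpace.toDual ℂ H).symm f, ?_, fun η => ?_⟩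
  · rw [LinearIsometryEquiv.norm_map]
    exact f₀.mkContinuous_norm_le hC hb1
  · have h1 := (Complex.continuous_conj.tendsto _).comp (hb2 η)
    rw [← inner_conj_symm, InnerProductSpace.toDual_symm_apply]
    exact h1.congr fun i => inner_conj_symm _ _

end Wot

/-- a vector which is cyclic for the commutant is separating -/
theorem sep_of_cyc {ξ : H} (h : Dense (orb M.commutant ξ)) {x : Op H} (hx : x ∈ M) (h0 : x ξ = 0) :
    x = 0 := by
  have h1 : Set.EqOn x (0 : Op H) (orb M.commutant ξ) := by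
    rintro _ ⟨s, hs, rfl⟩
    rw [← mul_apply_eq_comp, ← comm_of_mem hs hx, mul_apply_eq_comp, h0, map_zero]
    rfl
  exact DFunLike.coe_injective (Continuous.ext_on h x.continuous (0 : Op H).continuous h1)

/-- uniform absolute continuity for a separating vector -/
theorem ua_of_cyc {ξ : H} (h : Dense (orb M.commutant ξ)) (ζ : H) {ε : ℝ} (hε : 0 < ε) :
    ∃ C, 0 ≤ C ∧ ∀ x ∈ M, ‖x ζ‖ ≤ ε * ‖x‖ + C * ‖x ξ‖ := by
  obtain ⟨_, ⟨s, hs, rfl⟩, h1⟩ := Metric.mem_closure_iff.1 (h ζ) ε hε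
  refine ⟨‖s‖, norm_nonneg s, fun x hx => ?_⟩
  have e : x ζ = x (ζ - s ξ) + s (x ξ) := by
    rw [← mul_apply_eq_comp s x, comm_of_mem hs hx, mul_apply_eq_comp, map_sub, sub_add_cancel]
  rw [dist_eq_norm] at h1
  have h2 := norm_add_le (x (ζ - s ξ)) (s (x ξ))
  have h3 := x.le_opNorm (ζ - s ξ)
  have h4 := s.le_opNorm (x ξ)
  have h5 := mul_le_mul_of_nonneg_left h1.le (norm_nonneg x)
  rw [e]
  linarith

end Vale.Agent.P096
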