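import Vale.Agent.P096.CDefs
import Vale.Agent.KK.Minimax

/-!
# P096 C: from vector tests to the norm
`M = (vnComm D).commutant`. `C` = convex set of linear `Φ` with `Φ x ∈ N`, `‖Φ x‖ ≤ 2 ‖x‖` on `M` (contains `0`). Tests `t = (x, η, ζ)`, `x ∈ M`, `‖x‖ ≤ 1`, `‖η‖ = ‖ζ‖ = 1`, `val t Φ = ‖<η, (x - Φ x) ζ>‖`, weights `w = 1` in `KK.minimax`.
Given `τ : I → tests`: `A` from `exists_piAmp` on `PiLp 2 (fun _ : I ⊕ I => H)`, `Z = (2 |I|)^(-1/2) (ζ_j, η_j)` (unit vector), `D₁ = A.amp '' D`, `vnComm D₁ = A.alg (vnComm D)` (entries), `N₁ = (A.alg N.commutant).commutant`;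
`Cl` by `h.comm.amp.comm`. The hypothesis gives `Φ₁`; `Φ x = entry o o (Φ₁ (amp x))`, `Φ₁ (amp x) = amp (Φ x)` (`mem_alg_commutant`). `a j = A.E o (inl j)`, `b j = phase j • A.E o (inr j)` (phases chosen after `Φ`): `∑ val ≤ 2 |I| ε₁`.
So for every finite set of tests there is `Φ_S ∈ C` with `val ≤ 3 ε₁`; limit by `exists_W` along an ultrafilter on `Finset tests` which refines `atTop` (`Ultrafilter.of atTop`); `lift_of_fun`; the norm bound from the tests by scaling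
(`ContinuousLinearMap.opNorm_le_bound`, `η = ` normalized `(x - Φ x) ζ`).
-/

namespace Vale.Agent.P096

open Vale.Agent.P104 Vale.Agent.P132 Filter Topology
open scoped InnerProductSpace

universe u

section

variable {H : Type*} [NormedAddCommGroup H] [InnerProductSpace ℂ H] [CompleteSpace H]
  {K : Type*} [NormedAddCommGroup K] [InnerProductSpace ℂ K] [CompleteSpace K]

theorem chb_vnComm {ι : Type*} [Fintype ι] [DecidableEq ι] (A : Amp H K ι) (D : Set (Op H)) :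
    vnComm (A.amp '' D) = A.alg (vnComm D) := by
  refine SetLike.ext fun Y => ⟨fun h => A.mem_alg_of_entry fun a b => mem_vnComm.2 fun d hd => ?_,
    fun h => mem_vnComm.2 ?_⟩
  · have key : ∀ s : Op H, A.amp s * Y = Y * A.amp s →
        s * ((A.J a).adjoint ∘L Y ∘L A.J b) = ((A.J a).adjoint ∘L Y ∘L A.J b) * s := fun s hs => by
      ext ξ
      simp only [mul_apply_eq_comp, ContinuousLinearMap.comp_apply]
      rw [← A.adj_amp, ← mul_apply_eq_comp, hs, mul_apply_eq_comp, A.amp_J]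
    have h1 := mem_vnComm.1 h _ ⟨d, hd, rfl⟩
    exact ⟨key _ h1.1, key _ (by rw [A.amp_star]; exact h1.2)⟩
  · rintro _ ⟨d, hd, rfl⟩
    have h1 : d ∈ (vnComm D).commutant :=
      VonNeumannAlgebra.mem_commutant_iff.2 fun g hg => (mem_vnComm.1 hg d hd).1.symm
    exact ⟨(A.mem_alg _).1 h d h1, by rw [← A.amp_star]; exact (A.mem_alg _).1 h _ (star_mem h1)⟩

theorem chb_fin {I : Type*} [Fintype I] [DecidableEq I] [Nonempty I] (A : Amp H K (I ⊕ I))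
    {M N : VonNeumannAlgebra H} {ε : ℝ}
    (h : ∀ Z : K, ‖Z‖ = 1 → ∃ Φ : Op K →ₗ[ℂ] Op K, (∀ x ∈ (A.alg M.commutant).commutant,
      Φ x ∈ (A.alg N.commutant).commutant ∧ ‖Φ x‖ ≤ 2 * ‖x‖) ∧ ∀ x a b : I → Op K,
        (∀ j, x j ∈ (A.alg M.commutant).commutant) → (∀ j, ‖x j‖ ≤ 1) →
        (∀ j, a j ∈ (A.alg N.commutant).commutant.commutant) →
        (∀ j, b j ∈ (A.alg N.commutant).commutant.commutant) → Col a 1 → Col b 1 →
        ‖∑ j, ⟪b j Z, (x j - Φ (x j)) (a j Z)⟫_ℂ‖ ≤ ε)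
    (x : I → Op H) (hx : ∀ j, x j ∈ M) (hx1 : ∀ j, ‖x j‖ ≤ 1) (η ζ : I → H)
    (hη : ∀ j, ‖η j‖ = 1) (hζ : ∀ j, ‖ζ j‖ = 1) :
    ∃ Φ : Op H →ₗ[ℂ] Op H, (∀ x ∈ M, Φ x ∈ N ∧ ‖Φ x‖ ≤ 2 * ‖x‖) ∧
      ∑ j, ‖⟪η j, (x j - Φ (x j)) (ζ j)⟫_ℂ‖ ≤ 2 * ε * Fintype.card I := by
  obtain ⟨o⟩ : Nonempty (I ⊕ I) := inferInstance
  have hn : (0 : ℝ) < 2 * Fintype.card I := by
    have := Fintype.card_pos (α := I)
    positivity
  obtain ⟨c, hc⟩ : ∃ c : ℝ, c ^ 2 * (2 * Fintype.card I) = 1 :=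
    ⟨(√(2 * Fintype.card I))⁻¹, by rw [inv_pow, Real.sq_sqrt hn.le, inv_mul_cancel₀ hn.ne']⟩
  set Z : K := ∑ i, A.J i ((c : ℂ) • Sum.elim ζ η i) with hZ
  have hZ1 : ∀ i, (A.J i).adjoint Z = (c : ℂ) • Sum.elim ζ η i := fun i => by
    simp only [hZ, map_sum, A.adj_J_apply, Finset.sum_ite_eq, Finset.mem_univ, if_true]
  have hZ2 : ‖Z‖ = 1 := by
    refine (sq_eq_sq₀ (norm_nonneg _) zero_le_one).1 ?_
    rw [A.norm_sq_eq, one_pow, ← hc]
    simp [hZ1, norm_smul, hη, hζ]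
    ring
  obtain ⟨Φ, h1, h2⟩ := h Z hZ2
  let Ψ : Op H →ₗ[ℂ] Op H :=
    { toFun := fun x => (A.J o).adjoint ∘L Φ (A.amp x) ∘L A.J o
      map_add' := fun x y => by
        simp only [A.amp_add, map_add, ContinuousLinearMap.add_comp, ContinuousLinearMap.comp_add]
      map_smul' := fun c x => by
        simp only [A.amp_smul, map_smul, ContinuousLinearMap.smul_comp,
          ContinuousLinearMap.comp_smul, RingHom.id_apply] }
  have h3 : ∀ x ∈ M, A.amp x ∈ (A.alg M.commutant).commutant := fun x hx =>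
    A.amp_mem_commutant (by rwa [VonNeumannAlgebra.commutant_commutant])
  have h4 : ∀ x ∈ M, Ψ x ∈ N ∧ Φ (A.amp x) = A.amp (Ψ x) := fun x hx => by
    obtain ⟨s, hs, e⟩ := (mem_alg_commutant A).1 (h1 _ (h3 x hx)).1
    have e1 : Ψ x = s := by
      ext ξ
      change (A.J o).adjoint (Φ (A.amp x) (A.J o ξ)) = s ξ
      rw [e, A.amp_J, A.adj_J_apply, if_pos rfl]
    rw [VonNeumannAlgebra.commutant_commutant] at hs
    rw [e1]
    exact ⟨hs, e⟩
  refine ⟨Ψ, fun x hx => ⟨(h4 x hx).1, ?_⟩, ?_⟩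
  · rw [← norm_amp A, ← norm_amp A x, ← (h4 x hx).2]
    exact (h1 _ (h3 x hx)).2
  choose ph hph e using fun j => Complex.exists_norm_eq_mul_self ⟪η j, (x j - Ψ (x j)) (ζ j)⟫_ℂ
  have hE : ∀ i, A.E o i ∈ (A.alg N.commutant).commutant.commutant := fun i => by
    rw [VonNeumannAlgebra.commutant_commutant]
    exact A.E_mem _ o i
  have hc1 : ∀ ξ, ∑ j, ‖A.E o (.inl j) ξ‖ ^ 2 + ∑ j, ‖A.E o (.inr j) ξ‖ ^ 2 = (1 * ‖ξ‖) ^ 2 :=
    fun ξ => by
      rw [one_mul, A.norm_sq_eq ξ, Fintype.sum_sum_type]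
      simp only [A.E_apply, A.norm_J]
  have h5 := h2 (fun j => A.amp (x j)) (fun j => ph j • A.E o (.inl j)) (fun j => A.E o (.inr j))
    (fun j => h3 _ (hx j)) (fun j => (A.norm_amp_le _).trans (hx1 j))
    (fun j => SMulMemClass.smul_mem _ (hE _)) (fun j => hE _)
    (fun ξ => by
      rw [l2_le_iff (by positivity), ← hc1]
      simp only [smul_apply, norm_smul, hph, one_mul]
      exact le_add_of_nonneg_right (Finset.sum_nonneg fun _ _ => sq_nonneg _))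
    (fun ξ => by
      rw [l2_le_iff (by positivity), ← hc1]
      exact le_add_of_nonneg_left (Finset.sum_nonneg fun _ _ => sq_nonneg _))
  have e2 : ∀ j, ⟪A.E o (.inr j) Z, (A.amp (x j) - Φ (A.amp (x j)))
      ((ph j • A.E o (.inl j)) Z)⟫_ℂ =
      ((c ^ 2 * ‖⟪η j, (x j - Ψ (x j)) (ζ j)⟫_ℂ‖ : ℝ) : ℂ) := fun j => by
    rw [(h4 _ (hx j)).2, ← A.amp_sub, smul_apply, map_smul, A.E_apply, A.E_apply, A.amp_J,
      inner_smul_right, A.inner_J, if_pos rfl, hZ1, hZ1, map_smul, inner_smul_left,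
      inner_smul_right, Complex.conj_ofReal, Complex.ofReal_mul, e, Sum.elim_inl, Sum.elim_inr]
    push_cast
    ring
  simp only [e2] at h5
  rw [← Complex.ofReal_sum, Complex.norm_real, ← Finset.mul_sum] at h5
  have h6 := mul_le_mul_of_nonneg_right ((le_abs_self _).trans h5) hn.le
  rw [mul_right_comm, hc, one_mul] at h6
  linarith

theorem chb_norm {T : Op H} {c : ℝ} (hc : 0 ≤ c)
    (h : ∀ η ζ, ‖η‖ = 1 → ‖ζ‖ = 1 → ‖⟪η, T ζ⟫_ℂ‖ ≤ c) : ‖T‖ ≤ c := by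
  refine ContinuousLinearMap.opNorm_le_of_unit_norm hc fun ζ hζ => ?_
  rcases eq_or_ne (T ζ) 0 with h0 | h0
  · rwa [h0, norm_zero]
  · have h1 := h _ ζ (norm_smul_inv_norm (𝕜 := ℂ) h0) hζ
    have h2 := norm_ne_zero_iff.2 h0
    rw [inner_smul_left, norm_mul, inner_self_eq_norm_sq_to_K] at h1
    simpa [sq, h2] using h1

theorem chb_lim {M N : VonNeumannAlgebra H} {s : ℝ} (hs : 0 < s)
    (h : ∀ (I : Type) [Fintype I] [DecidableEq I] [Nonempty I] (x : I → Op H), (∀ j, x j ∈ M) →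
      (∀ j, ‖x j‖ ≤ 1) → ∀ η ζ : I → H, (∀ j, ‖η j‖ = 1) → (∀ j, ‖ζ j‖ = 1) →
      ∃ Φ : Op H →ₗ[ℂ] Op H, (∀ x ∈ M, Φ x ∈ N ∧ ‖Φ x‖ ≤ 2 * ‖x‖) ∧
        ∑ j, ‖⟪η j, (x j - Φ (x j)) (ζ j)⟫_ℂ‖ ≤ s * Fintype.card I) : Lift M N (s + s) := by
  classical
  let T := {t : Op H × H × H // t.1 ∈ M ∧ ‖t.1‖ ≤ 1 ∧ ‖t.2.1‖ = 1 ∧ ‖t.2.2‖ = 1}
  let C : Set (Op H →ₗ[ℂ] Op H) := {Φ | ∀ x ∈ M, Φ x ∈ N ∧ ‖Φ x‖ ≤ 2 * ‖x‖}
  have hC : Convex ℝ C := fun Φ hΦ Ψ hΨ a b ha hb hab x hx => by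
    refine ⟨add_mem (vn_rsmul_mem _ (hΦ x hx).1) (vn_rsmul_mem _ (hΨ x hx).1), ?_⟩
    refine (norm_add_le (a • Φ x) (b • Ψ x)).trans ?_
    rw [norm_smul, norm_smul, Real.norm_of_nonneg ha, Real.norm_of_nonneg hb]
    calc _ ≤ a * (2 * ‖x‖) + b * (2 * ‖x‖) := add_le_add
          (mul_le_mul_of_nonneg_left (hΦ x hx).2 ha) (mul_le_mul_of_nonneg_left (hΨ x hx).2 hb)
      _ = _ := by rw [← add_mul, hab, one_mul]
  choose Φ hΦ h1 using fun S : Finset T => KK.minimax hC ⟨0, fun x _ => ⟨zero_mem N, by simp⟩⟩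
    (fun (t : T) Φ => ‖⟪t.1.2.1, (t.1.1 - Φ t.1.1) t.1.2.2⟫_ℂ‖)
    (fun t => ⟨hC, fun Φ _ Ψ _ a b ha hb hab => by
      have e : t.1.1 - (a • Φ + b • Ψ) t.1.1 =
          (a : ℂ) • (t.1.1 - Φ t.1.1) + (b : ℂ) • (t.1.1 - Ψ t.1.1) := by
        rw [Complex.coe_smul, Complex.coe_smul, smul_sub, smul_sub, LinearMap.add_apply,
          LinearMap.smul_apply, LinearMap.smul_apply, sub_add_sub_comm, ← add_smul, hab, one_smul]
      simp only [e, add_apply, smul_apply, inner_add_right, inner_smul_right, smul_eq_mul]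
      refine (norm_add_le _ _).trans_eq ?_
      rw [norm_mul, norm_mul, Complex.norm_real, Complex.norm_real, Real.norm_of_nonneg ha,
        Real.norm_of_nonneg hb]⟩)
    (fun _ _ => norm_nonneg _) (fun _ => 1) (fun _ => one_pos) hs.le
    (fun I _ _ _ τ => by
      simpa [C] using h I (fun j => (τ j).1.1) (fun j => (τ j).2.1) (fun j => (τ j).2.2.1)
        (fun j => (τ j).1.2.1) (fun j => (τ j).1.2.2) (fun j => (τ j).2.2.2.1)
        fun j => (τ j).2.2.2.2) S hs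
  let U : Ultrafilter (Finset T) := Ultrafilter.of atTop
  have h2 : ∀ x : Op H, ∃ L, x ∈ M → W U (fun S => Φ S x) L := fun x => by
    by_cases hx : x ∈ M
    · obtain ⟨L, hL⟩ := exists_W U (fun S => Φ S x) (Eventually.of_forall fun S => (hΦ S x hx).2)
      exact ⟨L, fun _ => hL⟩
    · exact ⟨0, fun h => absurd h hx⟩
  choose L hL using h2
  have h3 : ∀ (c : ℂ), ∀ x ∈ M, L (c • x) = c • L x := fun c x hx =>
    (hL _ (SMulMemClass.smul_mem c hx)).unique (by simpa only [map_smul] using (hL x hx).smul c)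
  have h4 : ∀ x ∈ M, ‖x‖ ≤ 1 → ‖x - L x‖ ≤ s + s := fun x hx hx1 =>
    chb_norm (by positivity) fun η ζ hη hζ => by
      refine le_of_tendsto (((W.const x).sub (hL x hx)) ζ η).norm ?_
      filter_upwards [Ultrafilter.of_le atTop (eventually_finset_mem_atTop
        (⟨(x, η, ζ), hx, hx1, hη, hζ⟩ : T))] with S hS using h1 S _ hS
  refine lift_of_fun L (fun x hx y hy => (hL _ (add_mem hx hy)).unique
    (by simpa only [map_add] using (hL x hx).add (hL y hy))) h3 fun x hx =>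
      ⟨(hL x hx).mem (Eventually.of_forall fun S => (hΦ S x hx).1), ?_⟩
  rcases eq_or_ne x 0 with rfl | h0
  · have := h3 0 0 hx
    rw [zero_smul, zero_smul] at this
    simp [this]
  · have h5 := h4 _ (SMulMemClass.smul_mem (‖x‖⁻¹ : ℂ) hx) (norm_smul_inv_norm h0).le
    rw [h3 _ x hx, ← smul_sub, norm_smul, norm_inv, Complex.norm_real, norm_norm,
      inv_mul_le_iff₀ (norm_pos_iff.2 h0), norm_sub_rev] at h5
    rwa [mul_comm]

end

theorem hb (h : LocStmt.{u}) : SepStmt.{u} := by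
  intro ε hε
  obtain ⟨δ, hδ, h1⟩ := h (ε / 4) (by positivity)
  refine ⟨δ / 160, by positivity, fun H _ _ _ D N hD hcl => ?_⟩
  refine (chb_lim (s := 2 * (ε / 4)) (by positivity) fun I _ _ _ => ?_).mono (by linarith)
  obtain ⟨A, -⟩ := exists_piAmp H (I ⊕ I)
  refine chb_fin A fun Z hZ => ?_
  have h2 := (hcl.comm.amp (by positivity) A).comm
  rw [mul_div_cancel₀ _ (by norm_num)] at h2
  rw [VonNeumannAlgebra.commutant_commutant (vnComm D), ← chb_vnComm] at h2 ⊢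
  obtain ⟨Φ, h3, h4⟩ := h1 _ _ _ Z (hD.image _) hZ h2
  exact ⟨Φ, h3, h4 I⟩

end Vale.Agent.P096
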