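import Vale.Agent.P096.CWorld1

/-!
# P096 C: the world
For a leg `l` let `B = l.I × l.I`, `Λ l : Matrix B B ℂ → Op K`, `Λ l m = ∑ p q, m p q • ε l p q` (unital star homomorphism, `cworld2_hom`). Let `z : B → ℂ`, `z (a,b) = if a = b then √(ρ a) else 0`
(unit vector), `U` a unitary matrix with column `(0,0)` equal to `z` (real reflection `1 - 2 w wᵀ / |w|²`, `w = z - δ₀`, or `1` if `w = 0`; it is selfadjoint with `U * U = 1`).
`e l a b = Λ (U * (single a b 1 ⊗ₖ 1) * U)`, `f l a b = Λ (U * (1 ⊗ₖ single a b 1) * U)`. Since `Λ m (V ξ) = ∑ p, m p (0,0) • ε p (0,0) (V ξ)`, the relation follows from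
`√ρ a • (single a b 1 ⊗ₖ 1) *ᵥ z = √ρ b • (1 ⊗ₖ single b a 1) *ᵥ z`.
-/

namespace Vale.Agent.P096

open Vale.Agent.P104 Vale.Agent.P132 Filter Topology
open scoped InnerProductSpace

universe u

section

open Matrix Kronecker

variable {K : Type*} [NormedAddCommGroup K] [InnerProductSpace ℂ K] [CompleteSpace K]
  {B I : Type*} [Fintype B] [DecidableEq B] [Fintype I] [DecidableEq I] {ε : B → B → Op K}

/-- the operator given by a scalar matrix -/
noncomputable def cw2L (ε : B → B → Op K) : Matrix B B ℂ →ₗ[ℂ] Op K where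
  toFun m := ∑ p, ∑ q, m p q • ε p q
  map_add' m n := by simp only [Matrix.add_apply, add_smul, Finset.sum_add_distrib]
  map_smul' c m := by
    simp only [Matrix.smul_apply, smul_eq_mul, mul_smul, Finset.smul_sum, RingHom.id_apply]

omit [CompleteSpace K] [DecidableEq B] in
theorem cworld2_apply (m : Matrix B B ℂ) : cw2L ε m = ∑ p, ∑ q, m p q • ε p q := rfl

theorem cworld2_mul (h : MUnits ε) (m n : Matrix B B ℂ) :
    cw2L ε (m * n) = cw2L ε m * cw2L ε n := by
  rw [cworld2_apply, cworld2_apply m, Finset.sum_mul]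
  refine Finset.sum_congr rfl fun p _ => ?_
  simp only [Matrix.mul_apply, Finset.sum_smul]
  rw [Finset.sum_comm, Finset.sum_mul]
  refine Finset.sum_congr rfl fun q _ => ?_
  rw [cworld2_apply, Finset.mul_sum]
  refine Eq.trans ?_ (Finset.sum_eq_single q ?_ (by simp)).symm
  · rw [Finset.mul_sum]
    exact Finset.sum_congr rfl fun r _ => by rw [smul_mul_smul_comm, h.mul, if_pos rfl]
  · intro q' _ hq
    rw [Finset.mul_sum]
    exact Finset.sum_eq_zero fun r _ => by
      rw [smul_mul_smul_comm, h.mul, if_neg hq.symm, smul_zero]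

theorem cworld2_star (h : MUnits ε) (m : Matrix B B ℂ) : star (cw2L ε m) = cw2L ε (star m) := by
  simp only [cworld2_apply, star_sum, star_smul, h.star_eq, Matrix.star_apply]
  exact Finset.sum_comm

omit [CompleteSpace K] in
theorem cworld2_one (h : ∑ p, ε p p = 1) : cw2L ε 1 = 1 := by
  simp only [cworld2_apply, Matrix.one_apply, ite_smul, one_smul, zero_smul, Finset.sum_ite_eq,
    Finset.mem_univ, if_true, h]

omit [CompleteSpace K] [DecidableEq B] in
theorem cworld2_comm {y : Op K} (h : ∀ p q, ε p q * y = y * ε p q) (m : Matrix B B ℂ) :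
    cw2L ε m * y = y * cw2L ε m := by
  simp only [cworld2_apply, Finset.sum_mul, Finset.mul_sum, smul_mul_assoc, mul_smul_comm, h]

omit [CompleteSpace K] [DecidableEq B] in
theorem cworld2_vec {o : B} {η : K} (h : ∀ p q, q ≠ o → ε p q η = 0) {m n : Matrix B B ℂ}
    (e : ∀ p, m p o = n p o) : cw2L ε m η = cw2L ε n η := by
  simp only [cworld2_apply, _root_.sum_apply, _root_.smul_apply]
  refine Finset.sum_congr rfl fun p _ => Finset.sum_congr rfl fun q _ => ?_
  by_cases hq : q = o
  · rw [hq, e]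
  · rw [h p q hq, smul_zero, smul_zero]

theorem cworld2_conj {U : Matrix B B ℂ} (hU : U ∈ unitary (Matrix B B ℂ)) (m n : Matrix B B ℂ) :
    star U * m * U * (star U * n * U) = star U * (m * n) * U := by
  simp only [mul_assoc]
  rw [← mul_assoc U, Unitary.mul_star_self_of_mem hU, one_mul]

omit [Fintype I] in
theorem cworld2_units (h : MUnits ε) {U : Matrix B B ℂ} (hU : U ∈ unitary (Matrix B B ℂ))
    {m : I → I → Matrix B B ℂ} (hm : MUnits m) :
    MUnits fun a b => cw2L ε (star U * m a b * U) := by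
  refine ⟨fun a b => ?_, fun a b c d => ?_⟩
  · rw [cworld2_star h, star_mul, star_mul, star_star, hm.star_eq, mul_assoc]
  · rw [← cworld2_mul h, cworld2_conj hU, hm.mul]
    split_ifs
    · rfl
    · rw [mul_zero, zero_mul, map_zero]

omit [CompleteSpace K] [DecidableEq I] in
theorem cworld2_sum (h : ∑ p, ε p p = 1) {U : Matrix B B ℂ} (hU : U ∈ unitary (Matrix B B ℂ))
    {m : I → I → Matrix B B ℂ} (hm : ∑ a, m a a = 1) :
    ∑ a, cw2L ε (star U * m a a * U) = 1 := by
  rw [← map_sum, ← Finset.sum_mul, ← Finset.mul_sum, hm, mul_one,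
    Unitary.star_mul_self_of_mem hU, cworld2_one h]

theorem cworld2_unitary (o : B) (z : B → ℂ) (hz : ∑ p, ‖z p‖ ^ 2 = 1) :
    ∃ U ∈ unitary (Matrix B B ℂ), ∀ p, U p o = z p := by
  have h1 : ‖(WithLp.toLp 2 z : EuclideanSpace ℂ B)‖ = 1 := by
    rw [EuclideanSpace.norm_eq]
    exact (congrArg Real.sqrt hz).trans Real.sqrt_one
  obtain ⟨b, hb⟩ := Orthonormal.exists_orthonormalBasis_extension_of_card_eq (𝕜 := ℂ)
    (E := EuclideanSpace ℂ B) (ι := B) (by simp) (v := fun _ => WithLp.toLp 2 z) (s := {o})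
    ⟨fun _ => h1, fun i j hij => absurd (Subsingleton.elim i j) hij⟩
  refine ⟨_, (EuclideanSpace.basisFun B ℂ).toMatrix_orthonormalBasis_mem_unitary b, fun p => ?_⟩
  rw [Module.Basis.toMatrix_apply, hb o rfl]
  simp

/-- the matrix units of the first factor -/
def cw2A (a b : I) : Matrix (I × I) (I × I) ℂ := single a b 1 ⊗ₖ 1

/-- the matrix units of the second factor -/
def cw2B (a b : I) : Matrix (I × I) (I × I) ℂ := 1 ⊗ₖ single a b 1

theorem cworld2_single (a b c d : I) :
    single a b (1 : ℂ) * single c d 1 = if b = c then single a d 1 else 0 := by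
  split_ifs with h
  · rw [h, single_mul_single_same, one_mul]
  · exact single_mul_single_of_ne _ _ _ _ h _

theorem cworld2_A : MUnits (cw2A (I := I)) ∧ ∑ a : I, cw2A a a = 1 := by
  refine ⟨⟨fun a b => ?_, fun a b c d => ?_⟩, ?_⟩
  · rw [cw2A, cw2A, star_eq_conjTranspose, conjTranspose_kronecker, conjTranspose_single,
      conjTranspose_one, star_one]
  · rw [cw2A, cw2A, cw2A, ← mul_kronecker_mul, cworld2_single, mul_one]
    split_ifs
    · rfl
    · exact zero_kronecker _
  · rw [← one_kronecker_one]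
    ext p q
    simp only [cw2A, Matrix.sum_apply, kroneckerMap_apply]
    rw [← Finset.sum_mul, ← Matrix.sum_apply, sum_single_one]

theorem cworld2_B : MUnits (cw2B (I := I)) ∧ ∑ a : I, cw2B a a = 1 := by
  refine ⟨⟨fun a b => ?_, fun a b c d => ?_⟩, ?_⟩
  · rw [cw2B, cw2B, star_eq_conjTranspose, conjTranspose_kronecker, conjTranspose_single,
      conjTranspose_one, star_one]
  · rw [cw2B, cw2B, cw2B, ← mul_kronecker_mul, cworld2_single, mul_one]
    split_ifs
    · rfl
    · exact kronecker_zero _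
  · rw [← one_kronecker_one]
    ext p q
    simp only [cw2B, Matrix.sum_apply, kroneckerMap_apply]
    rw [← Finset.mul_sum, ← Matrix.sum_apply, sum_single_one]

theorem cworld2_AB (a b c d : I) : cw2A a b * cw2B c d = cw2B c d * cw2A a b := by
  simp only [cw2A, cw2B, ← mul_kronecker_mul, mul_one, one_mul]

theorem cworld2_rel (r : I → ℂ) (a b : I) (q : I × I) :
    r a • ∑ p, cw2A a b q p * (if p.1 = p.2 then r p.1 else 0) =
      r b • ∑ p, cw2B b a q p * (if p.1 = p.2 then r p.1 else 0) := by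
  rw [Finset.sum_eq_single (b, q.2), Finset.sum_eq_single (q.1, a)]
  · by_cases h1 : a = q.1 <;> by_cases h2 : b = q.2 <;>
      simp [cw2A, cw2B, single_apply, h1, h2, eq_comm, mul_comm]
  · rintro ⟨c, d⟩ _ h
    by_cases h1 : q.1 = c <;> by_cases h2 : a = d <;> simp_all [cw2B, single_apply, one_apply]
  · simp
  · rintro ⟨c, d⟩ _ h
    by_cases h1 : b = c <;> by_cases h2 : q.2 = d <;> simp_all [cw2A, single_apply, one_apply]
  · simp

end

theorem exists_world (H : Type u) [NormedAddCommGroup H] [InnerProductSpace ℂ H] [CompleteSpace H] :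
    ∃ (K : Type u) (_ : NormedAddCommGroup K) (_ : InnerProductSpace ℂ K) (_ : CompleteSpace K),
      Nonempty (World H K) := by
  obtain ⟨K, i1, i2, i3, ⟨X⟩⟩ := exists_preW H
  choose U hU hz using fun l : Leg => cworld2_unitary ((0, 0) : l.I × l.I)
    (fun p => if p.1 = p.2 then (√(l.2.ρ p.1) : ℂ) else 0) (by
      rw [Fintype.sum_prod_type, ← l.2.sum]
      refine Finset.sum_congr rfl fun a _ => ?_
      rw [Finset.sum_eq_single a (fun b _ hb => by simp [hb.symm]) (by simp)]
      simp [Real.sq_sqrt (l.2.pos a).le])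
  have hc : ∀ l l', l ≠ l' → ∀ m m', cw2L (X.ε l) m * cw2L (X.ε l') m' =
      cw2L (X.ε l') m' * cw2L (X.ε l) m := fun l l' h m m' =>
    cworld2_comm (fun p q => (cworld2_comm (fun p' q' => (X.εε l l' h p q p' q').symm) m').symm) m
  refine ⟨K, i1, i2, i3, ⟨{
    e := fun l a b => cw2L (X.ε l) (star (U l) * cw2A a b * U l)
    f := fun l a b => cw2L (X.ε l) (star (U l) * cw2B a b * U l)
    eU := fun l => cworld2_units (X.εU l) (hU l) cworld2_A.1
    fU := fun l => cworld2_units (X.εU l) (hU l) cworld2_B.1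
    e1 := fun l => cworld2_sum (X.ε1 l) (hU l) cworld2_A.2
    f1 := fun l => cworld2_sum (X.ε1 l) (hU l) cworld2_B.2
    ee := fun l l' h _ _ _ _ => hc l l' h _ _
    ff := fun l l' h _ _ _ _ => hc l l' h _ _
    ef := fun l l' a b c d => ?_
    π := X.π
    V := X.V
    iso := X.iso
    πV := X.πV
    πe := fun x l _ _ => cworld2_comm (X.πε x l) _
    πf := fun x l _ _ => cworld2_comm (X.πε x l) _
    rel := fun ξ l _ a b => ?_
    nor := X.nor }⟩⟩
  · by_cases h : l = l'
    · subst h
      rw [← cworld2_mul (X.εU l), ← cworld2_mul (X.εU l), cworld2_conj (hU l), cworld2_conj (hU l),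
        cworld2_AB]
    · exact hc l l' h _ _
  · change √(l.2.ρ a) • cw2L (X.ε l) _ _ = √(l.2.ρ b) • cw2L (X.ε l) _ _
    have e : ∀ (r : ℝ) (m : Matrix (l.I × l.I) (l.I × l.I) ℂ),
        r • cw2L (X.ε l) m (X.V ξ) = cw2L (X.ε l) ((r : ℂ) • m) (X.V ξ) := fun r m => by
      rw [map_smul]
      rfl
    rw [e, e]
    refine cworld2_vec (fun p q hq => X.εV l p q ξ hq) fun p => ?_
    rw [mul_assoc, mul_assoc, ← mul_smul_comm _ (star (U l)), ← mul_smul_comm _ (star (U l)),
      Matrix.mul_apply, Matrix.mul_apply]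
    refine Finset.sum_congr rfl fun q _ => congrArg _ ?_
    rw [Matrix.smul_apply, Matrix.smul_apply, Matrix.mul_apply, Matrix.mul_apply]
    simp only [hz]
    exact cworld2_rel (fun c => (√(l.2.ρ c) : ℂ)) a b q

end Vale.Agent.P096
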