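import Vale.Agent.P096.COut
import Vale.Agent.P096.CWorld2

/-!
# P096 C: lifting for the tests attached to one vector
`exists_world`, `World.out` with `ε₁`, `cl_sub`, the hypothesis gives `p`, `Φ₁`. `Φ x = V* Φ₁ (π x) V` (`slice_mem`, `mem_sub`, `π_mem`). `V* (π x) V = x`, `V (a ζ) = π a (V ζ)`, so with `y j = π (x j) - Φ₁ (π (x j))`, `‖y j‖ ≤ 3`,
the sum is `∑ <π (b j) η, y j (π (a j) η)>`, `η = V ζ`. `π (a j)`, `π (b j)` commute with `p` (`π_mem_comm`), `‖η - p η‖ ≤ 2 ε₁`, `Col (π ∘ a) 1` (`gram (π ∘ a) = π (gram a)`, `norm_π`). Write `η = p η + (η - p η)` and use Cauchy-Schwarz.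
-/

namespace Vale.Agent.P096

open Vale.Agent.P104 Vale.Agent.P132 Filter Topology
open scoped InnerProductSpace

universe u

section

variable {H : Type*} [NormedAddCommGroup H] [InnerProductSpace ℂ H] [CompleteSpace H]
  {K : Type*} [NormedAddCommGroup K] [InnerProductSpace ℂ K] [CompleteSpace K]
  {ι : Type*} [Fintype ι]

omit [CompleteSpace K] in
theorem cloc_cs {A B y : ι → Op K} (hA : Col A 1) (hB : Col B 1) {C : ℝ} (hC : 0 ≤ C)
    (hy : ∀ j, ‖y j‖ ≤ C) (u v : K) : ‖∑ j, ⟪B j u, y j (A j v)⟫_ℂ‖ ≤ C * ‖u‖ * ‖v‖ := by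
  have h1 := hB u
  have h2 := hA v
  rw [one_mul] at h1 h2
  have h3 : (l2 fun j => y j (A j v)) ≤ C * ‖v‖ :=
    (l2_le_mul hC fun j => ((y j).le_opNorm _).trans
      (mul_le_mul_of_nonneg_right (hy j) (norm_nonneg _))).trans (mul_le_mul_of_nonneg_left h2 hC)
  refine (norm_sum_inner_le _ _).trans ((mul_le_mul h1 h3 (l2_nonneg _) (norm_nonneg _)).trans_eq ?_)
  ring

theorem cloc_est {A B y : ι → Op K} (hA : Col A 1) (hB : Col B 1) {p : Op K}
    (hp : IsStarProjection p) (hpA : ∀ j, A j * p = p * A j) (hpB : ∀ j, B j * p = p * B j)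
    {ε : ℝ} (hε : 0 ≤ ε) (hy : ∀ j, ‖y j‖ ≤ 3) (hyp : ∀ j, ‖p * y j * p‖ ≤ ε) {η : K}
    (hη : ‖η‖ = 1) (hr : ‖η - p η‖ ≤ 2 * ε) : ‖∑ j, ⟪B j η, y j (A j η)⟫_ℂ‖ ≤ 13 * ε := by
  have e1 : ∑ j, ⟪B j η, y j (A j η)⟫_ℂ = ∑ j, ⟪B j (η - p η), y j (A j η)⟫_ℂ +
      ∑ j, ⟪B j (p η), y j (A j (η - p η))⟫_ℂ + ∑ j, ⟪B j η, (p * y j * p) (A j η)⟫_ℂ := by
    rw [← Finset.sum_add_distrib, ← Finset.sum_add_distrib]
    refine Finset.sum_congr rfl fun j _ => ?_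
    have e2 : ⟪B j η, (p * y j * p) (A j η)⟫_ℂ = ⟪B j (p η), y j (A j (p η))⟫_ℂ := by
      rw [← mul_apply_eq_comp (B j) p, ← mul_apply_eq_comp (A j) p, hpA, hpB, mul_apply_eq_comp,
        mul_apply_eq_comp, mul_apply_eq_comp, mul_apply_eq_comp, ← inner_star_right p,
        hp.isSelfAdjoint.star_eq]
    simp only [e2, map_sub, inner_sub_left, inner_sub_right]
    ring
  have h1 := cloc_cs hA hB (by norm_num) hy (η - p η) η
  have h2 := cloc_cs hA hB (by norm_num) hy (p η) (η - p η)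
  have h3 := cloc_cs hA hB hε hyp η η
  have h4 : ‖p η‖ ≤ 1 := ((PIso.of_proj hp).norm_apply_le η).trans_eq hη
  have h5 : 3 * ‖p η‖ * ‖η - p η‖ ≤ 3 * 1 * (2 * ε) := by gcongr
  rw [hη] at h1 h3
  rw [e1]
  have := norm_add₃_le.trans (add_le_add (add_le_add h1 h2) h3)
  linarith

theorem cloc_col (X : World H K) {a : ι → Op H} (ha : Col a 1) : Col (fun j => X.π (a j)) 1 := by
  intro ζ
  have e1 : gram (fun j => X.π (a j)) = X.π (gram a) := by
    simp only [gram, map_sum, map_mul, map_star]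
  refine (sq_le_sq₀ (l2_nonneg _) (by positivity)).1 ?_
  rw [← qf_gram, e1, mul_pow]
  refine (le_abs_self _).trans ((abs_qf_le _ _).trans ?_)
  rw [X.norm_π]
  exact mul_le_mul_of_nonneg_right (ha.norm_gram zero_le_one) (sq_nonneg _)

theorem cloc_norm (X : World H K) (y : Op K) : ‖X.V.adjoint ∘L y ∘L X.V‖ ≤ ‖y‖ := by
  have h1 : ‖X.V‖ ≤ 1 :=
    ContinuousLinearMap.opNorm_le_bound _ zero_le_one fun ξ => by rw [X.norm_V, one_mul]
  have h2 : ‖X.V.adjoint‖ ≤ 1 := by rwa [LinearIsometryEquiv.norm_map]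
  calc _ ≤ ‖X.V.adjoint‖ * (‖y‖ * ‖X.V‖) := (ContinuousLinearMap.opNorm_comp_le _ _).trans
        (mul_le_mul_of_nonneg_left (ContinuousLinearMap.opNorm_comp_le _ _) (norm_nonneg _))
    _ ≤ 1 * (‖y‖ * 1) := by gcongr
    _ = ‖y‖ := by ring

end

theorem loc (h : PSLStmt.{u}) : LocStmt.{u} := by
  intro ε hε
  obtain ⟨δ, hδ, h1⟩ := h (ε / 13) (by positivity)
  refine ⟨δ / 10 ^ 8, by positivity, fun H _ _ _ D N ζ hD hζ hcl => ?_⟩
  obtain ⟨K, _, _, _, ⟨X⟩⟩ := exists_world H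
  obtain ⟨S, Ξ, hΞ, hΞV, ⟨P⟩⟩ := X.out hD hζ (ε := ε / 13) (by positivity)
  have h2 := X.cl_sub hcl (by positivity) S
  rw [mul_div_cancel₀ _ (by positivity)] at h2
  obtain ⟨p, Φ, hp, hpN, hpΞ, hΦ⟩ := h1 K _ _ Ξ hΞ P h2
  let Ψ : Op H →ₗ[ℂ] Op H :=
    { toFun := fun x => X.V.adjoint ∘L Φ (X.π x) ∘L X.V
      map_add' := fun x y => by
        simp only [map_add, ContinuousLinearMap.add_comp, ContinuousLinearMap.comp_add]
      map_smul' := fun c x => by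
        simp only [map_smul, ContinuousLinearMap.smul_comp, ContinuousLinearMap.comp_smul,
          RingHom.id_apply] }
  refine ⟨Ψ, fun x hx => ⟨X.slice_mem (Legs.mem_sub.1 (hΦ _ (X.π_mem hx S)).1).1, ?_⟩,
    fun ι _ x a b hx hx1 ha hb hca hcb => ?_⟩
  · rw [← X.norm_π x]
    exact (cloc_norm X _).trans (hΦ _ (X.π_mem hx S)).2.1
  · have e1 : ∀ j, ⟪b j ζ, (x j - Ψ (x j)) (a j ζ)⟫_ℂ =
        ⟪X.π (b j) (X.V ζ), (X.π (x j) - Φ (X.π (x j))) (X.π (a j) (X.V ζ))⟫_ℂ := fun j => by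
      rw [X.πV, X.πV, ← ContinuousLinearMap.adjoint_inner_right X.V, sub_apply, sub_apply, map_sub,
        X.πV, X.iso]
      rfl
    have hn : ∀ j, ‖X.π (x j)‖ ≤ 1 := fun j => (X.norm_π _).trans_le (hx1 j)
    have hpN' := (Legs.mem_sub.1 hpN).1
    simp only [e1]
    refine (cloc_est (cloc_col X hca) (cloc_col X hcb) hp
      (fun j => comm_of_mem (X.π_mem_comm (ha j)) hpN')
      (fun j => comm_of_mem (X.π_mem_comm (hb j)) hpN') (ε := ε / 13) (by positivity)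
      (fun j => ?_) (fun j => ?_) ((X.norm_V ζ).trans hζ) ?_).trans_eq (by ring)
    · have := (norm_sub_le _ _).trans (add_le_add (hn j) (hΦ _ (X.π_mem (hx j) S)).2.1)
      linarith [hn j]
    · exact (hΦ _ (X.π_mem (hx j) S)).2.2.trans (mul_le_of_le_one_right (by positivity) (hn j))
    · have e2 : X.V ζ - p (X.V ζ) = Ξ - p Ξ - (1 - p) (Ξ - X.V ζ) := by
        simp only [sub_apply, one_apply_eq_self, map_sub]
        abel
      have h3 := (PIso.of_proj hp.one_sub).norm_apply_le (Ξ - X.V ζ)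
      rw [e2]
      have := (norm_sub_le _ _).trans (add_le_add hpΞ (h3.trans hΞV))
      linarith

end Vale.Agent.P096
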