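import Vale.Agent.P096.CDefs
import Vale.Agent.P104.Kapl

/-!
# P096 C: reduction to countably generated algebras
Choose `φ : Op H → Op H` with `φ x ∈ N`, `‖x - φ x‖ ≤ δ ‖x‖` on `M`, and `ψ` for `N`. For a finite `F ⊆ M` build countable `A₀ ⊆ M`, `B₀ ⊆ N` with `F ⊆ A₀`, closed under `+`, `*`, `star`, `1`, scalars in `ℚ + i ℚ`, `φ A₀ ⊆ B₀`, `ψ B₀ ⊆ A₀`
(increasing unions of countable sets; or a countable type of terms with two evaluations). `A = closure A₀` is a closed star subalgebra (`StarAlgebra.elemental`-free: build the `StarSubalgebra` with carrier `closure A₀`).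
`csep_ni`: `s ∈ vnComm B₀` satisfies `‖[s, a]‖ ≤ 2 δ ‖s‖ ‖a‖` on `A₀`, so on `A`; `kaplansky` for the inclusion of `A` gives it (factor 8) on `M₀ = (vnComm A₀).commutant`; `near_of_comm'` gives `NI M₀ N₀`, `N₀ = (vnComm B₀).commutant ≤ N`.
`cl_of_ni`, the hypothesis gives `Φ_F`. Limit by `exists_W` along `Ultrafilter.of atTop` on `Finset M`; `lift_of_fun`.
-/

namespace Vale.Agent.P096

open Vale.Agent.P104 Vale.Agent.P132 Filter Topology
open scoped InnerProductSpace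

universe u

section

variable {H : Type*} [NormedAddCommGroup H] [InnerProductSpace ℂ H] [CompleteSpace H]

theorem csep_closure {α : Type*} [Monoid α] {D : Set α} (hD : D.Countable) :
    (Submonoid.closure D : Set α).Countable := by
  have := hD.to_subtype
  refine (Set.countable_range fun l : List D => (l.map Subtype.val).prod).mono fun x hx => ?_
  obtain ⟨l, hl, rfl⟩ := Submonoid.exists_list_of_mem_closure hx
  exact ⟨l.pmap Subtype.mk hl, by simp [List.map_pmap]⟩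

theorem csep_dense (D : Set (Op H)) (hD : D.Countable) : ∃ c : Set (Op H), c.Countable ∧
    c ⊆ StarAlgebra.adjoin ℂ D ∧ (StarAlgebra.adjoin ℂ D : Set (Op H)) ⊆ closure c := by
  have h1 : (D ∪ star D).Countable := hD.union (by
    rw [← Set.image_star]; exact hD.image _)
  have h2 := (csep_closure h1).isSeparable.span (R := ℂ)
  rw [← Algebra.adjoin_eq_span, ← StarAlgebra.adjoin_toSubalgebra] at h2
  obtain ⟨c, h3, h4, h5⟩ := h2.exists_countable_dense_subset
  exact ⟨c, h4, h3, h5⟩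

theorem csep_le {D : Set (Op H)} {M : VonNeumannAlgebra H} (h : D ⊆ M) {x : Op H}
    (hx : x ∈ (vnComm D).commutant) : x ∈ M :=
  (mem_iff_comm M).2 fun _ hs => (comm_of_mem hx (mem_vnComm.2 fun _ hd =>
    ⟨(comm_of_mem hs (h hd)).symm, (comm_of_mem hs (star_mem (h hd))).symm⟩)).symm

theorem csep_ni {A B : Set (Op H)} {δ : ℝ} (hδ : 0 ≤ δ)
    (h : (StarAlgebra.adjoin ℂ A : Set (Op H)) ⊆ closure {a | ∃ b ∈ B, ‖a - b‖ ≤ δ * ‖a‖}) :
    NI (vnComm A).commutant (vnComm B).commutant (1280 * δ) := by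
  intro y hy
  have key : ∀ s ∈ vnComm B, ‖y * s - s * y‖ ≤ 16 * δ * ‖y‖ * ‖s‖ := fun s hs => by
    have hc : IsClosed {x : Op H | ‖s * x - x * s‖ ≤ 2 * δ * ‖s‖ * ‖x‖} :=
      isClosed_le (by fun_prop) (by fun_prop)
    have h1 : (StarAlgebra.adjoin ℂ A : Set (Op H)) ⊆ _ := h.trans (closure_minimal (by
      rintro a ⟨b, hb, hab⟩
      have e : s * a - a * s = s * (a - b) - (a - b) * s := by
        rw [mul_sub, sub_mul, (mem_vnComm.1 hs b hb).1]; abel
      have a1 := (norm_mul_le s (a - b)).trans (mul_le_mul_of_nonneg_left hab (norm_nonneg s))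
      have a2 := (norm_mul_le (a - b) s).trans (mul_le_mul_of_nonneg_right hab (norm_nonneg s))
      change ‖s * a - a * s‖ ≤ _
      rw [e]
      linarith [norm_sub_le (s * (a - b)) ((a - b) * s)]) hc)
    have := StarSubalgebra.isClosed_topologicalClosure (StarAlgebra.adjoin ℂ A)
    have h2 := kaplansky (StarAlgebra.adjoin ℂ A).topologicalClosure.subtype s
      (c := 2 * δ * ‖s‖) (by positivity) (fun a => closure_minimal h1 hc a.2) y
      (VonNeumannAlgebra.mem_commutant_iff.2 fun t ht =>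
        VonNeumannAlgebra.mem_commutant_iff.1 hy t (mem_vnComm.2 fun d hd =>
          mem_vnComm.1 ht d ⟨⟨d, StarSubalgebra.le_topologicalClosure _
            (StarAlgebra.subset_adjoin ℂ A hd)⟩, rfl⟩))
    rw [norm_sub_rev]
    linarith
  obtain ⟨b, hb, h1⟩ := near_of_comm' (M := (vnComm B).commutant) (T := y) (c := 16 * δ * ‖y‖)
    (by positivity) fun s hs => key s (by simpa using hs)
  exact ⟨b, hb, by linarith⟩

theorem csep_union {a : ℕ → Set (Op H)} (ha : Monotone a) {x : Op H}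
    (hx : x ∈ StarAlgebra.adjoin ℂ (⋃ n, a n)) : ∃ n, x ∈ StarAlgebra.adjoin ℂ (a n) := by
  have hm : ∀ {n m : ℕ} {x : Op H}, n ≤ m → x ∈ StarAlgebra.adjoin ℂ (a n) →
      x ∈ StarAlgebra.adjoin ℂ (a m) := fun h hx => StarAlgebra.adjoin_mono (ha h) hx
  induction hx using StarAlgebra.adjoin_induction with
  | mem x hx =>
    obtain ⟨n, hn⟩ := Set.mem_iUnion.1 hx
    exact ⟨n, StarAlgebra.subset_adjoin ℂ _ hn⟩
  | algebraMap r => exact ⟨0, algebraMap_mem _ r⟩
  | add x y _ _ hx hy =>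
    obtain ⟨n, hn⟩ := hx
    obtain ⟨m, hm'⟩ := hy
    exact ⟨max n m, add_mem (hm (le_max_left _ _) hn) (hm (le_max_right _ _) hm')⟩
  | mul x y _ _ hx hy =>
    obtain ⟨n, hn⟩ := hx
    obtain ⟨m, hm'⟩ := hy
    exact ⟨max n m, mul_mem (hm (le_max_left _ _) hn) (hm (le_max_right _ _) hm')⟩
  | star x _ hx => exact hx.imp fun n hn => star_mem hn

theorem csep_pair {M N : VonNeumannAlgebra H} {δ : ℝ} (hδ : 0 ≤ δ) (h : NI M N δ) (h' : NI N M δ)
    {F : Set (Op H)} (hF : F.Countable) (hFM : F ⊆ M) :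
    ∃ A B : Set (Op H), A.Countable ∧ F ⊆ A ∧ B ⊆ N ∧
      NI (vnComm A).commutant (vnComm B).commutant (1280 * δ) ∧
      NI (vnComm B).commutant (vnComm A).commutant (1280 * δ) := by
  choose! φ hφ hφ' using h
  choose! ψ hψ hψ' using h'
  choose! dn d1 d2 d3 using csep_dense (H := H)
  let P : ℕ → Set (Op H) × Set (Op H) := fun n =>
    Nat.rec (F, ∅) (fun _ p => (p.1 ∪ ψ '' dn p.2, p.2 ∪ φ '' dn p.1)) n
  have P1 : ∀ n, (P (n + 1)).1 = (P n).1 ∪ ψ '' dn (P n).2 := fun _ => rfl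
  have P2 : ∀ n, (P (n + 1)).2 = (P n).2 ∪ φ '' dn (P n).1 := fun _ => rfl
  have sub : ∀ {D : Set (Op H)} {R : VonNeumannAlgebra H}, D.Countable → D ⊆ R → dn D ⊆ R :=
    fun {D R} hD hR x hx => StarAlgebra.adjoin_le (S := R.toStarSubalgebra) hR (d2 D hD hx)
  have inv : ∀ n, ((P n).1.Countable ∧ (P n).1 ⊆ M) ∧ (P n).2.Countable ∧ (P n).2 ⊆ N := by
    intro n
    induction n with
    | zero => exact ⟨⟨hF, hFM⟩, Set.countable_empty, Set.empty_subset _⟩
    | succ n ih =>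
      rw [P1, P2]
      refine ⟨⟨ih.1.1.union ((d1 _ ih.2.1).image _), Set.union_subset ih.1.2 ?_⟩,
        ih.2.1.union ((d1 _ ih.1.1).image _), Set.union_subset ih.2.2 ?_⟩
      · rintro _ ⟨x, hx, rfl⟩
        exact hψ x (sub ih.2.1 ih.2.2 hx)
      · rintro _ ⟨x, hx, rfl⟩
        exact hφ x (sub ih.1.1 ih.1.2 hx)
  have m1 : Monotone fun n => (P n).1 :=
    monotone_nat_of_le_succ fun n => by rw [P1]; exact Set.subset_union_left
  have m2 : Monotone fun n => (P n).2 :=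
    monotone_nat_of_le_succ fun n => by rw [P2]; exact Set.subset_union_left
  refine ⟨⋃ n, (P n).1, ⋃ n, (P n).2, Set.countable_iUnion fun n => (inv n).1.1,
    Set.subset_iUnion (fun n => (P n).1) 0, Set.iUnion_subset fun n => (inv n).2.2,
    csep_ni hδ fun x hx => ?_, csep_ni hδ fun x hx => ?_⟩
  · obtain ⟨n, hn⟩ := csep_union m1 hx
    refine closure_mono (fun a ha => ?_) (d3 _ (inv n).1.1 hn)
    exact ⟨φ a, Set.mem_iUnion.2 ⟨n + 1, Or.inr ⟨a, ha, rfl⟩⟩,
      hφ' a (sub (inv n).1.1 (inv n).1.2 ha)⟩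
  · obtain ⟨n, hn⟩ := csep_union m2 hx
    refine closure_mono (fun a ha => ?_) (d3 _ (inv n).2.1 hn)
    exact ⟨ψ a, Set.mem_iUnion.2 ⟨n + 1, Or.inr ⟨a, ha, rfl⟩⟩,
      hψ' a (sub (inv n).2.1 (inv n).2.2 ha)⟩

end

theorem sep (h : SepStmt.{u}) : LLStmt.{u} := by
  classical
  intro ε hε
  obtain ⟨δ, hδ, h⟩ := h ε hε
  refine ⟨δ / 160 / 1280, by positivity, fun H _ _ _ M N h1 h2 => ?_⟩
  have key : ∀ F : Finset (Op H), ∃ Φ : Op H →ₗ[ℂ] Op H,
      ∀ x ∈ M, x ∈ F → Φ x ∈ N ∧ ‖Φ x - x‖ ≤ ε * ‖x‖ := fun F => by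
    obtain ⟨A, B, hA, hF, hB, n1, n2⟩ := csep_pair (by positivity) h1 h2
      (F := (F : Set (Op H)) ∩ M) (F.countable_toSet.mono Set.inter_subset_left)
      Set.inter_subset_right
    have h3 := cl_of_ni n1 n2 (by positivity)
    rw [show 160 * (1280 * (δ / 160 / 1280)) = δ by ring] at h3
    obtain ⟨Φ, hΦ⟩ := h H A _ hA h3
    refine ⟨Φ, fun x hx hxF => ?_⟩
    obtain ⟨h4, h5⟩ := hΦ x (VonNeumannAlgebra.mem_commutant_iff.2 fun s hs =>
      (mem_vnComm.1 hs x (hF ⟨hxF, hx⟩)).1.symm)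
    exact ⟨csep_le hB h4, h5⟩
  choose Φ hΦ using key
  let U : Ultrafilter (Finset (Op H)) := Ultrafilter.of atTop
  have ev : ∀ x ∈ M, ∀ᶠ F in (U : Filter (Finset (Op H))), Φ F x ∈ N ∧ ‖Φ F x - x‖ ≤ ε * ‖x‖ :=
    fun x hx => ((eventually_ge_atTop ({x} : Finset (Op H))).filter_mono
      (Ultrafilter.of_le atTop)).mono
      fun F hF => hΦ F x hx (hF (Finset.mem_singleton_self x))
  have lim : ∀ x ∈ M, ∃ L, W U (fun F => Φ F x) L := fun x hx =>
    exists_W U _ (C := ε * ‖x‖ + ‖x‖) ((ev x hx).mono fun F hF => by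
      linarith [norm_add_le (Φ F x - x) x, congrArg norm (sub_add_cancel (Φ F x) x), hF.2])
  choose! Ψ hΨ using lim
  refine lift_of_fun Ψ (fun x hx y hy => (hΨ _ (add_mem hx hy)).unique ?_)
    (fun c x hx => (hΨ _ (SMulMemClass.smul_mem c hx)).unique ?_) fun x hx =>
      ⟨(hΨ x hx).mem ((ev x hx).mono fun _ h => h.1),
        ((hΨ x hx).sub (W.const x)).norm_le ((ev x hx).mono fun _ h => h.2)⟩
  · simpa only [map_add] using (hΨ x hx).add (hΨ y hy)
  · simpa only [map_smul] using (hΨ x hx).smul c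

end Vale.Agent.P096
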