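import Vale.Agent.P096.CPs
import Vale.Agent.P096.CLoc
import Vale.Agent.P096.CHb
import Vale.Agent.P096.CSep

/-! P096 part C (notes/P096F.md, section C): assembly. -/

namespace Vale.Agent.P096

universe u

theorem partC (hW : LWStmt.{u}) : LLStmt.{u} := sep (hb (loc (psl hW)))

end Vale.Agent.P096
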