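import Vale.Agent.P096.CLeg
import Vale.Agent.P104.Kapl

/-!
# P096 C: the amplified algebras
* `mem_alg_comm`: the commutant of `alg M` is `vnComm` of the generators (`commutant_commutant`, `mem_vnComm`).
* `la`: a central projection of `sub (alg M) S` commutes with `π M`, `e (S)` (members of `sub`) and with `e (Sᶜ)`.
* `ni_comm`: `T ∈ (alg N)'` almost commutes with `π M` (`2 δ ‖T‖`). `kaplansky` for the C*-algebra `M.toStarSubalgebra` (closed: `vn_isClosed`) and `ρ = π ∘ subtype`, `near_of_comm`: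
  `T₁ ∈ vnComm (range ρ)`, an algebra which contains the `e l a b`. `Legs.avg` with `S = ∅`.
* `cl_sub`: `NI.commutant` gives `NI (alg M) (alg N)`; `Legs.avg` gives `NI (sub ..) (sub ..)`; `cl_of_ni`.
* `slice_mem`: `V* y V` commutes with `N'` because `π s ∈ (alg N)'`, `π s V = V s`, `V* π s = s V*`.
-/

namespace Vale.Agent.P096

open Vale.Agent.P104 Vale.Agent.P132 Filter Topology
open scoped InnerProductSpace

variable {H : Type*} [NormedAddCommGroup H] [InnerProductSpace ℂ H] [CompleteSpace H]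
  {K : Type*} [NormedAddCommGroup K] [InnerProductSpace ℂ K] [CompleteSpace K]

namespace World

variable (X : World H K) {M N : VonNeumannAlgebra H} {δ : ℝ}

theorem mem_alg_comm {T : Op K} : T ∈ (X.alg M).commutant ↔
    (∀ x ∈ M, X.π x * T = T * X.π x) ∧ X.Ce ∅ T := by
  rw [alg, VonNeumannAlgebra.commutant_commutant, mem_vnComm]
  refine ⟨fun h => ⟨fun x hx => (h _ (Or.inl ⟨x, hx, rfl⟩)).1,
    fun l _ a b => (h _ (Or.inr ⟨l, trivial, a, b, rfl⟩)).1⟩, ?_⟩
  rintro ⟨h1, h2⟩ _ (⟨x, hx, rfl⟩ | ⟨l, -, a, b, rfl⟩)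
  · exact ⟨h1 x hx, by rw [← map_star]; exact h1 _ (star_mem hx)⟩
  · exact ⟨h2 l id a b, by rw [(X.eU l).star_eq]; exact h2 l id b a⟩

theorem π_mem {x : Op H} (hx : x ∈ M) (S : Set Leg) : X.π x ∈ X.sub (X.alg M) S := by
  exact Legs.mem_sub.2 ⟨(mem_iff_comm _).2 fun s hs => ((X.mem_alg_comm.1 hs).1 x hx).symm,
    fun l _ a b => X.πe x l a b⟩

theorem π_mem_comm {s : Op H} (hs : s ∈ M.commutant) : X.π s ∈ (X.alg M).commutant := by
  exact X.mem_alg_comm.2 ⟨fun x hx => by rw [← map_mul, ← map_mul, comm_of_mem hs hx],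
    fun l _ a b => X.πe s l a b⟩

theorem e_mem {S : Set Leg} {y : Op K} (hy : y ∈ X.es S) : y ∈ X.sub (X.alg M) S := by
  obtain ⟨l, hl, a, b, rfl⟩ := hy
  exact Legs.mem_sub.2 ⟨(mem_iff_comm _).2 fun s hs => ((X.mem_alg_comm.1 hs).2 l id a b).symm,
    fun l' hl' c d => X.ee l' l (fun h => hl' (h ▸ hl)) c d a b⟩

theorem la (M : VonNeumannAlgebra H) : X.LA (X.alg M) := by
  refine ⟨fun l a b => (Legs.mem_sub.1 (X.e_mem (S := Set.univ) ⟨l, trivial, a, b, rfl⟩)).1,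
    fun l a b => X.mem_alg_comm.2 ⟨fun x _ => (X.πf x l a b).symm, fun l' _ c d => X.ef l' l c d a b⟩,
    fun S z hz => X.mem_alg_comm.2 ⟨fun x hx => (hz.comm (X.π_mem hx S)).symm, fun l _ a b => ?_⟩⟩
  by_cases hl : l ∈ S
  · exact (hz.comm (X.e_mem ⟨l, hl, a, b, rfl⟩)).symm
  · exact (Legs.mem_sub.1 hz.mem).2 l hl a b

theorem norm_V (ξ : H) : ‖X.V ξ‖ = ‖ξ‖ := by
  have e : ⟪X.V ξ, X.V ξ⟫_ℂ = ⟪ξ, ξ⟫_ℂ := by
    rw [← ContinuousLinearMap.adjoint_inner_right, X.iso]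
  rw [@norm_eq_sqrt_re_inner ℂ, e, ← @norm_eq_sqrt_re_inner ℂ]

theorem norm_π (x : Op H) : ‖X.π x‖ = ‖x‖ := by
  refine le_antisymm (NonUnitalStarAlgHom.norm_apply_le X.π x)
    (ContinuousLinearMap.opNorm_le_bound _ (norm_nonneg _) fun ξ => ?_)
  rw [← X.norm_V, ← X.πV, ← X.norm_V ξ]
  exact (X.π x).le_opNorm _

theorem ni_comm (h : NI M N δ) (hδ : 0 ≤ δ) :
    NI (X.alg N).commutant (X.alg M).commutant (1280 * δ) := by
  intro T hT
  obtain ⟨h1, h2⟩ := X.mem_alg_comm.1 hT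
  have hcl : IsClosed (M.toStarSubalgebra : Set (Op H)) := vn_isClosed M
  set ρ : M.toStarSubalgebra →⋆ₐ[ℂ] Op K := X.π.comp M.toStarSubalgebra.subtype with hρ
  have hk := kaplansky ρ T (c := 2 * δ * ‖T‖) (by positivity) fun a => by
    obtain ⟨y, hy, hay⟩ := h a.1 a.2
    have e : T * ρ a - ρ a * T = T * X.π (a.1 - y) - X.π (a.1 - y) * T := by
      rw [map_sub, mul_sub, sub_mul, h1 y hy]
      exact (sub_sub_sub_cancel_right _ _ _).symm
    have e1 := norm_mul_le T (X.π (a.1 - y))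
    have e2 := norm_mul_le (X.π (a.1 - y)) T
    have e3 := mul_le_mul_of_nonneg_left hay (norm_nonneg T)
    rw [X.norm_π] at e1 e2
    rw [e]
    refine (norm_sub_le _ _).trans ?_
    change _ ≤ 2 * δ * ‖T‖ * ‖a.1‖
    linarith
  obtain ⟨b, hb, hTb⟩ := near_of_comm (by positivity) hk
  rw [VonNeumannAlgebra.commutant_commutant] at hb
  obtain ⟨T₂, a1, a2, a3⟩ := Legs.avg (Λ := X.toLegs) (S := ∅) (fun l a c => mem_vnComm.2 (by
    rintro _ ⟨x, rfl⟩
    exact ⟨(X.πe x.1 l a c).symm, by rw [← map_star]; exact (X.πe (star x).1 l a c).symm⟩)) hb h2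
  refine ⟨T₂, X.mem_alg_comm.2 ⟨fun x hx => (mem_vnComm.1 a1 _ ⟨⟨x, hx⟩, rfl⟩).1, a2⟩, ?_⟩
  linarith

theorem cl_sub (h : Cl M N δ) (hδ : 0 ≤ δ) (S : Set Leg) :
    Cl (X.sub (X.alg M) S) (X.sub (X.alg N) S) (10 ^ 8 * δ) := by
  have key : ∀ {M N : VonNeumannAlgebra H}, NI M N δ →
      NI (X.sub (X.alg M) S) (X.sub (X.alg N) S) (160 * (1280 * δ)) := fun {M N} h x hx => by
    have h1 := (X.ni_comm h hδ).commutant (by positivity)
    rw [VonNeumannAlgebra.commutant_commutant, VonNeumannAlgebra.commutant_commutant] at h1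
    obtain ⟨hx1, hx2⟩ := Legs.mem_sub.1 hx
    obtain ⟨y, hy, hxy⟩ := h1 x hx1
    obtain ⟨y', a1, a2, a3⟩ := Legs.avg (X.la N).eA hy hx2
    exact ⟨y', Legs.mem_sub.2 ⟨a1, a2⟩, a3.trans hxy⟩
  exact (cl_of_ni (key h.mn) (key h.nm) (by positivity)).mono (by linarith)

theorem slice_mem {y : Op K} (hy : y ∈ X.alg N) : X.V.adjoint ∘L y ∘L X.V ∈ N := by
  refine (mem_iff_comm N).2 fun s hs => ?_
  ext ξ
  have e1 : ∀ η, X.V.adjoint (X.π s η) = s (X.V.adjoint η) := fun η =>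
    ext_inner_left ℂ fun ζ => by
      rw [ContinuousLinearMap.adjoint_inner_right, ← inner_star_left, ← map_star, X.πV,
        ← ContinuousLinearMap.adjoint_inner_right, inner_star_left]
  have e2 : X.π s (y (X.V ξ)) = y (X.π s (X.V ξ)) :=
    DFunLike.congr_fun (comm_of_mem (X.π_mem_comm hs) hy) (X.V ξ)
  change s (X.V.adjoint (y (X.V ξ))) = X.V.adjoint (y (X.V (s ξ)))
  rw [← e1, e2, X.πV]

theorem wd_mem {D : Set (Op H)} {S : Set Leg} {w : Op K} (hw : w ∈ X.wd D S) :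
    w ∈ X.sub (X.alg (vnComm D).commutant) S ∧ star w ∈ X.wd D S := by
  induction hw using Submonoid.closure_induction with
  | mem w hw =>
    rcases hw with ⟨d, hd, rfl⟩ | ⟨l, hl, a, b, rfl⟩
    · refine ⟨X.π_mem (VonNeumannAlgebra.mem_commutant_iff.2 fun g hg => ?_) S,
        Submonoid.subset_closure (Or.inl ⟨star d, ?_, map_star _ _⟩)⟩
      · rcases hd with hd | hd
        · exact (mem_vnComm.1 hg d hd).1.symm
        · simpa using (mem_vnComm.1 hg _ hd).2.symm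
      · rcases hd with hd | hd
        · exact Or.inr (by simpa using hd)
        · exact Or.inl hd
    · exact ⟨X.e_mem ⟨l, hl, a, b, rfl⟩,
        Submonoid.subset_closure (Or.inr ⟨l, hl, b, a, (X.eU l).star_eq a b⟩)⟩
  | one => exact ⟨one_mem _, by rw [star_one]; exact one_mem _⟩
  | mul x y _ _ hx hy => exact ⟨mul_mem hx.1 hy.1, by rw [star_mul]; exact mul_mem hy.2 hx.2⟩

theorem gen_mem {D : Set (Op H)} {S : Set Leg} {y : Op K} (hy : y ∈ X.gen D S) :
    y ∈ X.sub (X.alg (vnComm D).commutant) S ∧ IsSelfAdjoint y := by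
  obtain ⟨w, hw, rfl | rfl⟩ := hy
  · exact ⟨add_mem (X.wd_mem hw).1 (star_mem (X.wd_mem hw).1), IsSelfAdjoint.add_star_self w⟩
  · refine ⟨SMulMemClass.smul_mem _ (sub_mem (X.wd_mem hw).1 (star_mem (X.wd_mem hw).1)), ?_⟩
    rw [IsSelfAdjoint, star_smul, star_sub, star_star, Complex.star_def, Complex.conj_I, neg_smul,
      ← smul_neg, neg_sub]

theorem gen_countable {D : Set (Op H)} (hD : D.Countable) {S : Set Leg} (hS : S.Countable) :
    (X.gen D S).Countable := by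
  have h1 : (X.π '' (D ∪ star D) ∪ X.es S).Countable := by
    refine ((hD.union (hD.preimage_of_injOn star_injective.injOn)).image _).union ?_
    refine (hS.biUnion fun l _ => Set.countable_range fun p : l.I × l.I => X.e l p.1 p.2).mono ?_
    rintro _ ⟨l, hl, a, b, rfl⟩
    exact Set.mem_biUnion hl ⟨(a, b), rfl⟩
  have h2 : (X.wd D S : Set (Op K)).Countable := by
    have := h1.to_subtype
    refine (Set.countable_range fun L : List ↥(X.π '' (D ∪ star D) ∪ X.es S) =>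
      (L.map Subtype.val).prod).mono fun w hw => ?_
    induction hw using Submonoid.closure_induction with
    | mem w hw => exact ⟨[⟨w, hw⟩], by simp⟩
    | one => exact ⟨[], rfl⟩
    | mul x y _ _ hx hy =>
      obtain ⟨L, rfl⟩ := hx
      obtain ⟨L', rfl⟩ := hy
      exact ⟨L ++ L', by simp⟩
  refine ((h2.image fun w => w + star w).union (h2.image fun w => Complex.I • (w - star w))).mono ?_
  rintro _ ⟨w, hw, rfl | rfl⟩
  exacts [Or.inl ⟨w, hw, rfl⟩, Or.inr ⟨w, hw, rfl⟩]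

theorem calg_mono {D : Set (Op H)} {S S' : Set Leg} (h : S ⊆ S') : X.wd D S ≤ X.wd D S' :=
  Submonoid.closure_mono (Set.union_subset_union_right _ fun _ ⟨l, hl, hx⟩ => ⟨l, h hl, hx⟩)

theorem gen_mono {D : Set (Op H)} {S S' : Set Leg} (h : S ⊆ S') : X.gen D S ⊆ X.gen D S' := by
  rintro y ⟨w, hw, hy⟩
  exact ⟨w, X.calg_mono h hw, hy⟩

theorem gen_iUnion {D : Set (Op H)} {S : ℕ → Set Leg} (h : Monotone S) {y : Op K}
    (hy : y ∈ X.gen D (⋃ k, S k)) : ∃ k, y ∈ X.gen D (S k) := by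
  obtain ⟨w, hw, hy⟩ := hy
  suffices ∃ k, w ∈ X.wd D (S k) from this.imp fun k hk => ⟨w, hk, hy⟩
  clear hy
  induction hw using Submonoid.closure_induction with
  | mem w hw =>
    rcases hw with hw | ⟨l, hl, hw⟩
    · exact ⟨0, Submonoid.subset_closure (Or.inl hw)⟩
    · obtain ⟨k, hk⟩ := Set.mem_iUnion.1 hl
      exact ⟨k, Submonoid.subset_closure (Or.inr ⟨l, hk, hw⟩)⟩
  | one => exact ⟨0, one_mem _⟩
  | mul x y _ _ hx hy =>
    obtain ⟨k, hk⟩ := hx
    obtain ⟨k', hk'⟩ := hy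
    exact ⟨max k k', mul_mem (X.calg_mono (h (le_max_left _ _)) hk)
      (X.calg_mono (h (le_max_right _ _)) hk')⟩

end World

end Vale.Agent.P096
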