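import Vale.Agent.P096.Basic

/-! P096 part C: definitions. -/

namespace Vale.Agent.P096

open Vale.Agent.P104 Vale.Agent.P132 Filter Topology
open scoped InnerProductSpace

universe u

/-- the type of a leg: a positive probability vector -/
structure LT where
  n : ℕ
  ρ : Fin (n + 1) → ℝ
  pos : ∀ a, 0 < ρ a
  sum : ∑ a, ρ a = 1

/-- uncountably many legs of every type -/
abbrev Leg := ℝ × LT

/-- the index set of the matrix units of a leg -/
abbrev Leg.I (l : Leg) := Fin (l.2.n + 1)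

section

variable {K : Type*} [NormedAddCommGroup K] [InnerProductSpace ℂ K] [CompleteSpace K]

/-- commuting systems of matrix units, two for each leg -/
structure Legs (K : Type*) [NormedAddCommGroup K] [InnerProductSpace ℂ K] [CompleteSpace K] where
  e : (l : Leg) → l.I → l.I → Op K
  f : (l : Leg) → l.I → l.I → Op K
  eU : ∀ l, MUnits (e l)
  fU : ∀ l, MUnits (f l)
  e1 : ∀ l, ∑ a, e l a a = 1
  f1 : ∀ l, ∑ a, f l a a = 1
  ee : ∀ l l', l ≠ l' → ∀ a b c d, e l a b * e l' c d = e l' c d * e l a b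
  ff : ∀ l l', l ≠ l' → ∀ a b c d, f l a b * f l' c d = f l' c d * f l a b
  ef : ∀ l l' a b c d, e l a b * f l' c d = f l' c d * e l a b

/-- `η` is in the product state for matrix units `E`, `F` with weights `ρ` -/
def Rel {I : Type*} (E F : I → I → Op K) (ρ : I → ℝ) (η : K) : Prop :=
  ∀ a b, √(ρ a) • E a b η = √(ρ b) • F b a η

namespace Legs

variable (Λ : Legs K)

/-- the legs outside `S` are in the product state -/
def Fresh (S : Set Leg) (η : K) : Prop := ∀ l ∉ S, Rel (Λ.e l) (Λ.f l) l.2.ρ η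

/-- the left matrix units of the legs in `S` -/
def es (S : Set Leg) : Set (Op K) := {x | ∃ l ∈ S, ∃ a b, x = Λ.e l a b}

def Ce (S : Set Leg) (x : Op K) : Prop := ∀ l ∉ S, ∀ a b, Λ.e l a b * x = x * Λ.e l a b

def Cf (S : Set Leg) (x : Op K) : Prop := ∀ l ∉ S, ∀ a b, Λ.f l a b * x = x * Λ.f l a b

/-- the elements of `A` which are supported on the legs in `S` -/
noncomputable def sub (A : VonNeumannAlgebra K) (S : Set Leg) : VonNeumannAlgebra K :=
  inter A (Λ.es Sᶜ)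

/-- an algebra which contains the legs -/
structure LA (A : VonNeumannAlgebra K) : Prop where
  eA : ∀ l a b, Λ.e l a b ∈ A
  fA : ∀ l a b, Λ.f l a b ∈ A.commutant
  cen : ∀ S z, CProj (Λ.sub A S) z → z ∈ A.commutant

/-- a pair of projections supported on the legs in `S` -/
structure Pr (A : VonNeumannAlgebra K) (S : Set Leg) (q q' : Op K) : Prop where
  proj : IsStarProjection q
  proj' : IsStarProjection q'
  mem : q ∈ A
  mem' : q' ∈ A.commutant
  ce : Λ.Ce S q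
  cf : Λ.Cf S q'

/-- one stage of the construction of the abelian system -/
structure Stage (A : VonNeumannAlgebra K) where
  S : Set Leg
  cnt : S.Countable
  ζ : K
  fresh : Λ.Fresh S ζ
  ι : Type
  [fin : Fintype ι]
  d : ι → Op K
  d' : ι → Op K
  pr : ∀ a, Λ.Pr A S (d a) (d' a)
  orth : ∀ a b, a ≠ b → d a * d b = 0
  orth' : ∀ a b, a ≠ b → d' a * d' b = 0
  vec : ∀ a, d a ζ = d' a ζ
  sum : ∑ a, d a ζ = ζ

attribute [instance] Stage.fin

/-- refinement of stages -/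
def Stage.Ref {Λ : Legs K} {A : VonNeumannAlgebra K} (T T' : Λ.Stage A) : Prop :=
  T.S ⊆ T'.S ∧ ∀ b, ∃ a, T.d a * T'.d b = T'.d b ∧ T.d' a * T'.d' b = T'.d' b

end Legs

/-- the system before it is cut down to the supports of the vector -/
structure PS (M : VonNeumannAlgebra K) (ξ : K) where
  ι : ℕ → Type
  [fin : ∀ k, Fintype (ι k)]
  d : (k : ℕ) → ι k → Op K
  d' : (k : ℕ) → ι k → Op K
  proj : ∀ k a, IsStarProjection (d k a)
  proj' : ∀ k a, IsStarProjection (d' k a)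
  mem : ∀ k a, d k a ∈ M
  mem' : ∀ k a, d' k a ∈ M.commutant
  orth : ∀ k a b, a ≠ b → d k a * d k b = 0
  orth' : ∀ k a b, a ≠ b → d' k a * d' k b = 0
  ref : ∀ k l, k ≤ l → ∀ b, ∃ a, d k a * d l b = d l b ∧ d' k a * d' l b = d' l b
  vec : ∀ k a, d k a ξ = d' k a ξ
  sum : ∀ k, ∑ a, d k a ξ = ξ
  gen : Set (Op K)
  dense : ∀ x ∈ M, x ξ ∈ closure (Submodule.span ℂ (orb gen ξ) : Set K)
  ms : ∀ x ∈ gen, ∀ ε : ℝ, 0 < ε → ∃ (k : ℕ) (c : ι k → ℝ),
    ∑ a, ‖(d k a * x * d k a - c a • d k a) ξ‖ ^ 2 ≤ ε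
  genM : ∀ x ∈ gen, x ∈ M

attribute [instance] PS.fin

/-- a tower of finite orthogonal families of projections -/
structure Tow {ι : ℕ → Type} [∀ k, Fintype (ι k)] (d : (k : ℕ) → ι k → Op K) : Prop where
  proj : ∀ k a, IsStarProjection (d k a)
  orth : ∀ k a b, a ≠ b → d k a * d k b = 0
  ref : ∀ k l, k ≤ l → ∀ B : Finset (ι k), ∃ B' : Finset (ι l), ∑ a ∈ B, d k a = ∑ b ∈ B', d l b

/-- an increasing sequence of finite groups of unitaries -/
structure LF (Γ : ℕ → Finset (Op K)) : Prop where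
  mono : Monotone Γ
  one : ∀ k, 1 ∈ Γ k
  mul : ∀ k, ∀ g ∈ Γ k, ∀ h ∈ Γ k, g * h ∈ Γ k
  star : ∀ k, ∀ g ∈ Γ k, star g ∈ Γ k
  unit : ∀ k, ∀ g ∈ Γ k, g ∈ unitary (Op K)

/-- `θ` is a unitary representation of the union -/
structure LF.Rep (Γ : ℕ → Finset (Op K)) (θ : Op K → Op K) : Prop where
  one : θ 1 = 1
  mul : ∀ k, ∀ g ∈ Γ k, ∀ h ∈ Γ k, θ (g * h) = θ g * θ h
  star : ∀ k, ∀ g ∈ Γ k, θ (Star.star g) = Star.star (θ g)

end

variable {H : Type*} [NormedAddCommGroup H] [InnerProductSpace ℂ H] [CompleteSpace H]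
  {K : Type*} [NormedAddCommGroup K] [InnerProductSpace ℂ K] [CompleteSpace K]

/-- `K` is the tensor product of `H` with all the legs -/
structure World (H K : Type*) [NormedAddCommGroup H] [InnerProductSpace ℂ H] [CompleteSpace H]
    [NormedAddCommGroup K] [InnerProductSpace ℂ K] [CompleteSpace K] extends Legs K where
  π : Op H →⋆ₐ[ℂ] Op K
  V : H →L[ℂ] K
  iso : ∀ ξ, V.adjoint (V ξ) = ξ
  πV : ∀ x ξ, π x (V ξ) = V (x ξ)
  πe : ∀ x l a b, e l a b * π x = π x * e l a b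
  πf : ∀ x l a b, f l a b * π x = π x * f l a b
  rel : ∀ ξ, toLegs.Fresh ∅ (V ξ)
  nor : ∀ (D : Set (Op H)) (Q : Op K),
    (∀ d ∈ D, π d * Q = Q * π d ∧ π (star d) * Q = Q * π (star d)) →
      ∀ y ∈ (vnComm D).commutant, π y * Q = Q * π y

namespace World

variable (X : World H K)

/-- the algebra generated by `M` and the left matrix units -/
noncomputable def alg (M : VonNeumannAlgebra H) : VonNeumannAlgebra K :=
  (vnComm (X.π '' (M : Set (Op H)) ∪ X.es Set.univ)).commutant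

/-- words in the generators -/
def wd (D : Set (Op H)) (S : Set Leg) : Submonoid (Op K) :=
  Submonoid.closure (X.π '' (D ∪ star D) ∪ X.es S)

/-- selfadjoint parts of the words -/
def gen (D : Set (Op H)) (S : Set Leg) : Set (Op K) :=
  {y | ∃ w ∈ X.wd D S, y = w + star w ∨ y = Complex.I • (w - star w)}

end World

/-- lifting up to a large projection -/
def PSLStmt : Prop :=
  ∀ ε : ℝ, 0 < ε → ∃ δ : ℝ, 0 < δ ∧ ∀ (K : Type u) [NormedAddCommGroup K] [InnerProductSpace ℂ K]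
    [CompleteSpace K] (M N : VonNeumannAlgebra K) (ξ : K), ‖ξ‖ = 1 → PS M ξ → Cl M N δ →
      ∃ (p : Op K) (Φ : Op K →ₗ[ℂ] Op K), IsStarProjection p ∧ p ∈ N ∧ ‖ξ - p ξ‖ ≤ ε ∧
        ∀ x ∈ M, Φ x ∈ N ∧ ‖Φ x‖ ≤ 2 * ‖x‖ ∧ ‖p * (x - Φ x) * p‖ ≤ ε * ‖x‖

/-- lifting which is good for the tests attached to one vector -/
def LocStmt : Prop :=
  ∀ ε : ℝ, 0 < ε → ∃ δ : ℝ, 0 < δ ∧ ∀ (H : Type u) [NormedAddCommGroup H] [InnerProductSpace ℂ H]
    [CompleteSpace H] (D : Set (Op H)) (N : VonNeumannAlgebra H) (ζ : H), D.Countable → ‖ζ‖ = 1 →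
      Cl (vnComm D).commutant N δ →
      ∃ Φ : Op H →ₗ[ℂ] Op H, (∀ x ∈ (vnComm D).commutant, Φ x ∈ N ∧ ‖Φ x‖ ≤ 2 * ‖x‖) ∧
        ∀ (ι : Type) [Fintype ι] (x a b : ι → Op H), (∀ j, x j ∈ (vnComm D).commutant) →
          (∀ j, ‖x j‖ ≤ 1) → (∀ j, a j ∈ N.commutant) → (∀ j, b j ∈ N.commutant) → Col a 1 →
          Col b 1 → ‖∑ j, ⟪b j ζ, (x j - Φ (x j)) (a j ζ)⟫_ℂ‖ ≤ ε

/-- lifting for countably generated algebras -/
def SepStmt : Prop :=
  ∀ ε : ℝ, 0 < ε → ∃ δ : ℝ, 0 < δ ∧ ∀ (H : Type u) [NormedAddCommGroup H] [InnerProductSpace ℂ H]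
    [CompleteSpace H] (D : Set (Op H)) (N : VonNeumannAlgebra H), D.Countable →
      Cl (vnComm D).commutant N δ → Lift (vnComm D).commutant N ε

end Vale.Agent.P096
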