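import Vale.Agent.P096.CAlg

/-!
# P096 C: the words are dense on a fresh vector
Let `P = projOn {w ξ | w ∈ wd D S}`, `η = x ξ - P (x ξ)`. It is fresh for `S` (`freshSub` is a closed subspace which contains `x ξ` and all `w ξ`) and orthogonal to all `w ξ`.
Inductive predicate `Mon F m` (`F : Finset Leg`, disjoint from `S`): `Mon ∅ 1`, and `Mon F m → l ∉ F → l ∉ S → Mon (insert l F) (e l a b * m)`.
(1) `Mon F m → l ∉ S → e l c d * m = 0 ∨ ∃ F', Mon F' (e l c d * m)` (induction; legs commute, `MUnits.mul`); `m` commutes with `e l'` for `l' ∉ F`, with all `f`, with `wd D S`.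
(2) `<η, w m ξ> = 0` by induction on `Mon`: `w (e l a b m) ξ = e l a b (w m ξ)`, `w m ξ` is in the product state for `l` (`Rel.map`), `Rel.inner`.
(3) `Z = {w m ξ} ∪ {0}` is stable under the generators `π d`, `π d*`, `e l a b` (all `l`), so `projOn Z` commutes with them (`projOn_comm'`) and with `π M` (`X.nor`),
hence it is in `(alg M)'` (`mem_alg_comm`), so `x ξ` is in the closed span of `Z`, `<η, x ξ> = 0`, `η = 0`. Finally `w = (h₁ - I h₂) / 2` with `h₁, h₂ ∈ gen`.
-/

namespace Vale.Agent.P096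

open Vale.Agent.P104 Vale.Agent.P132 Filter Topology
open scoped InnerProductSpace

variable {H : Type*} [NormedAddCommGroup H] [InnerProductSpace ℂ H] [CompleteSpace H]
  {K : Type*} [NormedAddCommGroup K] [InnerProductSpace ℂ K] [CompleteSpace K]

theorem cden_sub {Z : Set K} (U : Submodule ℂ K) (hU : IsClosed (U : Set K)) (h : Z ⊆ U) (v : K) :
    projOn Z v ∈ U :=
  closure_minimal (Submodule.span_le.2 h) hU (projOn_mem_closure Z v)

/-- monomials in the matrix units of distinct legs outside `S` -/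
inductive CDenMon (X : World H K) (S : Set Leg) : Set Leg → Op K → Prop
  | one : CDenMon X S ∅ 1
  | cons {F : Set Leg} {m : Op K} (h : CDenMon X S F m) (l : Leg) (hl : l ∉ F) (hS : l ∉ S)
      (a b : l.I) : CDenMon X S (insert l F) (X.e l a b * m)

theorem CDenMon.mul {X : World H K} {S F : Set Leg} {m : Op K} (h : CDenMon X S F m) {l : Leg}
    (hl : l ∉ S) (c d : l.I) : X.e l c d * m = 0 ∨ CDenMon X S (insert l F) (X.e l c d * m) := by
  induction h with
  | one => exact Or.inr (CDenMon.one.cons l id hl c d)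
  | cons h l' hl' hS a b ih =>
    by_cases e : l = l'
    · subst e
      rw [← mul_assoc, (X.eU l).mul, Set.insert_eq_of_mem (Set.mem_insert _ _)]
      split_ifs
      · exact Or.inr (h.cons l hl' hS c b)
      · exact Or.inl (zero_mul _)
    · rw [← mul_assoc, X.ee l l' e, mul_assoc, Set.insert_comm]
      refine ih.imp (fun h0 => by rw [h0, mul_zero]) fun h1 => h1.cons l' ?_ hS a b
      exact fun h2 => h2.elim (fun h3 => e h3.symm) hl'

theorem CDenMon.comm {X : World H K} {S F : Set Leg} {m : Op K} (h : CDenMon X S F m) :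
    X.Ce F m ∧ ∀ l a b, X.f l a b * m = m * X.f l a b := by
  induction h with
  | one => exact ⟨fun _ _ _ _ => by rw [mul_one, one_mul], fun _ _ _ => by rw [mul_one, one_mul]⟩
  | cons h l' hl' hS a b ih =>
    refine ⟨fun l hl c d => ?_, fun l c d => ?_⟩
    · rw [← mul_assoc, X.ee l l' fun e => hl (Or.inl e), mul_assoc,
        ih.1 l (fun e => hl (Or.inr e)), mul_assoc]
    · rw [← mul_assoc, ← X.ef, mul_assoc, ih.2, mul_assoc]

theorem World.den (X : World H K) {D : Set (Op H)} {S : Set Leg} {ξ : K} (hξ : X.Fresh S ξ)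
    {x : Op K} (hx : x ∈ X.sub (X.alg (vnComm D).commutant) S) :
    x ξ ∈ closure (Submodule.span ℂ (orb (X.gen D S) ξ) : Set K) := by
  obtain ⟨hxA, hxS⟩ := Legs.mem_sub.1 hx
  have hA := X.la (vnComm D).commutant
  have hw : ∀ w ∈ X.wd D S, w ∈ X.alg (vnComm D).commutant ∧ X.Ce S w := fun w hw =>
    Legs.mem_sub.1 (X.wd_mem hw).1
  set P := projOn (orb (X.wd D S) ξ) with hP
  have hη : X.Fresh S (x ξ - P (x ξ)) :=
    (X.freshSub S).sub_mem (hξ.left hA hxA hxS) (cden_sub (X.freshSub S) Legs.isClosed_fresh (by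
      rintro _ ⟨w, h, rfl⟩
      exact hξ.left hA (hw w h).1 (hw w h).2) _)
  have h0 : ∀ v, P v = v → ⟪x ξ - P (x ξ), v⟫_ℂ = 0 := fun v hv => by
    rw [inner_sub_left, ← inner_star_right P, (projOn_proj _).isSelfAdjoint.star_eq, hv, sub_self]
  have h2 : ∀ F m, CDenMon X S F m → ∀ w ∈ X.wd D S, ⟪x ξ - P (x ξ), w (m ξ)⟫_ℂ = 0 := by
    intro F m h w hwd
    induction h with
    | one => exact h0 _ (projOn_apply_of_mem ⟨w, hwd, rfl⟩)
    | @cons F m h l hl hS a b ih =>
      have e1 : w ((X.e l a b * m) ξ) = X.e l a b ((w * m) ξ) :=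
        (DFunLike.congr_fun ((hw w hwd).2 l hS a b) (m ξ)).symm
      have e2 : ⟪x ξ - P (x ξ), (w * m) ξ⟫_ℂ = 0 := ih
      rw [e1, Rel.inner (X.leg1 l) (hη l hS) ((hξ l hS).map (y := w * m) (fun c d => by
        rw [← mul_assoc, (hw w hwd).2 l hS, mul_assoc, h.comm.1 l hl, mul_assoc]) fun c d => by
        rw [← mul_assoc, comm_of_mem (hA.fA l c d) (hw w hwd).1, mul_assoc, h.comm.2, mul_assoc]),
        e2, mul_zero, ite_self]
  set Z : Set K := {ζ | ζ = 0 ∨ ∃ w ∈ X.wd D S, ∃ F m, CDenMon X S F m ∧ ζ = w (m ξ)} with hZ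
  have z1 : ∀ g ∈ X.wd D S, ∀ ζ ∈ Z, g ζ ∈ closure Z := by
    rintro g hg _ (rfl | ⟨w, hwd, F, m, hm, rfl⟩)
    · exact subset_closure (Or.inl (map_zero _))
    · exact subset_closure (Or.inr ⟨g * w, mul_mem hg hwd, F, m, hm, rfl⟩)
  have z2 : ∀ l a b, ∀ ζ ∈ Z, X.e l a b ζ ∈ closure Z := by
    intro l a b
    by_cases hl : l ∈ S
    · exact z1 _ (Submonoid.subset_closure (Or.inr ⟨l, hl, a, b, rfl⟩))
    rintro _ (rfl | ⟨w, hwd, F, m, hm, rfl⟩)
    · exact subset_closure (Or.inl (map_zero _))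
    · have e1 : X.e l a b (w (m ξ)) = w ((X.e l a b * m) ξ) :=
        DFunLike.congr_fun ((hw w hwd).2 l hl a b) (m ξ)
      rw [e1]
      rcases hm.mul hl a b with h | h
      · exact subset_closure (Or.inl (by rw [h]; exact map_zero _))
      · exact subset_closure (Or.inr ⟨w, hwd, _, _, h, rfl⟩)
  have z3 : ∀ g ∈ X.wd D S, g * projOn Z = projOn Z * g := fun g hg =>
    projOn_comm' (z1 g hg) (z1 _ (X.wd_mem hg).2)
  have hQ : projOn Z ∈ (X.alg (vnComm D).commutant).commutant :=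
    X.mem_alg_comm.2 ⟨X.nor D _ fun d hd =>
      ⟨z3 _ (Submonoid.subset_closure (Or.inl ⟨d, Or.inl hd, rfl⟩)),
        z3 _ (Submonoid.subset_closure (Or.inl ⟨star d, Or.inr (by simpa using hd), rfl⟩))⟩,
      fun l _ a b => projOn_comm' (z2 l a b) (by rw [(X.eU l).star_eq]; exact z2 l b a)⟩
  have h3 : projOn Z (x ξ) = x ξ := by
    have e1 : projOn Z ξ = ξ :=
      projOn_apply_of_mem (Or.inr ⟨1, one_mem _, _, _, CDenMon.one, rfl⟩)
    conv_rhs => rw [← e1]
    exact DFunLike.congr_fun (comm_of_mem hQ hxA) ξ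
  have h4 : ⟪x ξ - P (x ξ), x ξ⟫_ℂ = 0 := by
    have e := cden_sub (Z := Z) (innerSL ℂ (x ξ - P (x ξ))).ker (ContinuousLinearMap.isClosed_ker _)
      (by
        rintro _ (rfl | ⟨w, hwd, F, m, hm, rfl⟩)
        · exact zero_mem _
        · exact h2 F m hm w hwd) (x ξ)
    rwa [h3] at e
  have h5 : x ξ = P (x ξ) := by
    refine sub_eq_zero.1 (inner_self_eq_zero (𝕜 := ℂ).1 ?_)
    rw [inner_sub_right, h4, h0 (P (x ξ))
      (DFunLike.congr_fun (projOn_proj (orb (X.wd D S) ξ)).isIdempotentElem.eq (x ξ)), sub_self]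
  rw [h5, ← Submodule.topologicalClosure_coe]
  refine cden_sub _ (Submodule.isClosed_topologicalClosure _) ?_ _
  rintro _ ⟨w, hwd, rfl⟩
  have e : w ξ = (2 : ℂ)⁻¹ • (w + star w) ξ - (Complex.I / 2) • (Complex.I • (w - star w)) ξ := by
    have e1 : Complex.I / 2 * Complex.I = -(2 : ℂ)⁻¹ := by
      rw [div_mul_eq_mul_div, Complex.I_mul_I]
      ring
    rw [_root_.smul_apply, smul_smul, e1, _root_.add_apply, _root_.sub_apply]
    module
  rw [e]
  exact Submodule.le_topologicalClosure _ (sub_mem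
    (Submodule.smul_mem _ _ (Submodule.subset_span ⟨_, ⟨w, hwd, Or.inl rfl⟩, rfl⟩))
    (Submodule.smul_mem _ _ (Submodule.subset_span ⟨_, ⟨w, hwd, Or.inr rfl⟩, rfl⟩)))

end Vale.Agent.P096
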