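import Vale.Agent.P096.Basic
import Vale.Agent.P132.Tom3
import Vale.Agent.P132.Sm

/-!
# P096: standard forms, eigenoperators
* `exists_sf'`: copy the proof of `P132.exists_sf`; `Pre.σ_jconj` at `t = 0` gives `Std`.
* `R_comm`: for `y ∈ M`: `<s* ξ, y ξ> = <y* ξ, s ξ>`; pass to the closure with `S.core`: `<s* ξ, R ζ> = <J T ζ, s ξ> = <J s ξ, T ζ>`.
* `eig`: `R_comm` for `x'` and `S.half` give `R (x ξ) = rr s • x ξ` with `exp s = μ⁻¹ ^ 2`; then `FC.eig`, `ρ_of_eig`, `sep`.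
-/

namespace Vale.Agent.P096

open Vale.Agent.P104 Vale.Agent.P132 Filter Topology
open scoped InnerProductSpace

universe u

variable {H : Type u} [NormedAddCommGroup H] [InnerProductSpace ℂ H] [CompleteSpace H]

theorem exists_sf' (M : VonNeumannAlgebra H) {ξ : H} (h1 : ‖ξ‖ = 1) (h : Dense (orb M ξ))
    (h' : Dense (orb M.commutant ξ)) : ∃ S : SF H, S.M = M ∧ S.ξ = ξ ∧ Std S := by
  obtain ⟨F, A, J, hP⟩ := exists_pre M h h'
  have a1 : A ξ = F.R ξ := hP.rvd.im0 ξ (by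
    rintro _ ⟨a, -, ha, rfl⟩
    refine Complex.conj_eq_iff_im.1 ?_
    rw [inner_conj_symm, ← inner_star_right, ha.star_eq])
  have a2 : A ξ = (2 - F.R) ξ := hP.rvd.onW ξ (Tom3_mem (one_mem M) (IsSelfAdjoint.one _))
  have a3 : F.R ξ = ξ := by
    rw [a1, sub_apply, eq_sub_iff_add_eq, ← two_smul ℂ, ← one_add_one_eq_two (R := Op H),
      add_apply, one_apply_eq_self, ← two_smul ℂ] at a2
    exact smul_right_injective H two_ne_zero a2
  have a4 : F.T ξ = ξ := by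
    have := F.eig (s := 0) (η := ξ) (by rw [rr_zero, a3]; simp) sechB
    rw [FC.T, this]
    simp [sech]
  have a5 : J ξ = ξ := by
    have := hP.JT ξ
    rwa [a4, a1, a3] at this
  have a6 : flat sechB = sechB := by
    ext u
    rw [flat_apply, sechB_apply, sechB_apply, sech_neg, Complex.conj_ofReal]
  refine ⟨⟨F, M, ξ, h1, h, h', J, hP.JJ, hP.inner_J, a5, a3, hP.J_Θ, fun x hx => ?_,
    fun x hx => hP.jconj_mem a5 hx, fun x hx t => ?_, fun ζ => ?_⟩, rfl, rfl, fun x hx => ?_⟩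
  · have := hP.J_Θ sechB (star x ξ)
    rw [a6] at this
    rw [← hP.A_star hx, ← hP.JT]
    exact this.symm
  · have e : jconj J (jconj J x) = x := by
      ext η
      simp only [jconj_apply, hP.JJ]
    have := hP.σ_jconj (hP.jconj_mem a5 hx) t
    rwa [e] at this
  · obtain ⟨k₁, hk₁, k₂, hk₂, e1, e2⟩ := hP.rvd.dec ζ
    rw [hP.JT, e1, e2]
    refine map_mem_closure₂ (f := fun k₁ k₂ : H => (k₁ + Complex.I • k₂, k₁ - Complex.I • k₂))
      (by fun_prop) hk₁ hk₂ ?_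
    rintro _ ⟨a, ha, h2, rfl⟩ _ ⟨b, hb, h3, rfl⟩
    refine ⟨a + Complex.I • b, add_mem ha (SMulMemClass.smul_mem _ hb), ?_⟩
    rw [star_add, star_smul, h2.star_eq, h3.star_eq, Complex.star_def, Complex.conj_I, neg_smul,
      ← sub_eq_add_neg]
    rfl
  · have := hP.σ_jconj hx 0
    rwa [F.σ_zero] at this

variable (S : SF H)

theorem R_comm {s : Op H} (hs : s ∈ S.M.commutant) : S.R (s S.ξ) = S.T (S.J (star s S.ξ)) := by
  refine ext_inner_right ℂ fun ζ => ?_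
  have h1 : closure {p : H × H | ∃ x ∈ S.M, p = (x S.ξ, star x S.ξ)} ⊆
      {p | ⟪s S.ξ, p.1⟫_ℂ = ⟪p.2, star s S.ξ⟫_ℂ} := by
    refine closure_minimal ?_ (isClosed_eq (by fun_prop) (by fun_prop))
    rintro _ ⟨y, hy, rfl⟩
    change ⟪s S.ξ, y S.ξ⟫_ℂ = ⟪star y S.ξ, star s S.ξ⟫_ℂ
    rw [inner_star_left, ← inner_star_right s]
    exact congrArg (fun z : Op H => ⟪S.ξ, z S.ξ⟫_ℂ) (comm_of_mem (star_mem hs) hy)
  have h2 : ⟪s S.ξ, S.R ζ⟫_ℂ = ⟪S.J (S.T ζ), star s S.ξ⟫_ℂ := h1 (S.core ζ)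
  rw [tom1_sa_left S.R_sa, tom1_sa_left S.T_sa, h2, S.inner_J_left]

theorem sep' {s : Op H} (hs : s ∈ S.M.commutant) (h : s S.ξ = 0) : s = 0 := by
  have h1 : (s : H → H) = fun _ => 0 := by
    refine Continuous.ext_on S.cyc s.continuous continuous_const ?_
    rintro _ ⟨y, hy, rfl⟩
    change s (y S.ξ) = 0
    rw [← mul_apply_eq_comp, comm_of_mem hs hy, mul_apply_eq_comp, h, map_zero]
  ext η
  exact congrFun h1 η

theorem σ_comm {s : Op H} (hs : s ∈ S.M.commutant) (t : ℝ) : S.σ t s ∈ S.M.commutant := by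
  refine VonNeumannAlgebra.mem_commutant_iff.2 fun y hy => ?_
  have h1 := congrArg (S.σ t) (comm_of_mem hs (S.σ_M y hy (-t)))
  rw [S.σ_mul, S.σ_mul, S.σ_σ, add_neg_cancel, S.σ_zero] at h1
  exact h1.symm

theorem eig {x x' : Op H} (hx : x ∈ S.M) (hx' : x' ∈ S.M.commutant) {μ : ℝ} (hμ : 0 < μ)
    (h : x S.ξ = μ • x' S.ξ) (h' : μ • star x S.ξ = star x' S.ξ) :
    S.ρ x = x' ∧ ∀ t : ℝ, S.σ t x = Complex.exp (Complex.I * t * (-2 * Real.log μ : ℝ)) • x := by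
  have hμ' : (μ : ℂ) ≠ 0 := by exact_mod_cast hμ.ne'
  have e1 : Real.exp (-2 * Real.log μ / 2) = μ⁻¹ := by
    rw [show -2 * Real.log μ / 2 = -Real.log μ by ring, Real.exp_neg, Real.exp_log hμ]
  have e2 : rr (-2 * Real.log μ) = 2 * μ ^ 2 / (1 + μ ^ 2) := by
    rw [fcb_rr, e1]
    field_simp
    ring
  have h1 : S.R (x S.ξ) = ((μ : ℂ) ^ 2) • (2 - S.R) (x S.ξ) := by
    conv_lhs => rw [h, ← Complex.coe_smul, map_smul, R_comm S hx', ← h', S.J_rsmul,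
      ← Complex.coe_smul, map_smul, S.half x hx, smul_smul, ← sq]
  have h2 : S.R (x S.ξ) = (rr (-2 * Real.log μ) : ℂ) • x S.ξ := by
    have h3 : (1 + (μ : ℂ) ^ 2) ≠ 0 := by
      have : (0 : ℝ) < 1 + μ ^ 2 := by positivity
      exact_mod_cast this.ne'
    rw [sub_apply, ← one_add_one_eq_two (R := Op H), add_apply, one_apply_eq_self] at h1
    refine smul_right_injective H h3 ?_
    simp only
    have e3 : (1 + (μ : ℂ) ^ 2) * (rr (-2 * Real.log μ) : ℂ) = 2 * (μ : ℂ) ^ 2 := by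
      rw [e2]
      push_cast
      field_simp
    rw [smul_smul, e3]
    linear_combination (norm := module) h1
  refine ⟨sub_eq_zero.1 (sep' S (sub_mem (S.ρ_mem hx) hx') ?_), fun t => ?_⟩
  · rw [sub_apply, S.ρ_of_eig hx h2, e1, h, smul_smul, inv_mul_cancel₀ hμ.ne', one_smul, sub_self]
  · refine S.ext_ξ (S.σ_M x hx t) (SMulMemClass.smul_mem _ hx) ?_
    rw [S.σ_ξ, smul_apply]
    exact S.eig h2 (eB t)

/-- selfadjoint paired elements are in the centralizer -/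
theorem cen {x x' : Op H} (hx : x ∈ S.M) (hx' : x' ∈ S.M.commutant) (hs : IsSelfAdjoint x)
    (hs' : IsSelfAdjoint x') (h : x S.ξ = x' S.ξ) :
    S.ρ x = x' ∧ (∀ f, S.Θ f * x = x * S.Θ f) ∧ ∀ f, S.Θ f * x' = x' * S.Θ f := by
  obtain ⟨h1, h2⟩ := eig S hx hx' one_pos (by rw [one_smul, h])
    (by rw [one_smul, hs.star_eq, hs'.star_eq, h])
  have h3 : ∀ t, S.σ t x = x := fun t => by
    rw [h2 t]
    simp
  refine ⟨h1, S.comm_of_Δ fun t => (S.σ_eq_iff t _).1 (h3 t),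
    S.comm_of_Δ fun t => (S.σ_eq_iff t _).1 ?_⟩
  rw [← h1, ← S.ρ_σ, h3]

end Vale.Agent.P096
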