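import Vale.Agent.P096.CLeg
import Vale.Agent.P096.Eig

/-!
# P096 C: compensation with a fresh leg
`c = ρ o`, `n = √c ‖z ξ‖`, `B = ∑ j, b j * E (i j) o`. `eig` gives `S.ρ (E a b) = F b a`; so `S.ρ (b j)` commutes with `E` and `F`. `B* y B = (∑ b* y b) * E o o` for `y` commuting with `E`; `‖B‖ ≤ 1`.
For `y ∈ S.M` commuting with `E`: `‖y E o o ξ‖ = √c ‖y ξ‖` (`Rel.map`, `Rel.norm_sq`).
* `D 1 B = ∑ j, √(c / ρ (i j)) • F o (i j) (D (μ j) (b j))`, the terms are fixed by the orthogonal projections `E (i j) (i j)`, so `‖D 1 B‖² = c Dn²`. So `B ξ ≈ ρ B ξ`, and (apply `J`, `D_star`) `B* ξ ≈ ρ B* ξ` up to `ε n`.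
* `a = B B*`: `a ξ ≈ ρ(B*) B ξ ≈ ρ a ξ` (`D_mul`), `(a - a²) ξ = B (1 - B* B) B* ξ ≈ ρ(B*) B (z E o o - B* B) ξ`, `a (x - lam) a ξ ≈ ρ(B*) B (B* x B - lam B* B) ξ`,
  `‖a ξ‖ ≥ ‖B* a ξ‖`, `B* B B* ξ ≈ ρ(B*) z E o o ξ ≈ B* ξ`, `‖B* ξ‖ ≈ ‖ρ B* ξ‖ = ‖B ξ‖`, `‖B ξ‖² = <z E o o ξ, B* B ξ> ≈ n²`.
* `q` from `cut R₁ a (1/2)`: `‖(q - a) η‖ ≤ 2 ‖(a - a²) η‖` (on the range of `q`, `a ≥ 1/2`; on the complement `1 - a ≥ 1/2`; both commute), `‖q η‖ ≤ 2 ‖a η‖`, `‖ρ (q - a) ξ‖ = ‖(q - a) ξ‖`.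
All errors are at most `30 (1 + ‖x‖) ε n` and `‖q ξ‖ ≥ n / 2`.
-/

namespace Vale.Agent.P096

open Vale.Agent.P104 Vale.Agent.P132 Filter Topology
open scoped InnerProductSpace

universe u

variable {H : Type u} [NormedAddCommGroup H] [InnerProductSpace ℂ H] [CompleteSpace H]

omit [CompleteSpace H] in
theorem cin2_le {T : Op H} {C : ℝ} (h : ‖T‖ ≤ C) (η : H) : ‖T η‖ ≤ C * ‖η‖ :=
  (T.le_opNorm η).trans (mul_le_mul_of_nonneg_right h (norm_nonneg η))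

omit [CompleteSpace H] in
theorem cin2_le1 {T : Op H} (h : ‖T‖ ≤ 1) (η : H) : ‖T η‖ ≤ ‖η‖ := by
  simpa using cin2_le h η

omit [CompleteSpace H] in
theorem cin2_half {T : Op H} {η : H} (h : 1 / 2 * ‖η‖ ^ 2 ≤ qf T η) : ‖η‖ ≤ 2 * ‖T η‖ := by
  have h1 : qf T η ≤ ‖η‖ * ‖T η‖ :=
    (Complex.re_le_norm _).trans (norm_inner_le_norm _ _)
  exact l2_cancel (norm_nonneg _) (by positivity) (by nlinarith)

/-- the spectral projection of an almost idempotent element -/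
theorem cin2_cut (R : VonNeumannAlgebra H) {a : Op H} (ha : a ∈ R) (hs : IsSelfAdjoint a) :
    ∃ q ∈ R, IsStarProjection q ∧ (∀ η, ‖q η‖ ≤ 2 * ‖a η‖) ∧
      ∀ η, ‖q η - a η‖ ≤ 4 * ‖a (a η) - a η‖ := by
  obtain ⟨q, hq, hp, hc, h1, h2, -⟩ := cut R ha hs (1 / 2)
  have hc' : ∀ η, a (q η) = q (a η) := fun η => by
    rw [← mul_apply_eq_comp, ← hc, mul_apply_eq_comp]
  have n1 : ∀ η, ‖q η‖ ≤ ‖η‖ := cin2_le1 hp.norm_le
  have n2 : ∀ η, ‖η - q η‖ ≤ ‖η‖ := cin2_le1 hp.one_sub.norm_le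
  have k1 : ∀ η, ‖q η‖ ≤ 2 * ‖a η‖ := fun η => by
    have := cin2_half (h1 η)
    rw [hc'] at this
    linarith [n1 (a η)]
  have k2 : ∀ η, ‖η - q η‖ ≤ 2 * ‖η - a η‖ := fun η => by
    have h3 : 1 / 2 * ‖η - q η‖ ^ 2 ≤ qf (1 - a) (η - q η) := by
      rw [qf_sub, qf_one]
      linarith [h2 η]
    have h4 := cin2_half h3
    have e : (1 - a) (η - q η) = (η - a η) - q (η - a η) := by
      rw [sub_apply, one_apply_eq_self, map_sub, map_sub, hc']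
      abel
    rw [e] at h4
    linarith [n2 (η - a η)]
  refine ⟨q, hq, hp, k1, fun η => ?_⟩
  have e : q η - a η = q (η - a η) - (a η - q (a η)) := by
    rw [map_sub]
    abel
  have h5 := k1 (η - a η)
  have h6 := k2 (a η)
  rw [map_sub a, norm_sub_rev (a η)] at h5
  rw [norm_sub_rev (a η) (a (a η))] at h6
  rw [e]
  linarith [norm_sub_le (q (η - a η)) (a η - q (a η))]

theorem cin2_abs (S : SF H) {R₁ : VonNeumannAlgebra H} (hR : ∀ y ∈ R₁, y ∈ S.M)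
    {B p x : Op H} {lam ε : ℝ} (hB : B ∈ R₁) (hB1 : ‖B‖ ≤ 1) (hp : IsStarProjection p)
    (hpM : p ∈ S.M) (hBp : B * p = B) (hx : x ∈ S.M) (hl : |lam| ≤ ‖x‖) (hε : 0 < ε)
    (hε1 : ε ≤ 1 / 100) (h0 : p S.ξ ≠ 0) (ha : ‖S.D 1 B‖ ≤ ε * ‖p S.ξ‖)
    (hb : ‖(star B * B - p) S.ξ‖ ≤ ε * ‖p S.ξ‖)
    (hc : ‖(star B * x * B - lam • p) S.ξ‖ ≤ ε * ‖p S.ξ‖) :
    ∃ q ∈ R₁, IsStarProjection q ∧ q S.ξ ≠ 0 ∧ ‖q S.ξ - S.ρ q S.ξ‖ ≤ 100 * ε * ‖q S.ξ‖ ∧
      ‖(q * x * q - lam • q) S.ξ‖ ≤ 100 * (1 + ‖x‖) * ε * ‖q S.ξ‖ := by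
  have hn : 0 < ‖p S.ξ‖ := norm_pos_iff.2 h0
  generalize hn' : ‖p S.ξ‖ = n at ha hb hc hn
  obtain ⟨δ, hδ⟩ : ∃ δ, δ = ε * n := ⟨_, rfl⟩
  rw [← hδ] at ha hb hc
  have hδ0 : 0 < δ := hδ ▸ mul_pos hε hn
  have hδ1 : 100 * δ ≤ n := by nlinarith
  have hBM := hR B hB
  have hB' : star B ∈ S.M := star_mem hBM
  have hB2 : ‖star B‖ ≤ 1 := by rwa [norm_star]
  have hB3 : ‖S.ρ (star B)‖ ≤ 1 := by rwa [S.norm_ρ]
  have hx0 := norm_nonneg x
  have hpB : ∀ η, p (star B η) = star B η := fun η => by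
    have := congrArg star hBp
    rw [star_mul, hp.isSelfAdjoint.star_eq] at this
    rw [← mul_apply_eq_comp, this]
  have hBp' : ∀ η, B (p η) = B η := fun η => by rw [← mul_apply_eq_comp, hBp]
  have hd : ‖S.D 1 (star B)‖ ≤ δ := by
    have := S.D_star one_ne_zero B
    rw [inv_one, one_smul] at this
    rwa [this, norm_neg, S.norm_J]
  have key : ∀ y ∈ S.M, ∀ C, ‖y‖ ≤ C → ‖y (star B S.ξ)‖ ≤ C * δ + ‖y S.ξ‖ := fun y hy C hC => by
    have e : y (star B S.ξ) = y (S.D 1 (star B)) + S.ρ (star B) (y S.ξ) := by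
      rw [SF.D, one_smul, map_sub, S.ρ_comm_apply hy hB', sub_add_cancel]
    rw [e]
    refine (norm_add_le _ _).trans (add_le_add ((cin2_le hC _).trans ?_) (cin2_le1 hB3 _))
    exact mul_le_mul_of_nonneg_left hd ((norm_nonneg y).trans hC)
  have hw : ‖(star B * B - p) (star B S.ξ)‖ ≤ 3 * δ := by
    have h1 : ‖star B * B - p‖ ≤ 2 := by
      have h2 := norm_mul_le (star B) B
      nlinarith [norm_sub_le (star B * B) p, hp.norm_le, norm_nonneg B, norm_nonneg (star B)]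
    linarith [key _ (sub_mem (mul_mem hB' hBM) hpM) _ h1]
  have hv : ‖(star B * x * B - lam • p) (star B S.ξ)‖ ≤ (2 * ‖x‖ + 1) * δ := by
    have h1 : ‖star B * x * B - lam • p‖ ≤ 2 * ‖x‖ := by
      have h2 : ‖star B * x * B‖ ≤ ‖x‖ := by
        refine ContinuousLinearMap.opNorm_le_bound _ hx0 fun η => ?_
        exact (cin2_le1 hB2 _).trans ((x.le_opNorm _).trans
          (mul_le_mul_of_nonneg_left (cin2_le1 hB1 η) hx0))
      have h3 : ‖lam • p‖ ≤ ‖x‖ := by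
        rw [norm_smul, Real.norm_eq_abs]
        nlinarith [hp.norm_le, abs_nonneg lam]
      linarith [norm_sub_le (star B * x * B) (lam • p)]
    linarith [key _ (sub_mem (mul_mem (mul_mem hB' hx) hBM) (vn_rsmul_mem lam hpM)) _ h1]
  obtain ⟨a, hae⟩ : ∃ a, a = B * star B := ⟨_, rfl⟩
  have haa : ∀ η, a η = B (star B η) := fun η => by rw [hae, mul_apply_eq_comp]
  have haR : a ∈ R₁ := hae ▸ mul_mem hB (star_mem hB)
  have has : IsSelfAdjoint a := hae ▸ IsSelfAdjoint.mul_star_self B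
  have a1 : ‖S.D 1 a‖ ≤ 2 * δ := by
    have := S.D_mul hBM hB' 1 1
    rw [mul_one, one_smul, ← hae] at this
    rw [this]
    linarith [norm_add_le (B (S.D 1 (star B))) (S.ρ (star B) (S.D 1 B)),
      cin2_le1 hB1 (S.D 1 (star B)), cin2_le1 hB3 (S.D 1 B)]
  have a2 : ‖a (a S.ξ) - a S.ξ‖ ≤ 3 * δ := by
    have e : a (a S.ξ) - a S.ξ = B ((star B * B - p) (star B S.ξ)) := by
      rw [sub_apply, map_sub, hBp', mul_apply_eq_comp, haa, haa]
    rw [e]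
    exact (cin2_le1 hB1 _).trans hw
  have a3 : ‖a (x (a S.ξ) - lam • a S.ξ)‖ ≤ (5 * ‖x‖ + 1) * δ := by
    have e : a (x (a S.ξ) - lam • a S.ξ) = B ((star B * x * B - lam • p) (star B S.ξ) -
        lam • (star B * B - p) (star B S.ξ)) := by
      simp only [haa, sub_apply, mul_apply_eq_comp, smul_apply, map_sub,
        ContinuousLinearMap.map_smul_of_tower, smul_sub]
      abel
    rw [e]
    refine (cin2_le1 hB1 _).trans ((norm_sub_le _ _).trans ?_)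
    rw [norm_smul, Real.norm_eq_abs]
    nlinarith [mul_le_mul hl hw (norm_nonneg _) hx0]
  have a4 : n - 5 * δ ≤ ‖a S.ξ‖ := by
    have h1 : n - δ ≤ ‖B S.ξ‖ := by
      have h2 := norm_sub_norm_le (p S.ξ) (star B (B S.ξ))
      rw [norm_sub_rev, hn'] at h2
      rw [sub_apply, mul_apply_eq_comp] at hb
      linarith [cin2_le1 hB2 (B S.ξ)]
    have h2 : ‖B S.ξ‖ - δ ≤ ‖star B S.ξ‖ := by
      have h3 := norm_sub_norm_le (S.ρ (star B) S.ξ) (star B S.ξ)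
      rw [norm_sub_rev, S.norm_ρ_apply, star_star, S.J_ξ] at h3
      rw [SF.D, one_smul] at hd
      linarith
    have h3 := norm_sub_norm_le (star B S.ξ) (star B (a S.ξ))
    rw [sub_apply, mul_apply_eq_comp, hpB, ← haa, norm_sub_rev] at hw
    linarith [cin2_le1 hB2 (a S.ξ)]
  obtain ⟨q, hq, hqp, k1, k2⟩ := cin2_cut R₁ haR has
  have q1 : ‖q S.ξ - a S.ξ‖ ≤ 12 * δ := by linarith [k2 S.ξ]
  have q2 : 83 * δ ≤ ‖q S.ξ‖ * (100 * ε) := by
    have h1 := norm_sub_norm_le (a S.ξ) (q S.ξ)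
    rw [norm_sub_rev] at h1
    have h2 : 83 / 100 * n ≤ ‖q S.ξ‖ := by linarith
    nlinarith
  refine ⟨q, hq, hqp, fun h => ?_, ?_, ?_⟩
  · rw [h, norm_zero] at q2
    linarith
  · have e : q S.ξ - S.ρ q S.ξ = (q S.ξ - a S.ξ) + S.D 1 a - S.ρ (q - a) S.ξ := by
      rw [SF.D, one_smul, S.ρ_sub, sub_apply]
      abel
    have h1 : ‖S.ρ (q - a) S.ξ‖ = ‖q S.ξ - a S.ξ‖ := by
      rw [S.norm_ρ_apply, S.J_ξ, (hqp.isSelfAdjoint.sub has).star_eq, sub_apply]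
    rw [e]
    linarith [norm_sub_le (q S.ξ - a S.ξ + S.D 1 a) (S.ρ (q - a) S.ξ),
      norm_add_le (q S.ξ - a S.ξ) (S.D 1 a)]
  · have e : (q * x * q - lam • q) S.ξ = q (x (q S.ξ - a S.ξ) - lam • (q S.ξ - a S.ξ)) +
        q (x (a S.ξ) - lam • a S.ξ) := by
      have h1 : q (q S.ξ) = q S.ξ := by rw [← mul_apply_eq_comp, hqp.isIdempotentElem.eq]
      simp only [sub_apply, mul_apply_eq_comp, smul_apply, map_sub,
        ContinuousLinearMap.map_smul_of_tower, smul_sub, h1]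
      abel
    have h1 : ‖x (q S.ξ - a S.ξ) - lam • (q S.ξ - a S.ξ)‖ ≤ 24 * ‖x‖ * δ := by
      refine (norm_sub_le _ _).trans ?_
      rw [norm_smul, Real.norm_eq_abs]
      nlinarith [x.le_opNorm (q S.ξ - a S.ξ), mul_le_mul hl q1 (norm_nonneg _) hx0,
        mul_le_mul_of_nonneg_left q1 hx0]
    have h2 := cin2_le1 hqp.norm_le (x (q S.ξ - a S.ξ) - lam • (q S.ξ - a S.ξ))
    have h3 := k1 (x (a S.ξ) - lam • a S.ξ)
    rw [e]
    refine (norm_add_le _ _).trans ?_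
    nlinarith [mul_le_mul_of_nonneg_left q2 hx0, mul_nonneg hx0 hδ0.le]

omit [CompleteSpace H] in
theorem cin2_orth {κ : Type*} [Fintype κ] {u : κ → H}
    (h : ∀ j k, j ≠ k → ⟪u j, u k⟫_ℂ = 0) : ‖∑ j, u j‖ ^ 2 = ∑ j, ‖u j‖ ^ 2 := by
  simp only [norm_sq_eq_re_inner (𝕜 := ℂ)]
  rw [sum_inner, map_sum]
  refine Finset.sum_congr rfl fun j _ => ?_
  rw [inner_sum, Finset.sum_eq_single j (fun k _ hk => h j k hk.symm) (by simp)]

theorem cin2_rho (S : SF H) {I : Type} [Fintype I] [DecidableEq I] {E F : I → I → Op H}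
    {ρ : I → ℝ} (L : Leg1 E F ρ) (hF : ∀ a b, F a b ∈ S.M.commutant) (hr : Rel E F ρ S.ξ)
    (hE : ∀ a b, E a b ∈ S.M) (a b : I) : S.ρ (E a b) = F b a := by
  have ha : 0 < √(ρ a) := Real.sqrt_pos.2 (L.pos a)
  have hb : 0 < √(ρ b) := Real.sqrt_pos.2 (L.pos b)
  refine (eig S (hE a b) (hF b a) (μ := (√(ρ a))⁻¹ * √(ρ b)) (by positivity) ?_ ?_).1
  · rw [mul_smul, ← hr a b, smul_smul, inv_mul_cancel₀ ha.ne', one_smul]
  · rw [L.eU.star_eq, L.fU.star_eq, mul_smul, hr b a, smul_smul, inv_mul_cancel₀ ha.ne', one_smul]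

theorem in2 (S : SF H) {I : Type} [Fintype I] [DecidableEq I] {E F : I → I → Op H} {ρ : I → ℝ}
    (L : Leg1 E F ρ) (hF : ∀ a b, F a b ∈ S.M.commutant) (hr : Rel E F ρ S.ξ)
    {R₁ : VonNeumannAlgebra H} (hR : ∀ y ∈ R₁, y ∈ S.M) (hE : ∀ a b, E a b ∈ R₁)
    {κ : Type} [Fintype κ] {b : κ → Op H} {μ : κ → ℝ} {i : κ → I} {o : I}
    (hi : Function.Injective i) (hρ : ∀ j, ρ (i j) = ρ o * μ j ^ 2) (hμ : ∀ j, 0 < μ j)
    (hb : ∀ j, b j ∈ R₁) (hbE : ∀ j a c, E a c * b j = b j * E a c) (hc : Col b 1)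
    {x z : Op H} {lam ε : ℝ} (hx : x ∈ S.M) (hxE : ∀ a c, E a c * x = x * E a c)
    (hz : CProj S.M z) (h0 : z S.ξ ≠ 0) (hl : |lam| ≤ ‖x‖) (hbz : ∀ j, b j * z = b j)
    (hε : 0 < ε) (hε1 : ε ≤ 1 / 100) (h1 : ‖(gram b - z) S.ξ‖ ≤ ε * ‖z S.ξ‖)
    (h2 : ‖∑ j, (star (b j) * x * b j) S.ξ - lam • z S.ξ‖ ≤ ε * ‖z S.ξ‖)
    (h3 : S.Dn b μ ≤ ε * ‖z S.ξ‖) :
    ∃ q ∈ R₁, IsStarProjection q ∧ q S.ξ ≠ 0 ∧ ‖q S.ξ - S.ρ q S.ξ‖ ≤ 100 * ε * ‖q S.ξ‖ ∧
      ‖(q * x * q - lam • q) S.ξ‖ ≤ 100 * (1 + ‖x‖) * ε * ‖q S.ξ‖ := by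
  have hEM : ∀ a c, E a c ∈ S.M := fun a c => hR _ (hE a c)
  have hbM : ∀ j, b j ∈ S.M := fun j => hR _ (hb j)
  have hc0 : 0 < √(ρ o) := Real.sqrt_pos.2 (L.pos o)
  have hoo : E o o * E o o = E o o := by rw [L.eU.mul, if_pos rfl]
  have hEp : IsStarProjection (E o o) := ⟨hoo, L.eU.star_eq o o⟩
  have hbE' : ∀ j a c, E a c * star (b j) = star (b j) * E a c := fun j a c => by
    have := congrArg star (hbE j c a)
    rw [star_mul, star_mul, L.eU.star_eq] at this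
    exact this.symm
  have hzE : ∀ a c, E a c * z = z * E a c := fun a c => (hz.comm (hEM a c)).symm
  have hn : ∀ η, Rel E F ρ η → ∀ a, ‖E a o η‖ = √(ρ o) * ‖η‖ := fun η hη a => by
    refine (sq_eq_sq₀ (norm_nonneg _) (by positivity)).1 ?_
    rw [(hη.norm_sq L a o).1, mul_pow, Real.sq_sqrt (L.pos o).le]
  have hn' : ∀ y ∈ S.M, (∀ a c, E a c * y = y * E a c) →
      ‖(y * E o o) S.ξ‖ = √(ρ o) * ‖y S.ξ‖ := fun y hy hyE => by
    rw [← hyE, mul_apply_eq_comp]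
    exact hn _ (hr.map hyE fun a c => comm_of_mem (hF a c) hy) o
  obtain ⟨B, hB⟩ : ∃ B, B = ∑ j, b j * E (i j) o := ⟨_, rfl⟩
  have hBy : ∀ y : Op H, (∀ a c, E a c * y = y * E a c) →
      star B * y * B = (∑ j, star (b j) * y * b j) * E o o := fun y hy => by
    rw [hB, star_sum, Finset.sum_mul, Finset.sum_mul, Finset.sum_mul]
    refine Finset.sum_congr rfl fun j _ => ?_
    have e : ∀ k, star (b j * E (i j) o) * y * (b k * E (i k) o) =
        star (b j) * y * b k * (E o (i j) * E (i k) o) := fun k => by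
      rw [star_mul, L.eU.star_eq, hbE', mul_assoc (star (b j)), hy]
      simp only [mul_assoc]
      rw [← mul_assoc (E o (i j)), hbE, mul_assoc]
    rw [Finset.mul_sum, Finset.sum_eq_single j (fun k _ hk => ?_) (by simp), e, L.eU.mul,
      if_pos rfl]
    rw [e, L.eU.mul, if_neg fun h => hk (hi h).symm, mul_zero]
  have hBB : star B * B = gram b * E o o := by
    have := hBy 1 fun a c => by rw [mul_one, one_mul]
    simpa only [mul_one, gram] using this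
  have hcm : ∀ y : Op H, (∀ a c, E a c * y = y * E a c) → ∀ a c,
      E a c * (∑ j, star (b j) * y * b j) = (∑ j, star (b j) * y * b j) * E a c := by
    intro y hy a c
    rw [Finset.mul_sum, Finset.sum_mul]
    refine Finset.sum_congr rfl fun j _ => ?_
    rw [← mul_assoc, ← mul_assoc, hbE', mul_assoc (star (b j)), hy, ← mul_assoc, mul_assoc _ (E a c),
      hbE, ← mul_assoc]
  have hp : ‖(z * E o o) S.ξ‖ = √(ρ o) * ‖z S.ξ‖ := hn' z hz.mem hzE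
  refine cin2_abs S hR (B := B) (p := z * E o o) ?_ ?_ (hz.proj.mul hEp (hzE o o).symm)
    (mul_mem hz.mem (hEM o o)) ?_ hx hl hε hε1 ?_ ?_ ?_ ?_
  · exact hB ▸ sum_mem fun j _ => mul_mem (hb j) (hE _ _)
  · have h4 := CStarRing.norm_star_mul_self (x := B)
    have h5 := hc.norm_gram zero_le_one
    have h6 := norm_mul_le (gram b) (E o o)
    rw [hBB] at h4
    nlinarith [hEp.norm_le, norm_nonneg B, norm_nonneg (gram b), norm_nonneg (E o o)]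
  · rw [hB, Finset.sum_mul]
    refine Finset.sum_congr rfl fun j _ => ?_
    rw [← mul_assoc, mul_assoc (b j), hzE, ← mul_assoc, hbz, mul_assoc, L.eU.mul, if_pos rfl]
  · rw [← norm_pos_iff, hp]
    exact mul_pos hc0 (norm_pos_iff.2 h0)
  · have hrel : ∀ j, Rel E F ρ (S.D (μ j) (b j)) := fun j => by
      have e : S.D (μ j) (b j) = (b j - μ j • S.ρ (b j)) S.ξ := by
        rw [SF.D, sub_apply, smul_apply]
      rw [e]
      refine hr.map (fun a c => ?_) fun a c => ?_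
      · rw [mul_sub, sub_mul, hbE, mul_smul_comm, smul_mul_assoc, S.ρ_comm (hEM a c) (hbM j)]
      · rw [mul_sub, sub_mul, comm_of_mem (hF a c) (hbM j), mul_smul_comm, smul_mul_assoc,
          ← cin2_rho S L hF hr hEM, ← S.ρ_mul, ← S.ρ_mul, hbE]
    have hs : ∀ j η, Rel E F ρ η → (μ j)⁻¹ • F o (i j) η = E (i j) o η := fun j η hη => by
      have h4 := hη (i j) o
      rw [hρ, Real.sqrt_mul (L.pos o).le, Real.sqrt_sq (hμ j).le, mul_smul] at h4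
      rw [← smul_right_injective H hc0.ne' h4, smul_smul, inv_mul_cancel₀ (hμ j).ne', one_smul]
    have e : S.D 1 B = ∑ j, E (i j) o (S.D (μ j) (b j)) := by
      rw [hB, S.D_sum]
      refine Finset.sum_congr rfl fun j _ => ?_
      have h4 := S.D_mul (hbM j) (hEM (i j) o) (μ j) (μ j)⁻¹
      rw [mul_inv_cancel₀ (hμ j).ne', cin2_rho S L hF hr hEM, hs j _ (hrel j)] at h4
      rw [h4, SF.D, cin2_rho S L hF hr hEM, hs j _ hr, sub_self, map_zero, zero_add]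
    have h4 : ‖S.D 1 B‖ = √(ρ o) * S.Dn b μ := by
      refine (sq_eq_sq₀ (norm_nonneg _) (mul_nonneg hc0.le (l2_nonneg _))).1 ?_
      rw [e, cin2_orth fun j k hjk => ?_, mul_pow, l2_sq, Finset.mul_sum]
      · exact Finset.sum_congr rfl fun j _ => by rw [hn _ (hrel j), mul_pow]
      · rw [← inner_star_right, ← mul_apply_eq_comp, L.eU.star_eq, L.eU.mul,
          if_neg fun h => hjk (hi h), zero_apply, inner_zero_right]
    rw [h4, hp]
    nlinarith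
  · have h4 := hn' (gram b - z) (sub_mem (gram_mem hbM) hz.mem) fun a c => by
      have := hcm 1 (fun a c => by rw [mul_one, one_mul]) a c
      simp only [mul_one] at this
      rw [mul_sub, sub_mul, hzE, gram, this]
    rw [hBB, ← sub_mul, h4, hp]
    nlinarith
  · have h4 := hn' (∑ j, star (b j) * x * b j - lam • z)
      (sub_mem (sum_mem fun j _ => mul_mem (mul_mem (star_mem (hbM j)) hx) (hbM j))
        (vn_rsmul_mem lam hz.mem)) fun a c => by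
      rw [mul_sub, sub_mul, hcm x hxE, mul_smul_comm, smul_mul_assoc, hzE]
    rw [hBy x hxE, ← smul_mul_assoc, ← sub_mul, h4, hp, sub_apply, _root_.sum_apply, smul_apply]
    nlinarith

end Vale.Agent.P096
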