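import Vale.Agent.P096.Basic
import Vale.Agent.P104.Restrict

/-!
# P096: general corners (reduction by `s ∈ N` and induction by `s' ∈ N'` at the same time)
`i` is an isometry onto the range of `s s'`; `rstAlg i N` is the commutant of the compressed commutant.
* `cor_mul`: `i i* = s s'`; for `x ∈ N`, `y ∈ N'`: `i* x s s' y i = i* s x s' y i`..., so `rstC x * rstC y = rstC (x * y) = rstC y * rstC x` (`cor_comm`), hence `cor_mem`.
* `cor_lift`: let `T ∈ rstAlg i N`. On the span of the vectors `y (i η)`, `y ∈ N'`, put `y (i η) ↦ y (i (T η))`. Bound: for finite families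
  `‖∑ y k i T η k‖² = ∑ <T η l, c l k T η k>`, `c l k = rstC (y l* y k)`; the matrix `C = (c l k)` on `PiLp 2` (`exists_piAmp`) is positive (`C = Y* Y`) and commutes with `amp T`, so
  `<C T η, T η> = ‖T C^(1/2) η‖² ≤ ‖T‖² <C η, η>` (`CFC.sqrt` commutes with `amp T`: `Commute.cfc...` or `vn_cfc_mem`). Extend by continuity to the closed span and by `0`
  on the complement (for instance `LinearMap.extendOfNorm` / `P132` or `P104` helpers), `p = projOn {y (i η)}` is in `N` (`projOn_comm`). The extension commutes with `N'`.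
  For `n ∈ N`, `p n p` and the lift of `rstC i n` have the same matrix coefficients on the vectors `y (i η)`.
* the commutant statement follows by symmetry: `rstAlg i N.commutant` and `rstAlg i N` are mutual commutants because both consist of compressions.
-/

namespace Vale.Agent.P096

open Vale.Agent.P104 Vale.Agent.P132 Filter Topology
open scoped InnerProductSpace

variable {H : Type*} [NormedAddCommGroup H] [InnerProductSpace ℂ H] [CompleteSpace H]
  {K : Type*} [NormedAddCommGroup K] [InnerProductSpace ℂ K] [CompleteSpace K]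
  {M N : VonNeumannAlgebra H} {i : K →L[ℂ] H} {s s' : Op H}

/-- the data of a corner -/
structure Cor (N : VonNeumannAlgebra H) (i : K →L[ℂ] H) (s s' : Op H) : Prop where
  proj : IsStarProjection s
  proj' : IsStarProjection s'
  mem : s ∈ N
  mem' : s' ∈ N.commutant
  iso : RstIso i (s * s')

theorem Cor.sc (h : Cor N i s s') : s' * s = s * s' := comm_of_mem h.mem' h.mem

theorem Cor.comm (h : Cor N i s s') : Cor N.commutant i s' s :=
  ⟨h.proj', h.proj, h.mem', by simpa using h.mem, by rw [h.sc]; exact h.iso⟩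

theorem Cor.s_i (h : Cor N i s s') (η : K) : s (i η) = i η := by
  rw [← h.iso.z_i, ← mul_apply_eq_comp, ← mul_assoc, h.proj.isIdempotentElem.eq]

theorem cor_adj_of_fix {q : Op H} (hq : IsStarProjection q) (h : ∀ η, q (i η) = i η) (ζ : H) :
    i.adjoint (q ζ) = i.adjoint ζ := by
  refine ext_inner_left ℂ fun η => ?_
  rw [ContinuousLinearMap.adjoint_inner_right, ContinuousLinearMap.adjoint_inner_right,
    ← inner_star_left, hq.isSelfAdjoint.star_eq, h]

theorem Cor.i_C (h : Cor N i s s') {y : Op H} (hy : y ∈ N) (η : K) :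
    i (rstC i y η) = s (y (i η)) := by
  rw [rstC_apply, h.iso.right, mul_apply_eq_comp, ← mul_apply_eq_comp s',
    comm_of_mem h.mem' hy, mul_apply_eq_comp, h.comm.s_i]

/-- elements of `N` which commute with `s` are compressed multiplicatively -/
theorem Cor.C_mul (h : Cor N i s s') (x : Op H) {y : Op H} (hy : y ∈ N) (hs : s * y * s = y * s) :
    rstC i x * rstC i y = rstC i (x * y) := by
  ext η
  have h1 := DFunLike.congr_fun hs (i η)
  simp only [mul_apply_eq_comp, h.s_i] at h1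
  rw [mul_apply_eq_comp, rstC_apply i x, h.i_C hy, h1]
  rfl

theorem Cor.C_mul' (h : Cor N i s s') {x y : Op H} (hx : x ∈ N) (hy : y ∈ N.commutant) :
    rstC i y * rstC i x = rstC i (y * x) := by
  ext η
  rw [mul_apply_eq_comp, rstC_apply i y, h.i_C hx, ← mul_apply_eq_comp y s,
    comm_of_mem hy h.mem, mul_apply_eq_comp, cor_adj_of_fix h.proj h.s_i]
  rfl

theorem Cor.C_mem (h : Cor N i s s') {x : Op H} (hx : x ∈ N) : rstC i x ∈ rstAlg i N := by
  have h1 : ∀ y ∈ N.commutant, rstC i y * rstC i x = rstC i x * rstC i y := fun y hy => by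
    rw [h.C_mul' hx hy, h.comm.C_mul' hy (by simpa using hx), comm_of_mem hy hx]
  refine mem_vnComm.2 ?_
  rintro _ ⟨y, hy, rfl⟩
  refine ⟨h1 y hy, ?_⟩
  rw [rstC_star]
  exact h1 _ (star_mem hy)

/-- extension of a map which is given on a family of vectors -/
theorem cor_ext {I : Type*} (v w w' : I → H) {c : ℝ} (hc : 0 ≤ c)
    (h : ∀ a b, ⟪w a, w b⟫_ℂ + ⟪w' a, w' b⟫_ℂ = ((c ^ 2 : ℝ) : ℂ) * ⟪v a, v b⟫_ℂ) :
    ∃ X : Op H, ‖X‖ ≤ c ∧ (∀ a, X (v a) = w a) ∧ X * projOn (Set.range v) = X := by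
  set V := Finsupp.linearCombination ℂ v with hV
  set F := Finsupp.linearCombination ℂ w with hF
  set F' := Finsupp.linearCombination ℂ w' with hF'
  set p := projOn (Set.range v) with hp
  have h1 : ∀ x y, ⟪F x, F y⟫_ℂ + ⟪F' x, F' y⟫_ℂ = ((c ^ 2 : ℝ) : ℂ) * ⟪V x, V y⟫_ℂ := by
    intro x y
    induction x using Finsupp.induction_linear with
    | zero => simp
    | add x x' hx hx' =>
      simp only [map_add, inner_add_left]
      linear_combination hx + hx'
    | single a r =>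
      induction y using Finsupp.induction_linear with
      | zero => simp
      | add y y' hy hy' =>
        simp only [map_add, inner_add_right]
        linear_combination hy + hy'
      | single b t =>
        simp only [hV, hF, hF', Finsupp.linearCombination_single, inner_smul_left,
          inner_smul_right]
        linear_combination (t * starRingEnd ℂ r) * h a b
  have h2 : ∀ x, ‖F x‖ ≤ c * ‖V x‖ := fun x => by
    have h3 := h1 x x
    simp only [inner_self_eq_norm_sq_to_K] at h3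
    have h4 : ‖F x‖ ^ 2 + ‖F' x‖ ^ 2 = c ^ 2 * ‖V x‖ ^ 2 := by
      apply Complex.ofReal_injective
      push_cast at h3 ⊢
      exact h3
    refine (abs_le_of_sq_le_sq' ?_ (by positivity)).2
    nlinarith [sq_nonneg ‖F' x‖]
  have hpp : IsStarProjection p := projOn_proj _
  have hr : (Submodule.span ℂ (Set.range v) : Set H) = Set.range V := by
    rw [← Finsupp.range_linearCombination, LinearMap.coe_range]
  have hpV : ∀ x, p (V x) = V x := fun x =>
    (l2_projOn_iff _ _).2 (subset_closure (by rw [hr]; exact ⟨x, rfl⟩))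
  have hp0 : ∀ ζ, p ((1 - p) ζ) = 0 := fun ζ => by
    rw [← mul_apply_eq_comp, mul_sub, mul_one, hpp.isIdempotentElem.eq, sub_self]
    rfl
  let e : (I →₀ ℂ) × H →ₗ[ℂ] H := V.coprod (1 - p).toLinearMap
  let f : (I →₀ ℂ) × H →ₗ[ℂ] H := F ∘ₗ LinearMap.fst ℂ _ _
  have he : ∀ x ζ, e (x, ζ) = V x + (1 - p) ζ := fun _ _ => rfl
  have hf : ∀ x ζ, f (x, ζ) = F x := fun _ _ => rfl
  have hd : DenseRange e := fun ζ => by
    have h3 := projOn_mem_closure (Set.range v) ζ
    rw [hr, ← hp] at h3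
    have h4 : ζ = p ζ + (1 - p) ζ := by simp
    rw [h4]
    refine map_mem_closure (f := fun η => η + (1 - p) ζ) (by fun_prop) h3 ?_
    rintro _ ⟨x, rfl⟩
    exact ⟨(x, ζ), rfl⟩
  have hn : ∀ x, ‖f x‖ ≤ c * ‖e x‖ := by
    rintro ⟨x, ζ⟩
    rw [hf, he]
    refine (h2 x).trans (mul_le_mul_of_nonneg_left ?_ hc)
    have h3 : V x = p (V x + (1 - p) ζ) := by rw [map_add, hpV, hp0, add_zero]
    conv_lhs => rw [h3]
    exact (p.le_of_opNorm_le (hpp.norm_le p) _).trans_eq (one_mul _)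
  have hX := LinearMap.extendOfNorm_eq (f := f) (e := e) hd ⟨c, hn⟩
  refine ⟨f.extendOfNorm e, LinearMap.opNorm_extendOfNorm_le hd hc hn, fun a => ?_, ?_⟩
  · have h3 := hX (Finsupp.single a 1, 0)
    simpa [he, hf, hV, hF] using h3
  · ext ζ
    have h3 := hX (0, ζ)
    rw [he, hf, map_zero, map_zero, zero_add, sub_apply, one_apply_eq_self, map_sub,
      sub_eq_zero] at h3
    exact h3.symm

/-- the generating vectors of the support -/
def corV (N : VonNeumannAlgebra H) (i : K →L[ℂ] H) (a : N.commutant × K) : H := a.1.1 (i a.2)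

omit [CompleteSpace K] in
theorem cor_eq_of {X Y : Op H} (h : ∀ y ∈ N.commutant, ∀ η, X (y (i η)) = Y (y (i η))) :
    X * projOn (Set.range (corV N i)) = Y * projOn (Set.range (corV N i)) := by
  rw [← sub_eq_zero, ← sub_mul]
  refine mul_projOn_eq_zero ?_
  rintro _ ⟨⟨y, η⟩, rfl⟩
  exact sub_eq_zero.2 (h y.1 y.2 η)

omit [CompleteSpace K] in
theorem cor_p_mem : projOn (Set.range (corV N i)) ∈ N := by
  have h : projOn (Set.range (corV N i)) ∈ N.commutant.commutant := by
    refine projOn_comm ?_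
    rintro y hy _ ⟨⟨z, η⟩, rfl⟩
    exact ⟨(⟨y * z.1, mul_mem hy z.2⟩, η), rfl⟩
  simpa using h

omit [CompleteSpace K] in
theorem cor_p_i (η : K) : projOn (Set.range (corV N i)) (i η) = i η :=
  projOn_apply_of_mem ⟨(⟨1, one_mem _⟩, η), rfl⟩

omit [CompleteSpace K] in
theorem cor_p_min {q : Op H} (hq : q ∈ N) (h : ∀ η, q (i η) = i η) :
    q * projOn (Set.range (corV N i)) = projOn (Set.range (corV N i)) := by
  refine (cor_eq_of (Y := 1) fun y hy η => ?_).trans (one_mul _)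
  rw [← mul_apply_eq_comp, ← comm_of_mem hy hq, mul_apply_eq_comp, h]
  rfl

theorem cor_exists_lift {T : Op K} (hT : T ∈ rstAlg i N) :
    ∃ X ∈ N, ‖X‖ ≤ ‖T‖ ∧ (∀ η, X (i η) = i (T η)) ∧ X * projOn (Set.range (corV N i)) = X := by
  set A : Op K := (‖T‖ ^ 2 : ℝ) • 1 - star T * T with hA
  have hAm : A ∈ rstAlg i N :=
    sub_mem (vn_rsmul_mem _ (one_mem _)) (mul_mem (star_mem hT) hT)
  have hAs : IsSelfAdjoint A := by simp [hA, IsSelfAdjoint]
  have hA0 : 0 ≤ A := nonneg_iff_qf.2 ⟨hAs, fun η => by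
    rw [hA, qf_sub, qf_rsmul, qf_one, qf_star_mul_self, sub_nonneg, ← mul_pow]
    exact pow_le_pow_left₀ (norm_nonneg _) (T.le_opNorm η) 2⟩
  set S := cfc Real.sqrt A with hS
  have hSm : S ∈ rstAlg i N := vn_cfc_mem _ hAm
  have hSS : star S * S = A := by
    rw [hS, (cfc_predicate Real.sqrt A).star_eq, ← cfc_mul _ _ A]
    conv_rhs => rw [← cfc_id' ℝ A]
    exact cfc_congr fun x hx => Real.mul_self_sqrt (spectrum_nonneg_of_nonneg hA0 hx)
  have key : ∀ R ∈ rstAlg i N, ∀ y ∈ N.commutant, ∀ z ∈ N.commutant, ∀ η ζ,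
      ⟪y (i (R η)), z (i (R ζ))⟫_ℂ = ⟪η, rstC i (star y * z) ((star R * R) ζ)⟫_ℂ := by
    intro R hR y hy z hz η ζ
    have h1 := comm_of_mem (rstC_mem_commutant (i := i) (mul_mem (star_mem hy) hz)) (star_mem hR)
    rw [mul_apply_eq_comp, ← mul_apply_eq_comp _ (star R), h1, mul_apply_eq_comp,
      inner_star_right, rstC_apply, ContinuousLinearMap.adjoint_inner_right, mul_apply_eq_comp,
      inner_star_right]
  obtain ⟨X, h1, h2, h3⟩ := cor_ext (corV N i) (fun a => a.1.1 (i (T a.2)))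
    (fun a => a.1.1 (i (S a.2))) (norm_nonneg T) (by
      rintro ⟨y, η⟩ ⟨z, ζ⟩
      have h4 := key 1 (one_mem _) y.1 y.2 z.1 z.2 η ζ
      simp only [star_one, mul_one, one_apply_eq_self] at h4
      simp only [corV]
      rw [key T hT y.1 y.2 z.1 z.2, key S hSm y.1 y.2 z.1 z.2, h4, hSS, ← inner_add_right,
        ← map_add, ← add_apply, hA, add_sub_cancel, ← inner_smul_right, ← map_smul]
      rfl)
  have h4 : ∀ y ∈ N.commutant, ∀ η, X (y (i η)) = y (i (T η)) := fun y hy η => h2 (⟨y, hy⟩, η)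
  refine ⟨X, (mem_iff_comm N).2 fun y hy => ?_, h1, h4 1 (one_mem _), h3⟩
  have h5 := cor_eq_of (X := y * X) (Y := X * y) (N := N) (i := i) fun z hz η => by
    rw [mul_apply_eq_comp, mul_apply_eq_comp, h4 z hz]
    exact (h4 _ (mul_mem hy hz) η).symm
  rwa [mul_assoc, h3, mul_assoc, comm_of_mem hy cor_p_mem, ← mul_assoc, h3] at h5

omit [CompleteSpace K] in
theorem cor_uniq {X Y : Op H} (hX : X ∈ N) (hY : Y ∈ N)
    (h1 : X * projOn (Set.range (corV N i)) = X) (h2 : Y * projOn (Set.range (corV N i)) = Y)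
    (h : ∀ η, X (i η) = Y (i η)) : X = Y := by
  rw [← h1, ← h2]
  refine cor_eq_of fun y hy η => ?_
  rw [← mul_apply_eq_comp, ← comm_of_mem hy hX, mul_apply_eq_comp, h, ← mul_apply_eq_comp,
    comm_of_mem hy hY, mul_apply_eq_comp]

/-- the linear contractive lift -/
theorem Cor.lift (h : Cor N i s s') : ∃ (p : Op H) (L : Op K →ₗ[ℂ] Op H), p ∈ N ∧
    IsStarProjection p ∧ (∀ η, p (i η) = i η) ∧ s * p = p ∧
    (∀ T ∈ rstAlg i N, L T ∈ N ∧ ‖L T‖ ≤ ‖T‖ ∧ rstC i (L T) = T) ∧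
    (∀ x ∈ N, L (rstC i x) = p * x * p) ∧
    ∀ q, IsStarProjection q → q ∈ N → (∀ η, q (i η) = i η) → q * p = p := by
  let R : Submodule ℂ (Op K) := (rstAlg i N).toStarSubalgebra.toSubalgebra.toSubmodule
  choose X h1 h2 h3 h4 using fun T : R => cor_exists_lift (T := T.1) T.2
  let L₀ : R →ₗ[ℂ] Op H :=
    { toFun := X
      map_add' := fun T T' => cor_uniq (h1 _) (add_mem (h1 _) (h1 _)) (h4 _)
        (by rw [add_mul, h4, h4]) fun η => by
          rw [add_apply, h3, h3, h3, ← map_add]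
          rfl
      map_smul' := fun c T => cor_uniq (h1 _) (SMulMemClass.smul_mem _ (h1 _)) (h4 _)
        (by rw [smul_mul_assoc, h4]) fun η => by
          rw [smul_apply, h3, h3, ← map_smul]
          rfl }
  obtain ⟨L, hL⟩ := LinearMap.exists_extend L₀
  have hL' : ∀ T (hT : T ∈ rstAlg i N), L T = X ⟨T, hT⟩ := fun T hT =>
    LinearMap.congr_fun hL ⟨T, hT⟩
  have hp := projOn_proj (Set.range (corV N i))
  have hsp := cor_p_min h.mem h.s_i
  refine ⟨_, L, cor_p_mem, hp, cor_p_i, hsp, fun T hT => ?_, fun x hx => ?_,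
    fun q _ hq h5 => cor_p_min hq h5⟩
  · rw [hL' T hT]
    refine ⟨h1 _, h2 _, ?_⟩
    ext η
    rw [rstC_apply, h3, h.iso.left]
  · rw [hL' _ (h.C_mem hx)]
    have hm := mul_mem (mul_mem (cor_p_mem (N := N) (i := i)) hx) (cor_p_mem (N := N) (i := i))
    refine cor_uniq (h1 _) hm (h4 _) (by rw [mul_assoc, hp.isIdempotentElem.eq]) fun η => ?_
    have h5 := h.i_C hm η
    rw [← mul_apply_eq_comp s, ← mul_assoc, ← mul_assoc, hsp] at h5
    rw [h3, ← h5]
    simp only [rstC_apply, mul_apply_eq_comp, cor_p_i, cor_adj_of_fix hp cor_p_i]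

theorem Cor.mem_iff (h : Cor N i s s') {T : Op K} :
    T ∈ rstAlg i N ↔ ∃ x ∈ N, ‖x‖ ≤ ‖T‖ ∧ T = rstC i x := by
  refine ⟨fun hT => ?_, ?_⟩
  · obtain ⟨X, h1, h2, h3, -⟩ := cor_exists_lift hT
    refine ⟨X, h1, h2, ?_⟩
    ext η
    rw [rstC_apply, h3, h.iso.left]
  · rintro ⟨x, hx, -, rfl⟩
    exact h.C_mem hx

theorem Cor.commutant (h : Cor N i s s') : (rstAlg i N).commutant = rstAlg i N.commutant := by
  ext T
  refine ⟨fun hT => mem_vnComm.2 ?_, fun hT => ?_⟩
  · rintro _ ⟨x, hx, rfl⟩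
    have hx' : x ∈ N := by simpa using hx
    exact ⟨(comm_of_mem hT (h.C_mem hx')).symm,
      (comm_of_mem hT (star_mem (h.C_mem hx'))).symm⟩
  · obtain ⟨y, hy, -, rfl⟩ := h.comm.mem_iff.1 hT
    exact rstC_mem_commutant hy

theorem Cor.ni {t t' : Op H} (h : Cor M i s s') (h' : Cor N i t t') {δ : ℝ} (hδ : 0 ≤ δ)
    (hc : NI M N δ) : NI (rstAlg i M) (rstAlg i N) δ := fun T hT => by
  obtain ⟨x, hx, h1, rfl⟩ := h.mem_iff.1 hT
  obtain ⟨y, hy, h2⟩ := hc x hx
  refine ⟨_, h'.C_mem hy, ?_⟩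
  have e : rstC i x - rstC i y = rstC i (x - y) := by
    ext η
    simp [rstC_apply]
  rw [e]
  exact (h.iso.norm_C _).trans (h2.trans (mul_le_mul_of_nonneg_left h1 hδ))

theorem Cor.cl (h : Cor M i s s') (h' : Cor N i s s') {δ : ℝ} (hδ : 0 ≤ δ) (hc : Cl M N δ) :
    Cl (rstAlg i M) (rstAlg i N) δ := by
  refine ⟨h.ni h' hδ hc.mn, h'.ni h hδ hc.nm, ?_, ?_⟩ <;> rw [h.commutant, h'.commutant]
  · exact h.comm.ni h'.comm hδ hc.mn'
  · exact h'.comm.ni h.comm hδ hc.nm'

theorem Cor.dense (h : Cor N i s s') {ξ₀ : K} (hs : s' = projOn (orb N (i ξ₀))) :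
    Dense (orb (rstAlg i N) ξ₀) := fun η => by
  have h1 := (projOn_orb_iff N (i ξ₀) (i η)).1 (by rw [← hs, h.comm.s_i])
  rw [← h.iso.left η]
  refine map_mem_closure i.adjoint.continuous h1 ?_
  rintro _ ⟨x, hx, rfl⟩
  exact ⟨_, h.C_mem hx, rfl⟩

theorem cor_orb (P : VonNeumannAlgebra H) (ξ : H) : projOn (orb P ξ) ∈ P.commutant := by
  refine projOn_comm ?_
  rintro y hy _ ⟨x, hx, rfl⟩
  exact ⟨y * x, mul_mem hy hx, rfl⟩

theorem cor_vec_aux {ξ : H} (hi : RstIso i (projOn (orb N.commutant ξ) * projOn (orb N ξ))) :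
    Cor N i (projOn (orb N.commutant ξ)) (projOn (orb N ξ)) ∧ i (i.adjoint ξ) = ξ ∧
      Dense (orb (rstAlg i N) (i.adjoint ξ)) ∧ Dense (orb (rstAlg i N).commutant (i.adjoint ξ)) := by
  have key : ∀ P : VonNeumannAlgebra H, projOn (orb P ξ) ξ = ξ := fun P =>
    projOn_apply_of_mem ⟨1, one_mem _, rfl⟩
  have hc : Cor N i _ _ :=
    ⟨projOn_proj _, projOn_proj _, by simpa using cor_orb N.commutant ξ, cor_orb N ξ, hi⟩
  have hξ : i (i.adjoint ξ) = ξ := by rw [hi.right, mul_apply_eq_comp, key, key]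
  refine ⟨hc, hξ, hc.dense (by rw [hξ]), ?_⟩
  rw [hc.commutant]
  exact hc.comm.dense (by rw [hξ])

/-- the corner of a vector: the vector becomes cyclic and separating -/
theorem cor_vec (N : VonNeumannAlgebra H) (ξ : H) :
    ∃ (U : Submodule ℂ H) (_ : CompleteSpace U) (ξ₀ : U),
      Cor N U.subtypeL (projOn (orb N.commutant ξ)) (projOn (orb N ξ)) ∧ (ξ₀ : H) = ξ ∧
      Dense (orb (rstAlg U.subtypeL N) ξ₀) ∧ Dense (orb (rstAlg U.subtypeL N).commutant ξ₀) := by
  have h1 : projOn (orb N.commutant ξ) ∈ N := by simpa using cor_orb N.commutant ξ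
  have h2 : IsStarProjection (projOn (orb N.commutant ξ) * projOn (orb N ξ)) :=
    (projOn_proj _).mul (projOn_proj _) (comm_of_mem (cor_orb N ξ) h1).symm
  obtain ⟨U, hU, hi⟩ := exists_rstIso h2
  obtain ⟨a1, a2, a3, a4⟩ := cor_vec_aux hi
  exact ⟨U, hU, U.subtypeL.adjoint ξ, a1, a2, a3, a4⟩

end Vale.Agent.P096
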