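import Vale.Agent.P096.CIn1
import Vale.Agent.P096.CIn2
import Vale.Agent.P096.Cor

/-!
# P096 C: one new pair of projections
Normalize `ζ`. `cor_vec A ζ`: `s = [A' ζ] ≤ r`, `s' = [A ζ] ≤ r'`; both commute with `e l`, `f l` for `l ∉ S` (`e l a b (y ζ) = c • y (f l b a ζ)` for `y ∈ A'`; `projOn_comm'`).
`T` from `exists_sf'` for `rstAlg i A`. `E l = rstC i ∘ e l`, `F l = rstC i ∘ f l` are `Leg1` on the corner, with `Rel` at `T.ξ`. `R = inter T.M {E l a b | l ∉ S}` is `σ`-invariant (`eig`: `σ t (E) = scalar • E`).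
Lifts `L`, `L'` from `Cor.lift` for `A` and `A'` (`p = s` by minimality); `L` maps projections to projections under `s`, and elements commuting with `E l` to elements commuting with `e l`
(`L (rstC y) = s y s`). Centre: if `CProj R z`, then `z₀ = L z ∈ sub A S` is central in `s (sub A S) s`; `csupp (sub A S) z₀` gives `z₁` with `(s - z₀) z₁ = 0`, so `z₀ = z₁ s`, `LA.cen`, `z = rstC z₁`.
`in1`; leg type `n = card κ + 1`, `ρ 0 = c = 1 / (2 (1 + ∑ μ²))`, `ρ (i j) = c μ j²`, last weight the rest; `exists_fresh`; `in2` with `R₁ = inter T.M {E l' a b | l' ∉ insert l S}`.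
`q = L q₀`, `q' = L' (T.ρ q₀)` (`T.ρ q₀` commutes with `F l' = ρ (E l')`).
-/

namespace Vale.Agent.P096

open Vale.Agent.P104 Vale.Agent.P132 Filter Topology
open scoped InnerProductSpace

universe u

variable {K : Type u} [NormedAddCommGroup K] [InnerProductSpace ℂ K] [CompleteSpace K]

section Core

variable {H : Type u} [NormedAddCommGroup H] [InnerProductSpace ℂ H] [CompleteSpace H]

theorem cin_le {q : Op H} (hq : IsStarProjection q) (η : H) : ‖q η‖ ≤ ‖η‖ :=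
  (q.le_opNorm η).trans (mul_le_of_le_one_left (norm_nonneg _) hq.norm_le)

theorem cin_rel {I : Type*} {E F : I → I → Op H} {ρ : I → ℝ} {η : H} (hρ : ∀ a, 0 < ρ a)
    (hr : Rel E F ρ η) (a b : I) : E a b η = (√(ρ b) / √(ρ a)) • F b a η ∧
      F a b η = (√(ρ b) / √(ρ a)) • E b a η := by
  have ha := (Real.sqrt_pos.2 (hρ a)).ne'
  constructor
  · rw [div_eq_inv_mul, mul_smul, ← hr a b, inv_smul_smul₀ ha]
  · rw [div_eq_inv_mul, mul_smul, hr b a, inv_smul_smul₀ ha]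

theorem cin_eig (T : SF H) {I : Type*} [Fintype I] [DecidableEq I] {E F : I → I → Op H} {ρ : I → ℝ}
    (L : Leg1 E F ρ) (hE : ∀ a b, E a b ∈ T.M) (hF : ∀ a b, F a b ∈ T.M.commutant)
    (hr : Rel E F ρ T.ξ) (a b : I) :
    T.ρ (E a b) = F b a ∧ ∀ t, ∃ c : ℂ, T.σ t (E a b) = c • E a b := by
  obtain ⟨h1, h2⟩ := eig T (hE a b) (hF b a)
    (div_pos (Real.sqrt_pos.2 (L.pos b)) (Real.sqrt_pos.2 (L.pos a))) (cin_rel L.pos hr a b).1
    (by rw [L.eU.star_eq, L.fU.star_eq, (cin_rel L.pos hr a b).2])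
  exact ⟨h1, fun t => ⟨_, h2 t⟩⟩

/-- the matrix units of the legs outside `S` -/
def cinE (E : (l : Leg) → l.I → l.I → Op H) (S : Set Leg) : Set (Op H) :=
  {y | ∃ l ∉ S, ∃ a b, y = E l a b}

theorem cin_mem {M : VonNeumannAlgebra H} {E : (l : Leg) → l.I → l.I → Op H}
    (hE : ∀ l a b, star (E l a b) = E l b a) {S : Set Leg} {x : Op H} :
    x ∈ inter M (cinE E S) ↔ x ∈ M ∧ ∀ l ∉ S, ∀ a b, E l a b * x = x * E l a b := by
  rw [mem_inter]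
  refine and_congr_right fun _ => ⟨fun h l hl a b => (h _ ⟨l, hl, a, b, rfl⟩).1, fun h => ?_⟩
  rintro _ ⟨l, hl, a, b, rfl⟩
  rw [hE]
  exact ⟨h l hl a b, h l hl b a⟩

theorem cin_type {κ : Type} [Fintype κ] {μ : κ → ℝ} (hμ : ∀ j, 0 < μ j) :
    ∃ (t : LT) (i : κ → Fin (t.n + 1)) (o : Fin (t.n + 1)), Function.Injective i ∧
      ∀ j, t.ρ (i j) = t.ρ o * μ j ^ 2 := by
  have hc : 0 < 1 + ∑ j, μ j ^ 2 := by positivity
  let e := Fintype.equivFin κ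
  refine ⟨⟨Fintype.card κ, Fin.cons (1 + ∑ j, μ j ^ 2)⁻¹
    fun j => (1 + ∑ j, μ j ^ 2)⁻¹ * μ (e.symm j) ^ 2, fun a => ?_, ?_⟩, fun j => (e j).succ, 0,
    (Fin.succ_injective _).comp e.injective, fun j => ?_⟩
  · refine Fin.cases (inv_pos.2 hc) (fun j => ?_) a
    exact mul_pos (inv_pos.2 hc) (pow_pos (hμ _) 2)
  · rw [Fin.sum_univ_succ]
    simp only [Fin.cons_zero, Fin.cons_succ]
    rw [← Finset.mul_sum, e.symm.sum_comp fun j => μ j ^ 2, ← mul_one_add, inv_mul_cancel₀ hc.ne']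
  · simp only [Fin.cons_zero, Fin.cons_succ, Equiv.symm_apply_apply]

theorem cin_core (T : SF H) {S : Set Leg} (hS : S.Countable) {E F : (l : Leg) → l.I → l.I → Op H}
    (hs : ∀ l a b, star (E l a b) = E l b a) (hL : ∀ l ∉ S, Leg1 (E l) (F l) l.2.ρ)
    (hE : ∀ l a b, E l a b ∈ T.M) (hF : ∀ l a b, F l a b ∈ T.M.commutant)
    (hr : ∀ l ∉ S, Rel (E l) (F l) l.2.ρ T.ξ)
    (hee : ∀ l ∉ S, ∀ l' ∉ S, l ≠ l' → ∀ a b c d, E l a b * E l' c d = E l' c d * E l a b)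
    (hZ : ∀ z, CProj (inter T.M (cinE E S)) z → z ∈ T.M.commutant) {x : Op H}
    (hx : x ∈ inter T.M (cinE E S)) (hxs : IsSelfAdjoint x) {ε : ℝ} (hε : 0 < ε) :
    ∃ (l : Leg) (q q' : Op H) (lam : ℝ), IsStarProjection q ∧ IsStarProjection q' ∧ q ∈ T.M ∧
      q' ∈ T.M.commutant ∧ (∀ l' ∉ insert l S, ∀ a b, E l' a b * q = q * E l' a b) ∧
      (∀ l' ∉ insert l S, ∀ a b, F l' a b * q' = q' * F l' a b) ∧ |lam| ≤ ‖x‖ ∧ q (q' T.ξ) ≠ 0 ∧
      ‖q T.ξ - q (q' T.ξ)‖ ^ 2 + ‖q' T.ξ - q (q' T.ξ)‖ ^ 2 ≤ ε * ‖q (q' T.ξ)‖ ^ 2 ∧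
      ‖(q * x * q - lam • q) (q' T.ξ)‖ ^ 2 ≤ ε * ‖q (q' T.ξ)‖ ^ 2 := by
  obtain ⟨θ, hθ, hθ1, hθ2⟩ : ∃ θ : ℝ, 0 < θ ∧ θ ≤ 1 ∧ 2 * θ ^ 2 ≤ ε :=
    ⟨min 1 (ε / 2), by positivity, min_le_left _ _, by
      have h1 := min_le_left 1 (ε / 2)
      have h2 := min_le_right 1 (ε / 2)
      have h3 : 0 < min 1 (ε / 2) := by positivity
      nlinarith⟩
  have hx0 := norm_nonneg x
  obtain ⟨ε₁, hε₁, he⟩ : ∃ ε₁ : ℝ, 0 < ε₁ ∧ 200 * (1 + ‖x‖) * ε₁ = θ :=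
    ⟨θ / (200 * (1 + ‖x‖)), by positivity, by field_simp⟩
  have he1 : 200 * ε₁ ≤ θ := by nlinarith
  obtain ⟨z, lam, κ, _, b, μ, hz, hz0, hlam, hb, hbz, hμ, hc, h1, h2, h3⟩ := in1 T
    (R := inter T.M (cinE E S)) (fun y hy => ((cin_mem hs).1 hy).1) (fun y hy t => by
      obtain ⟨h1, h2⟩ := (cin_mem hs).1 hy
      refine (cin_mem hs).2 ⟨T.σ_M y h1 t, fun l hl a b => ?_⟩
      obtain ⟨c, hc⟩ := (cin_eig T (hL l hl) (hE l) (hF l) (hr l hl) a b).2 (-t)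
      have h3 : T.σ (-t) (E l a b) * y = y * T.σ (-t) (E l a b) := by
        rw [hc, smul_mul_assoc, mul_smul_comm, h2 l hl]
      have h4 := congrArg (T.σ t) h3
      rwa [T.σ_mul, T.σ_mul, T.σ_σ, add_neg_cancel, T.σ_zero] at h4) hZ hx hxs hε₁
  obtain ⟨t, i, o, hi, hρ⟩ := cin_type hμ
  obtain ⟨r, hl⟩ := Legs.exists_fresh hS t
  obtain ⟨hxM, hxE⟩ := (cin_mem hs).1 hx
  obtain ⟨q, hq, hp, hq0, h4, h5⟩ := in2 T (hL _ hl) (hF _) (hr _ hl)
    (R₁ := inter T.M (cinE E (insert (r, t) S))) (fun y hy => ((cin_mem hs).1 hy).1)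
    (fun a c => (cin_mem hs).2 ⟨hE _ a c, fun l' hl' a' c' =>
      hee l' (fun h => hl' (Or.inr h)) _ hl (fun h => hl' (Or.inl h)) a' c' a c⟩) hi hρ hμ
    (fun j => (cin_mem hs).2 ⟨((cin_mem hs).1 (hb j)).1, fun l' hl' =>
      ((cin_mem hs).1 (hb j)).2 l' fun h => hl' (Or.inr h)⟩)
    (fun j => ((cin_mem hs).1 (hb j)).2 _ hl) hc hxM (hxE _ hl) hz hz0 hlam hbz hε₁ (by linarith)
    h1 h2 h3
  obtain ⟨hqM, hqE⟩ := (cin_mem hs).1 hq
  have hp' : IsStarProjection (T.ρ q) :=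
    ⟨by rw [IsIdempotentElem, ← T.ρ_mul, hp.isIdempotentElem.eq],
      by rw [IsSelfAdjoint, T.star_ρ, hp.isSelfAdjoint.star_eq]⟩
  have hqq : ∀ {p : Op H}, IsStarProjection p → ∀ η, p (p η) = p η := fun hp η => by
    rw [← mul_apply_eq_comp, hp.isIdempotentElem.eq]
  have a1 : ‖q T.ξ - q (T.ρ q T.ξ)‖ ≤ ‖q T.ξ - T.ρ q T.ξ‖ := by
    conv_lhs => rw [← hqq hp T.ξ, ← map_sub]
    exact cin_le hp _
  have a2 : ‖T.ρ q T.ξ - q (T.ρ q T.ξ)‖ ≤ ‖q T.ξ - T.ρ q T.ξ‖ := by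
    conv_lhs => rw [T.ρ_comm_apply hqM hqM, ← hqq hp' T.ξ, ← map_sub]
    rw [norm_sub_rev (q T.ξ)]
    exact cin_le hp' _
  have a3 : ‖(q * x * q - lam • q) (T.ρ q T.ξ)‖ ≤ ‖(q * x * q - lam • q) T.ξ‖ := by
    rw [T.ρ_comm_apply (sub_mem (mul_mem (mul_mem hqM hxM) hqM) (vn_rsmul_mem _ hqM)) hqM]
    exact cin_le hp' _
  have a4 : 0 < ‖q T.ξ‖ := norm_pos_iff.2 hq0
  have a5 : ‖q T.ξ‖ ≤ 2 * ‖q (T.ρ q T.ξ)‖ := by
    have := norm_sub_norm_le (q T.ξ) (q (T.ρ q T.ξ))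
    nlinarith
  have a6 : ‖q T.ξ - T.ρ q T.ξ‖ ≤ θ * ‖q (T.ρ q T.ξ)‖ := by nlinarith
  have a7 : ‖(q * x * q - lam • q) T.ξ‖ ≤ θ * ‖q (T.ρ q T.ξ)‖ := by nlinarith
  have a8 : 2 * (θ * ‖q (T.ρ q T.ξ)‖) ^ 2 ≤ ε * ‖q (T.ρ q T.ξ)‖ ^ 2 := by
    rw [mul_pow, ← mul_assoc]
    exact mul_le_mul_of_nonneg_right hθ2 (sq_nonneg _)
  have b1 := pow_le_pow_left₀ (norm_nonneg _) (a1.trans a6) 2
  have b2 := pow_le_pow_left₀ (norm_nonneg _) (a2.trans a6) 2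
  have b3 := pow_le_pow_left₀ (norm_nonneg _) (a3.trans a7) 2
  refine ⟨(r, t), q, T.ρ q, lam, hp, hp', hqM, T.ρ_mem hqM, hqE, fun l' hl' a c => ?_, hlam,
    norm_pos_iff.1 (by linarith), by linarith, by linarith [sq_nonneg (θ * ‖q (T.ρ q T.ξ)‖)]⟩
  have hl2 : l' ∉ S := fun h => hl' (Or.inr h)
  rw [← (cin_eig T (hL l' hl2) (hE l') (hF l') (hr l' hl2) c a).1, ← T.ρ_mul, ← T.ρ_mul, hqE l' hl']

end Core

section Corner

variable {K₀ : Type*} [NormedAddCommGroup K₀] [InnerProductSpace ℂ K₀] [CompleteSpace K₀]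
  {N : VonNeumannAlgebra K} {i : K₀ →L[ℂ] K} {s s' : Op K}

theorem cin_min {P : VonNeumannAlgebra K} {ζ : K} {q : Op K} (hq : q ∈ P.commutant) (h : q ζ = ζ) :
    q * projOn (orb P ζ) = projOn (orb P ζ) := by
  have h1 : (1 - q) * projOn (orb P ζ) = 0 := by
    refine mul_projOn_eq_zero ?_
    rintro _ ⟨y, hy, rfl⟩
    rw [sub_apply, one_apply_eq_self, ← mul_apply_eq_comp, comm_of_mem hq hy, mul_apply_eq_comp, h,
      sub_self]
  rw [sub_mul, one_mul, sub_eq_zero] at h1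
  exact h1.symm

theorem cin_comm {P : VonNeumannAlgebra K} {ζ : K} {I : Type*} {E F : I → I → Op K}
    (hs : ∀ a b, star (E a b) = E b a) (hE : ∀ a b, E a b ∈ P.commutant) (hF : ∀ a b, F a b ∈ P)
    (h : ∀ a b, ∃ c : ℝ, E a b ζ = c • F b a ζ) (a b : I) :
    projOn (orb P ζ) * E a b = E a b * projOn (orb P ζ) := by
  have h1 : ∀ a b, ∀ η ∈ orb P ζ, E a b η ∈ closure (orb (P : Set (Op K)) ζ) := by
    rintro a b _ ⟨y, hy, rfl⟩
    obtain ⟨c, hc⟩ := h a b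
    refine subset_closure ⟨y * (c • F b a), mul_mem hy (vn_rsmul_mem c (hF b a)), ?_⟩
    rw [← mul_apply_eq_comp, comm_of_mem (hE a b) hy, mul_apply_eq_comp, hc]
    rfl
  exact (projOn_comm' (h1 a b) (by rw [hs]; exact h1 b a)).symm

theorem Cor.cin_right (h : Cor N i s s') (x : Op K) {y : Op K} (hy : y ∈ N) (hs : s * y = y * s) :
    rstC i x * rstC i y = rstC i (x * y) :=
  h.C_mul x hy (by rw [hs, mul_assoc, h.proj.isIdempotentElem.eq])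

theorem Cor.cin_left (h : Cor N i s s') (x : Op K) {y : Op K} (hy : y ∈ N) (hs : s * y = y * s) :
    rstC i y * rstC i x = rstC i (y * x) := by
  have h1 := congrArg star hs
  rw [star_mul, star_mul, h.proj.isSelfAdjoint.star_eq] at h1
  have h2 := congrArg star (h.cin_right (star x) (star_mem hy) h1.symm)
  rwa [star_mul, rstC_star, rstC_star, rstC_star, star_mul, star_star, star_star] at h2

theorem Cor.cin_lift (h : Cor N i s s')
    (hm : ∀ q ∈ N, (∀ η, q (i η) = i η) → q * s = s) {T : Op K₀} (hT : T ∈ rstAlg i N)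
    (hp : IsStarProjection T) : ∃ X ∈ N, IsStarProjection X ∧ s * X = X ∧ rstC i X = T ∧
      ∀ y ∈ N, rstC i y * T = T * rstC i y → s * y * X = X * y * s := by
  obtain ⟨p, L, h1, h2, h3, h4, h5, h6, -⟩ := h.lift
  have e : p = s := by
    have h7 := congrArg star h4
    rw [star_mul, h2.isSelfAdjoint.star_eq, h.proj.isSelfAdjoint.star_eq, hm p h1 h3] at h7
    exact h7.symm
  subst e
  have hpp := h2.isIdempotentElem.eq
  have inj : ∀ x ∈ N, ∀ y ∈ N, rstC i x = rstC i y → p * x * p = p * y * p := fun x hx y hy e => by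
    rw [← h6 x hx, ← h6 y hy, e]
  obtain ⟨a1, -, a2⟩ := h5 T hT
  have a3 : L T = p * L T * p := by rw [← h6 _ a1, a2]
  generalize L T = X at a1 a2 a3
  have a4 : p * X = X := by rw [a3, ← mul_assoc, ← mul_assoc, hpp]
  have a5 : X * p = X := by rw [a3, mul_assoc, hpp]
  have a6 : p * X = X * p := a4.trans a5.symm
  refine ⟨X, a1, ⟨?_, ?_⟩, a4, a2, fun y hy e => ?_⟩
  · have := inj _ (mul_mem a1 a1) _ a1 (by
      rw [← h.cin_right X a1 a6, a2, hp.isIdempotentElem.eq])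
    rwa [← a3, ← mul_assoc, a4, mul_assoc, a5] at this
  · have h7 := inj _ (star_mem a1) _ a1 (by rw [← rstC_star, a2, hp.isSelfAdjoint.star_eq])
    have h8 := congrArg star a3
    rw [star_mul, star_mul, h2.isSelfAdjoint.star_eq, ← mul_assoc, h7, ← a3] at h8
    exact h8
  · have := inj _ (mul_mem hy a1) _ (mul_mem a1 hy) (by
      rw [← h.cin_right y a1 a6, ← h.cin_left y a1 a6, a2, e])
    rwa [mul_assoc p, mul_assoc y, a5, ← mul_assoc, ← mul_assoc, a4] at this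

theorem cin_leg {z : Op K} (hi : RstIso i z) {I : Type*} [Fintype I] [DecidableEq I]
    {E F : I → I → Op K} {ρ : I → ℝ} (L : Leg1 E F ρ) (hE : ∀ a b, z * E a b = E a b * z)
    (hF : ∀ a b, z * F a b = F a b * z) :
    Leg1 (fun a b => rstC i (E a b)) (fun a b => rstC i (F a b)) ρ := by
  have k1 : ∀ G : I → I → Op K, MUnits G → (∀ a b, z * G a b = G a b * z) →
      MUnits fun a b => rstC i (G a b) := fun G hG h =>
    ⟨fun a b => by rw [rstC_star, hG.star_eq], fun a b c d => by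
      rw [hi.C_mul _ (h c d), hG.mul]
      split_ifs
      · rfl
      · ext ξ
        simp [rstC_apply]⟩
  have k2 : ∀ G : I → I → Op K, ∑ a, G a a = 1 → ∑ a, rstC i (G a a) = 1 := fun G h => by
    rw [← hi.C_one, ← h]
    ext ξ
    simp only [sum_apply, rstC_apply, map_sum]
  exact ⟨k1 E L.eU hE, k1 F L.fU hF, k2 E L.e1, k2 F L.f1, fun a b c d => by
    rw [hi.C_mul _ (hF c d), hi.C_mul _ (hE a b), L.ef], L.pos, L.sum⟩

end Corner

theorem Legs.cin_unit {Λ : Legs K} {A : VonNeumannAlgebra K} (hA : Λ.LA A) {S : Set Leg}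
    (hS : S.Countable) {ζ : K} (h0 : ‖ζ‖ = 1) (hζ : Λ.Fresh S ζ) {r r' x : Op K}
    (hrA : r ∈ A) (hrA' : r' ∈ A.commutant)
    (h1 : r ζ = ζ) (h2 : r' ζ = ζ) (hx : x ∈ Λ.sub A S) (hs : IsSelfAdjoint x) {ε : ℝ}
    (hε : 0 < ε) :
    ∃ (l : Leg) (q q' : Op K) (lam : ℝ), Λ.Pr A (insert l S) q q' ∧ r * q = q ∧ r' * q' = q' ∧
      |lam| ≤ ‖x‖ ∧ q (q' ζ) ≠ 0 ∧
      ‖q ζ - q (q' ζ)‖ ^ 2 + ‖q' ζ - q (q' ζ)‖ ^ 2 ≤ ε * ‖q (q' ζ)‖ ^ 2 ∧
      ‖(q * x * q - lam • q) (q' ζ)‖ ^ 2 ≤ ε * ‖q (q' ζ)‖ ^ 2 := by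
  obtain ⟨U, _, ξ₀, hc, hξ, hd, hd'⟩ := cor_vec A ζ
  have hξ' : U.subtypeL ξ₀ = ζ := hξ
  generalize U.subtypeL = i at hc hd hd' hξ'
  have m1 : ∀ q ∈ A, q ζ = ζ → q * projOn (orb A.commutant ζ) = projOn (orb A.commutant ζ) :=
    fun q hq h => cin_min (by simpa using hq) h
  have m2 : ∀ q ∈ A.commutant, q ζ = ζ → q * projOn (orb A ζ) = projOn (orb A ζ) :=
    fun q hq h => cin_min hq h
  have c1 : ∀ l ∉ S, ∀ a b, projOn (orb A.commutant ζ) * Λ.e l a b =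
      Λ.e l a b * projOn (orb A.commutant ζ) := fun l hl =>
    cin_comm (Λ.eU l).star_eq (fun a b => by simpa using hA.eA l a b) (hA.fA l)
      fun a b => ⟨_, (cin_rel l.2.pos (hζ l hl) a b).1⟩
  have c2 : ∀ l ∉ S, ∀ a b, projOn (orb A ζ) * Λ.f l a b = Λ.f l a b * projOn (orb A ζ) :=
    fun l hl => cin_comm (Λ.fU l).star_eq (hA.fA l) (hA.eA l)
      fun a b => ⟨_, (cin_rel l.2.pos (hζ l hl) a b).2⟩
  generalize projOn (orb A.commutant ζ) = s at hc m1 c1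
  generalize projOn (orb A ζ) = s' at hc m2 c2
  subst hξ'
  have n1 : ∀ q ∈ A, (∀ η, q (i η) = i η) → q * s = s := fun q hq h => m1 q hq (h ξ₀)
  have n2 : ∀ q ∈ A.commutant, (∀ η, q (i η) = i η) → q * s' = s' := fun q hq h => m2 q hq (h ξ₀)
  obtain ⟨T, hT, hTξ, -⟩ := exists_sf' (rstAlg i A) (ξ := ξ₀) (by rw [← hc.iso.norm_i, h0]) hd hd'
  have hs1 : ∀ l a b, star (rstC i (Λ.e l a b)) = rstC i (Λ.e l b a) := fun l a b => by
    rw [rstC_star, (Λ.eU l).star_eq]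
  have hsub : ∀ y ∈ Λ.sub A S, rstC i y ∈ inter T.M (cinE (fun l a b => rstC i (Λ.e l a b)) S) := by
    intro y hy
    obtain ⟨a1, a2⟩ := mem_sub.1 hy
    refine (cin_mem hs1).2 ⟨hT ▸ hc.C_mem a1, fun l hl a b => ?_⟩
    rw [hc.cin_left y (hA.eA l a b) (c1 l hl a b), hc.cin_right y (hA.eA l a b) (c1 l hl a b),
      a2 l hl]
  have key := cin_core T hS (E := fun l a b => rstC i (Λ.e l a b))
    (F := fun l a b => rstC i (Λ.f l a b)) hs1 (fun l hl => cin_leg hc.iso (Λ.leg1 l)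
      (fun a b => by
        rw [mul_assoc, comm_of_mem hc.mem' (hA.eA l a b), ← mul_assoc, c1 l hl, mul_assoc])
      fun a b => by
        rw [mul_assoc, c2 l hl, ← mul_assoc, ← comm_of_mem (hA.fA l a b) hc.mem, mul_assoc])
    (fun l a b => hT ▸ hc.C_mem (hA.eA l a b)) (fun l a b => hT ▸ rstC_mem_commutant (hA.fA l a b))
    (fun l hl a b => by
      have := congrArg i.adjoint (hζ l hl a b)
      rw [hTξ]
      simpa only [ContinuousLinearMap.map_smul_of_tower, rstC_apply] using this)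
    (fun l hl l' hl' hne a b c d => by
      rw [hc.cin_right _ (hA.eA l' c d) (c1 l' hl' c d), hc.cin_right _ (hA.eA l a b) (c1 l hl a b),
        Λ.ee l l' hne]) ?_ (hsub x hx) (by rw [IsSelfAdjoint, rstC_star, hs.star_eq]) hε
  · obtain ⟨l, q₀, q₀', lam, hp, hp', hq, hq', hE, hF, hlam, a1, a2, a3⟩ := key
    rw [hT] at hq hq'
    rw [hc.commutant] at hq'
    rw [hTξ] at a1 a2 a3
    obtain ⟨q, b1, b2, b3, b4, b5⟩ := hc.cin_lift n1 hq hp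
    obtain ⟨q', d1, d2, d3, d4, d5⟩ := hc.comm.cin_lift n2 hq' hp'
    have k : ∀ {p X y : Op K}, IsStarProjection p → IsStarProjection X → p * X = X → p * y = y * p →
        p * y * X = X * y * p → y * X = X * y := fun {p X y} hp hX e1 e2 e3 => by
      have e4 := congrArg star e1
      rw [star_mul, hp.isSelfAdjoint.star_eq, hX.isSelfAdjoint.star_eq] at e4
      rwa [e2, mul_assoc, e1, mul_assoc, ← e2, ← mul_assoc, e4] at e3
    have hqs : s * q = q * s := by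
      have e4 := congrArg star b3
      rw [star_mul, hc.proj.isSelfAdjoint.star_eq, b2.isSelfAdjoint.star_eq] at e4
      rw [b3, e4]
    have v1 : ∀ η, q (i η) = i (q₀ η) := fun η => by
      rw [← b4, hc.i_C b1, ← mul_apply_eq_comp, b3]
    have v2 : ∀ η, q' (i η) = i (q₀' η) := fun η => by
      rw [← d4, hc.comm.i_C d1, ← mul_apply_eq_comp, d3]
    have hxA := (mem_sub.1 hx).1
    have v3 : ∀ η, (q * x * q - lam • q) (i η) = i ((q₀ * rstC i x * q₀ - lam • q₀) η) := fun η => by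
      rw [← b4, hc.cin_left x b1 hqs, hc.cin_right _ b1 hqs, sub_apply, sub_apply, map_sub,
        hc.i_C (mul_mem (mul_mem b1 hxA) b1), ← mul_apply_eq_comp s, ← mul_assoc, ← mul_assoc, b3,
        smul_apply, smul_apply, ContinuousLinearMap.map_smul_of_tower, b4, v1]
    refine ⟨l, q, q', lam, ⟨b2, d2, b1, d1, fun l' hl' a b => ?_, fun l' hl' a b => ?_⟩, ?_, ?_,
      hlam.trans (hc.iso.norm_C x), ?_, ?_, ?_⟩
    · exact k hc.proj b2 b3 (c1 l' (fun h => hl' (Or.inr h)) a b) (b5 _ (hA.eA l' a b) (hE l' hl' a b))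
    · exact k hc.proj' d2 d3 (c2 l' (fun h => hl' (Or.inr h)) a b) (d5 _ (hA.fA l' a b) (hF l' hl' a b))
    · rw [← b3, ← mul_assoc, m1 r hrA h1]
    · rw [← d3, ← mul_assoc, m2 r' hrA' h2]
    · rw [v2, v1, ← norm_ne_zero_iff, hc.iso.norm_i, norm_ne_zero_iff]
      exact a1
    · simpa only [v1, v2, ← map_sub, hc.iso.norm_i] using a2
    · simpa only [v1, v2, v3, hc.iso.norm_i] using a3
  · intro z hz
    obtain ⟨a1, a2⟩ := (cin_mem hs1).1 hz.mem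
    obtain ⟨z₀, b1, b2, b3, b4, b5⟩ := hc.cin_lift n1 (hT ▸ a1) hz.proj
    have b6 : z₀ * s = z₀ := by
      have e4 := congrArg star b3
      rwa [star_mul, hc.proj.isSelfAdjoint.star_eq, b2.isSelfAdjoint.star_eq] at e4
    have b7 : z₀ ∈ Λ.sub A S := mem_sub.2 ⟨b1, fun l hl a b => by
      have := b5 _ (hA.eA l a b) (a2 l hl a b)
      rwa [c1 l hl, mul_assoc, b3, mul_assoc, ← c1 l hl, ← mul_assoc, b6] at this⟩
    obtain ⟨z₁, e1, e2, e3⟩ := csupp (Λ.sub A S) b7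
    have e4 := e3 (s - z₀) fun y hy => by
      have e5 := b5 y (mem_sub.1 hy).1 (hz.comm (hsub y hy)).symm
      have e6 : z₀ * y * z₀ = z₀ * y * s := by
        calc z₀ * y * z₀ = z₀ * (s * y * z₀) := by rw [← mul_assoc, ← mul_assoc, b6]
          _ = z₀ * y * s := by rw [e5, ← mul_assoc, ← mul_assoc, b2.isIdempotentElem.eq]
      rw [sub_mul, sub_mul, e5, e6, sub_self]
    rw [sub_mul, ← e1.comm b7, e2, sub_eq_zero] at e4
    have e7 : z = rstC i z₁ := by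
      rw [← b4, ← e4]
      ext η
      rw [rstC_apply, rstC_apply, mul_apply_eq_comp, cor_adj_of_fix hc.proj hc.s_i]
    rw [e7, hT]
    exact rstC_mem_commutant (hA.cen S z₁ e1)

theorem Legs.inner_step {Λ : Legs K} {A : VonNeumannAlgebra K} (hA : Λ.LA A) {S : Set Leg}
    (hS : S.Countable) {ζ : K} (h0 : ζ ≠ 0) (hζ : Λ.Fresh S ζ) {r r' x : Op K}
    (hr : IsStarProjection r) (hrA : r ∈ A) (hr' : IsStarProjection r') (hrA' : r' ∈ A.commutant)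
    (h1 : r ζ = ζ) (h2 : r' ζ = ζ) (hx : x ∈ Λ.sub A S) (hs : IsSelfAdjoint x) {ε : ℝ}
    (hε : 0 < ε) :
    ∃ (l : Leg) (q q' : Op K) (lam : ℝ), Λ.Pr A (insert l S) q q' ∧ r * q = q ∧ r' * q' = q' ∧
      |lam| ≤ ‖x‖ ∧ q (q' ζ) ≠ 0 ∧
      ‖q ζ - q (q' ζ)‖ ^ 2 + ‖q' ζ - q (q' ζ)‖ ^ 2 ≤ ε * ‖q (q' ζ)‖ ^ 2 ∧
      ‖(q * x * q - lam • q) (q' ζ)‖ ^ 2 ≤ ε * ‖q (q' ζ)‖ ^ 2 := by
  have hn : (‖ζ‖ : ℂ) ≠ 0 := by exact_mod_cast norm_ne_zero_iff.2 h0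
  obtain ⟨c, η, hc, hη, e, e'⟩ : ∃ (c : ℂ) (η : K), c ≠ 0 ∧ ‖η‖ = 1 ∧ ζ = c • η ∧ η = c⁻¹ • ζ :=
    ⟨‖ζ‖, (‖ζ‖ : ℂ)⁻¹ • ζ, hn, by
      rw [norm_smul, norm_inv, Complex.norm_real, norm_norm,
        inv_mul_cancel₀ (norm_ne_zero_iff.2 h0)], (smul_inv_smul₀ hn ζ).symm, rfl⟩
  obtain ⟨l, q, q', lam, a1, a2, a3, a4, a5, a6, a7⟩ := Legs.cin_unit hA hS hη
    (e' ▸ (Λ.freshSub S).smul_mem c⁻¹ hζ) hrA hrA' (by rw [e', map_smul, h1])
    (by rw [e', map_smul, h2]) hx hs hε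
  have hc2 := sq_nonneg ‖c‖
  refine ⟨l, q, q', lam, a1, a2, a3, a4, ?_, ?_, ?_⟩
  · rw [e, map_smul, map_smul]
    exact smul_ne_zero hc a5
  · simp only [e, map_smul, ← smul_sub, norm_smul, mul_pow]
    nlinarith
  · simp only [e, map_smul, norm_smul, mul_pow]
    nlinarith

end Vale.Agent.P096
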