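import Vale.Agent.P096.CKr
import Vale.Agent.P096.Eig
import Vale.Agent.P132.Sm

/-!
# P096 C: local quantization after averaging in time
`Gam w v x = ∫ kap w t • ∑ σ t (v k)* x σ t (v k)`. Let `τ > 0` be small.
* `x₁ = G 0 w₁ x` with `‖(x - x₁) ξ‖ < τ` (`G_ξ` / `kap_approx`), selfadjoint (`G_star`), in `R` (`G_mem`), `‖x₁‖ ≤ ‖x‖`; `y = x - x₁`, `Y = G 0 w (y * y)`, `qf Y ξ = ‖y ξ‖²` (`qf_G`, `Δ_ξ`).
  `bot` gives `e₀ ≠ 0` in `R` with `qf Y ≤ 2 τ²` on the range of `e₀`.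
* `kap_tail` gives `L`. `t ↦ σ (-t) x₁` is norm continuous (`continuous_σ_G`): finite `τ`-net of the compact image of `[-L, L]`, `cut_many` gives `e ≤ e₀`. Fix a unit vector `η₀ = e η₀`,
  `c t = qf (σ (-t) x₁) η₀` is continuous, `|c t| ≤ ‖x‖`, `‖e σ (-t) x₁ e - c t • e‖ ≤ 4 τ` for `|t| ≤ L` and `≤ 2 ‖x‖` always. `lam = ∫ kap w t * c t`.
* `kraus` gives `z`, `v`; `z ≠ 0`, `z ξ ≠ 0` (`S.sep`), `σ t z = z` (`z` is central in `S.M`: `C_of_R` or `Eig.cen` with `x = x' = z`, import it if needed).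
  `∑ σ t (v)* x₁ σ t (v) ξ = Δ t (∑ v* (e σ (-t) x₁ e) v ξ)`, `‖∑ v* a v ξ‖ ≤ ‖a‖ ‖z ξ‖` (`Col`), and `‖∑ v* σ (-t) y v ξ‖ ≤ l2 (σ (-t) y v ξ)`,
  `∫ kap * l2 ≤ √(∫ kap * l2²) = √(∑ qf Y (v k ξ)) ≤ √2 τ ‖z ξ‖` (use `2 a ≤ a² / τ + τ` instead of Jensen).
-/

namespace Vale.Agent.P096

open Vale.Agent.P104 Vale.Agent.P132 Filter Topology MeasureTheory
open scoped InnerProductSpace

universe u

variable {H : Type u} [NormedAddCommGroup H] [InnerProductSpace ℂ H] [CompleteSpace H]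

/-- the averaged Kraus map -/
noncomputable def Gam (S : SF H) (w : ℝ) {ι : Type*} [Fintype ι] (v : ι → Op H) (x : Op H) : H :=
  ∫ t, kap w t • ∑ k, (star (S.σ t (v k)) * x * S.σ t (v k)) S.ξ

theorem cin0_integrable {E : Type*} [NormedAddCommGroup E] [NormedSpace ℝ E]
    [SecondCountableTopologyEither ℝ E] {w : ℝ} (hw : 0 < w)
    {F : ℝ → E} (hF : Continuous F) {C : ℝ} (hC : ∀ t, ‖F t‖ ≤ C) :
    Integrable fun t => kap w t • F t := by
  refine Integrable.mono' ((integrable_kap hw).mul_const C)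
    ((continuous_kap w).smul hF).aestronglyMeasurable (Eventually.of_forall fun t => ?_)
  rw [norm_smul, Real.norm_of_nonneg (kap_pos hw t).le]
  exact mul_le_mul_of_nonneg_left (hC t) (kap_pos hw t).le

omit [CompleteSpace H] in
theorem cin0_avg {w : ℝ} (hw : 0 < w) {f : ℝ → H} {g : ℝ → ℝ} {a B L τ : ℝ} (hB : 0 ≤ B)
    (hg : Integrable fun t => kap w t * g t) (h1 : ∀ t, ‖f t‖ ≤ a + B + g t)
    (h2 : ∀ t ∈ Set.Icc (-L) L, ‖f t‖ ≤ a + g t) (hL : 1 - τ ≤ ∫ t in Set.Icc (-L) L, kap w t) :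
    ‖∫ t, kap w t • f t‖ ≤ a + B * τ + ∫ t, kap w t * g t := by
  have i1 := integrable_kap hw
  have i2 : Integrable ((Set.Icc (-L) L).indicator (kap w)) := i1.indicator measurableSet_Icc
  have i3 : Integrable fun t => kap w t - (Set.Icc (-L) L).indicator (kap w) t := i1.sub i2
  have i4 : Integrable fun t => a * kap w t +
      B * (kap w t - (Set.Icc (-L) L).indicator (kap w) t) := (i1.const_mul a).add (i3.const_mul B)
  refine (norm_integral_le_of_norm_le (i4.add hg) (Eventually.of_forall fun t => ?_)).trans ?_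
  · have hk := (kap_pos hw t).le
    rw [norm_smul, Real.norm_of_nonneg hk, Pi.add_apply]
    by_cases ht : t ∈ Set.Icc (-L) L
    · rw [Set.indicator_of_mem ht]
      nlinarith [mul_le_mul_of_nonneg_left (h2 t ht) hk]
    · rw [Set.indicator_of_notMem ht]
      nlinarith [mul_le_mul_of_nonneg_left (h1 t) hk]
  · simp only [Pi.add_apply]
    rw [integral_add i4 hg, integral_add (i1.const_mul a) (i3.const_mul B), integral_const_mul,
      integral_const_mul, integral_sub i1 i2, integral_indicator measurableSet_Icc, integral_kap hw]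
    nlinarith [mul_le_mul_of_nonneg_left hL hB]

theorem cin0_gam (S : SF H) {w : ℝ} (hw : 0 < w) {ι : Type*} [Fintype ι] {v : ι → Op H}
    (hv : Col v 1) {ζ : H} (hζ : ∀ t, S.Δ t ζ = ζ) (x : Op H) {c : ℝ → ℝ} (hc : Continuous c)
    {C : ℝ} (hC : ∀ t, |c t| ≤ C) :
    Gam S w v x - (∫ t, kap w t * c t) • ζ =
      ∫ t, kap w t • S.Δ t (∑ k, star (v k) (S.σ (-t) x (v k S.ξ)) - c t • ζ) := by
  have e1 : ∀ t, ∑ k, (star (S.σ t (v k)) * x * S.σ t (v k)) S.ξ =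
      S.Δ t (∑ k, star (v k) (S.σ (-t) x (v k S.ξ))) := fun t => by
    rw [map_sum]
    refine Finset.sum_congr rfl fun k _ => ?_
    rw [mul_apply_eq_comp, mul_apply_eq_comp, S.σ_ξ, ← S.σ_star, S.σ_apply, S.σ_apply, neg_neg]
  have c1 : Continuous fun t => S.Δ t (∑ k, star (v k) (S.σ (-t) x (v k S.ξ))) :=
    S.fcb_continuous_Δ (continuous_finsetSum _ fun k _ =>
      (star (v k)).continuous.comp ((S.continuous_σ x _).comp continuous_neg))
  have i1 := cin0_integrable hw c1 (C := ‖x‖ * l2 fun k => v k S.ξ) fun t => by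
    rw [S.norm_Δ]
    refine (hv.sum_star zero_le_one _).trans ?_
    rw [one_mul, ← S.norm_σ (-t) x]
    exact l2_op_le _ _
  have i2 : Integrable fun t => kap w t * c t := cin0_integrable hw hc hC
  rw [Gam, ← integral_smul_const]
  simp only [e1]
  rw [← integral_sub i1 (i2.smul_const ζ)]
  refine integral_congr_ae (Eventually.of_forall fun t => ?_)
  simp only [map_sub, smul_sub, ContinuousLinearMap.map_smul_of_tower, hζ, smul_smul]

theorem cin0_cut (N : VonNeumannAlgebra H) {p : Op H} (hp : IsStarProjection p) (hpN : p ∈ N)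
    (h0 : p ≠ 0) {d : ℝ → Op H} (hd : Continuous d) (hN : ∀ t, d t ∈ N)
    (hs : ∀ t, IsSelfAdjoint (d t)) {C : ℝ} (hC : ∀ t, ‖d t‖ ≤ C) (L : ℝ) {τ : ℝ} (hτ : 0 < τ) :
    ∃ e ∈ N, IsStarProjection e ∧ e ≠ 0 ∧ p * e = e ∧ ∃ c : ℝ → ℝ, Continuous c ∧
      (∀ t, |c t| ≤ C) ∧ (∀ t, ‖e * d t * e - c t • e‖ ≤ 2 * C) ∧
      ∀ t ∈ Set.Icc (-L) L, ‖e * d t * e - c t • e‖ ≤ 4 * τ := by
  obtain ⟨s, -, hsc⟩ := (isCompact_Icc (a := -L) (b := L)).elim_nhds_subcover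
    (fun r => d ⁻¹' Metric.ball (d r) τ) fun r _ =>
      hd.continuousAt.preimage_mem_nhds (Metric.ball_mem_nhds _ hτ)
  obtain ⟨e, heN, he, he0, hpe, h1⟩ := cut_many N hp hpN h0 s d hN hs hτ
  obtain ⟨η, hη⟩ : ∃ η, e η ≠ 0 := by
    by_contra hn
    push Not at hn
    exact he0 (ContinuousLinearMap.ext hn)
  have hn : ‖e‖ ≤ 1 := he.norm_le
  set ζ : H := (‖e η‖⁻¹ : ℂ) • e η with hζ
  have hζ1 : ‖ζ‖ = 1 := norm_smul_inv_norm hη
  have hζ2 : e ζ = ζ := by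
    rw [hζ, map_smul, ← mul_apply_eq_comp, he.isIdempotentElem.eq]
  have hm : ∀ a : Op H, ‖e * a * e‖ ≤ ‖a‖ := fun a =>
    (norm_mul₃_le).trans (by
      have := norm_nonneg a
      have := norm_nonneg e
      calc ‖e‖ * ‖a‖ * ‖e‖ ≤ 1 * ‖a‖ * 1 := by gcongr
        _ = ‖a‖ := by ring)
  have hsm : ∀ r : ℝ, ‖r • e‖ ≤ |r| := fun r => by
    rw [norm_smul, Real.norm_eq_abs]
    exact mul_le_of_le_one_right (abs_nonneg r) hn
  have hc : ∀ t, |qf (d t) ζ| ≤ C := fun t => by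
    have := abs_qf_le (d t) ζ
    rw [hζ1, one_pow, mul_one] at this
    exact this.trans (hC t)
  refine ⟨e, heN, he, he0, hpe, fun t => qf (d t) ζ, ?_, hc, fun t => ?_, fun t ht => ?_⟩
  · unfold qf
    fun_prop
  · have := (norm_sub_le _ _).trans (add_le_add ((hm (d t)).trans (hC t)) ((hsm _).trans (hc t)))
    linarith
  · obtain ⟨r, hr, h2⟩ := Set.mem_iUnion₂.1 (hsc ht)
    obtain ⟨c, h3⟩ := h1 r hr
    have h4 : ‖d t - d r‖ < τ := by rwa [Set.mem_preimage, mem_ball_iff_norm] at h2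
    have h5 : ‖e * d t * e - c • e‖ ≤ 2 * τ := by
      have e1 : e * d t * e - c • e = e * (d t - d r) * e + (e * d r * e - c • e) := by
        rw [mul_sub, sub_mul]
        abel
      rw [e1]
      have := (norm_add_le _ _).trans (add_le_add ((hm _).trans h4.le) h3)
      linarith
    have h6 : |c - qf (d t) ζ| ≤ 2 * τ := by
      have h7 := abs_qf_le (e * d t * e - c • e) ζ
      have h8 := qf_conj (d t) e ζ
      rw [he.isSelfAdjoint.star_eq, hζ2] at h8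
      rw [hζ1, one_pow, mul_one, qf_sub, qf_rsmul, polar_qf_proj he, hζ2, hζ1, h8, one_pow,
        mul_one, abs_sub_comm] at h7
      exact h7.trans h5
    have e2 : e * d t * e - qf (d t) ζ • e = (e * d t * e - c • e) + (c - qf (d t) ζ) • e := by
      rw [sub_smul]
      abel
    rw [e2]
    have := (norm_add_le _ _).trans (add_le_add h5 ((hsm _).trans h6))
    linarith

theorem cin0_approx (S : SF H) (x : Op H) {τ : ℝ} (hτ : 0 < τ) :
    ∃ w, 0 < w ∧ ‖(x - S.G 0 w x) S.ξ‖ ≤ τ := by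
  have h1 := kap_approx (S.continuous_σ x S.ξ) (C := ‖x‖ * ‖S.ξ‖) fun t => by
    rw [← S.norm_σ t x]
    exact (S.σ t x).le_opNorm _
  rw [S.σ_zero] at h1
  obtain ⟨w, h2, hw⟩ := ((h1.eventually (Metric.closedBall_mem_nhds _ hτ)).and
    (eventually_gt_atTop 0)).exists
  refine ⟨w, hw, ?_⟩
  rw [sub_apply, S.G_apply 0 hw, ← dist_eq_norm, dist_comm]
  simpa using h2

theorem in0 (S : SF H) {R : VonNeumannAlgebra H} (hR : ∀ y ∈ R, y ∈ S.M)
    (hσ : ∀ y ∈ R, ∀ t, S.σ t y ∈ R) (hZ : ∀ z, CProj R z → z ∈ S.M.commutant) {x : Op H}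
    (hx : x ∈ R) (hs : IsSelfAdjoint x) {w ε : ℝ} (hw : 0 < w) (hε : 0 < ε) :
    ∃ (z : Op H) (lam : ℝ) (ι : Type) (_ : Fintype ι) (v : ι → Op H), CProj S.M z ∧ z S.ξ ≠ 0 ∧
      |lam| ≤ ‖x‖ ∧ (∀ k, v k ∈ R) ∧ (∀ k, v k * z = v k) ∧ Col v 1 ∧
      ‖Gam S w v 1 - z S.ξ‖ ≤ ε * ‖z S.ξ‖ ∧ ‖Gam S w v x - lam • z S.ξ‖ ≤ ε * ‖z S.ξ‖ := by
  have hx0 := norm_nonneg x
  obtain ⟨τ, hτ, hτε⟩ : ∃ τ, 0 < τ ∧ τ * (6 + 3 * ‖x‖) = ε :=
    ⟨ε / (6 + 3 * ‖x‖), by positivity, div_mul_cancel₀ _ (by positivity)⟩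
  obtain ⟨w₁, hw₁, h1⟩ := cin0_approx S x hτ
  set x₁ := S.G 0 w₁ x with hx₁
  have hx₁R : x₁ ∈ R := S.G_mem 0 hw₁ x (hσ x hx)
  have hx₁s : IsSelfAdjoint x₁ := by
    rw [IsSelfAdjoint, hx₁, S.G_star 0 hw₁, neg_zero, hs.star_eq]
  set y := x - x₁ with hy
  have hyR : star y * y ∈ R := mul_mem (star_mem (sub_mem hx hx₁R)) (sub_mem hx hx₁R)
  have hξ0 : S.ξ ≠ 0 := by
    rw [← norm_ne_zero_iff, S.norm_ξ]
    exact one_ne_zero
  have hY : ∀ η, qf (S.G 0 w (star y * y)) η = ∫ t, kap w t * ‖y (S.Δ t η)‖ ^ 2 := fun η => by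
    simp only [S.qf_G hw, qf_star_mul_self]
  obtain ⟨e₀, he₀R, he₀, he₀0, -, h2⟩ := bot R (h := S.G 0 w (star y * y)) (IsStarProjection.one _)
    (one_mem R) (S.G_mem 0 hw _ (hσ _ hyR))
    (by rw [IsSelfAdjoint, S.G_star 0 hw, neg_zero, star_mul, star_star]) (η := S.ξ) rfl hξ0
    (c := τ ^ 2) (by
      simp only [hY, S.Δ_ξ]
      rw [integral_mul_const, integral_kap hw, one_mul, S.norm_ξ, one_pow, mul_one]
      exact pow_le_pow_left₀ (norm_nonneg _) h1 2) (pow_pos hτ 2)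
  obtain ⟨L, -, hL⟩ := kap_tail hw hτ
  obtain ⟨e, heR, he, he0, hee, c, hc, hc1, hc2, hc3⟩ := cin0_cut R he₀ he₀R he₀0
    (d := fun t => S.σ (-t) x₁) ((S.continuous_σ_G hw₁ x).comp continuous_neg)
    (fun t => hσ _ hx₁R _) (fun t => by rw [IsSelfAdjoint, ← S.σ_star, hx₁s.star_eq])
    (C := ‖x‖) (fun t => (S.norm_σ _ _).trans_le (S.norm_G_le 0 hw₁ x)) L hτ
  obtain ⟨z, hz, hze, h3⟩ := kraus R he heR S.ξ
  have hzM : CProj S.M z := ⟨hz.proj, hR z hz.mem, hZ z hz⟩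
  have hz0 : z S.ξ ≠ 0 := fun h => he0 (by rw [← hze, S.sep hzM.mem h, zero_mul])
  have hn : 0 < ‖z S.ξ‖ := norm_pos_iff.2 hz0
  have hΔ : ∀ t, S.Δ t (z S.ξ) = z S.ξ := fun t => by
    have h4 : S.Δ t * z = z * S.Δ t :=
      (cen S hzM.mem hzM.cen hz.proj.isSelfAdjoint hz.proj.isSelfAdjoint rfl).2.1 _
    rw [← mul_apply_eq_comp, h4, mul_apply_eq_comp, S.Δ_ξ]
  obtain ⟨ι, _, v, hvR, hev, hvz, hv, h4⟩ := h3 _ (mul_pos hτ hn)
  set n := ‖z S.ξ‖ with hnd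
  have hl : (l2 fun k => v k S.ξ) ≤ n := by
    have h5 := hv (z S.ξ)
    simp only [← mul_apply_eq_comp, hvz, one_mul] at h5
    exact h5
  have hg : ‖∑ k, star (v k) (v k S.ξ) - z S.ξ‖ ≤ τ * n := by
    rwa [sub_apply, gram, _root_.sum_apply, norm_sub_rev] at h4
  refine ⟨z, ∫ t, kap w t * c t, ι, inferInstance, v, hzM, hz0, ?_, hvR, hvz, hv, ?_, ?_⟩
  · rw [← Real.norm_eq_abs]
    refine (norm_integral_le_of_norm_le ((integrable_kap hw).mul_const ‖x‖)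
      (Eventually.of_forall fun t => ?_)).trans_eq ?_
    · rw [norm_mul, Real.norm_of_nonneg (kap_pos hw t).le]
      exact mul_le_mul_of_nonneg_left (hc1 t) (kap_pos hw t).le
    · rw [integral_mul_const, integral_kap hw, one_mul]
  · have h5 := cin0_gam S hw hv hΔ 1 (c := fun _ => 1) continuous_const (C := 1) (by simp)
    simp only [mul_one, integral_kap hw, one_smul, S.σ_one, one_apply_eq_self] at h5
    rw [h5]
    refine (cin0_avg hw (g := fun _ => 0) (a := τ * n) (B := 0) le_rfl (by simp)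
      (fun t => ?_) (fun t _ => ?_) hL).trans ?_
    · rw [S.norm_Δ, add_zero, add_zero]
      exact hg
    · rw [S.norm_Δ, add_zero]
      exact hg
    · simp only [mul_zero, integral_zero, zero_mul, add_zero]
      rw [← hτε]
      nlinarith [mul_pos hτ hn]
  · have ik : ∀ k, Integrable fun t => kap w t * ‖y (S.Δ t (v k S.ξ))‖ ^ 2 := fun k => by
      have := S.continuous_Δ (v k S.ξ)
      refine cin0_integrable hw (F := fun t => ‖y (S.Δ t (v k S.ξ))‖ ^ 2) (by fun_prop)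
        (C := (‖y‖ * ‖v k S.ξ‖) ^ 2) fun t => ?_
      rw [Real.norm_of_nonneg (sq_nonneg _), ← S.norm_Δ t (v k S.ξ)]
      exact pow_le_pow_left₀ (norm_nonneg _) (y.le_opNorm _) 2
    have hτn := mul_pos hτ hn
    have e1 : ∀ t, kap w t * ((2 * (τ * n))⁻¹ * ∑ k, ‖y (S.Δ t (v k S.ξ))‖ ^ 2) =
        (2 * (τ * n))⁻¹ * ∑ k, kap w t * ‖y (S.Δ t (v k S.ξ))‖ ^ 2 := fun t => by
      rw [← Finset.mul_sum]
      ring
    have key : ∀ t b, ‖e * S.σ (-t) x₁ * e - c t • e‖ ≤ b →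
        ‖S.Δ t (∑ k, star (v k) (S.σ (-t) x (v k S.ξ)) - c t • z S.ξ)‖ ≤
          τ * n / 2 + ‖x‖ * (τ * n) + b * n +
            (2 * (τ * n))⁻¹ * ∑ k, ‖y (S.Δ t (v k S.ξ))‖ ^ 2 := by
      intro t b hb
      have e2 : ∑ k, star (v k) (S.σ (-t) x (v k S.ξ)) - c t • z S.ξ =
          ∑ k, star (v k) (S.σ (-t) y (v k S.ξ)) +
            ∑ k, star (v k) ((e * S.σ (-t) x₁ * e - c t • e) (v k S.ξ)) +
              c t • (∑ k, star (v k) (v k S.ξ) - z S.ξ) := by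
        have e3 : ∀ k, star (v k) ((e * S.σ (-t) x₁ * e - c t • e) (v k S.ξ)) =
            star (v k) (S.σ (-t) x₁ (v k S.ξ)) - c t • star (v k) (v k S.ξ) := fun k => by
          have e4 : e (v k S.ξ) = v k S.ξ := by rw [← mul_apply_eq_comp, hev]
          rw [sub_apply, map_sub, mul_apply_eq_comp, mul_apply_eq_comp, smul_apply, e4,
            ← mul_apply_eq_comp (star (v k)) e, compare_star_left he (hev k),
            ContinuousLinearMap.map_smul_of_tower]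
        simp only [e3]
        simp only [hy, S.σ_sub, sub_apply, map_sub, Finset.sum_sub_distrib, smul_sub,
          Finset.smul_sum]
        abel
      have h5 : ‖∑ k, star (v k) (S.σ (-t) y (v k S.ξ))‖ ≤
          τ * n / 2 + (2 * (τ * n))⁻¹ * ∑ k, ‖y (S.Δ t (v k S.ξ))‖ ^ 2 := by
        refine (hv.sum_star zero_le_one _).trans ?_
        rw [one_mul, ← l2_sq, l2_congr (w := fun k => y (S.Δ t (v k S.ξ))) fun k => by
          rw [S.σ_apply, S.norm_Δ, neg_neg]]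
        generalize (l2 fun k => y (S.Δ t (v k S.ξ))) = a
        generalize τ * n = r at hτn ⊢
        have : r / 2 + (2 * r)⁻¹ * a ^ 2 - a = (2 * r)⁻¹ * (a - r) ^ 2 := by
          field_simp
          ring
        have h6 : 0 ≤ (2 * r)⁻¹ * (a - r) ^ 2 := by positivity
        linarith
      have h6 : ‖∑ k, star (v k) ((e * S.σ (-t) x₁ * e - c t • e) (v k S.ξ))‖ ≤ b * n := by
        refine (hv.sum_star zero_le_one _).trans ?_
        rw [one_mul]
        exact (l2_op_le _ _).trans (mul_le_mul hb hl (l2_nonneg _) ((norm_nonneg _).trans hb))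
      have h7 : ‖c t • (∑ k, star (v k) (v k S.ξ) - z S.ξ)‖ ≤ ‖x‖ * (τ * n) := by
        rw [norm_smul]
        exact mul_le_mul (hc1 t) hg (norm_nonneg _) hx0
      rw [S.norm_Δ, e2]
      have := norm_add₃_le.trans (add_le_add (add_le_add h5 h6) h7)
      linarith
    rw [cin0_gam S hw hv hΔ x hc hc1]
    refine (cin0_avg hw (g := fun t => (2 * (τ * n))⁻¹ * ∑ k, ‖y (S.Δ t (v k S.ξ))‖ ^ 2)
      (a := τ * n / 2 + ‖x‖ * (τ * n) + 4 * τ * n) (B := 2 * ‖x‖ * n) (by positivity) ?_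
      (fun t => (key t _ (hc2 t)).trans (by linarith)) (fun t ht => key t _ (hc3 t ht)) hL).trans ?_
    · simp only [e1]
      exact (integrable_finsetSum _ fun k _ => ik k).const_mul _
    · simp only [e1]
      rw [integral_const_mul, integral_finsetSum _ fun k _ => ik k]
      simp only [← hY]
      have h5 : ∑ k, qf (S.G 0 w (star y * y)) (v k S.ξ) ≤ (τ ^ 2 + τ ^ 2) * n ^ 2 := by
        refine (Finset.sum_le_sum fun k _ => h2 _ ?_).trans ?_
        · rw [← mul_apply_eq_comp, ← hev k, ← mul_assoc, hee]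
        · rw [← Finset.mul_sum, ← l2_sq]
          exact mul_le_mul_of_nonneg_left (pow_le_pow_left₀ (l2_nonneg _) hl 2) (by positivity)
      have h6 : (2 * (τ * n))⁻¹ * ∑ k, qf (S.G 0 w (star y * y)) (v k S.ξ) ≤ τ * n := by
        rw [inv_mul_le_iff₀ (by positivity)]
        nlinarith
      rw [← hτε]
      nlinarith

end Vale.Agent.P096
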