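import Vale.Agent.P096.CRs
import Vale.Agent.P132.Sm

/-! P096 C: analytic lemmas for the splitting in frequencies. -/

namespace Vale.Agent.P096

open Vale.Agent.P104 Vale.Agent.P132 Filter Topology MeasureTheory
open scoped InnerProductSpace BoundedContinuousFunction

universe u

variable {H : Type u} [NormedAddCommGroup H] [InnerProductSpace ℂ H] [CompleteSpace H]

theorem cIn1_cen (S : SF H) {z : Op H} (hz : CProj S.M z) (t : ℝ) : S.σ t z = z := by
  have hs := hz.proj.isSelfAdjoint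
  have h0 : S.R (z S.ξ) = S.T (S.J (star z S.ξ)) := by
    refine ext_inner_right ℂ fun ζ => ?_
    have h1 : closure {p : H × H | ∃ x ∈ S.M, p = (x S.ξ, star x S.ξ)} ⊆
        {p | ⟪z S.ξ, p.1⟫_ℂ = ⟪p.2, star z S.ξ⟫_ℂ} := by
      refine closure_minimal ?_ (isClosed_eq (by fun_prop) (by fun_prop))
      rintro _ ⟨y, hy, rfl⟩
      change ⟪z S.ξ, y S.ξ⟫_ℂ = ⟪star y S.ξ, star z S.ξ⟫_ℂ
      rw [inner_star_left, ← inner_star_right z]
      exact congrArg (fun z : Op H => ⟪S.ξ, z S.ξ⟫_ℂ) (comm_of_mem (star_mem hz.cen) hy)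
    have h2 : ⟪z S.ξ, S.R ζ⟫_ℂ = ⟪S.J (S.T ζ), star z S.ξ⟫_ℂ := h1 (S.core ζ)
    rw [← inner_star_right S.R, ← inner_star_right S.T, S.R_sa.star_eq, S.T_sa.star_eq, h2,
      S.inner_J_left]
  rw [S.half z hz.mem, sub_apply, ← one_add_one_eq_two (R := Op H), add_apply,
    one_apply_eq_self] at h0
  refine (S.mem_C.1 (S.C_of_R hz.mem (smul_right_injective H (two_ne_zero (α := ℂ)) ?_))).2 t
  simp only
  linear_combination (norm := module) h0

theorem cIn1_int_gau {a : ℝ} (ha : 0 < a) (c u : ℝ) : Integrable fun s => gau (s + c) a u := by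
  refine ((integrable_exp_neg_mul_sq (b := 1 / (2 * a ^ 2)) (by positivity)).comp_add_right
    (c - u)).congr (Eventually.of_forall fun s => ?_)
  simp only [gau]
  congr 1
  ring

theorem cIn1_int_gau0 {a : ℝ} (ha : 0 < a) : Integrable (gau 0 a) := by
  refine (cIn1_int_gau ha 0 0).congr (Eventually.of_forall fun s => ?_)
  simp only [gau]
  congr 1
  ring

theorem cIn1_cont_gB {w : ℝ} (hw : 0 < w) : Continuous fun s => gB s w := by
  have h0 : Tendsto (gau 0 w) (cocompact ℝ) (𝓝 0) := by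
    have h1 : Tendsto (fun u : ℝ => ‖u‖ ^ 2 / (2 * w ^ 2)) (cocompact ℝ) atTop :=
      ((tendsto_pow_atTop two_ne_zero).comp (tendsto_norm_cocompact_atTop (E := ℝ))).atTop_div_const
        (by positivity)
    refine (Real.tendsto_exp_neg_atTop_nhds_zero.comp h1).congr fun u => ?_
    simp only [gau, Function.comp, Real.norm_eq_abs, sq_abs, sub_zero, neg_div]
  have hu := (continuous_gau 0 w).uniformContinuous_of_tendsto_cocompact h0
  refine Metric.continuous_iff.2 fun s ε hε => ?_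
  obtain ⟨δ, hδ, h⟩ := Metric.uniformContinuous_iff.1 hu (ε / 2) (half_pos hε)
  refine ⟨δ, hδ, fun s' hs => ((BoundedContinuousFunction.dist_le (half_pos hε).le).2
    fun u => ?_).trans_lt (half_lt_self hε)⟩
  have e : ∀ s, gau s w u = gau 0 w (u - s) := fun s => by simp only [gau, sub_zero]
  rw [gB_apply, gB_apply, Complex.isometry_ofReal.dist_eq, e s', e s]
  exact (h (by rwa [dist_sub_left])).le

/-- the symbol of the defect -/
noncomputable def cIn1f (w s : ℝ) : ℝ →ᵇ ℂ :=
  gB s w - (Real.exp (w ^ 2 / 8) : ℂ) • gB (s + w ^ 2 / 2) w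

theorem cIn1_cont_f {w : ℝ} (hw : 0 < w) : Continuous (cIn1f w) :=
  (cIn1_cont_gB hw).sub (((cIn1_cont_gB hw).comp (continuous_add_const (w ^ 2 / 2))).const_smul
    (Real.exp (w ^ 2 / 8) : ℂ))

theorem cIn1_f_sq (w s u : ℝ) : (star (cIn1f w s) * cIn1f w s) u =
    ((gau s w u - Real.exp (w ^ 2 / 8) * gau (s + w ^ 2 / 2) w u) ^ 2 : ℝ) := by
  have e : cIn1f w s u = ((gau s w u - Real.exp (w ^ 2 / 8) * gau (s + w ^ 2 / 2) w u : ℝ) : ℂ) := by
    rw [cIn1f, BoundedContinuousFunction.sub_apply, BoundedContinuousFunction.smul_apply, gB_apply,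
      gB_apply, smul_eq_mul, Complex.ofReal_sub, Complex.ofReal_mul]
  rw [BoundedContinuousFunction.mul_apply, BoundedContinuousFunction.star_apply, e,
    Complex.star_def, Complex.conj_ofReal, ← Complex.ofReal_mul, ← sq]

theorem cIn1_eps {w : ℝ} (hw : 0 < w) (u : ℝ) :
    Integrable (fun s => (gau s w u - Real.exp (w ^ 2 / 8) * gau (s + w ^ 2 / 2) w u) ^ 2) ∧
    ∫ s, (gau s w u - Real.exp (w ^ 2 / 8) * gau (s + w ^ 2 / 2) w u) ^ 2 =
      √Real.pi * w * eps w := by
  have hi : ∀ a b : ℝ, Integrable fun s => gau (s + a) w u * gau (s + b) w u := fun a b =>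
    (cIn1_int_gau hw a u).mul_bdd (c := 1) (Continuous.aestronglyMeasurable (by
      unfold gau
      fun_prop)) (Eventually.of_forall fun s => by
        rw [Real.norm_of_nonneg (gau_pos _ _ _).le]
        exact gau_le_one _ _ _)
  have e : ∀ s, (gau s w u - Real.exp (w ^ 2 / 8) * gau (s + w ^ 2 / 2) w u) ^ 2 =
      gau (s + 0) w u * gau (s + 0) w u -
        2 * Real.exp (w ^ 2 / 8) * (gau (s + 0) w u * gau (s + w ^ 2 / 2) w u) +
        Real.exp (w ^ 2 / 8) ^ 2 * (gau (s + w ^ 2 / 2) w u * gau (s + w ^ 2 / 2) w u) :=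
    fun s => by
      rw [add_zero]
      ring
  have i2 := (hi 0 (w ^ 2 / 2)).const_mul (2 * Real.exp (w ^ 2 / 8))
  have i3 := (hi (w ^ 2 / 2) (w ^ 2 / 2)).const_mul (Real.exp (w ^ 2 / 8) ^ 2)
  have i4 := (hi 0 0).sub' i2
  simp only [e]
  refine ⟨i4.fun_add i3, ?_⟩
  rw [integral_add i4 i3, integral_sub (hi 0 0) i2, integral_const_mul, integral_const_mul,
    FC.pl_gauss hw, FC.pl_gauss hw, FC.pl_gauss hw]
  have g0 : ∀ c : ℝ, gau 0 (√2 * w) (c - c + -u + u) = 1 := fun c => by simp [gau]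
  have g1 : Real.exp (w ^ 2 / 8) * gau 0 (√2 * w) (0 - w ^ 2 / 2 + -u + u) =
      Real.exp (w ^ 2 / 16) := by
    rw [gau, ← Real.exp_add, mul_pow, Real.sq_sqrt zero_le_two]
    congr 1
    field_simp
    ring
  have g2 : Real.exp (w ^ 2 / 8) ^ 2 = Real.exp (w ^ 2 / 4) := by
    rw [sq (Real.exp _), ← Real.exp_add]
    congr 1
    ring
  rw [g0, g0, g2, eps, ← g1]
  ring

theorem cIn1_int {E : Type*} [NormedAddCommGroup E] [NormedSpace ℝ E] {g : ℝ → ℝ}
    (hg : Integrable g) {A : ℝ → E} (hA : Continuous A) {C : ℝ} (hC : ∀ s, ‖A s‖ ≤ C) :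
    Integrable fun s => g s • A s := by
  refine (hg.norm.mul_const C).mono' (hg.1.smul hA.aestronglyMeasurable)
    (Eventually.of_forall fun s => ?_)
  rw [norm_smul]
  exact mul_le_mul_of_nonneg_left (hC s) (norm_nonneg _)

theorem cIn1_psi {w a : ℝ} (hw : 0 < w) (ha : 0 < a) :
    Integrable (fun s => gau 0 a s • (star (cIn1f w s) * cIn1f w s)) ∧
      ‖∫ s, gau 0 a s • (star (cIn1f w s) * cIn1f w s)‖ ≤ √Real.pi * w * |eps w| := by
  have hc := cIn1_cont_f hw
  have hn : ∀ s, ‖cIn1f w s‖ ≤ 1 + ‖(Real.exp (w ^ 2 / 8) : ℂ)‖ * 1 := fun s =>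
    (norm_sub_le _ _).trans (add_le_add (FC.pl_norm_le_one _ _) (by
      rw [norm_smul]
      exact mul_le_mul_of_nonneg_left (FC.pl_norm_le_one _ _) (norm_nonneg _)))
  have hi : Integrable fun s => gau 0 a s • (star (cIn1f w s) * cIn1f w s) :=
    cIn1_int (cIn1_int_gau0 ha) (hc.star.mul hc) fun s => (norm_mul_le _ _).trans
      (mul_le_mul ((norm_star _).trans_le (hn s)) (hn s) (norm_nonneg _) (by positivity))
  refine ⟨hi, (BoundedContinuousFunction.norm_le (by positivity)).2 fun u => ?_⟩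
  have h1 := (BoundedContinuousFunction.evalCLM ℝ (β := ℂ) u).integral_comp_comm hi
  simp only [BoundedContinuousFunction.evalCLM_apply] at h1
  obtain ⟨h2, h3⟩ := cIn1_eps hw u
  rw [← h1]
  refine (norm_integral_le_of_norm_le h2 (Eventually.of_forall fun s => ?_)).trans ?_
  · rw [BoundedContinuousFunction.smul_apply, norm_smul, cIn1_f_sq, Complex.norm_real,
      Real.norm_of_nonneg (sq_nonneg _), Real.norm_of_nonneg (gau_pos _ _ _).le]
    exact mul_le_of_le_one_left (sq_nonneg _) (gau_le_one _ _ _)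
  · rw [h3]
    exact mul_le_mul_of_nonneg_left (le_abs_self _) (by positivity)

theorem cIn1_kap_le {w : ℝ} (hw : 0 < w) (t : ℝ) : kap w t ≤ w / √(2 * Real.pi) :=
  mul_le_of_le_one_right (by positivity) (Real.exp_le_one_iff.2
    (div_nonpos_of_nonpos_of_nonneg (neg_nonpos.2 (by positivity)) zero_le_two))

theorem cIn1_kap_sq {w : ℝ} (t : ℝ) :
    2 * Real.pi * kap w t * kap w t = √Real.pi * w * kap (√2 * w) t := by
  have hp := Real.pi_pos
  have h1 : √(2 * Real.pi) = √2 * √Real.pi := Real.sqrt_mul zero_le_two _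
  have h2 : √2 ^ 2 = 2 := Real.sq_sqrt zero_le_two
  have h3 : √Real.pi ^ 2 = Real.pi := Real.sq_sqrt hp.le
  have h4 : Real.exp (-((√2 * w) ^ 2 * t ^ 2) / 2) =
      Real.exp (-(w ^ 2 * t ^ 2) / 2) * Real.exp (-(w ^ 2 * t ^ 2) / 2) := by
    rw [← Real.exp_add, mul_pow, h2]
    congr 1
    ring
  unfold kap
  rw [h4, h1]
  field_simp
  rw [h2, h3]
  ring

theorem cIn1_W {q : ℝ → H} (hq : Continuous q) {C : ℝ} (hC : ∀ t, ‖q t‖ ≤ C) :
    (∀ a, 0 < a → (Continuous fun t => ∫ r, kap a r • q (t - r)) ∧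
      ∀ t, ‖∫ r, kap a r • q (t - r)‖ ≤ C) ∧
    ∀ t, Tendsto (fun a => ∫ r, kap a r • q (t - r)) atTop (𝓝 (q t)) := by
  refine ⟨fun a ha => ?_, fun t => ?_⟩
  · have hk := continuous_kap a
    have hb : ∀ t r, ‖kap a r • q (t - r)‖ ≤ kap a r * C := fun t r => by
      rw [norm_smul, Real.norm_of_nonneg (kap_pos ha r).le]
      exact mul_le_mul_of_nonneg_left (hC _) (kap_pos ha r).le
    refine ⟨continuous_of_dominated (fun t => Continuous.aestronglyMeasurable (by fun_prop))
      (fun t => Eventually.of_forall (hb t)) ((integrable_kap ha).mul_const C)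
      (Eventually.of_forall fun r => by fun_prop), fun t => ?_⟩
    refine (norm_integral_le_of_norm_le ((integrable_kap ha).mul_const C)
      (Eventually.of_forall (hb t))).trans_eq ?_
    rw [integral_mul_const, integral_kap ha, one_mul]
  · have := kap_approx (v := fun r => q (t - r)) (by fun_prop) fun r => hC _
    rwa [sub_zero] at this

theorem cIn1_bd (F : FC H) (v y : Op H) (t : ℝ) {η : H} {C : ℝ} (hC : ‖η‖ ≤ C) :
    ‖F.σ t (star v) (y η)‖ ≤ ‖v‖ * (‖y‖ * C) := by
  refine ((F.σ t (star v)).le_opNorm _).trans ?_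
  rw [F.norm_σ, norm_star]
  exact mul_le_mul_of_nonneg_left ((y.le_opNorm _).trans
    (mul_le_mul_of_nonneg_left hC (norm_nonneg _))) (norm_nonneg _)

theorem cIn1_cσ (F : FC H) (v : Op H) {η : ℝ → H} (h : Continuous η) :
    Continuous fun t => F.σ t v (η t) :=
  F.fcb_continuous_Δ (v.continuous.comp
    ((F.fcb_continuous_Δ (h.comp continuous_neg)).comp continuous_neg |>.congr fun t => by simp))

theorem cIn1_A (F : FC H) {w : ℝ} (hw : 0 < w) (v y : Op H) :
    (Continuous fun s => star (F.G s w v) * y * F.G s w v) ∧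
      ∀ s, ‖star (F.G s w v) * y * F.G s w v‖ ≤ ‖v‖ * ‖y‖ * ‖v‖ := by
  have h := continuous_G F hw v
  refine ⟨(h.star.mul continuous_const).mul h, fun s => (norm_mul_le _ _).trans (mul_le_mul
    ((norm_mul_le _ _).trans (mul_le_mul_of_nonneg_right ?_ (norm_nonneg _)))
    (F.norm_G_le s hw v) (norm_nonneg _) (by positivity))⟩
  rw [norm_star]
  exact F.norm_G_le s hw v

theorem cIn1_lim (F : FC H) {w : ℝ} (hw : 0 < w) (v y : Op H) (ζ : H) :
    Tendsto (fun a => (∫ s, gau 0 a s • (star (F.G s w v) * y * F.G s w v)) ζ) atTop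
      (𝓝 ((√Real.pi * w) • ∫ t, kap (√2 * w) t • (star (F.σ t v) * y * F.σ t v) ζ)) := by
  have hk := continuous_kap w
  have hσ := F.continuous_σ v ζ
  have hp := Real.pi_pos
  have hq : Continuous fun t => kap w t • F.σ t v ζ := by fun_prop
  have hC : ∀ t, ‖kap w t • F.σ t v ζ‖ ≤ w / √(2 * Real.pi) * (‖v‖ * ‖ζ‖) := fun t => by
    rw [norm_smul, Real.norm_of_nonneg (kap_pos hw t).le, ← F.norm_σ t v]
    exact mul_le_mul (cIn1_kap_le hw t) (ContinuousLinearMap.le_opNorm _ _) (norm_nonneg _)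
      (by positivity)
  obtain ⟨h1, h2⟩ := cIn1_W hq hC
  set C := w / √(2 * Real.pi) * (‖v‖ * ‖ζ‖)
  set W : ℝ → ℝ → H := fun a t => ∫ r, kap a r • kap w (t - r) • F.σ (t - r) v ζ with hW
  have hg : Integrable fun t => 2 * Real.pi * kap w t := (integrable_kap hw).const_mul _
  have hc : ∀ a, 0 < a → Continuous fun t => F.σ t (star v) (y (W a t)) := fun a ha =>
    cIn1_cσ F _ (y.continuous.comp (h1 a ha).1)
  have e1 : ∀ a, 0 < a → (∫ s, gau 0 a s • (star (F.G s w v) * y * F.G s w v)) ζ =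
      ∫ t, (2 * Real.pi * kap w t) • F.σ t (star v) (y (W a t)) := fun a ha => by
    refine ext_inner_left ℂ fun η => ?_
    obtain ⟨h3, h4⟩ := cIn1_A F hw v y
    have i1 := cIn1_int (cIn1_int_gau0 ha) h3 h4
    rw [ContinuousLinearMap.integral_apply i1, ← integral_inner (i1.apply_continuousLinearMap ζ),
      ← integral_inner (cIn1_int hg (hc a ha) fun t => cIn1_bd F v y t ((h1 a ha).2 t))]
    refine Eq.trans (integral_congr_ae (Eventually.of_forall fun s => ?_))
      ((planch F hw ha v y η ζ).trans (integral_congr_ae (Eventually.of_forall fun t => ?_)))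
    · simp only
      rw [smul_apply, ← Complex.coe_smul, inner_smul_right, mul_apply_eq_comp, mul_apply_eq_comp,
        inner_star_right]
    · simp only
      have i2 : Integrable fun r => kap a r • kap w (t - r) • F.σ (t - r) v ζ :=
        cIn1_int (integrable_kap ha) (hq.comp (continuous_sub_left t)) fun r => hC _
      rw [← Complex.coe_smul, inner_smul_right, F.σ_star, inner_star_right, hW,
        ← y.integral_comp_comm i2, ← integral_inner (y.integrable_comp i2), ← integral_const_mul,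
        ← integral_sub_left_eq_self _ volume t]
      refine integral_congr_ae (Eventually.of_forall fun r => ?_)
      simp only [sub_sub_cancel, ← Complex.coe_smul, map_smul, inner_smul_right]
      push_cast
      ring
  have e2 : (√Real.pi * w) • ∫ t, kap (√2 * w) t • (star (F.σ t v) * y * F.σ t v) ζ =
      ∫ t, (2 * Real.pi * kap w t) • F.σ t (star v) (y (kap w t • F.σ t v ζ)) := by
    rw [← integral_smul]
    refine integral_congr_ae (Eventually.of_forall fun t => ?_)
    simp only [ContinuousLinearMap.map_smul_of_tower, smul_smul, cIn1_kap_sq, F.σ_star,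
      mul_apply_eq_comp]
  rw [e2]
  refine (tendsto_integral_filter_of_dominated_convergence
    (fun t => 2 * Real.pi * kap w t * (‖v‖ * (‖y‖ * C))) ?_ ?_ (hg.mul_const _)
    (Eventually.of_forall fun t => ?_)).congr'
    ((eventually_gt_atTop 0).mono fun a ha => (e1 a ha).symm)
  · exact (eventually_gt_atTop 0).mono fun a ha =>
      hg.1.smul (hc a ha).aestronglyMeasurable
  · refine (eventually_gt_atTop 0).mono fun a ha => Eventually.of_forall fun t => ?_
    have := kap_pos hw t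
    rw [norm_smul, Real.norm_of_nonneg (by positivity)]
    exact mul_le_mul_of_nonneg_left (cIn1_bd F v y t ((h1 a ha).2 t)) (by positivity)
  · exact ((((F.σ t (star v)).continuous.comp y.continuous).tendsto _).comp (h2 t)).const_smul _

end Vale.Agent.P096
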