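import Vale.Agent.P096.CIn0
import Vale.Agent.P096.CIn1A

/-!
# P096 C: splitting in frequencies
`split`: `c₀ = √π w`. For `a > 0` and `y ∈ {1, x}` let `Φ y s = (gau 0 a s / c₀) • ∑ k, G s w (v k)* y G s w (v k)` (norm continuous and integrable in `Op H`).
By `planch`, `(∫ Φ y) ξ = ∫ t, (2π / c₀) kap w t • ∑ σ t (v k)* y (∫ t', kap a (t - t') kap w t' • σ t' (v k) ξ)`, which tends to `Gam S (√2 w) v y` as `a → ∞` (`kap_approx`, dominated convergence,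
`2π kap w t ^ 2 = c₀ kap (√2 w) t`). `planch_col`: `‖∫ Φ 1‖ ≤ 1`. Third function, with values in `ℝ →ᵇ ℂ` (or `ℝ →ᵇ ℝ`): `ψ s = (gau 0 a s / c₀) • |f s|²`, `f s = gB s w - exp (w²/8) • gB (s + w²/2) w`;
`sup (∫ ψ) ≤ |eps w|` by `pl_gauss`. Apply `rs` in the product space; `b (k, j) = √(h j gau / (c₀ (1 + τ))) • G (s j) w (v k)`, `μ (k, j) = exp (-s j / 2)`; `D_G`, `D_rsmul`,
`∑ j, h j ‖Θ (f j) η‖² = qf (Θ (∑ h j |f j|²)) η`. `G s w v * z = G s w v` by `G_conj` and `σ t z = z`.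
`in1`: choose `w` by `eps_small`, `in0` with `√2 w`, `l2 (v k ξ) ≤ ‖z ξ‖`, `split`.
-/

namespace Vale.Agent.P096

open Vale.Agent.P104 Vale.Agent.P132 Filter Topology
open scoped InnerProductSpace

universe u

variable {H : Type u} [NormedAddCommGroup H] [InnerProductSpace ℂ H] [CompleteSpace H]

open MeasureTheory
open scoped BoundedContinuousFunction

/-- the integrand of the frequency decomposition -/
noncomputable def cIn1P (F : FC H) (w a : ℝ) {ι : Type} [Fintype ι] (v : ι → Op H) (y : Op H)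
    (s : ℝ) : Op H :=
  (√Real.pi * w)⁻¹ • ∑ k, gau 0 a s • (star (F.G s w (v k)) * y * F.G s w (v k))

theorem cIn1_P_int (F : FC H) {w a : ℝ} (hw : 0 < w) (ha : 0 < a) {ι : Type} [Fintype ι]
    (v : ι → Op H) (y : Op H) : Integrable (cIn1P F w a v y) :=
  (integrable_finsetSum _ fun k _ => cIn1_int (cIn1_int_gau0 ha) (cIn1_A F hw (v k) y).1
    (cIn1_A F hw (v k) y).2).smul (√Real.pi * w)⁻¹

theorem cIn1_P_lim (S : SF H) {w : ℝ} (hw : 0 < w) {ι : Type} [Fintype ι] (v : ι → Op H)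
    (y : Op H) : Tendsto (fun a => (∫ s, cIn1P S.toFC w a v y s) S.ξ) atTop
      (𝓝 (Gam S (√2 * w) v y)) := by
  have hp := Real.pi_pos
  have h1 := (tendsto_finsetSum Finset.univ fun k _ =>
    cIn1_lim S.toFC hw (v k) y S.ξ).const_smul (√Real.pi * w)⁻¹
  have e : Gam S (√2 * w) v y = (√Real.pi * w)⁻¹ • ∑ k, (√Real.pi * w) •
      ∫ t, kap (√2 * w) t • (star (S.σ t (v k)) * y * S.σ t (v k)) S.ξ := by
    rw [← Finset.smul_sum, smul_smul, inv_mul_cancel₀ (by positivity), one_smul, Gam,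
      ← integral_finsetSum _ fun k _ => ?_]
    · simp only [Finset.smul_sum]
    · simp only [mul_apply_eq_comp, ← S.σ_star]
      exact cIn1_int (integrable_kap (by positivity))
        (cIn1_cσ _ _ (y.continuous.comp (S.continuous_σ _ _))) fun t =>
          cIn1_bd _ _ y t ((ContinuousLinearMap.le_opNorm _ _).trans_eq (by rw [S.norm_σ]))
  rw [e]
  refine h1.congr' ((eventually_gt_atTop 0).mono fun a ha => ?_)
  simp only [cIn1P]
  rw [integral_smul, integral_finsetSum _ fun k _ => cIn1_int (cIn1_int_gau0 ha)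
    (cIn1_A _ hw (v k) y).1 (cIn1_A _ hw (v k) y).2, smul_apply, _root_.sum_apply]

theorem cIn1_P_qf (F : FC H) {w a : ℝ} (hw : 0 < w) (ha : 0 < a) {ι : Type} [Fintype ι]
    {v : ι → Op H} (hc : Col v 1) (ζ : H) : qf (∫ s, cIn1P F w a v 1 s) ζ ≤ ‖ζ‖ ^ 2 := by
  have hp := Real.pi_pos
  have hi := cIn1_P_int F hw ha v 1
  have h1 := (hi.apply_continuousLinearMap ζ).const_inner (𝕜 := ℂ) ζ
  have h2 : qf (∫ s, cIn1P F w a v 1 s) ζ = ∫ s, qf (cIn1P F w a v 1 s) ζ := by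
    rw [qf, ContinuousLinearMap.integral_apply hi,
      ← integral_inner (hi.apply_continuousLinearMap ζ)]
    exact (integral_re (𝕜 := ℂ) h1).symm
  rw [h2]
  simp only [cIn1P, qf_rsmul, qf_sum, mul_one, qf_star_mul_self, ← Finset.mul_sum]
  rw [integral_const_mul, inv_mul_le_iff₀ (by positivity)]
  exact planch_col F hw ha hc ζ

omit [CompleteSpace H] in
theorem cIn1_near {T I : Op H} {ξ g : H} (hξ : ‖ξ‖ = 1) {τ τ' : ℝ} (h0 : 0 < τ') (h1 : ‖T - I‖ ≤ τ')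
    (h2 : ‖I ξ - g‖ ≤ τ / 2) (h3 : τ' * (1 + ‖I‖) ≤ τ / 2) : ‖((1 + τ')⁻¹ • T) ξ - g‖ ≤ τ := by
  have h4 : (0 : ℝ) < 1 + τ' := by positivity
  have e : ((1 + τ')⁻¹ • T) ξ - g = (1 + τ')⁻¹ • ((T - I) ξ - τ' • I ξ) + (I ξ - g) := by
    rw [smul_apply, sub_apply]
    refine smul_right_injective H h4.ne' ?_
    simp only [smul_add, smul_sub, smul_inv_smul₀ h4.ne']
    module
  have h5 := (T - I).le_opNorm ξ
  have h6 := I.le_opNorm ξ
  have h7 : ‖(T - I) ξ - τ' • I ξ‖ ≤ τ / 2 := by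
    refine (norm_sub_le _ _).trans ?_
    rw [norm_smul, Real.norm_of_nonneg h0.le]
    rw [hξ, mul_one] at h5 h6
    nlinarith
  rw [e]
  refine (norm_add_le _ _).trans ?_
  rw [norm_smul, Real.norm_of_nonneg (inv_pos.2 h4).le]
  have h8 := mul_le_of_le_one_left (norm_nonneg ((T - I) ξ - τ' • I ξ))
    (inv_le_one_of_one_le₀ (a := 1 + τ') (by linarith))
  linarith

theorem split (S : SF H) {R : VonNeumannAlgebra H} (hR : ∀ y ∈ R, y ∈ S.M)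
    (hσ : ∀ y ∈ R, ∀ t, S.σ t y ∈ R) {z : Op H} (hz : CProj S.M z) (x : Op H) {ι : Type}
    [Fintype ι] {v : ι → Op H} (hv : ∀ k, v k ∈ R) (hvz : ∀ k, v k * z = v k) (hc : Col v 1)
    {w τ : ℝ} (hw : 0 < w) (hτ : 0 < τ) :
    ∃ (κ : Type) (_ : Fintype κ) (b : κ → Op H) (μ : κ → ℝ), (∀ j, b j ∈ R) ∧
      (∀ j, b j * z = b j) ∧ (∀ j, 0 < μ j) ∧ Col b 1 ∧
      ‖gram b S.ξ - Gam S (√2 * w) v 1‖ ≤ τ ∧
      ‖∑ j, (star (b j) * x * b j) S.ξ - Gam S (√2 * w) v x‖ ≤ τ ∧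
      S.Dn b μ ^ 2 ≤ (|eps w| + τ) * l2 (fun k => v k S.ξ) ^ 2 := by
  have hp := Real.pi_pos
  have hc0 : 0 < √Real.pi * w := by positivity
  obtain ⟨a, ⟨ha1, hax⟩, ha⟩ := (((Metric.tendsto_nhds.1 (cIn1_P_lim S hw v 1) _ (half_pos hτ)).and
    (Metric.tendsto_nhds.1 (cIn1_P_lim S hw v x) _ (half_pos hτ))).and
      (eventually_gt_atTop 0)).exists
  rw [dist_eq_norm] at ha1 hax
  have i1 := cIn1_P_int S.toFC hw ha v 1
  have ix := cIn1_P_int S.toFC hw ha v x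
  obtain ⟨i3, n3⟩ := cIn1_psi hw ha
  set I₁ := ∫ s, cIn1P S.toFC w a v 1 s
  set Ix := ∫ s, cIn1P S.toFC w a v x s
  let ψ : ℝ → ℝ →ᵇ ℂ := fun s => (√Real.pi * w)⁻¹ • gau 0 a s • (star (cIn1f w s) * cIn1f w s)
  have i4 : Integrable ψ := i3.smul (√Real.pi * w)⁻¹
  have n4 : ‖∫ s, ψ s‖ ≤ |eps w| := by
    rw [integral_smul, norm_smul, Real.norm_of_nonneg (inv_pos.2 hc0).le, inv_mul_le_iff₀ hc0]
    exact n3
  have m1 := norm_nonneg I₁
  have mx := norm_nonneg Ix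
  obtain ⟨τ', h0, h1⟩ : ∃ τ', 0 < τ' ∧ τ' * (1 + ‖I₁‖ + ‖Ix‖) = τ / 2 :=
    ⟨τ / 2 / (1 + ‖I₁‖ + ‖Ix‖), by positivity, div_mul_cancel₀ _ (by positivity)⟩
  obtain ⟨n, s, h, hh, hr⟩ := rs (i1.prodMk (ix.prodMk i4)) h0
  rw [integral_pair i1 (ix.prodMk i4), integral_pair ix i4] at hr
  have r1 : ‖∑ j, h j • cIn1P S.toFC w a v 1 (s j) - I₁‖ ≤ τ' := by
    simpa only [Prod.fst_sub, Prod.fst_sum, Prod.smul_fst] using (norm_fst_le _).trans hr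
  have rx : ‖∑ j, h j • cIn1P S.toFC w a v x (s j) - Ix‖ ≤ τ' := by
    simpa only [Prod.fst_sub, Prod.fst_sum, Prod.smul_fst, Prod.snd_sub, Prod.snd_sum,
      Prod.smul_snd] using ((norm_fst_le _).trans (norm_snd_le _)).trans hr
  have r3 : ‖∑ j, h j • ψ (s j) - ∫ s, ψ s‖ ≤ τ' := by
    simpa only [Prod.snd_sub, Prod.snd_sum, Prod.smul_snd] using
      ((norm_snd_le _).trans (norm_snd_le _)).trans hr
  have h4 : (0 : ℝ) < 1 + τ' := by positivity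
  obtain ⟨c, hcc⟩ : ∃ c : Fin n → ℝ, ∀ j,
      c j * c j = (1 + τ')⁻¹ * (h j * ((√Real.pi * w)⁻¹ * gau 0 a (s j))) :=
    ⟨fun j => √_, fun j => Real.mul_self_sqrt (mul_nonneg (inv_pos.2 h4).le (mul_nonneg (hh j)
      (mul_pos (inv_pos.2 hc0) (gau_pos _ _ _)).le))⟩
  let b : ι × Fin n → Op H := fun p => c p.2 • S.G (s p.2) w (v p.1)
  have key : ∀ y : Op H, ∑ p, star (b p) * y * b p =
      (1 + τ')⁻¹ • ∑ j, h j • cIn1P S.toFC w a v y (s j) := fun y => by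
    simp only [b, cIn1P, Fintype.sum_prod_type_right, Finset.smul_sum, star_smul, star_trivial,
      smul_mul_assoc, mul_smul_comm, smul_smul, hcc]
  have hg : gram b = (1 + τ')⁻¹ • ∑ j, h j • cIn1P S.toFC w a v 1 (s j) := by
    rw [← key]
    simp only [gram, mul_one]
  refine ⟨ι × Fin n, inferInstance, b, fun p => Real.exp (-s p.2 / 2),
    fun p => vn_rsmul_mem _ (S.G_mem _ hw _ (hσ _ (hv _))), fun p => ?_, fun p => Real.exp_pos _,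
    fun ζ => ?_, ?_, ?_, ?_⟩
  · have := S.G_conj (s p.2) hw (v p.1) (a := 1) (b := z) (c := 1) (d := 1) fun t => by
      rw [one_mul, mul_one, ← cIn1_cen S hz t, ← S.σ_mul, hvz]
    rw [one_mul, mul_one] at this
    rw [smul_mul_assoc, this]
  · rw [one_mul, l2_le_iff (norm_nonneg _), ← l2_sq, ← qf_gram, hg, qf_rsmul, inv_mul_le_iff₀ h4]
    have h5 := (le_abs_self _).trans (abs_qf_le (∑ j, h j • cIn1P S.toFC w a v 1 (s j) - I₁) ζ)
    have h6 := cIn1_P_qf S.toFC hw ha hc ζ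
    have h7 := mul_le_mul_of_nonneg_right r1 (sq_nonneg ‖ζ‖)
    rw [qf_sub] at h5
    linarith
  · rw [hg]
    exact cIn1_near S.norm_ξ h0 r1 ha1.le (by linarith [mul_nonneg h0.le mx])
  · rw [← _root_.sum_apply, key]
    exact cIn1_near S.norm_ξ h0 rx hax.le (by linarith [mul_nonneg h0.le m1])
  · have hΘ : ∀ (r : ℝ) (f : ℝ →ᵇ ℂ), S.Θ (r • f) = r • S.Θ f := fun r f => map_smul S.Θ (r : ℂ) f
    have h5 : ∀ p : ι × Fin n, ‖S.D (Real.exp (-s p.2 / 2)) (b p)‖ ^ 2 =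
        (1 + τ')⁻¹ * qf (S.Θ (h p.2 • ψ (s p.2))) (v p.1 S.ξ) := fun p => by
      have e : S.D (Real.exp (-s p.2 / 2)) (S.G (s p.2) w (v p.1)) =
          S.Θ (cIn1f w (s p.2)) (v p.1 S.ξ) := by
        rw [S.D_G _ hw (hR _ (hv _)), cIn1f, map_sub, map_smul]
        rfl
      simp only [b, ψ, hΘ, qf_rsmul, map_mul, map_star, qf_star_mul_self]
      rw [S.D_rsmul, e, norm_smul, mul_pow, Real.norm_eq_abs, sq_abs, sq (c _), hcc]
      ring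
    have h6 : ‖S.Θ (∑ j, h j • ψ (s j))‖ ≤ |eps w| + τ := by
      refine (S.norm_Θ_le _).trans ((norm_le_insert' _ (∫ s, ψ s)).trans ?_)
      linarith [mul_nonneg h0.le mx, mul_nonneg h0.le m1]
    rw [SF.Dn, l2_sq, l2_sq, Finset.mul_sum, Fintype.sum_prod_type]
    refine Finset.sum_le_sum fun k _ => ?_
    rw [Finset.sum_congr rfl fun j _ => h5 (k, j), ← Finset.mul_sum]
    dsimp only
    rw [← qf_sum, ← map_sum, inv_mul_le_iff₀ h4]
    have h7 := (le_abs_self _).trans (abs_qf_le (S.Θ (∑ j, h j • ψ (s j))) (v k S.ξ))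
    have h8 := mul_le_mul_of_nonneg_right h6 (sq_nonneg ‖v k S.ξ‖)
    have h9 : 0 ≤ τ' * ((|eps w| + τ) * ‖v k S.ξ‖ ^ 2) := by positivity
    linarith

theorem in1 (S : SF H) {R : VonNeumannAlgebra H} (hR : ∀ y ∈ R, y ∈ S.M)
    (hσ : ∀ y ∈ R, ∀ t, S.σ t y ∈ R) (hZ : ∀ z, CProj R z → z ∈ S.M.commutant) {x : Op H}
    (hx : x ∈ R) (hs : IsSelfAdjoint x) {ε : ℝ} (hε : 0 < ε) :
    ∃ (z : Op H) (lam : ℝ) (κ : Type) (_ : Fintype κ) (b : κ → Op H) (μ : κ → ℝ), CProj S.M z ∧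
      z S.ξ ≠ 0 ∧ |lam| ≤ ‖x‖ ∧ (∀ j, b j ∈ R) ∧ (∀ j, b j * z = b j) ∧ (∀ j, 0 < μ j) ∧ Col b 1 ∧
      ‖(gram b - z) S.ξ‖ ≤ ε * ‖z S.ξ‖ ∧
      ‖∑ j, (star (b j) * x * b j) S.ξ - lam • z S.ξ‖ ≤ ε * ‖z S.ξ‖ ∧
      S.Dn b μ ≤ ε * ‖z S.ξ‖ := by
  obtain ⟨w, hw, he⟩ := eps_small (ε := ε ^ 2 / 2) (by positivity)
  obtain ⟨z, lam, ι, _, v, hz, hz0, hl, hv, hvz, hc, g1, gx⟩ :=
    in0 S hR hσ hZ hx hs (w := √2 * w) (by positivity) (half_pos hε)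
  have hn : 0 < ‖z S.ξ‖ := norm_pos_iff.2 hz0
  obtain ⟨κ, _, b, μ, k1, k2, k3, k4, k5, k6, k7⟩ := split S hR hσ hz x hv hvz hc hw
    (τ := min (ε / 2 * ‖z S.ξ‖) (ε ^ 2 / 2)) (lt_min (by positivity) (by positivity))
  have m1 := min_le_left (ε / 2 * ‖z S.ξ‖) (ε ^ 2 / 2)
  have m2 := min_le_right (ε / 2 * ‖z S.ξ‖) (ε ^ 2 / 2)
  refine ⟨z, lam, κ, inferInstance, b, μ, hz, hz0, hl, k1, k2, k3, k4, ?_, ?_, ?_⟩
  · rw [sub_apply]
    linarith [norm_sub_le_norm_sub_add_norm_sub (gram b S.ξ) (Gam S (√2 * w) v 1) (z S.ξ)]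
  · linarith [norm_sub_le_norm_sub_add_norm_sub (∑ j, (star (b j) * x * b j) S.ξ)
      (Gam S (√2 * w) v x) (lam • z S.ξ)]
  · have h1 := hc (z S.ξ)
    simp only [← mul_apply_eq_comp, hvz, one_mul] at h1
    refine (pow_le_pow_iff_left₀ (l2_nonneg _) (by positivity) two_ne_zero).1 (k7.trans ?_)
    rw [mul_pow]
    exact mul_le_mul (by linarith) (pow_le_pow_left₀ (l2_nonneg _) h1 2) (sq_nonneg _)
      (sq_nonneg _)

end Vale.Agent.P096
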