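import Vale.Agent.P096.CKazMean

/-!
# P096 C: stability of almost representations of a locally finite group (Kazhdan)
`G = ⋃ Γ k`. State `KazSt φ D`: on `G`, `φ g ∈ N`, `φ (g*) = (φ g)*`, `‖φ (g h) - φ g φ h‖ ≤ D`, `‖φ 1 - 1‖ ≤ D`; then `‖φ g‖² = ‖φ g φ g*‖ ≤ 1 + 2D`. Start: `φ g = (y g + (y (g*))*) / 2`, `D = 4 δ`.
Step (`D ≤ 1/1000`): `φ' x` is the mean of `φ (x h) (φ h)*`. The mean of `φ (x h) (φ (y* h))*` is `φ' (x y)`. Hence `φ' (x*) = (φ' x)*`, and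
`φ' (x y) - φ' x φ y - φ x φ' y + φ x φ' 1 φ y` has norm `≤ D²`. `ψ x = c φ' x c`, `c = 1 - (φ' 1 - 1) / 2`.
Iterate (`D` halves), `θ g` is the norm limit.
-/

namespace Vale.Agent.P096

open Vale.Agent.P104 Vale.Agent.P132 Filter Topology
open scoped InnerProductSpace

variable {K : Type*} [NormedAddCommGroup K] [InnerProductSpace ℂ K] [CompleteSpace K]
  {Γ : ℕ → Finset (Op K)} {N : VonNeumannAlgebra K} {φ : Op K → Op K} {D : ℝ}

/-- an almost representation in `N` -/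
structure KazSt (Γ : ℕ → Finset (Op K)) (N : VonNeumannAlgebra K) (φ : Op K → Op K) (D : ℝ) :
    Prop where
  mem : ∀ g, KazIn Γ g → φ g ∈ N
  star : ∀ g, KazIn Γ g → φ (star g) = star (φ g)
  mul : ∀ g h, KazIn Γ g → KazIn Γ h → ‖φ (g * h) - φ g * φ h‖ ≤ D
  one : ‖φ 1 - 1‖ ≤ D

omit [CompleteSpace K] in
theorem kaz_norm_one : ‖(1 : Op K)‖ ≤ 1 := ContinuousLinearMap.norm_id_le

omit [CompleteSpace K] in
theorem kaz_mul_le {a b : Op K} {s t : ℝ} (ha : ‖a‖ ≤ s) (hb : ‖b‖ ≤ t) : ‖a * b‖ ≤ s * t :=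
  (norm_mul_le a b).trans (mul_le_mul ha hb (norm_nonneg _) ((norm_nonneg _).trans ha))

omit [CompleteSpace K] in
theorem kaz_add_le {a b : Op K} {s t : ℝ} (ha : ‖a‖ ≤ s) (hb : ‖b‖ ≤ t) : ‖a + b‖ ≤ s + t :=
  (norm_add_le a b).trans (add_le_add ha hb)

omit [CompleteSpace K] in
theorem kaz_sub_le {a b : Op K} {s t : ℝ} (ha : ‖a‖ ≤ s) (hb : ‖b‖ ≤ t) : ‖a - b‖ ≤ s + t :=
  (norm_sub_le a b).trans (add_le_add ha hb)

theorem KazSt.sq (hΓ : LF Γ) (h : KazSt Γ N φ D) {g : Op K} (hg : KazIn Γ g) :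
    ‖φ g * Star.star (φ g) - 1‖ ≤ 2 * D := by
  have h1 := h.mul g (Star.star g) hg (hΓ.in_star hg)
  rw [Unitary.mul_star_self_of_mem (hΓ.in_unit hg), h.star g hg] at h1
  have e : φ g * Star.star (φ g) - 1 = (φ 1 - 1) - (φ 1 - φ g * Star.star (φ g)) := by abel
  rw [e]
  exact (kaz_sub_le h.one h1).trans (le_of_eq (by ring))

theorem KazSt.norm (hΓ : LF Γ) (h : KazSt Γ N φ D) (hD : D ≤ 1 / 1000) {g : Op K}
    (hg : KazIn Γ g) : ‖φ g‖ ≤ 2 := by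
  have h1 : ‖φ g‖ * ‖φ g‖ ≤ 2 * D + 1 := by
    rw [← CStarRing.norm_self_mul_star, ← sub_add_cancel (φ g * Star.star (φ g)) 1]
    exact kaz_add_le (h.sq hΓ hg) kaz_norm_one
  nlinarith [norm_nonneg (φ g)]

/-- the averaged map -/
theorem KazSt.avg (hΓ : LF Γ) (h : KazSt Γ N φ D) (hD : D ≤ 1 / 1000) :
    ∃ χ : Op K → Op K, (∀ x, KazIn Γ x → χ x ∈ N) ∧
      (∀ x, KazIn Γ x → χ (Star.star x) = Star.star (χ x)) ∧
      (∀ x, KazIn Γ x → ‖χ x - φ x‖ ≤ 6 * D) ∧ ‖χ 1 - 1‖ ≤ 2 * D ∧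
      ∀ x y, KazIn Γ x → KazIn Γ y →
        ‖χ (x * y) - χ x * φ y - φ x * χ y + φ x * χ 1 * φ y‖ ≤ D * D := by
  have hn : ∀ g, KazIn Γ g → ‖Star.star (φ g)‖ ≤ 2 := fun g hg => by
    rw [norm_star]
    exact h.norm hΓ hD hg
  have hex : ∀ x, ∃ L, KazIn Γ x → KMean Γ (fun g => φ (x * g) * Star.star (φ g)) L := fun x => by
    by_cases hx : KazIn Γ x
    · obtain ⟨L, hL⟩ := hΓ.exists_mean (f := fun g => φ (x * g) * Star.star (φ g)) (C := 2 * 2)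
        fun g hg => kaz_mul_le (h.norm hΓ hD (hΓ.in_mul hx hg)) (hn g hg)
      exact ⟨L, fun _ => hL⟩
    · exact ⟨0, fun h' => absurd h' hx⟩
  choose χ hχ using hex
  have key : ∀ x y, KazIn Γ x → KazIn Γ y →
      KMean Γ (fun g => φ (x * g) * Star.star (φ (Star.star y * g))) (χ (x * y)) :=
    fun x y hx hy => by
      refine ((hχ (x * y) (hΓ.in_mul hx hy)).shift hΓ (hΓ.in_star hy)).congr fun g _ => ?_
      rw [mul_assoc, ← mul_assoc y, Unitary.mul_star_self_of_mem (hΓ.in_unit hy), one_mul]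
  have key1 : ∀ y, KazIn Γ y →
      KMean Γ (fun g => φ g * Star.star (φ (Star.star y * g))) (χ y) := fun y hy => by
    have := key 1 y hΓ.in_one hy
    simp only [one_mul] at this
    exact this
  have key2 : KMean Γ (fun g => φ g * Star.star (φ g)) (χ 1) := by
    have := hχ 1 hΓ.in_one
    simp only [one_mul] at this
    exact this
  refine ⟨χ, fun x hx => (hχ x hx).mem fun g hg =>
    mul_mem (h.mem _ (hΓ.in_mul hx hg)) (star_mem (h.mem g hg)), fun x hx => ?_, fun x hx => ?_,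
    ?_, fun x y hx hy => ?_⟩
  · refine (key1 _ (hΓ.in_star hx)).unique ((hχ x hx).star.congr fun g _ => ?_)
    rw [star_mul, star_star, star_star]
  · refine ((hχ x hx).sub (KMean.const hΓ (φ x))).norm_le hΓ fun g hg => ?_
    have e : φ (x * g) * Star.star (φ g) - φ x = (φ (x * g) - φ x * φ g) * Star.star (φ g) +
        φ x * (φ g * Star.star (φ g) - 1) := by noncomm_ring
    rw [e]
    exact (kaz_add_le (kaz_mul_le (h.mul x g hx hg) (hn g hg))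
      (kaz_mul_le (h.norm hΓ hD hx) (h.sq hΓ hg))).trans (le_of_eq (by ring))
  · exact (key2.sub (KMean.const hΓ 1)).norm_le hΓ fun g hg => h.sq hΓ hg
  · refine ((((key x y hx hy).sub ((hχ x hx).mul_right (φ y))).sub
      ((key1 y hy).mul_left (φ x))).add ((key2.mul_left (φ x)).mul_right (φ y))).norm_le hΓ
      fun g hg => ?_
    have h1 := h.mul x g hx hg
    have h2 := h.mul (Star.star y) g (hΓ.in_star hy) hg
    rw [← norm_star, star_sub, star_mul, h.star y hy, star_star] at h2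
    refine le_of_eq_of_le (congrArg _ ?_) (kaz_mul_le h1 h2)
    noncomm_ring

omit [CompleteSpace K] in
theorem kaz_alg {p q p' q' r b : Op K} (h0 : 0 ≤ D) (hD : D ≤ 1 / 1000) (hp : ‖p‖ ≤ 2)
    (hq : ‖q‖ ≤ 2) (hp' : ‖p' - p‖ ≤ 6 * D) (hq' : ‖q' - q‖ ≤ 6 * D) (hb : ‖b‖ ≤ D)
    (hr : ‖r - p' * q - p * q' + p * (1 + (b + b)) * q‖ ≤ D * D) :
    ‖(1 - b) * r * (1 - b) - (1 - b) * p' * (1 - b) * ((1 - b) * q' * (1 - b))‖ ≤ D / 2 := by
  have hc : ‖1 - b‖ ≤ 2 := (kaz_sub_le kaz_norm_one hb).trans (by linarith)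
  have hp3 : ‖p'‖ ≤ 3 := by
    rw [← sub_add_cancel p' p]
    exact (kaz_add_le hp' hp).trans (by linarith)
  have hq3 : ‖q'‖ ≤ 3 := by
    rw [← sub_add_cancel q' q]
    exact (kaz_add_le hq' hq).trans (by linarith)
  have hbb := kaz_add_le hb hb
  have e : (1 - b) * r * (1 - b) - (1 - b) * p' * (1 - b) * ((1 - b) * q' * (1 - b)) =
      (1 - b) * ((r - p' * q - p * q' + p * (1 + (b + b)) * q) - (p' - p) * (q' - q) +
        ((p' - p) * (b + b) * q' + p * (b + b) * (q' - q)) - p' * (b * b) * q') * (1 - b) := by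
    noncomm_ring
  rw [e]
  refine (kaz_mul_le (kaz_mul_le hc (kaz_sub_le (kaz_add_le (kaz_sub_le hr (kaz_mul_le hp' hq'))
    (kaz_add_le (kaz_mul_le (kaz_mul_le hp' hbb) hq3) (kaz_mul_le (kaz_mul_le hp hbb) hq')))
    (kaz_mul_le (kaz_mul_le hp3 (kaz_mul_le hb hb)) hq3))) hc).trans ?_
  nlinarith

theorem KazSt.step (hΓ : LF Γ) (h : KazSt Γ N φ D) (hD : D ≤ 1 / 1000) :
    ∃ ψ, KazSt Γ N ψ (D / 2) ∧ ∀ g, KazIn Γ g → ‖φ g - ψ g‖ ≤ 15 * D := by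
  have h0 : 0 ≤ D := (norm_nonneg _).trans h.one
  obtain ⟨χ, h1, h2, h3, h4, h5⟩ := h.avg hΓ hD
  obtain ⟨b, hb⟩ : ∃ b : Op K, b = (2⁻¹ : ℂ) • (χ 1 - 1) := ⟨_, rfl⟩
  have hbN : b ∈ N := hb ▸ SMulMemClass.smul_mem _ (sub_mem (h1 1 hΓ.in_one) (one_mem _))
  have hbs : Star.star b = b := by
    have := h2 1 hΓ.in_one
    rw [star_one] at this
    rw [hb, star_smul, star_sub, ← this, star_one, star_inv₀, star_ofNat]
  have hbn : ‖b‖ ≤ D := by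
    rw [hb, norm_smul, norm_inv, RCLike.norm_ofNat]
    linarith
  have hb1 : χ 1 = 1 + (b + b) := by
    rw [hb, ← add_smul]
    norm_num
  refine ⟨fun x => (1 - b) * χ x * (1 - b), ⟨fun g hg => ?_, fun g hg => ?_, fun x y hx hy => ?_,
    ?_⟩, fun g hg => ?_⟩
  · exact mul_mem (mul_mem (sub_mem (one_mem _) hbN) (h1 g hg)) (sub_mem (one_mem _) hbN)
  · rw [star_mul, star_mul, star_sub, star_one, hbs, h2 g hg, mul_assoc]
  · exact kaz_alg h0 hD (h.norm hΓ hD hx) (h.norm hΓ hD hy) (h3 x hx) (h3 y hy) hbn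
      (hb1 ▸ h5 x y hx hy)
  · have e : (1 - b) * χ 1 * (1 - b) - 1 = b * b * (b + b) - (b * b + b * b + b * b) := by
      rw [hb1]
      noncomm_ring
    have hbb := kaz_mul_le hbn hbn
    rw [e]
    refine (kaz_sub_le (kaz_mul_le hbb (kaz_add_le hbn hbn))
      (kaz_add_le (kaz_add_le hbb hbb) hbb)).trans ?_
    nlinarith [mul_nonneg h0 h0]
  · have h6 : ‖χ g‖ ≤ 3 := by
      rw [← sub_add_cancel (χ g) (φ g)]
      exact (kaz_add_le (h3 g hg) (h.norm hΓ hD hg)).trans (by linarith)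
    have e : φ g - (1 - b) * χ g * (1 - b) =
        b * χ g + χ g * b - b * χ g * b - (χ g - φ g) := by noncomm_ring
    rw [e]
    refine (kaz_sub_le (kaz_sub_le (kaz_add_le (kaz_mul_le hbn h6) (kaz_mul_le h6 hbn))
      (kaz_mul_le (kaz_mul_le hbn h6) hbn)) (h3 g hg)).trans ?_
    nlinarith

theorem KazSt.lim (hΓ : LF Γ) (h : KazSt Γ N φ D) (hD : D ≤ 1 / 1000) :
    ∃ θ, KazSt Γ N θ 0 ∧ ∀ g, KazIn Γ g → ‖φ g - θ g‖ ≤ 30 * D := by
  have h0 : 0 ≤ D := (norm_nonneg _).trans h.one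
  have hs : ∀ (n : ℕ) (p : {ψ // KazSt Γ N ψ (D / 2 ^ n)}),
      ∃ q : {ψ // KazSt Γ N ψ (D / 2 ^ (n + 1))}, ∀ g, KazIn Γ g →
        ‖p.1 g - q.1 g‖ ≤ 30 * D / 2 / 2 ^ n := fun n p => by
    obtain ⟨ψ, h1, h2⟩ := p.2.step hΓ
      ((div_le_self h0 (one_le_pow₀ one_le_two)).trans hD)
    refine ⟨⟨ψ, ?_⟩, fun g hg => (h2 g hg).trans (le_of_eq (by ring))⟩
    rwa [pow_succ, ← div_div]
  choose F hF using hs
  let s : (n : ℕ) → {ψ // KazSt Γ N ψ (D / 2 ^ n)} := fun n =>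
    Nat.rec ⟨φ, by rwa [pow_zero, div_one]⟩ (fun n p => F n p) n
  have hd : ∀ g, KazIn Γ g → ∀ n, dist ((s n).1 g) ((s (n + 1)).1 g) ≤ 30 * D / 2 / 2 ^ n :=
    fun g hg n => by
      rw [dist_eq_norm]
      exact hF n (s n) g hg
  have hex : ∀ g, ∃ a, KazIn Γ g → Tendsto (fun n => (s n).1 g) atTop (𝓝 a) := fun g => by
    by_cases hg : KazIn Γ g
    · obtain ⟨a, ha⟩ := cauchySeq_tendsto_of_complete (cauchySeq_of_le_geometric_two (hd g hg))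
      exact ⟨a, fun _ => ha⟩
    · exact ⟨0, fun h' => absurd h' hg⟩
  choose θ hθ using hex
  have hz : Tendsto (fun n : ℕ => D / 2 ^ n) atTop (𝓝 0) :=
    tendsto_const_nhds.div_atTop (tendsto_pow_atTop_atTop_of_one_lt one_lt_two)
  refine ⟨θ, ⟨fun g hg => ?_, fun g hg => ?_, fun x y hx hy => ?_, ?_⟩, fun g hg => ?_⟩
  · exact (vn_isClosed N).mem_of_tendsto (hθ g hg)
      (Eventually.of_forall fun n => (s n).2.mem g hg)
  · exact tendsto_nhds_unique (hθ _ (hΓ.in_star hg))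
      ((hθ g hg).star.congr fun n => ((s n).2.star g hg).symm)
  · exact le_of_tendsto_of_tendsto' ((hθ _ (hΓ.in_mul hx hy)).sub ((hθ x hx).mul (hθ y hy))).norm
      hz fun n => (s n).2.mul x y hx hy
  · exact le_of_tendsto_of_tendsto' ((hθ 1 hΓ.in_one).sub_const 1).norm hz fun n => (s n).2.one
  · rw [← dist_eq_norm]
    exact dist_le_of_le_geometric_two_of_tendsto₀ (hd g hg) (hθ g hg)

theorem kaz {Γ : ℕ → Finset (Op K)} (hΓ : LF Γ) {N : VonNeumannAlgebra K} {δ : ℝ} (h0 : 0 ≤ δ)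
    (hδ : δ ≤ 1 / 10 ^ 6) (h : ∀ k, ∀ g ∈ Γ k, ∃ y ∈ N, ‖g - y‖ ≤ δ) :
    ∃ θ : Op K → Op K, LF.Rep Γ θ ∧ ∀ k, ∀ g ∈ Γ k, θ g ∈ N ∧ ‖θ g - g‖ ≤ 1000 * δ := by
  have hex : ∀ g, ∃ y, KazIn Γ g → y ∈ N ∧ ‖g - y‖ ≤ δ := fun g => by
    by_cases hg : KazIn Γ g
    · obtain ⟨k, hk⟩ := hg
      obtain ⟨y, hy⟩ := h k g hk
      exact ⟨y, fun _ => hy⟩
    · exact ⟨0, fun h' => absurd h' hg⟩
  choose y hy using hex
  obtain ⟨φ, hφ⟩ : ∃ φ : Op K → Op K, ∀ g, φ g = (2⁻¹ : ℂ) • (y g + star (y (star g))) :=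
    ⟨_, fun _ => rfl⟩
  have h1 : ∀ g, KazIn Γ g → ‖φ g - g‖ ≤ δ := fun g hg => by
    have e : φ g - g = (2⁻¹ : ℂ) • (-(g - y g) - star (star g - y (star g))) := by
      rw [hφ, star_sub, star_star]
      module
    have h2 := (hy g hg).2
    have h3 := (hy _ (hΓ.in_star hg)).2
    rw [← norm_neg] at h2
    rw [← norm_star] at h3
    have h4 := kaz_sub_le h2 h3
    rw [e, norm_smul, norm_inv, RCLike.norm_ofNat]
    linarith
  have hst : KazSt Γ N φ (4 * δ) := by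
    refine ⟨fun g hg => ?_, fun g _ => ?_, fun a b ha hb => ?_,
      (h1 1 hΓ.in_one).trans (by linarith)⟩
    · rw [hφ]
      exact SMulMemClass.smul_mem _ (add_mem (hy g hg).1 (star_mem (hy _ (hΓ.in_star hg)).1))
    · rw [hφ, hφ, star_smul, star_add, star_star, star_star, star_inv₀, star_ofNat, add_comm]
    · have e : φ (a * b) - φ a * φ b = (φ (a * b) - a * b) - ((φ a - a) * (φ b - b) +
          (φ a - a) * b + a * (φ b - b)) := by noncomm_ring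
      rw [e]
      refine (kaz_sub_le (h1 _ (hΓ.in_mul ha hb)) (kaz_add_le (kaz_add_le
        (kaz_mul_le (h1 a ha) (h1 b hb)) (kaz_mul_le (h1 a ha) (hΓ.in_norm hb)))
        (kaz_mul_le (hΓ.in_norm ha) (h1 b hb)))).trans ?_
      nlinarith
  obtain ⟨θ, hθ, h2⟩ := hst.lim hΓ (by linarith)
  refine ⟨θ, ⟨sub_eq_zero.1 (norm_le_zero_iff.1 hθ.one), fun k a ha b hb =>
    sub_eq_zero.1 (norm_le_zero_iff.1 (hθ.mul a b ⟨k, ha⟩ ⟨k, hb⟩)),
    fun k g hg => hθ.star g ⟨k, hg⟩⟩, fun k g hg => ⟨hθ.mem g ⟨k, hg⟩, ?_⟩⟩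
  have e : θ g - g = (φ g - g) - (φ g - θ g) := by abel
  rw [e]
  exact (kaz_sub_le (h1 g ⟨k, hg⟩) (h2 g ⟨k, hg⟩)).trans (by linarith)

end Vale.Agent.P096
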