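import Vale.Agent.P096.CDefs

/-! P096 C: invariant means on an increasing union of finite groups of unitaries. -/

namespace Vale.Agent.P096

open Vale.Agent.P104 Vale.Agent.P132 Filter Topology
open scoped InnerProductSpace

variable {K : Type*} [NormedAddCommGroup K] [InnerProductSpace ℂ K] [CompleteSpace K]
  {Γ : ℕ → Finset (Op K)} {f f' : Op K → Op K} {L L' : Op K}

/-- membership in the union -/
def KazIn (Γ : ℕ → Finset (Op K)) (g : Op K) : Prop := ∃ k, g ∈ Γ k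

/-- the average over a finite set -/
noncomputable def kazAvg (s : Finset (Op K)) (f : Op K → Op K) : Op K :=
  ((s.card : ℂ))⁻¹ • ∑ h ∈ s, f h

/-- `L` is the mean of `f` -/
def KMean (Γ : ℕ → Finset (Op K)) (f : Op K → Op K) (L : Op K) : Prop :=
  W (hyperfilter ℕ) (fun k => kazAvg (Γ k) f) L

theorem LF.ev (hΓ : LF Γ) {g : Op K} (hg : KazIn Γ g) : ∀ᶠ k in (hyperfilter ℕ : Filter ℕ), g ∈ Γ k := by
  obtain ⟨k, hk⟩ := hg
  have h1 : ∀ᶠ l in atTop, g ∈ Γ l := (eventually_ge_atTop k).mono fun l hl => hΓ.mono hl hk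
  exact Nat.hyperfilter_le_atTop h1

theorem LF.in_one (hΓ : LF Γ) : KazIn Γ 1 := ⟨0, hΓ.one 0⟩

theorem LF.in_mul (hΓ : LF Γ) {g h : Op K} (hg : KazIn Γ g) (hh : KazIn Γ h) : KazIn Γ (g * h) := by
  obtain ⟨k, hk⟩ := hg
  obtain ⟨l, hl⟩ := hh
  exact ⟨max k l, hΓ.mul _ _ (hΓ.mono (le_max_left k l) hk) _ (hΓ.mono (le_max_right k l) hl)⟩

theorem LF.in_star (hΓ : LF Γ) {g : Op K} (hg : KazIn Γ g) : KazIn Γ (Star.star g) :=
  hg.imp fun k hk => hΓ.star k g hk

theorem LF.in_unit (hΓ : LF Γ) {g : Op K} (hg : KazIn Γ g) : g ∈ unitary (Op K) :=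
  hg.elim fun k hk => hΓ.unit k g hk

theorem kaz_norm_le_one {g : Op K} (h : star g * g = 1) : ‖g‖ ≤ 1 := by
  have h1 : ‖g‖ * ‖g‖ ≤ 1 := by
    rw [← CStarRing.norm_star_mul_self, h]
    exact ContinuousLinearMap.norm_id_le
  nlinarith [norm_nonneg g]

theorem LF.in_norm (hΓ : LF Γ) {g : Op K} (hg : KazIn Γ g) : ‖g‖ ≤ 1 :=
  kaz_norm_le_one (Unitary.star_mul_self_of_mem (hΓ.in_unit hg))

theorem LF.Rep.in_mul (hΓ : LF Γ) {θ : Op K → Op K} (hθ : LF.Rep Γ θ) {g h : Op K}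
    (hg : KazIn Γ g) (hh : KazIn Γ h) : θ (g * h) = θ g * θ h := by
  obtain ⟨k, hk⟩ := hg
  obtain ⟨l, hl⟩ := hh
  exact hθ.mul (max k l) _ (hΓ.mono (le_max_left k l) hk) _ (hΓ.mono (le_max_right k l) hl)

theorem LF.Rep.in_star {θ : Op K → Op K} (hθ : LF.Rep Γ θ) {g : Op K}
    (hg : KazIn Γ g) : θ (Star.star g) = Star.star (θ g) := hg.elim fun k hk => hθ.star k g hk

theorem LF.Rep.in_norm (hΓ : LF Γ) {θ : Op K → Op K} (hθ : LF.Rep Γ θ) {g : Op K}
    (hg : KazIn Γ g) : ‖θ g‖ ≤ 1 := by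
  refine kaz_norm_le_one ?_
  rw [← hθ.in_star hg, ← hθ.in_mul hΓ (hΓ.in_star hg) hg,
    Unitary.star_mul_self_of_mem (hΓ.in_unit hg), hθ.one]

omit [CompleteSpace K] in
theorem kazAvg_norm_le {s : Finset (Op K)} (hs : s.Nonempty) {C : ℝ} (h : ∀ g ∈ s, ‖f g‖ ≤ C) :
    ‖kazAvg s f‖ ≤ C := by
  have hc : (0 : ℝ) < s.card := by exact_mod_cast hs.card_pos
  unfold kazAvg
  rw [norm_smul, norm_inv, Complex.norm_natCast, inv_mul_le_iff₀ hc]
  refine (norm_sum_le _ _).trans ?_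
  simpa using Finset.sum_le_card_nsmul s (fun g => ‖f g‖) C h

omit [CompleteSpace K] in
theorem kazAvg_const {s : Finset (Op K)} (hs : s.Nonempty) (a : Op K) : kazAvg s (fun _ => a) = a := by
  have hc : (s.card : ℂ) ≠ 0 := by exact_mod_cast hs.card_pos.ne'
  unfold kazAvg
  rw [Finset.sum_const, ← Nat.cast_smul_eq_nsmul ℂ, inv_smul_smul₀ hc]

theorem LF.ne (hΓ : LF Γ) (k : ℕ) : (Γ k).Nonempty := ⟨1, hΓ.one k⟩

theorem LF.exists_mean (hΓ : LF Γ) {C : ℝ} (h : ∀ g, KazIn Γ g → ‖f g‖ ≤ C) : ∃ L, KMean Γ f L :=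
  exists_W _ _ (C := C) (Eventually.of_forall fun k =>
    kazAvg_norm_le (hΓ.ne k) fun g hg => h g ⟨k, hg⟩)

theorem KMean.norm_le (hΓ : LF Γ) (hL : KMean Γ f L) {C : ℝ} (h : ∀ g, KazIn Γ g → ‖f g‖ ≤ C) :
    ‖L‖ ≤ C :=
  W.norm_le hL (Eventually.of_forall fun k => kazAvg_norm_le (hΓ.ne k) fun g hg => h g ⟨k, hg⟩)

theorem KMean.unique (h : KMean Γ f L) (h' : KMean Γ f L') : L = L' := W.unique h h'

theorem KMean.congr (h : KMean Γ f L) (e : ∀ g, KazIn Γ g → f g = f' g) : KMean Γ f' L :=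
  W.congr h (Eventually.of_forall fun k => by
    unfold kazAvg
    rw [Finset.sum_congr rfl fun g hg => e g ⟨k, hg⟩])

theorem KMean.const (hΓ : LF Γ) (a : Op K) : KMean Γ (fun _ => a) a :=
  (W.const a).congr (Eventually.of_forall fun k => (kazAvg_const (hΓ.ne k) a).symm)

theorem KMean.add (h : KMean Γ f L) (h' : KMean Γ f' L') : KMean Γ (fun g => f g + f' g) (L + L') :=
  (W.add h h').congr (Eventually.of_forall fun k => by
    unfold kazAvg
    rw [Finset.sum_add_distrib, smul_add])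

theorem KMean.sub (h : KMean Γ f L) (h' : KMean Γ f' L') : KMean Γ (fun g => f g - f' g) (L - L') :=
  (W.sub h h').congr (Eventually.of_forall fun k => by
    unfold kazAvg
    rw [Finset.sum_sub_distrib, smul_sub])

theorem KMean.mul_left (h : KMean Γ f L) (a : Op K) : KMean Γ (fun g => a * f g) (a * L) :=
  (W.mul_left h a).congr (Eventually.of_forall fun k => by
    unfold kazAvg
    rw [mul_smul_comm, Finset.mul_sum])

theorem KMean.mul_right (h : KMean Γ f L) (a : Op K) : KMean Γ (fun g => f g * a) (L * a) :=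
  (W.mul_right h a).congr (Eventually.of_forall fun k => by
    unfold kazAvg
    rw [smul_mul_assoc, Finset.sum_mul])

theorem KMean.star (h : KMean Γ f L) : KMean Γ (fun g => Star.star (f g)) (Star.star L) :=
  (W.star h).congr (Eventually.of_forall fun k => by
    unfold kazAvg
    rw [star_smul, star_sum, star_inv₀, star_natCast])

theorem KMean.mem {N : VonNeumannAlgebra K} (hL : KMean Γ f L) (h : ∀ g, KazIn Γ g → f g ∈ N) :
    L ∈ N :=
  W.mem hL (Eventually.of_forall fun k =>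
    SMulMemClass.smul_mem _ (sum_mem fun g hg => h g ⟨k, hg⟩))

theorem KMean.shift (hΓ : LF Γ) (h : KMean Γ f L) {y : Op K} (hy : KazIn Γ y) :
    KMean Γ (fun g => f (y * g)) L := by
  refine W.congr h ((hΓ.ev hy).mono fun k hk => ?_)
  have h1 := Unitary.star_mul_self_of_mem (hΓ.in_unit hy)
  have h2 := Unitary.mul_star_self_of_mem (hΓ.in_unit hy)
  unfold kazAvg
  congr 1
  exact (Finset.sum_bij' (fun g _ => y * g) (fun g _ => Star.star y * g)
    (fun g hg => hΓ.mul k _ hk _ hg) (fun g hg => hΓ.mul k _ (hΓ.star k _ hk) _ hg)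
    (fun g _ => by rw [← mul_assoc, h1, one_mul]) (fun g _ => by rw [← mul_assoc, h2, one_mul])
    (fun g _ => rfl)).symm

end Vale.Agent.P096
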