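import Vale.Agent.P096.Basic
import Vale.Agent.P132.Cut

/-!
# P096 C: Kraus families with ranges under a projection
`z` from `csupp`. `exists_maximal_pairwise` for `{v ∈ N | PIso v, v ≠ 0, e v = v}` with `v w* = 0` (orthogonal initial projections), `compare_sum_proj` gives the sum `Q` of the initial projections,
`Q ≤ z`. If `z - Q ≠ 0` then `e x (z - Q) ≠ 0` for some `x` (`csupp`, take adjoints) and `connect` contradicts maximality. Compare `P132.cover`, `cover_fin` (the factor case).
`kraus_fam` is the version with the whole family (it is also useful in part E), `kraus` the finite version.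
-/

namespace Vale.Agent.P096

open Vale.Agent.P104 Vale.Agent.P132 Filter Topology
open scoped InnerProductSpace

variable {H : Type*} [NormedAddCommGroup H] [InnerProductSpace ℂ H] [CompleteSpace H]

theorem ckr_orth {F : Set (Op H)} (hr : F.Pairwise fun v w => v * star w = 0) :
    Pairwise fun v w : F => star (v : Op H) * (v : Op H) * (star (w : Op H) * (w : Op H)) = 0 := by
  intro v w h
  have h1 : (v : Op H) * star (w : Op H) = 0 := hr v.2 w.2 fun e => h (Subtype.ext e)
  rw [mul_assoc, ← mul_assoc (v : Op H), h1, zero_mul, mul_zero]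

theorem kraus_fam (N : VonNeumannAlgebra H) {e : Op H} (he : IsStarProjection e) (heN : e ∈ N) :
    ∃ (z : Op H) (F : Set (Op H)), CProj N z ∧ z * e = e ∧
      (∀ v ∈ F, v ∈ N ∧ PIso v ∧ e * v = v ∧ v * z = v) ∧
      (F.Pairwise fun v w => v * star w = 0) ∧
      ∀ ζ, HasSum (fun v : F => (star (v : Op H) * (v : Op H)) ζ) (z ζ) := by
  obtain ⟨z, hz, hze, hz0⟩ := csupp N heN
  obtain ⟨F, hF, hr, hm⟩ := exists_maximal_pairwise
    {v : Op H | v ∈ N ∧ PIso v ∧ v ≠ 0 ∧ e * v = v} (fun v w => v * star w = 0) fun a b h => by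
      simpa using congrArg star h
  have hq : ∀ v : F, IsStarProjection (star (v : Op H) * (v : Op H)) := fun v =>
    (hF v.2).2.1.proj_left
  have ho := ckr_orth hr
  have hvz : ∀ v ∈ F, v * z = v := fun v hv => by
    rw [← hz.comm (hF hv).1, ← (hF hv).2.2.2, ← mul_assoc, hze]
  obtain ⟨V, hV, -, h1, -, h2, -, h3, h4, -⟩ := sum_piso N
    (fun v : F => star (v : Op H) * (v : Op H))
    (fun v => mul_mem (star_mem (hF v.2).1) (hF v.2).1) (fun v => PIso.of_proj (hq v))
    (fun v w h => by beta_reduce; rw [(hq v).isSelfAdjoint.star_eq, ho h])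
    (fun v w h => by beta_reduce; rw [(hq w).isSelfAdjoint.star_eq, ho h])
  simp only [fun v => (hq v).isSelfAdjoint.star_eq, fun v => (hq v).isIdempotentElem.eq] at h1 h4
  have hP : IsStarProjection V := by
    refine ⟨?_, ContinuousLinearMap.ext fun ζ => (h4 ζ).unique (h3 ζ)⟩
    have h7 := h2 (1 - V) fun v => by rw [sub_mul, one_mul, h1, sub_self]
    rw [sub_mul, one_mul, sub_eq_zero] at h7
    exact h7.symm
  have hzV : z * V = V := by
    have h7 := h2 (1 - z) fun v => by
      rw [sub_mul, one_mul, ← mul_assoc, compare_star_right hz.proj (hvz v v.2), sub_self]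
    rw [sub_mul, one_mul, sub_eq_zero] at h7
    exact h7.symm
  have h7 : ∀ w ∈ F, (z - V) * star w = 0 := fun w hw => by
    have e1 : star w * star (star w) * star w = star w := (hF hw).2.1.star
    have e2 : V * (star w * w) = star w * w := h1 ⟨w, hw⟩
    rw [star_star] at e1
    rw [sub_mul, compare_star_right hz.proj (hvz w hw), ← e1, ← mul_assoc V, e2, sub_self]
  have h8 : V = z := by
    by_contra hne
    have hf := compare_sub hz.proj hP hzV
    obtain ⟨x, hx, hx0⟩ : ∃ x ∈ N, (z - V) * x * e ≠ 0 := by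
      by_contra hc
      push Not at hc
      have e1 := hz0 _ hc
      rw [sub_mul, hz.proj.isIdempotentElem.eq, ← hz.comm hV, hzV, sub_eq_zero] at e1
      exact hne e1.symm
    obtain ⟨v, hvN, hv, hv0, hfv, hvp⟩ := connect N he hf heN (sub_mem hz.mem hV) hx hx0
    have h9 : star v ∈ F := hm _ ⟨star_mem hvN, hv.star, star_ne_zero.2 hv0,
      compare_star_right he hvp⟩ fun w hw => by
        rw [← compare_star_left hf hfv, mul_assoc, h7 w hw, mul_zero]
    have h10 := h7 _ h9
    rw [star_star, hfv] at h10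
    exact hv0 h10
  subst h8
  exact ⟨V, F, hz, hze, fun v hv => ⟨(hF hv).1, (hF hv).2.1, (hF hv).2.2.2, hvz v hv⟩, hr, h3⟩

theorem kraus (N : VonNeumannAlgebra H) {e : Op H} (he : IsStarProjection e) (heN : e ∈ N) (ξ : H) :
    ∃ (z : Op H), CProj N z ∧ z * e = e ∧ ∀ ε' : ℝ, 0 < ε' →
      ∃ (ι : Type) (_ : Fintype ι) (v : ι → Op H), (∀ k, v k ∈ N) ∧ (∀ k, e * v k = v k) ∧
        (∀ k, v k * z = v k) ∧ Col v 1 ∧ ‖(z - gram v) ξ‖ ≤ ε' := by
  obtain ⟨z, F, hz, hze, hF, hr, h1⟩ := kraus_fam N he heN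
  refine ⟨z, hz, hze, fun ε hε => ?_⟩
  obtain ⟨s, hs⟩ := ((h1 ξ).eventually (Metric.closedBall_mem_nhds (z ξ) hε)).exists
  have hq : ∀ v : F, IsStarProjection (star (v : Op H) * (v : Op H)) := fun v =>
    (hF v v.2).2.1.proj_left
  have e1 : gram (fun i => ((s.equivFin.symm i : F) : Op H)) =
      ∑ v ∈ s, star (v : Op H) * (v : Op H) := by
    rw [gram, ← Finset.sum_coe_sort s, ← s.equivFin.symm.sum_comp]
  have hP : IsStarProjection (gram fun i => ((s.equivFin.symm i : F) : Op H)) := by
    refine ⟨?_, gram_sa _⟩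
    have h2 := sums_star_mul_finsum (fun v : F => star (v : Op H) * (v : Op H))
      (fun v w h => by beta_reduce; rw [(hq v).isSelfAdjoint.star_eq, ckr_orth hr h]) s
    simp only [fun v => (hq v).isSelfAdjoint.star_eq, fun v => (hq v).isIdempotentElem.eq] at h2
    rw [← e1, (gram_sa _).star_eq] at h2
    exact h2
  refine ⟨Fin s.card, inferInstance, fun i => ((s.equivFin.symm i : F) : Op H),
    fun i => (hF _ (Subtype.property _)).1, fun i => (hF _ (Subtype.property _)).2.2.1,
    fun i => (hF _ (Subtype.property _)).2.2.2, fun ζ => ?_, ?_⟩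
  · refine (sq_le_sq₀ (l2_nonneg _) (by positivity)).1 ?_
    rw [← qf_gram, polar_qf_proj hP, one_mul]
    exact pow_le_pow_left₀ (norm_nonneg _) ((PIso.of_proj hP).norm_apply_le ζ) 2
  · rw [e1, _root_.sub_apply, _root_.sum_apply, ← dist_eq_norm, dist_comm]
    exact hs

end Vale.Agent.P096
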