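import Vale.Agent.P096.CDefs

/-!
# P096 C: product states and averaging over legs
* `Rel.diag`: `a = b` and `ρ a > 0`. `Rel.norm_sq`: `‖E a b η‖ = ‖E b b η‖`, `‖F b a η‖ = ‖F a a η‖ = ‖E a a η‖`, so `ρ a ‖E b b η‖² = ρ b ‖E a a η‖²`; sum over `b` (Pythagoras).
* `Rel.inner`: for `a ≠ b`: `<η, E a b ζ> = <E a a η, E a b ζ> = <F a a η, E a b F b b ζ> = 0`; for `a = b` the polarized form of `norm_sq`
  (`ρ a <E a b η, E a b ζ> = ρ b <F b a η, F b a ζ>`).
* `avg`: `E_l y = ∑ a, e l a 0 * y * e l 0 a` commutes with `e l`, is a contraction (`Col` bound), fixes the elements which commute with `e l`, preserves commutation with `e l'`.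
  Induction over finite sets of legs, then `exists_W` along an ultrafilter on `Finset Leg` which refines `atTop`.
-/

namespace Vale.Agent.P096

open Vale.Agent.P104 Vale.Agent.P132 Filter Topology
open scoped InnerProductSpace

variable {K : Type*} [NormedAddCommGroup K] [InnerProductSpace ℂ K] [CompleteSpace K]

section Rel

variable {I : Type*} [Fintype I] [DecidableEq I] {E F : I → I → Op K} {ρ : I → ℝ} {η ζ : K}

/-- one leg -/
structure Leg1 (E F : I → I → Op K) (ρ : I → ℝ) : Prop where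
  eU : MUnits E
  fU : MUnits F
  e1 : ∑ a, E a a = 1
  f1 : ∑ a, F a a = 1
  ef : ∀ a b c d, E a b * F c d = F c d * E a b
  pos : ∀ a, 0 < ρ a
  sum : ∑ a, ρ a = 1

theorem Legs.leg1 (Λ : Legs K) (l : Leg) : Leg1 (Λ.e l) (Λ.f l) l.2.ρ :=
  ⟨Λ.eU l, Λ.fU l, Λ.e1 l, Λ.f1 l, Λ.ef l l, l.2.pos, l.2.sum⟩

theorem Rel.map (h : Rel E F ρ η) {y : Op K} (hE : ∀ a b, E a b * y = y * E a b)
    (hF : ∀ a b, F a b * y = y * F a b) : Rel E F ρ (y η) := by
  intro a b
  rw [← mul_apply_eq_comp, hE, ← mul_apply_eq_comp (F b a), hF, mul_apply_eq_comp,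
    mul_apply_eq_comp, ← y.map_smul_of_tower, ← y.map_smul_of_tower, h a b]

/-- the vectors in the product state form a closed subspace -/
def relSub (E F : I → I → Op K) (ρ : I → ℝ) : Submodule ℂ K where
  carrier := {η | Rel E F ρ η}
  add_mem' := by
    intro η ζ h h' a b
    rw [map_add, map_add, smul_add, smul_add, h a b, h' a b]
  zero_mem' := by
    intro a b
    rw [map_zero, map_zero, smul_zero, smul_zero]
  smul_mem' := by
    intro c η h a b
    rw [map_smul, map_smul, smul_comm _ c, smul_comm _ c, h a b]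

theorem isClosed_rel : IsClosed {η | Rel E F ρ η} := by
  simp only [Rel, Set.ofPred_forall]
  exact isClosed_iInter fun a => isClosed_iInter fun b => isClosed_eq (by fun_prop) (by fun_prop)

theorem Rel.diag (L : Leg1 E F ρ) (h : Rel E F ρ η) (a : I) : E a a η = F a a η := by
  exact smul_right_injective K (Real.sqrt_pos.2 (L.pos a)).ne' (h a a)

theorem cleg_inner (hE : MUnits E) (a b : I) (η ζ : K) :
    ⟪E a b η, E a b ζ⟫_ℂ = ⟪η, E b b ζ⟫_ℂ := by
  rw [← inner_star_right, ← mul_apply_eq_comp, hE.star_eq, hE.mul, if_pos rfl]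

theorem cleg_diag (L : Leg1 E F ρ) (h : Rel E F ρ η) (h' : Rel E F ρ ζ) (a : I) :
    ⟪η, E a a ζ⟫_ℂ = (ρ a : ℂ) * ⟪η, ζ⟫_ℂ := by
  have h0 : ∀ (c : I) (v w : K), ⟪√(ρ c) • v, √(ρ c) • w⟫_ℂ = (ρ c : ℂ) * ⟪v, w⟫_ℂ := fun c v w => by
    rw [← Complex.coe_smul, ← Complex.coe_smul, inner_smul_left, inner_smul_right,
      Complex.conj_ofReal, ← mul_assoc, ← Complex.ofReal_mul, Real.mul_self_sqrt (L.pos c).le]
  have h1 : ∀ b, (ρ a : ℂ) * ⟪η, E b b ζ⟫_ℂ = (ρ b : ℂ) * ⟪η, E a a ζ⟫_ℂ := fun b => by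
    rw [← cleg_inner L.eU a b, ← h0, h a b, h' a b, h0, cleg_inner L.fU, h'.diag L]
  have h2 := Finset.sum_congr rfl fun b (_ : b ∈ Finset.univ) => h1 b
  rw [← Finset.mul_sum, ← Finset.sum_mul, ← inner_sum, ← sum_apply, L.e1, ← Complex.ofReal_sum,
    L.sum, Complex.ofReal_one, one_mul] at h2
  exact h2.symm

theorem Rel.norm_sq (L : Leg1 E F ρ) (h : Rel E F ρ η) (a b : I) :
    ‖E a b η‖ ^ 2 = ρ b * ‖η‖ ^ 2 ∧ ‖F a b η‖ ^ 2 = ρ b * ‖η‖ ^ 2 := by
  have h1 : ∀ v : K, ⟪v, v⟫_ℂ = ⟪η, E b b η⟫_ℂ → ‖v‖ ^ 2 = ρ b * ‖η‖ ^ 2 := fun v hv => by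
    rw [cleg_diag L h h, inner_self_eq_norm_sq_to_K, inner_self_eq_norm_sq_to_K] at hv
    refine Complex.ofReal_injective ?_
    push_cast
    exact hv
  exact ⟨h1 _ (cleg_inner L.eU a b η η), h1 _ (by rw [cleg_inner L.fU, h.diag L])⟩

theorem Rel.inner (L : Leg1 E F ρ) (h : Rel E F ρ η) (h' : Rel E F ρ ζ) (a b : I) :
    ⟪η, E a b ζ⟫_ℂ = if a = b then (ρ a : ℂ) * ⟪η, ζ⟫_ℂ else 0 := by
  split_ifs with hab
  · rw [← hab, cleg_diag L h h']
  · have e1 : E a b = star (E a a) * E a b * E b b := by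
      rw [L.eU.star_eq, L.eU.mul, if_pos rfl, L.eU.mul, if_pos rfl]
    rw [e1, mul_apply_eq_comp, mul_apply_eq_comp, inner_star_right, h.diag L, h'.diag L,
      ← mul_apply_eq_comp (E a b), L.ef, ← inner_star_right, ← mul_apply_eq_comp, ← mul_assoc,
      L.fU.star_eq, L.fU.mul, if_neg hab, zero_mul, zero_apply, inner_zero_right]

end Rel

namespace Legs

variable {Λ : Legs K} {A : VonNeumannAlgebra K} {S S' : Set Leg} {x q q' : Op K} {η : K}

theorem mem_sub : x ∈ Λ.sub A S ↔ x ∈ A ∧ Λ.Ce S x := by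
  rw [sub, mem_inter]
  refine and_congr_right fun _ => ⟨fun h l hl a b => (h _ ⟨l, hl, a, b, rfl⟩).1, ?_⟩
  rintro h _ ⟨l, hl, a, b, rfl⟩
  exact ⟨h l hl a b, by rw [(Λ.eU l).star_eq]; exact h l hl b a⟩

theorem Ce.mono (h : Λ.Ce S x) (hS : S ⊆ S') : Λ.Ce S' x := fun l hl => h l fun h' => hl (hS h')

theorem Cf.mono (h : Λ.Cf S x) (hS : S ⊆ S') : Λ.Cf S' x := fun l hl => h l fun h' => hl (hS h')

theorem Fresh.mono (h : Λ.Fresh S η) (hS : S ⊆ S') : Λ.Fresh S' η :=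
  fun l hl => h l fun h' => hl (hS h')

theorem Pr.mono (h : Λ.Pr A S q q') (hS : S ⊆ S') : Λ.Pr A S' q q' :=
  ⟨h.proj, h.proj', h.mem, h.mem', h.ce.mono hS, h.cf.mono hS⟩

theorem Fresh.left (hA : Λ.LA A) (h : Λ.Fresh S η) (hx : x ∈ A) (hc : Λ.Ce S x) :
    Λ.Fresh S (x η) := by
  exact fun l hl => (h l hl).map (hc l hl) fun a b => comm_of_mem (hA.fA l a b) hx

theorem Fresh.right (hA : Λ.LA A) (h : Λ.Fresh S η) (hx : x ∈ A.commutant) (hc : Λ.Cf S x) :
    Λ.Fresh S (x η) := by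
  exact fun l hl => (h l hl).map (fun a b => (comm_of_mem hx (hA.eA l a b)).symm) (hc l hl)

/-- the fresh vectors form a closed subspace -/
def freshSub (Λ : Legs K) (S : Set Leg) : Submodule ℂ K where
  carrier := {η | Λ.Fresh S η}
  add_mem' := fun h h' l hl => (relSub _ _ _).add_mem (h l hl) (h' l hl)
  zero_mem' := fun _ _ => (relSub _ _ _).zero_mem
  smul_mem' := fun c _ h l hl => (relSub _ _ _).smul_mem c (h l hl)

theorem isClosed_fresh : IsClosed {η | Λ.Fresh S η} := by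
  simp only [Fresh, Set.ofPred_forall]
  exact isClosed_iInter fun l => isClosed_iInter fun _ => isClosed_rel

theorem exists_fresh (hS : S.Countable) (t : LT) : ∃ r : ℝ, (r, t) ∉ S := by
  by_contra h
  push Not at h
  refine Cardinal.not_countable_real ((hS.preimage (f := fun r : ℝ => ((r, t) : Leg))
    (Prod.mk_left_injective t)).mono fun r _ => h r)

theorem cleg_av_comm {I : Type*} [Fintype I] [DecidableEq I] {E : I → I → Op K} (hE : MUnits E)
    (o : I) (y : Op K) (a b : I) :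
    E a b * ∑ c, E c o * y * E o c = (∑ c, E c o * y * E o c) * E a b := by
  simp only [Finset.mul_sum, Finset.sum_mul, ← mul_assoc, hE.mul, mul_assoc _ (E o _), mul_ite,
    ite_mul, mul_zero, zero_mul, Finset.sum_ite_eq, Finset.sum_ite_eq', Finset.mem_univ, if_true]

theorem cleg_av_norm {I : Type*} [Fintype I] [DecidableEq I] {E : I → I → Op K} (hE : MUnits E)
    (h1 : ∑ a, E a a = 1) (o : I) (y : Op K) : ‖∑ c, E c o * y * E o c‖ ≤ ‖y‖ := by
  have h2 : Col (fun c => E o c) 1 := fun ζ => by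
    rw [one_mul, l2_le_iff (norm_nonneg _), ← l2_sq, ← qf_gram, gram]
    simp only [hE.star_eq, hE.mul, if_true, h1, qf_one, le_refl]
  refine ContinuousLinearMap.opNorm_le_bound _ (norm_nonneg _) fun ζ => ?_
  have h3 := h2.sum_star zero_le_one fun c => y (E o c ζ)
  simp only [hE.star_eq, one_mul] at h3
  rw [sum_apply]
  refine h3.trans ((l2_op_le y _).trans (mul_le_mul_of_nonneg_left ?_ (norm_nonneg _)))
  simpa only [one_mul] using h2 ζ

theorem avg (hA : ∀ l a b, Λ.e l a b ∈ A) {T T₁ : Op K} (h1 : T₁ ∈ A) (hT : Λ.Ce S T) :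
    ∃ T₂ ∈ A, Λ.Ce S T₂ ∧ ‖T - T₂‖ ≤ ‖T - T₁‖ := by
  classical
  have h2 : ∀ G : Finset Leg, ∃ T₂ ∈ A, (∀ l ∈ G, l ∉ S → ∀ a b, Λ.e l a b * T₂ = T₂ * Λ.e l a b) ∧
      ‖T - T₂‖ ≤ ‖T - T₁‖ := fun G => by
    induction G using Finset.induction_on with
    | empty => exact ⟨T₁, h1, fun l hl => absurd hl (Finset.notMem_empty l), le_rfl⟩
    | insert l G _ ih =>
      obtain ⟨T₂, h2, h3, h4⟩ := ih
      by_cases hl : l ∈ S
      · refine ⟨T₂, h2, fun l' hl' hS => h3 l' ((Finset.mem_insert.1 hl').resolve_left ?_) hS, h4⟩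
        exact fun e => hS (e ▸ hl)
      refine ⟨∑ c, Λ.e l c 0 * T₂ * Λ.e l 0 c,
        sum_mem fun c _ => mul_mem (mul_mem (hA l c 0) h2) (hA l 0 c), fun l' hl' hS a b => ?_, ?_⟩
      · by_cases e : l' = l
        · subst e
          exact cleg_av_comm (Λ.eU l') 0 T₂ a b
        · have h5 := h3 l' ((Finset.mem_insert.1 hl').resolve_left e) hS a b
          rw [Finset.mul_sum, Finset.sum_mul]
          refine Finset.sum_congr rfl fun c _ => ?_
          rw [← mul_assoc, ← mul_assoc, Λ.ee l' l e, mul_assoc _ _ T₂, h5, mul_assoc, mul_assoc,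
            Λ.ee l' l e, ← mul_assoc, ← mul_assoc]
      · refine le_trans (le_of_eq (congrArg norm ?_))
          ((cleg_av_norm (Λ.eU l) (Λ.e1 l) 0 (T - T₂)).trans h4)
        simp only [mul_sub, sub_mul, Finset.sum_sub_distrib, hT l hl, mul_assoc T, (Λ.eU l).mul,
          if_true, ← Finset.mul_sum, Λ.e1, mul_one]
  choose G g1 g2 g3 using h2
  obtain ⟨T₂, hW⟩ := exists_W (Ultrafilter.of (atTop : Filter (Finset Leg))) G
    (C := ‖T‖ + ‖T - T₁‖) (Eventually.of_forall fun i => by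
      simpa using norm_sub_le_of_le (le_refl ‖T‖) (g3 i))
  refine ⟨T₂, hW.mem (Eventually.of_forall g1), fun l hl a b => ?_,
    ((W.const T).sub hW).norm_le (Eventually.of_forall g3)⟩
  refine ((hW.mul_left _).congr ?_).unique (hW.mul_right _)
  refine Eventually.filter_mono (Ultrafilter.of_le atTop) ?_
  filter_upwards [eventually_ge_atTop ({l} : Finset Leg)] with i hi
  exact g2 i l (hi (Finset.mem_singleton_self l)) hl a b

end Legs

end Vale.Agent.P096
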