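import Vale.Agent.P096.CIn

/-!
# P096 C: exhaustion
A configuration `G` is `(S', ι, q, q', lam)` as in the statement (make it a structure), with `Q = ∑ q`, `Q' = ∑ q'`, `mass G = ∑ ‖q q' ζ‖²`, `rest G = (r - Q) ((r' - Q') ζ)`,
`‖ζ‖² - mass G - ‖rest G‖² ≤ τ mass G` and `err G ≤ τ mass G`; always `mass G ≤ ‖ζ‖²` (orthogonality) and `‖ζ - ∑ q q' ζ‖² = ‖ζ‖² - mass G`. `G ≤ G₁` means `S' ⊆ S'₁`, `Q Q₁ = Q`, `Q' Q'₁ = Q'`, `mass G ≤ mass G₁`.
Adding one pair (index `Option ι`): if `q ≤ r - Q`, `q' ≤ r' - Q'`, `η = rest G`, then `q q' η = q q' ζ`, `(q x q - lam q) q' η = (q x q - lam q) q' ζ` and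
`‖η‖² = ‖q q' η‖² + ‖q η - q q' η‖² + ‖q' η - q q' η‖² + ‖rest G₁‖²`.
Greedy sequence from the empty configuration: `G n ≤ G (n+1)`, `mass (G (n+1)) ≥ sup {mass G₁ | G n ≤ G₁} - 1/(n+1)`. The projections `p n = r - Q n` decrease; `p = ` limit by `exists_W` along `hyperfilter ℕ`
(`p n * p = p`, so `p * p = p`; `‖(p n - p) η‖² = <η, (p n - p) η> → 0`); the same for `p'`. `η = p (p' ζ)` is the limit of `rest (G n)`, fresh for `S∞ = ⋃ S' n` (`isClosed_fresh`). If `η ≠ 0`, `inner_step` with `τ / 2`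
gives a pair of mass `m > 0` which can be added to `G n` for `n` large in the filter (strict inequality at `η`, continuity), so `mass (G n) + m ≤ mass (G (n+1)) + 1/(n+1)`; the masses converge: contradiction.
So `rest (G n) → 0`. The case `ζ = 0` is trivial (empty family). Take `τ = ε / 2`.
-/

namespace Vale.Agent.P096

open Vale.Agent.P104 Vale.Agent.P132 Filter Topology
open scoped InnerProductSpace

universe u

variable {K : Type u} [NormedAddCommGroup K] [InnerProductSpace ℂ K] [CompleteSpace K]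

theorem cmid_pyth {e : Op K} (he : IsStarProjection e) (v : K) :
    ‖v‖ ^ 2 = ‖e v‖ ^ 2 + ‖v - e v‖ ^ 2 := by
  have h1 : ‖e v‖ ^ 2 = qf e v := by
    rw [← qf_star_mul_self, he.isSelfAdjoint.star_eq, he.isIdempotentElem.eq]
  have h2 : ‖v - e v‖ ^ 2 = qf (1 - e) v := by
    have : v - e v = (1 - e) v := by simp
    rw [this, ← qf_star_mul_self, he.one_sub.isSelfAdjoint.star_eq, he.one_sub.isIdempotentElem.eq]
  rw [h1, h2, qf_sub, qf_one]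
  ring

theorem cmid_flip {p q : Op K} (hp : IsStarProjection p) (hq : IsStarProjection q)
    (h : p * q = q) : q * p = q := by
  have := compare_star_left hp h
  rwa [hq.isSelfAdjoint.star_eq] at this

theorem cmid_lim {p : ℕ → Op K} (hp : ∀ n, IsStarProjection (p n))
    (h : ∀ n m, n ≤ m → p n * p m = p m) : ∃ P, IsStarProjection P ∧ (∀ n, p n * P = P) ∧
      W (hyperfilter ℕ) p P ∧ ∀ η, Tendsto (fun n => p n η) (hyperfilter ℕ) (𝓝 (P η)) := by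
  obtain ⟨P, hP⟩ := exists_W (hyperfilter ℕ) p (C := 1) (.of_forall fun n => (hp n).norm_le)
  have h1 : ∀ n, p n * P = P := fun n => (hP.mul_left (p n)).unique (hP.congr
    (((eventually_ge_atTop n).filter_mono Nat.hyperfilter_le_atTop).mono fun m hm => (h n m hm).symm))
  have h2 : IsStarProjection P := by
    refine ⟨?_, ?_⟩
    · exact (hP.mul_right P).unique ((W.const P).congr (.of_forall fun n => (h1 n).symm))
    · exact hP.star.unique (hP.congr (.of_forall fun n => (hp n).isSelfAdjoint.star_eq.symm))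
  refine ⟨P, h2, h1, hP, fun η => ?_⟩
  have h3 : ∀ n, ‖p n η - P η‖ = √(⟪η, p n η⟫_ℂ - ⟪η, P η⟫_ℂ).re := fun n => by
    have h4 := compare_sub (hp n) h2 (h1 n)
    have h5 := qf_star_mul_self (p n - P) η
    rw [h4.isSelfAdjoint.star_eq, h4.isIdempotentElem.eq, qf_sub] at h5
    rw [Complex.sub_re]
    change _ = √(qf _ _ - qf _ _)
    rw [h5, Real.sqrt_sq (norm_nonneg _)]
    rfl
  rw [tendsto_iff_norm_sub_tendsto_zero]
  simp only [h3]
  have h6 := ((Complex.continuous_re.tendsto _).comp ((hP η η).sub_const ⟪η, P η⟫_ℂ)).sqrt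
  simpa using h6

/-- a finite configuration together with the remaining projections -/
structure Cfg (Λ : Legs K) (A : VonNeumannAlgebra K) (S : Set Leg) (ζ : K) (r r' x : Op K)
    (τ : ℝ) where
  T : Set Leg
  sub : S ⊆ T
  cnt : T.Countable
  ι : Type
  [fin : Fintype ι]
  q : ι → Op K
  q' : ι → Op K
  lam : ι → ℝ
  p : Op K
  p' : Op K
  m : ℝ
  pr : ∀ a, Λ.Pr A T (q a) (q' a)
  pp : Λ.Pr A T p p'
  rq : ∀ a, r * q a = q a
  rq' : ∀ a, r' * q' a = q' a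
  rp : r * p = p
  rp' : r' * p' = p'
  pq : ∀ a, p * q a = 0
  pq' : ∀ a, p' * q' a = 0
  orth : ∀ a b, a ≠ b → q a * q b = 0
  orth' : ∀ a b, a ≠ b → q' a * q' b = 0
  bd : ∀ a, |lam a| ≤ ‖x‖
  eqm : ‖ζ - ∑ a, q a (q' a ζ)‖ ^ 2 + m = ‖ζ‖ ^ 2
  loss : ‖ζ‖ ^ 2 - m - ‖p (p' ζ)‖ ^ 2 ≤ τ * m
  err : ∑ a, ‖(q a * x * q a - lam a • q a) (q' a ζ)‖ ^ 2 ≤ τ * m

attribute [instance] Cfg.fin

section

variable {Λ : Legs K} {A : VonNeumannAlgebra K} {S : Set Leg} {ζ : K} {r r' x : Op K} {τ : ℝ}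

/-- extension of configurations -/
def Cfg.Le (G G₁ : Cfg Λ A S ζ r r' x τ) : Prop :=
  G.T ⊆ G₁.T ∧ G.p * G₁.p = G₁.p ∧ G.p' * G₁.p' = G₁.p' ∧ G.m ≤ G₁.m

theorem Cfg.m_le (G : Cfg Λ A S ζ r r' x τ) : G.m ≤ ‖ζ‖ ^ 2 := by
  nlinarith [G.eqm, sq_nonneg ‖ζ - ∑ a, G.q a (G.q' a ζ)‖]

theorem Cfg.le_refl (G : Cfg Λ A S ζ r r' x τ) : G.Le G :=
  ⟨le_rfl, G.pp.proj.isIdempotentElem.eq, G.pp.proj'.isIdempotentElem.eq, le_rfl⟩

theorem Cfg.Le.trans {G G₁ G₂ : Cfg Λ A S ζ r r' x τ} (h : G.Le G₁) (h' : G₁.Le G₂) : G.Le G₂ :=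
  ⟨h.1.trans h'.1, by rw [← h'.2.1, ← mul_assoc, h.2.1], by rw [← h'.2.2.1, ← mul_assoc, h.2.2.1],
    h.2.2.2.trans h'.2.2.2⟩

theorem cmid_orth {ι : Type} {p q : Op K} {u : ι → Op K} (hp : IsStarProjection p)
    (hq : IsStarProjection q) (hu : ∀ a, IsStarProjection (u a)) (h : p * q = q)
    (h0 : ∀ a, p * u a = 0) (ho : ∀ a b, a ≠ b → u a * u b = 0) :
    (∀ a, q * u a = 0) ∧ (∀ a : Option ι, (p - q) * a.elim q u = 0) ∧
      ∀ a b : Option ι, a ≠ b → a.elim q u * b.elim q u = 0 := by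
  have h1 : ∀ a, q * u a = 0 := fun a => by rw [← cmid_flip hp hq h, mul_assoc, h0, mul_zero]
  have h2 : ∀ a, u a * q = 0 := fun a => by
    have := congrArg star (h1 a)
    rwa [star_mul, hq.isSelfAdjoint.star_eq, (hu a).isSelfAdjoint.star_eq, star_zero] at this
  refine ⟨h1, ?_, ?_⟩
  · rintro (_ | a)
    · simp [sub_mul, h, hq.isIdempotentElem.eq]
    · simp [sub_mul, h0, h1]
  · rintro (_ | a) (_ | b) hab
    · exact absurd rfl hab
    · exact h1 b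
    · exact h2 a
    · exact ho a b fun e => hab (congrArg some e)

theorem Cfg.add (G : Cfg Λ A S ζ r r' x τ) {T : Set Leg} (hT : G.T ⊆ T) (hc : T.Countable)
    {q q' : Op K} {lam : ℝ} (hq : Λ.Pr A T q q') (h1 : G.p * q = q) (h2 : G.p' * q' = q')
    (hl : |lam| ≤ ‖x‖)
    (h3 : ‖q (G.p (G.p' ζ)) - q (q' ζ)‖ ^ 2 + ‖q' (G.p (G.p' ζ)) - q (q' ζ)‖ ^ 2 ≤
      τ * ‖q (q' ζ)‖ ^ 2)
    (h4 : ‖(q * x * q - lam • q) (q' ζ)‖ ^ 2 ≤ τ * ‖q (q' ζ)‖ ^ 2) :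
    ∃ G₁ : Cfg Λ A S ζ r r' x τ, G.Le G₁ ∧ G₁.m = G.m + ‖q (q' ζ)‖ ^ 2 := by
  obtain ⟨a1, a2, a3⟩ := cmid_orth G.pp.proj hq.proj (fun a => (G.pr a).proj) h1 G.pq G.orth
  obtain ⟨-, b2, b3⟩ := cmid_orth G.pp.proj' hq.proj' (fun a => (G.pr a).proj') h2 G.pq' G.orth'
  have f1 := cmid_flip G.pp.proj hq.proj h1
  have f2 := cmid_flip G.pp.proj' hq.proj' h2
  have c1 : ∀ v, q' (q v) = q (q' v) := fun v => by
    rw [← mul_apply_eq_comp, comm_of_mem hq.mem' hq.mem, mul_apply_eq_comp]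
  have c2 : ∀ v, q' (G.p v) = G.p (q' v) := fun v => by
    rw [← mul_apply_eq_comp, comm_of_mem hq.mem' G.pp.mem, mul_apply_eq_comp]
  have c3 : ∀ v, q (G.p v) = q v := fun v => by rw [← mul_apply_eq_comp, f1]
  have c4 : ∀ v, q' (G.p' v) = q' v := fun v => by rw [← mul_apply_eq_comp, f2]
  have pT := G.pp.mono hT
  refine ⟨{ T := T, sub := G.sub.trans hT, cnt := hc, ι := Option G.ι, q := fun a => a.elim q G.q
            q' := fun a => a.elim q' G.q', lam := fun a => a.elim lam G.lam, p := G.p - q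
            p' := G.p' - q', m := G.m + ‖q (q' ζ)‖ ^ 2, pr := ?_, pp := ?_, rq := ?_, rq' := ?_
            rp := ?_, rp' := ?_, pq := a2, pq' := b2, orth := a3, orth' := b3, bd := ?_, eqm := ?_
            loss := ?_, err := ?_ }, ⟨hT, ?_, ?_, ?_⟩, rfl⟩
  · rintro (_ | a)
    exacts [hq, (G.pr a).mono hT]
  · refine ⟨compare_sub G.pp.proj hq.proj h1, compare_sub G.pp.proj' hq.proj' h2,
      sub_mem G.pp.mem hq.mem, sub_mem G.pp.mem' hq.mem', fun l hl a b => ?_, fun l hl a b => ?_⟩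
    · rw [mul_sub, sub_mul, pT.ce l hl, hq.ce l hl]
    · rw [mul_sub, sub_mul, pT.cf l hl, hq.cf l hl]
  · rintro (_ | a)
    · change r * q = q
      rw [← h1, ← mul_assoc, G.rp]
    · exact G.rq a
  · rintro (_ | a)
    · change r' * q' = q'
      rw [← h2, ← mul_assoc, G.rp']
    · exact G.rq' a
  · conv_lhs => rw [mul_sub, G.rp, ← h1, ← mul_assoc, G.rp, h1]
  · conv_lhs => rw [mul_sub, G.rp', ← h2, ← mul_assoc, G.rp', h2]
  · rintro (_ | a)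
    exacts [hl, G.bd a]
  · rw [Fintype.sum_option]
    simp only [Option.elim]
    have he : IsStarProjection (q * q') := hq.proj.mul hq.proj' (comm_of_mem hq.mem' hq.mem).symm
    have e1 := cmid_pyth he (ζ - ∑ a, G.q a (G.q' a ζ))
    have e2 : (q * q') (ζ - ∑ a, G.q a (G.q' a ζ)) = q (q' ζ) := by
      rw [map_sub, map_sum, Finset.sum_eq_zero, sub_zero, mul_apply_eq_comp]
      intro a _
      rw [mul_apply_eq_comp, ← c1, ← mul_apply_eq_comp q, a1]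
      simp
    rw [e2, sub_sub, add_comm (∑ a, _)] at e1
    linarith [G.eqm]
  · have e1 := cmid_pyth hq.proj (G.p (G.p' ζ))
    have e2 := cmid_pyth hq.proj' (q (G.p (G.p' ζ)))
    have e3 := cmid_pyth hq.proj' (G.p (G.p' ζ) - q (G.p (G.p' ζ)))
    have e4 : q' (q (G.p (G.p' ζ))) = q (q' ζ) := by rw [c3, c1, c4]
    have e5 : (G.p - q) ((G.p' - q') ζ) = G.p (G.p' ζ) - q (G.p (G.p' ζ)) -
        q' (G.p (G.p' ζ) - q (G.p (G.p' ζ))) := by
      rw [map_sub q', e4, c2, c3, c4]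
      simp only [ContinuousLinearMap.sub_apply, map_sub]
    rw [← e5, map_sub q', e4] at e3
    rw [e4] at e2
    linarith [G.loss]
  · rw [Fintype.sum_option]
    simp only [Option.elim]
    linarith [G.err]
  · change G.p * (G.p - q) = G.p - q
    rw [mul_sub, h1, G.pp.proj.isIdempotentElem.eq]
  · change G.p' * (G.p' - q') = G.p' - q'
    rw [mul_sub, h2, G.pp.proj'.isIdempotentElem.eq]
  · change G.m ≤ G.m + _
    linarith [sq_nonneg ‖q (q' ζ)‖]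

theorem Cfg.next (G : Cfg Λ A S ζ r r' x τ) (n : ℕ) : ∃ G₁, G.Le G₁ ∧
    ∀ G₂, G.Le G₂ → G₂.m ≤ G₁.m + 1 / ((n : ℝ) + 1) := by
  have hb : BddAbove ((fun G₂ : Cfg Λ A S ζ r r' x τ => G₂.m) '' {G₂ | G.Le G₂}) :=
    ⟨‖ζ‖ ^ 2, by rintro _ ⟨G₂, -, rfl⟩; exact G₂.m_le⟩
  obtain ⟨_, ⟨G₁, h1, rfl⟩, h2⟩ := Real.add_neg_lt_sSup
    (s := (fun G₂ : Cfg Λ A S ζ r r' x τ => G₂.m) '' {G₂ | G.Le G₂}) ⟨_, G, G.le_refl, rfl⟩
    (ε := -(1 / ((n : ℝ) + 1))) (neg_lt_zero.2 (by positivity))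
  refine ⟨G₁, h1, fun G₂ h => ?_⟩
  have := le_csSup hb ⟨G₂, h, rfl⟩
  simp only at h2 this
  linarith

theorem cmid_small (hA : Λ.LA A) (hζ : Λ.Fresh S ζ) (hx : x ∈ Λ.sub A S) (hs : IsSelfAdjoint x)
    (hτ : 0 < τ) (G₀ : Cfg Λ A S ζ r r' x τ) {c : ℝ} (hc : 0 < c) :
    ∃ G : Cfg Λ A S ζ r r' x τ, ‖G.p (G.p' ζ)‖ ≤ c := by
  by_contra hcon
  push Not at hcon
  choose nx n1 n2 using fun (n : ℕ) (G : Cfg Λ A S ζ r r' x τ) => G.next n
  let g : ℕ → Cfg Λ A S ζ r r' x τ := fun n => Nat.rec G₀ nx n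
  have g1 : ∀ n m, n ≤ m → (g n).Le (g m) := fun n m h => by
    induction h with
    | refl => exact (g n).le_refl
    | step _ ih => exact ih.trans (n1 _ _)
  obtain ⟨P, P1, P2, P3, P4⟩ := cmid_lim (fun n => (g n).pp.proj) fun n m h => (g1 n m h).2.1
  obtain ⟨P', P1', P2', P3', P4'⟩ := cmid_lim (fun n => (g n).pp.proj')
    fun n m h => (g1 n m h).2.2.1
  have PA : P ∈ A := P3.mem (.of_forall fun n => (g n).pp.mem)
  have PA' : P' ∈ A.commutant := P3'.mem (.of_forall fun n => (g n).pp.mem')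
  have hT : ∀ n, (g n).T ⊆ ⋃ k, (g k).T := fun n => Set.subset_iUnion (fun k => (g k).T) n
  have hS : S ⊆ ⋃ k, (g k).T := G₀.sub.trans (hT 0)
  have Pe : Λ.Ce (⋃ k, (g k).T) P := fun l hl a b => (P3.mul_left _).unique
    ((P3.mul_right _).congr (.of_forall fun n => ((g n).pp.ce.mono (hT n) l hl a b).symm))
  have Pf : Λ.Cf (⋃ k, (g k).T) P' := fun l hl a b => (P3'.mul_left _).unique
    ((P3'.mul_right _).congr (.of_forall fun n => ((g n).pp.cf.mono (hT n) l hl a b).symm))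
  have lim : Tendsto (fun n => (g n).p ((g n).p' ζ)) (hyperfilter ℕ) (𝓝 (P (P' ζ))) := by
    have h1 : Tendsto (fun n => (g n).p ((g n).p' ζ - P' ζ)) (hyperfilter ℕ) (𝓝 0) :=
      squeeze_zero_norm (fun n => (PIso.of_proj (g n).pp.proj).norm_apply_le _)
        (tendsto_iff_norm_sub_tendsto_zero.1 (P4' ζ))
    simpa using h1.add (P4 (P' ζ))
  have h0 : P (P' ζ) ≠ 0 := by
    have := ge_of_tendsto' lim.norm fun n => (hcon (g n)).le
    exact norm_pos_iff.1 (hc.trans_le this)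
  have cP : P' (P (P' ζ)) = P (P' ζ) := by
    rw [← mul_apply_eq_comp, comm_of_mem PA' PA, mul_apply_eq_comp, ← mul_apply_eq_comp P' P',
      P1'.isIdempotentElem.eq]
  have cnt : (⋃ k, (g k).T).Countable := Set.countable_iUnion fun k => (g k).cnt
  obtain ⟨l, q, q', lam, q1, q2, q3, q4, q5, q6, q7⟩ := Legs.inner_step hA cnt h0
    (((hζ.mono hS).right hA PA' Pf).left hA PA Pe) P1 PA P1' PA'
    (by rw [← mul_apply_eq_comp, P1.isIdempotentElem.eq]) cP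
    (Legs.mem_sub.2 ⟨(Legs.mem_sub.1 hx).1, (Legs.mem_sub.1 hx).2.mono hS⟩) hs (half_pos hτ)
  have e1 : q' (P (P' ζ)) = P (q' ζ) := by
    rw [← mul_apply_eq_comp, comm_of_mem q1.mem' PA, mul_apply_eq_comp, ← mul_apply_eq_comp q' P',
      cmid_flip P1' q1.proj' q3]
  have e2 : q (P (q' ζ)) = q (q' ζ) := by rw [← mul_apply_eq_comp, cmid_flip P1 q1.proj q2]
  have e3 : (q * x * q - lam • q) (P (q' ζ)) = (q * x * q - lam • q) (q' ζ) := by
    simp only [ContinuousLinearMap.sub_apply, ContinuousLinearMap.smul_apply, mul_apply_eq_comp, e2]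
  rw [e1, e2] at q5
  rw [e1, e2, e3] at q7
  have q8 : ‖q (P (P' ζ)) - q (q' ζ)‖ ^ 2 + ‖q' (P (P' ζ)) - q (q' ζ)‖ ^ 2 ≤
      τ / 2 * ‖q (q' ζ)‖ ^ 2 := by simpa only [e1, e2] using q6
  have hm : 0 < ‖q (q' ζ)‖ ^ 2 := pow_pos (norm_pos_iff.2 q5) 2
  have hlt : τ / 2 * ‖q (q' ζ)‖ ^ 2 < τ * ‖q (q' ζ)‖ ^ 2 := by nlinarith
  have cont : Continuous fun v : K => ‖q v - q (q' ζ)‖ ^ 2 + ‖q' v - q (q' ζ)‖ ^ 2 := by fun_prop
  have ev1 := ((cont.tendsto _).comp lim).eventually (gt_mem_nhds (q8.trans_lt hlt))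
  have mono : Monotone fun n => (g n).m := fun n m h => (g1 n m h).2.2.2
  have l1 := tendsto_atTop_ciSup mono ⟨‖ζ‖ ^ 2, by rintro _ ⟨n, rfl⟩; exact (g n).m_le⟩
  have l2 := (((tendsto_add_atTop_iff_nat 1).2 l1).sub l1).add
    (tendsto_one_div_add_atTop_nhds_zero_nat (𝕜 := ℝ))
  rw [sub_self, add_zero] at l2
  have ev2 := (l2.eventually (gt_mem_nhds hm)).filter_mono Nat.hyperfilter_le_atTop
  obtain ⟨n, a1, a2⟩ := (ev1.and ev2).exists
  obtain ⟨G₂, b1, b2⟩ := (g n).add ((hT n).trans (Set.subset_insert l _)) (cnt.insert l) q1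
    (by rw [← q2, ← mul_assoc, P2]) (by rw [← q3, ← mul_assoc, P2']) q4 a1.le (q7.trans hlt.le)
  have b3 : G₂.m ≤ (g (n + 1)).m + 1 / ((n : ℝ) + 1) := n2 n (g n) G₂ b1
  have a3 : (g (n + 1)).m - (g n).m + 1 / ((n : ℝ) + 1) < ‖q (q' ζ)‖ ^ 2 := a2
  linarith

end

theorem Legs.mid {Λ : Legs K} {A : VonNeumannAlgebra K} (hA : Λ.LA A) {S : Set Leg}
    (hS : S.Countable) {ζ : K} (hζ : Λ.Fresh S ζ) {r r' x : Op K} (hr : Λ.Pr A S r r')
    (h1 : r ζ = ζ) (h2 : r' ζ = ζ) (hx : x ∈ Λ.sub A S) (hs : IsSelfAdjoint x) {ε : ℝ}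
    (hε : 0 < ε) :
    ∃ (S' : Set Leg) (ι : Type) (_ : Fintype ι) (q q' : ι → Op K) (lam : ι → ℝ), S ⊆ S' ∧
      S'.Countable ∧ (∀ a, Λ.Pr A S' (q a) (q' a)) ∧ (∀ a, r * q a = q a) ∧
      (∀ a, r' * q' a = q' a) ∧ (∀ a b, a ≠ b → q a * q b = 0) ∧
      (∀ a b, a ≠ b → q' a * q' b = 0) ∧ (∀ a, |lam a| ≤ ‖x‖) ∧
      ‖ζ - ∑ a, q a (q' a ζ)‖ ^ 2 ≤ ε * ‖ζ‖ ^ 2 ∧
      ∑ a, ‖(q a * x * q a - lam a • q a) (q' a ζ)‖ ^ 2 ≤ ε * ‖ζ‖ ^ 2 := by
  let G₀ : Cfg Λ A S ζ r r' x (ε / 2) :=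
    { T := S, sub := le_rfl, cnt := hS, ι := Empty, q := Empty.elim, q' := Empty.elim
      lam := Empty.elim, p := r, p' := r', m := 0, pr := (·.elim), pp := hr, rq := (·.elim)
      rq' := (·.elim), rp := hr.proj.isIdempotentElem.eq, rp' := hr.proj'.isIdempotentElem.eq
      pq := (·.elim), pq' := (·.elim), orth := (·.elim), orth' := (·.elim), bd := (·.elim)
      eqm := by simp, loss := by simp [h1, h2], err := by simp }
  have key : ∃ G : Cfg Λ A S ζ r r' x (ε / 2), ‖G.p (G.p' ζ)‖ ^ 2 ≤ ε / 2 * ‖ζ‖ ^ 2 := by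
    rcases eq_or_ne ζ 0 with rfl | h0
    · exact ⟨G₀, by simp⟩
    have hp : 0 < ε / 2 * ‖ζ‖ ^ 2 := mul_pos (half_pos hε) (pow_pos (norm_pos_iff.2 h0) 2)
    obtain ⟨G, hG⟩ := cmid_small hA hζ hx hs (half_pos hε) G₀ (Real.sqrt_pos.2 hp)
    exact ⟨G, (pow_le_pow_left₀ (norm_nonneg _) hG 2).trans_eq (Real.sq_sqrt hp.le)⟩
  obtain ⟨G, hG⟩ := key
  have h3 := mul_le_mul_of_nonneg_left G.m_le (half_pos hε).le
  have h4 := mul_nonneg hε.le (sq_nonneg ‖ζ‖)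
  exact ⟨G.T, G.ι, G.fin, G.q, G.q', G.lam, G.sub, G.cnt, G.pr, G.rq, G.rq', G.orth, G.orth', G.bd,
    by linarith [G.eqm, G.loss], by linarith [G.err]⟩

end Vale.Agent.P096
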