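import Vale.Agent.P096.CDefs

/-! P096 C: finite orthogonal families of projections. -/

namespace Vale.Agent.P096

open Vale.Agent.P104 Vale.Agent.P132 Filter Topology
open scoped InnerProductSpace

variable {K : Type*} [NormedAddCommGroup K] [InnerProductSpace ℂ K] [CompleteSpace K]
  {ι κ : Type*} [Fintype ι] [Fintype κ] {d : ι → Op K}

theorem cps1_col (hp : ∀ a, IsStarProjection (d a)) (ho : ∀ a b, a ≠ b → d a * d b = 0) :
    Col d 1 := by
  intro ζ
  have e : ∀ a, star (d a) * d a = d a := fun a => by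
    rw [(hp a).isSelfAdjoint.star_eq, (hp a).isIdempotentElem.eq]
  have hP : IsStarProjection (∑ a, d a) := by
    refine ⟨?_, ?_⟩
    · change (∑ a, d a) * ∑ a, d a = ∑ a, d a
      rw [Finset.sum_mul_sum]
      refine Finset.sum_congr rfl fun a _ => ?_
      rw [Finset.sum_eq_single a (fun b _ hb => ho a b hb.symm) (by simp),
        (hp a).isIdempotentElem.eq]
    · change star (∑ a, d a) = ∑ a, d a
      rw [star_sum]
      exact Finset.sum_congr rfl fun a _ => (hp a).isSelfAdjoint.star_eq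
  rw [l2_le_iff (by positivity), one_mul]
  calc ∑ a, ‖d a ζ‖ ^ 2 = qf (∑ a, d a) ζ := by
        rw [qf_sum]
        exact Finset.sum_congr rfl fun a _ => by rw [← qf_star_mul_self, e]
    _ ≤ ‖∑ a, d a‖ * ‖ζ‖ ^ 2 := (le_abs_self _).trans (abs_qf_le _ _)
    _ ≤ ‖ζ‖ ^ 2 := mul_le_of_le_one_left (by positivity) hP.norm_le

omit [Fintype ι] [CompleteSpace K] in
open Classical in
theorem cps1_par (ho : ∀ a b, a ≠ b → d a * d b = 0) {q : Op K} {a₀ : ι} (h : d a₀ * q = q)
    (a : ι) : d a * q = if a = a₀ then q else 0 := by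
  split_ifs with ha
  · rw [ha, h]
  · rw [← h, ← mul_assoc, ho a a₀ ha, zero_mul]

omit [CompleteSpace K] in
theorem cps1_l2 {q : κ → Op K} (hq : Col q 1) (v : ι → K) (f : κ → ι) :
    l2 (fun b => q b (v (f b))) ≤ l2 v := by
  refine le_trans ?_ ((hq.l2_prod zero_le_one v).trans_eq (one_mul _))
  rw [l2_le_iff (l2_nonneg _), l2_sq, Fintype.sum_prod_type]
  exact Finset.sum_le_sum fun b _ => Finset.single_le_sum (f := fun a => ‖q b (v a)‖ ^ 2)
    (fun _ _ => sq_nonneg _) (Finset.mem_univ _)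

end Vale.Agent.P096
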