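import Vale.Agent.P096.CStep
import Vale.Agent.P096.CPs1Col
import Vale.Agent.P096.CDen

/-!
# P096 C: the abelian system in the amplified algebra
`A = X.alg (vnComm D).commutant`, `X.la`. Stage `0`: `S = ∅`, `ζ = V ζ₀`, `ι = Unit`, `d = d' = 1`. For a countable `S` fix `en S : ℕ → Op K` with `range = insert 0 (X.gen D S)` (`gen_countable`).
Build the stages by recursion on the whole history (for instance `T : ℕ → Stage` as the limit of functions `h n : ℕ → Stage`, or recursion on lists, or the state `(T, y : ℕ → ℕ → Op K)` where row `k` of `y` is `en (T k).S` for `k ≤ n` and `0` after):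
at step `n` treat `x n = en (T (min n (unpair n).1)).S (unpair (unpair n).2).1` with `step` and `ε / 2 ^ (n + 2)`; every `x ∈ gen (T k).S` is treated at infinitely many steps. `Ref` is reflexive and transitive.
`Ξ = lim ζ n` (`cauchySeq_of_le_geometric`), fresh for `S = ⋃ S n` (`isClosed_fresh`). For `k ≤ l`: `d k a * d l b` is `d l b` or `0` according to the parent of `b`, the same parent for `d'`, so
`d k a (ζ l) = d' k a (ζ l)` and `∑ a, d k a (ζ l) = ζ l`; limit in `l`. `∑ a, ‖(d x d - c d) η‖² ≤ 4 ‖x‖² ‖η‖²` for `η = Ξ - ζ n`. `PS.gen = X.gen D S` (`World.den`, `gen_iUnion`, `gen_mem`);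
`A.commutant ≤ (sub A S).commutant`. At the end normalize: `PS.smul`.
-/

namespace Vale.Agent.P096

open Vale.Agent.P104 Vale.Agent.P132 Filter Topology
open scoped InnerProductSpace

universe u

variable {H : Type u} [NormedAddCommGroup H] [InnerProductSpace ℂ H] [CompleteSpace H]
  {K : Type u} [NormedAddCommGroup K] [InnerProductSpace ℂ K] [CompleteSpace K]

theorem PS.smul {M : VonNeumannAlgebra K} {ξ : K} (P : PS M ξ) {c : ℂ} (hc : c ≠ 0) :
    Nonempty (PS M (c • ξ)) := by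
  refine ⟨{ P with
    vec := fun k a => by rw [map_smul, map_smul, P.vec]
    sum := fun k => by simp only [map_smul, ← Finset.smul_sum, P.sum]
    dense := fun x hx => ?_
    ms := fun x hx ε hε => ?_ }⟩
  · rw [map_smul, ← Submodule.topologicalClosure_coe]
    refine Submodule.smul_mem _ c (closure_mono (Submodule.span_le.2 ?_) (P.dense x hx))
    rintro _ ⟨y, hy, rfl⟩
    rw [← inv_smul_smul₀ hc (y ξ), ← map_smul]
    exact Submodule.smul_mem _ _ (Submodule.subset_span ⟨y, hy, rfl⟩)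
  · have h0 : 0 < ‖c‖ ^ 2 := by positivity
    obtain ⟨k, t, h⟩ := P.ms x hx (ε / ‖c‖ ^ 2) (by positivity)
    refine ⟨k, t, ?_⟩
    simp only [map_smul, norm_smul, mul_pow, ← Finset.mul_sum]
    exact (le_div_iff₀' h0).1 h

/-- recursion with access to an earlier term -/
noncomputable def coutSeq {α : Type*} (a : α) (F : ℕ → α → α → α) : ℕ → α
  | 0 => a
  | n + 1 => F n (coutSeq a F n) (coutSeq a F (Nat.unpair n).1)
decreasing_by all_goals (have := Nat.unpair_left_le n; omega)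

section

variable {Λ : Legs K} {A : VonNeumannAlgebra K} {T T' T'' : Λ.Stage A}

theorem cout_refl (T : Λ.Stage A) : T.Ref T :=
  ⟨le_rfl, fun b => ⟨b, (T.pr b).proj.isIdempotentElem.eq, (T.pr b).proj'.isIdempotentElem.eq⟩⟩

theorem cout_trans (h : T.Ref T') (h' : T'.Ref T'') : T.Ref T'' := by
  refine ⟨h.1.trans h'.1, fun c => ?_⟩
  obtain ⟨b, h1, h2⟩ := h'.2 c
  obtain ⟨a, h3, h4⟩ := h.2 b
  exact ⟨a, by rw [← h1, ← mul_assoc, h3], by rw [← h2, ← mul_assoc, h4]⟩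

theorem cout_vec (h : T.Ref T') :
    (∀ a, T.d a T'.ζ = T.d' a T'.ζ) ∧ ∑ a, T.d a T'.ζ = T'.ζ := by
  classical
  choose f h1 h2 using h.2
  have e : ∀ a, T.d a T'.ζ = ∑ b, (T.d a * T'.d b) T'.ζ := fun a => by
    conv_lhs => rw [← T'.sum, map_sum]
    rfl
  refine ⟨fun a => ?_, ?_⟩
  · conv_rhs => rw [← T'.sum, map_sum]
    rw [e]
    refine Finset.sum_congr rfl fun b _ => ?_
    rw [T'.vec, ← mul_apply_eq_comp (T.d' a), cps1_par T.orth (h1 b), cps1_par T.orth' (h2 b)]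
    split_ifs
    · exact T'.vec b
    · rfl
  · conv_rhs => rw [← T'.sum]
    simp only [e, ← _root_.sum_apply, cps1_par T.orth (h1 _)]
    rw [Finset.sum_comm]
    simp

theorem cout_seq (hA : Λ.LA A) (T₀ : Λ.Stage A) (en : Λ.Stage A → ℕ → Op K) {C : ℝ} (hC : 0 < C) :
    ∃ T : ℕ → Λ.Stage A, T 0 = T₀ ∧ (∀ k l, k ≤ l → (T k).Ref (T l)) ∧
      (∀ n, dist (T n).ζ (T (n + 1)).ζ ≤ C / 2 / 2 ^ n) ∧
      ∀ k j m, en (T k) j ∈ Λ.sub A (T k).S → IsSelfAdjoint (en (T k) j) → ∃ n, m ≤ n ∧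
        ∃ c : (T n).ι → ℝ, l2 (fun a => ((T n).d a * en (T k) j * (T n).d a - c a • (T n).d a)
          (T n).ζ) ≤ C / 2 ^ n ∧ ∀ a, |c a| ≤ ‖en (T k) j‖ := by
  have key : ∀ (n : ℕ) (T : Λ.Stage A) (x : Op K), ∃ T' : Λ.Stage A, T.Ref T' ∧
      dist T.ζ T'.ζ ≤ C / 2 / 2 ^ n ∧ (x ∈ Λ.sub A T.S → IsSelfAdjoint x → ∃ c : T'.ι → ℝ,
        l2 (fun a => (T'.d a * x * T'.d a - c a • T'.d a) T'.ζ) ≤ C / 2 ^ (n + 1) ∧
          ∀ a, |c a| ≤ ‖x‖) := fun n T x => by
    by_cases h : x ∈ Λ.sub A T.S ∧ IsSelfAdjoint x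
    · obtain ⟨T', h1, h2, c, h3, h4⟩ := Legs.step hA T h.1 h.2 (ε := C / 2 ^ (n + 1))
        (by positivity)
      refine ⟨T', h1, ?_, fun _ _ => ⟨c, (l2_le_iff (by positivity)).2 h3, h4⟩⟩
      rwa [dist_comm, dist_eq_norm, div_div, ← pow_succ']
    · exact ⟨T, cout_refl T, by rw [dist_self]; positivity, fun h1 h2 => (h ⟨h1, h2⟩).elim⟩
  choose F h1 h2 h3 using key
  let T := coutSeq T₀ fun n T T' => F n T (en T' (Nat.unpair (Nat.unpair n).2).1)
  have e : ∀ n, T (n + 1) = F n (T n) (en (T (Nat.unpair n).1) (Nat.unpair (Nat.unpair n).2).1) :=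
    fun n => coutSeq.eq_2 _ _ n
  have hr : ∀ k l, k ≤ l → (T k).Ref (T l) := fun k l h => by
    induction l, h using Nat.le_induction with
    | base => exact cout_refl _
    | succ l _ ih => exact cout_trans ih (e l ▸ h1 _ _ _)
  refine ⟨T, coutSeq.eq_1 _ _, hr, fun n => e n ▸ h2 _ _ _, fun k j m hx hs =>
    ⟨Nat.pair k (Nat.pair j m) + 1, ((Nat.right_le_pair j m).trans (Nat.right_le_pair k _)).trans
      (Nat.le_succ _), ?_⟩⟩
  rw [e, Nat.unpair_pair, Nat.unpair_pair]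
  exact h3 _ _ _ (Legs.mem_sub.2 ⟨(Legs.mem_sub.1 hx).1,
    (Legs.mem_sub.1 hx).2.mono (hr _ _ (Nat.left_le_pair _ _)).1⟩) hs

end

theorem World.cout_lim (X : World H K) {D : Set (Op H)} (hD : D.Countable) (ζ : H) {C : ℝ}
    (hC : 0 < C) : ∃ (S : Set Leg) (Ξ : K), ‖Ξ - X.V ζ‖ ≤ C ∧
      Nonempty (PS (X.sub (X.alg (vnComm D).commutant) S) Ξ) := by
  choose en hen using fun T : X.Stage (X.alg (vnComm D).commutant) =>
    Set.countable_iff_exists_subset_range.1 (X.gen_countable hD T.cnt)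
  obtain ⟨T, h0, hr, hd, hm⟩ := cout_seq (X.la (vnComm D).commutant)
    { S := ∅
      cnt := Set.countable_empty
      ζ := X.V ζ
      fresh := X.rel ζ
      ι := Unit
      d := fun _ => 1
      d' := fun _ => 1
      pr := fun _ => ⟨.one _, .one _, one_mem _, one_mem _, fun _ _ _ _ => by simp,
        fun _ _ _ _ => by simp⟩
      orth := fun a b h => (h rfl).elim
      orth' := fun a b h => (h rfl).elim
      vec := fun _ => rfl
      sum := by simp } en hC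
  obtain ⟨Ξ, hΞ⟩ := cauchySeq_tendsto_of_complete (cauchySeq_of_le_geometric_two hd)
  have hl := dist_le_of_le_geometric_two_of_tendsto hd hΞ
  have hS := fun n => Set.subset_iUnion (fun n => (T n).S) n
  refine ⟨⋃ n, (T n).S, Ξ, ?_, ⟨{
    ι := fun k => (T k).ι
    d := fun k => (T k).d
    d' := fun k => (T k).d'
    proj := fun k a => ((T k).pr a).proj
    proj' := fun k a => ((T k).pr a).proj'
    mem := fun k a => Legs.mem_sub.2 ⟨((T k).pr a).mem, ((T k).pr a).ce.mono (hS k)⟩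
    mem' := fun k a => VonNeumannAlgebra.mem_commutant_iff.2 fun y hy =>
      (comm_of_mem ((T k).pr a).mem' (Legs.mem_sub.1 hy).1).symm
    orth := fun k => (T k).orth
    orth' := fun k => (T k).orth'
    ref := fun k l h => (hr k l h).2
    vec := fun k a => (isClosed_eq ((T k).d a).continuous ((T k).d' a).continuous).mem_of_tendsto
      hΞ ((eventually_ge_atTop k).mono fun l h => (cout_vec (hr k l h)).1 a)
    sum := fun k => (isClosed_eq (continuous_finsetSum _ fun a _ => ((T k).d a).continuous)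
      continuous_id).mem_of_tendsto hΞ
        ((eventually_ge_atTop k).mono fun l h => (cout_vec (hr k l h)).2)
    gen := X.gen D (⋃ n, (T n).S)
    dense := fun x hx => X.den (Legs.isClosed_fresh.mem_of_tendsto hΞ
      (.of_forall fun n => (T n).fresh.mono (hS n))) hx
    ms := fun x hx ε hε => ?_
    genM := fun x hx => (X.gen_mem hx).1 }⟩⟩
  · have := hl 0
    rwa [h0, pow_zero, div_one, dist_comm, dist_eq_norm] at this
  obtain ⟨k, hk⟩ := X.gen_iUnion (fun k l h => (hr k l h).1) hx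
  obtain ⟨j, rfl⟩ := hen _ hk
  obtain ⟨m, hm'⟩ := pow_unbounded_of_one_lt ((1 + 2 * ‖en (T k) j‖) * C / √ε) (one_lt_two (α := ℝ))
  obtain ⟨n, hn, c, h1, h2⟩ := hm k j m (X.gen_mem hk).1 (X.gen_mem hk).2
  refine ⟨n, c, ?_⟩
  rw [← Real.sq_sqrt hε.le, ← l2_le_iff (Real.sqrt_nonneg _)]
  refine (l2_le_add_sub _ fun a =>
    ((T n).d a * en (T k) j * (T n).d a - c a • (T n).d a) (T n).ζ).trans ?_
  have h3 := cps1_col (fun a => ((T n).pr a).proj) (T n).orth (Ξ - (T n).ζ)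
  have h4 := hl n
  rw [dist_comm, dist_eq_norm] at h4
  have h5 : l2 (fun a => ((T n).d a * en (T k) j * (T n).d a - c a • (T n).d a) Ξ -
      ((T n).d a * en (T k) j * (T n).d a - c a • (T n).d a) (T n).ζ) ≤
      2 * ‖en (T k) j‖ * l2 fun a => (T n).d a (Ξ - (T n).ζ) := l2_le_mul (by positivity) fun a => by
    rw [← map_sub, _root_.sub_apply, two_mul, add_mul]
    refine norm_sub_le_of_le (((PIso.of_proj ((T n).pr a).proj).norm_apply_le _).trans
      (ContinuousLinearMap.le_opNorm _ _)) ?_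
    rw [_root_.smul_apply, norm_smul]
    exact mul_le_mul_of_nonneg_right (h2 a) (norm_nonneg _)
  have h6 : (1 + 2 * ‖en (T k) j‖) * (C / 2 ^ n) ≤ √ε := by
    rw [← mul_div_assoc, div_le_comm₀ (by positivity) (Real.sqrt_pos.2 hε)]
    exact hm'.le.trans (pow_le_pow_right₀ one_le_two hn)
  have h7 := mul_le_mul_of_nonneg_left (h3.trans ((one_mul _).le.trans h4))
    (by positivity : 0 ≤ 2 * ‖en (T k) j‖)
  linarith

theorem World.out (X : World H K) {D : Set (Op H)} (hD : D.Countable) {ζ : H} (hζ : ‖ζ‖ = 1)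
    {ε : ℝ} (hε : 0 < ε) : ∃ (S : Set Leg) (Ξ : K), ‖Ξ‖ = 1 ∧ ‖Ξ - X.V ζ‖ ≤ ε ∧
      Nonempty (PS (X.sub (X.alg (vnComm D).commutant) S) Ξ) := by
  obtain ⟨C, hC, hC1, hC2⟩ : ∃ C : ℝ, 0 < C ∧ C ≤ 1 / 2 ∧ C ≤ ε / 2 :=
    ⟨min (1 / 2) (ε / 2), by positivity, min_le_left _ _, min_le_right _ _⟩
  obtain ⟨S, Ξ, h1, ⟨P⟩⟩ := X.cout_lim hD ζ hC
  have h2 : |‖Ξ‖ - 1| ≤ C := by
    rw [← hζ, ← X.norm_V]
    exact (abs_norm_sub_norm_le _ _).trans h1
  have h3 : 0 < ‖Ξ‖ := by linarith [(abs_le.1 h2).1]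
  have h4 : ((‖Ξ‖ : ℝ) : ℂ) ≠ 0 := by exact_mod_cast h3.ne'
  refine ⟨S, ((‖Ξ‖ : ℝ) : ℂ)⁻¹ • Ξ, norm_smul_inv_norm (norm_pos_iff.1 h3), ?_, P.smul (inv_ne_zero h4)⟩
  have e : ((‖Ξ‖ : ℝ) : ℂ)⁻¹ • Ξ - Ξ = ((1 - ‖Ξ‖ : ℝ) : ℂ) • ((‖Ξ‖ : ℝ) : ℂ)⁻¹ • Ξ := by
    rw [Complex.ofReal_sub, sub_smul, smul_inv_smul₀ h4, Complex.ofReal_one, one_smul]
  have h5 : ‖((‖Ξ‖ : ℝ) : ℂ)⁻¹ • Ξ‖ = 1 := norm_smul_inv_norm (norm_pos_iff.1 h3)
  refine (norm_sub_le_norm_sub_add_norm_sub _ Ξ _).trans ?_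
  rw [e, norm_smul, h5, Complex.norm_real, Real.norm_eq_abs, abs_sub_comm]
  linarith

end Vale.Agent.P096
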