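import Vale.Agent.P096.CKaz
import Vale.Agent.KK.NearB

/-!
# P096 C: moving two commuting towers of projections into `N` and `N'`
`Γ k = image (fun B => 1 - 2 • ∑ a ∈ B, d k a) univ` is `LF` (product: `symmDiff`; monotone by `Tow.ref`), the same for `Γ'`. `kaz` gives `θ` into `N` and `θ'` into `N'`.
`T₁` is the mean of `θ g * g*`, `T` is the mean of `θ' g' * T₁ * g'*`; `‖T - 1‖ ≤ 2000 δ`, `θ x T = T x`, `θ' x' T = T x'` (reindex `g ↦ x g`; `θ` and `θ'` commute, `Γ` and `Γ'` commute).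
`KK.polar_near` gives `W` with `W x = θ x W`; `d k a = (1 - x) / 2` for `B = {a}`.
-/

namespace Vale.Agent.P096

open Vale.Agent.P104 Vale.Agent.P132 Filter Topology
open scoped InnerProductSpace

variable {K : Type*} [NormedAddCommGroup K] [InnerProductSpace ℂ K] [CompleteSpace K]

section

variable {ι : ℕ → Type} [∀ k, Fintype (ι k)] {d : (k : ℕ) → ι k → Op K}

/-- the symmetry attached to a set of indices -/
noncomputable def pertSym (d : (k : ℕ) → ι k → Op K) (k : ℕ) (B : Finset (ι k)) : Op K :=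
  1 - (∑ a ∈ B, d k a + ∑ a ∈ B, d k a)

open Classical in
/-- the group of the symmetries -/
noncomputable def pertGrp (d : (k : ℕ) → ι k → Op K) (k : ℕ) : Finset (Op K) :=
  Finset.univ.image (pertSym d k)

omit [CompleteSpace K] in
theorem mem_pertGrp {k : ℕ} {g : Op K} : g ∈ pertGrp d k ↔ ∃ B, pertSym d k B = g := by
  simp only [pertGrp, Finset.mem_image, Finset.mem_univ, true_and]

open Classical in
theorem pert_mul_sum (hd : Tow d) (k : ℕ) (B C : Finset (ι k)) :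
    (∑ a ∈ B, d k a) * ∑ a ∈ C, d k a = ∑ a ∈ B ∩ C, d k a := by
  rw [Finset.sum_mul, ← Finset.filter_mem_eq_inter, Finset.sum_filter]
  refine Finset.sum_congr rfl fun a _ => ?_
  rw [Finset.mul_sum]
  split_ifs with ha
  · rw [Finset.sum_eq_single_of_mem a ha fun b _ hb => hd.orth k a b hb.symm]
    exact (hd.proj k a).isIdempotentElem
  · exact Finset.sum_eq_zero fun b hb => hd.orth k a b fun e => ha (e ▸ hb)

open Classical in
theorem pertSym_mul (hd : Tow d) (k : ℕ) (B C : Finset (ι k)) :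
    pertSym d k B * pertSym d k C = pertSym d k ((B \ C) ∪ (C \ B)) := by
  have h1 := pert_mul_sum hd k B C
  have h2 : ∑ a ∈ B ∩ C, d k a + ∑ a ∈ B \ C, d k a = ∑ a ∈ B, d k a :=
    Finset.sum_inter_add_sum_sdiff B C _
  have h3 : ∑ a ∈ C ∩ B, d k a + ∑ a ∈ C \ B, d k a = ∑ a ∈ C, d k a :=
    Finset.sum_inter_add_sum_sdiff C B _
  rw [Finset.inter_comm] at h3
  unfold pertSym
  rw [Finset.sum_union disjoint_sdiff_sdiff, ← sub_eq_iff_eq_add'.2 h2.symm,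
    ← sub_eq_iff_eq_add'.2 h3.symm, ← h1]
  noncomm_ring

theorem pertSym_star (hd : Tow d) (k : ℕ) (B : Finset (ι k)) :
    star (pertSym d k B) = pertSym d k B := by
  have h1 : star (∑ a ∈ B, d k a) = ∑ a ∈ B, d k a := by
    rw [star_sum]
    exact Finset.sum_congr rfl fun a _ => (hd.proj k a).isSelfAdjoint
  unfold pertSym
  rw [star_sub, star_one, star_add, h1]

omit [CompleteSpace K] [∀ k, Fintype (ι k)] in
theorem pertSym_empty (k : ℕ) : pertSym d k ∅ = 1 := by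
  simp [pertSym]

theorem pertGrp_lf (hd : Tow d) : LF (pertGrp d) := by
  classical
  refine ⟨fun k l hkl g hg => ?_, fun k => mem_pertGrp.2 ⟨∅, pertSym_empty k⟩,
    fun k g hg h hh => ?_, fun k g hg => ?_, fun k g hg => ?_⟩
  · obtain ⟨B, rfl⟩ := mem_pertGrp.1 hg
    obtain ⟨B', hB⟩ := hd.ref k l hkl B
    exact mem_pertGrp.2 ⟨B', by unfold pertSym; rw [hB]⟩
  · obtain ⟨B, rfl⟩ := mem_pertGrp.1 hg
    obtain ⟨C, rfl⟩ := mem_pertGrp.1 hh
    exact mem_pertGrp.2 ⟨_, (pertSym_mul hd k B C).symm⟩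
  · obtain ⟨B, rfl⟩ := mem_pertGrp.1 hg
    exact mem_pertGrp.2 ⟨B, (pertSym_star hd k B).symm⟩
  · obtain ⟨B, rfl⟩ := mem_pertGrp.1 hg
    have h1 : pertSym d k B * pertSym d k B = 1 := by
      rw [pertSym_mul hd, Finset.sdiff_self, Finset.union_self, pertSym_empty]
    rw [Unitary.mem_iff, pertSym_star hd]
    exact ⟨h1, h1⟩

theorem pertGrp_mem {M : VonNeumannAlgebra K} (hM : ∀ k a, d k a ∈ M) {g : Op K}
    (hg : KazIn (pertGrp d) g) : g ∈ M := by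
  obtain ⟨k, hk⟩ := hg
  obtain ⟨B, rfl⟩ := mem_pertGrp.1 hk
  have h1 : ∑ a ∈ B, d k a ∈ M := sum_mem fun a _ => hM k a
  exact sub_mem (one_mem _) (add_mem h1 h1)

theorem pert_kaz (hd : Tow d) {M N : VonNeumannAlgebra K} (hM : ∀ k a, d k a ∈ M) {δ : ℝ}
    (h : NI M N δ) (h0 : 0 ≤ δ) (hδ : δ ≤ 1 / 10 ^ 6) :
    ∃ θ : Op K → Op K, LF.Rep (pertGrp d) θ ∧
      ∀ g, KazIn (pertGrp d) g → θ g ∈ N ∧ ‖θ g - g‖ ≤ 1000 * δ := by
  obtain ⟨θ, h1, h2⟩ := kaz (pertGrp_lf hd) (N := N) h0 hδ fun k g hg => by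
    obtain ⟨y, hy, h3⟩ := h g (pertGrp_mem hM ⟨k, hg⟩)
    exact ⟨y, hy, h3.trans (mul_le_of_le_one_right h0 ((pertGrp_lf hd).in_norm ⟨k, hg⟩))⟩
  exact ⟨θ, h1, fun g hg => hg.elim fun k hk => h2 k g hk⟩

theorem pert_fin {N : VonNeumannAlgebra K} {θ : Op K → Op K} {W : Op K}
    (hW : W ∈ unitary (Op K)) (h : ∀ g, KazIn (pertGrp d) g → θ g ∈ N ∧ W * g = θ g * W) (k : ℕ)
    (a : ι k) : W * d k a * star W ∈ N := by
  obtain ⟨h1, h2⟩ := h (pertSym d k {a}) ⟨k, mem_pertGrp.2 ⟨_, rfl⟩⟩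
  have h3 := Unitary.mul_star_self_of_mem hW
  have h4 : W * pertSym d k {a} * star W = θ (pertSym d k {a}) := by
    rw [h2, mul_assoc, h3, mul_one]
  have e : W * d k a * star W = (2⁻¹ : ℂ) • (1 - θ (pertSym d k {a})) := by
    rw [← h4, pertSym, Finset.sum_singleton, mul_sub, sub_mul, mul_one, h3, mul_add, add_mul]
    module
  rw [e]
  exact SMulMemClass.smul_mem _ (sub_mem (one_mem _) h1)

end

theorem pert_tw {Γ : ℕ → Finset (Op K)} (hΓ : LF Γ) {θ : Op K → Op K} (hθ : LF.Rep Γ θ) {c e : ℝ}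
    (h : ∀ g, KazIn Γ g → ‖θ g - g‖ ≤ e) {T₀ : Op K} (hT : ‖T₀ - 1‖ ≤ c) :
    ∃ T : Op K, ‖T - 1‖ ≤ c + e ∧ (∀ x, KazIn Γ x → T * x = θ x * T) ∧
      ∀ u v : Op K, T₀ * u = v * T₀ → (∀ g, KazIn Γ g → g * u = u * g ∧ θ g * v = v * θ g) →
        T * u = v * T := by
  have hs : ∀ g, KazIn Γ g → ‖star g‖ ≤ 1 := fun g hg => hΓ.in_norm (hΓ.in_star hg)
  obtain ⟨T, hm⟩ := hΓ.exists_mean (f := fun g => θ g * T₀ * star g) (C := 1 * ‖T₀‖ * 1)
    fun g hg => kaz_mul_le (kaz_mul_le (hθ.in_norm hΓ hg) le_rfl) (hs g hg)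
  refine ⟨T, ?_, fun x hx => ?_, fun u v huv hc => ?_⟩
  · refine (hm.sub (KMean.const hΓ 1)).norm_le hΓ fun g hg => ?_
    have e1 : θ g * T₀ * star g - 1 = θ g * (T₀ - 1) * star g + (θ g - g) * star g := by
      rw [sub_mul, Unitary.mul_star_self_of_mem (hΓ.in_unit hg)]
      noncomm_ring
    rw [e1]
    exact (kaz_add_le (kaz_mul_le (kaz_mul_le (hθ.in_norm hΓ hg) hT) (hs g hg))
      (kaz_mul_le (h g hg) (hs g hg))).trans (le_of_eq (by ring))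
  · refine ((hm.shift hΓ hx).mul_right x).unique ((hm.mul_left (θ x)).congr fun g hg => ?_)
    rw [hθ.in_mul hΓ hx hg, star_mul, mul_assoc _ _ x, mul_assoc _ _ x,
      Unitary.star_mul_self_of_mem (hΓ.in_unit hx), mul_one]
    simp only [mul_assoc]
  · refine (hm.mul_right u).unique ((hm.mul_left v).congr fun g hg => ?_)
    rw [mul_assoc _ _ u, (hc _ (hΓ.in_star hg)).1, ← mul_assoc _ u, mul_assoc _ _ u, huv,
      ← mul_assoc (θ g) v, (hc g hg).2]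
    simp only [mul_assoc]

theorem pert {ι ι' : ℕ → Type} [∀ k, Fintype (ι k)] [∀ k, Fintype (ι' k)]
    {d : (k : ℕ) → ι k → Op K} {d' : (k : ℕ) → ι' k → Op K} (hd : Tow d) (hd' : Tow d')
    {M N : VonNeumannAlgebra K} (hM : ∀ k a, d k a ∈ M) (hM' : ∀ k a, d' k a ∈ M.commutant)
    {δ : ℝ} (h : Cl M N δ) (h0 : 0 ≤ δ) (hδ : δ ≤ 1 / 10 ^ 6) :
    ∃ W ∈ unitary (Op K), ‖W - 1‖ ≤ 10 ^ 5 * δ ∧ (∀ k a, W * d k a * star W ∈ N) ∧
      ∀ k a, W * d' k a * star W ∈ N.commutant := by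
  obtain ⟨θ, hθ, h1⟩ := pert_kaz hd hM h.mn h0 hδ
  obtain ⟨θ', hθ', h2⟩ := pert_kaz hd' hM' h.mn' h0 hδ
  obtain ⟨T₁, a1, a2, -⟩ := pert_tw (pertGrp_lf hd) hθ (fun g hg => (h1 g hg).2) (T₀ := 1)
    (c := 0) (by rw [sub_self, norm_zero])
  obtain ⟨T, b1, b2, b3⟩ := pert_tw (pertGrp_lf hd') hθ' (fun g hg => (h2 g hg).2) a1
  have b4 : ∀ x, KazIn (pertGrp d) x → T * x = θ x * T := fun x hx =>
    b3 x (θ x) (a2 x hx) fun g hg => ⟨comm_of_mem (pertGrp_mem hM' hg) (pertGrp_mem hM hx),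
      comm_of_mem (h2 g hg).1 (h1 x hx).1⟩
  obtain ⟨W, hW, c1, c2⟩ := KK.polar_near b1 (by linarith)
  refine ⟨W, hW, c1.trans (by linarith), pert_fin (θ := θ) hW fun g hg => ⟨(h1 g hg).1, ?_⟩,
    pert_fin (θ := θ') hW fun g hg => ⟨(h2 g hg).1, ?_⟩⟩
  · refine c2 _ _ (b4 g hg) ?_
    rw [← hθ.in_star hg]
    exact b4 _ ((pertGrp_lf hd).in_star hg)
  · refine c2 _ _ (b2 g hg) ?_
    rw [← hθ'.in_star hg]
    exact b2 _ ((pertGrp_lf hd').in_star hg)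

end Vale.Agent.P096
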