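import Vale.Agent.P096.CPs1
import Vale.Agent.P096.CPert

/-!
# P096 C: lifting up to a large projection
`pert` for `P.D`, `P.D'` gives `W`; `N₁ = KK.vnConj W N` (`mem_vnConj`, `mem_vnConj_comm`, `norm_conj_sub`), `Cl M N₁ (C δ)`, `s = ∑ D 0 a ∈ N₁`, `s' ∈ N₁'`. `cor_vec M ξ` gives the corner, which is also a corner of `N₁`;
`ms_cor`, `Cor.cl`, the hypothesis gives `Φ₀`; `Cor.lift` for `N₁` gives `p₁`, `L`. `Φ₁ x = L (Φ₀ (rstC i x))`, `p₁ (L T) p₁ = L (rstC i (L T)) = L T`. For `n ∈ N₁` close to `x`: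
`p₁ (x - Φ₁ x) p₁ = p₁ (x - n) p₁ + L (rstC n - Φ₀ (rstC x))`. `p = W p₁ W*`, `Φ x = W (Φ₁ x) W*`, `p₁ ξ = ξ`.
-/

namespace Vale.Agent.P096

open Vale.Agent.P104 Vale.Agent.P132 Filter Topology
open scoped InnerProductSpace

universe u

theorem cps_conj {K : Type*} [NormedAddCommGroup K] [InnerProductSpace ℂ K] [CompleteSpace K]
    {W : Op K} (hW : W ∈ unitary (Op K)) (y : Op K) : ‖W * y * star W‖ = ‖y‖ := by
  rw [CStarRing.norm_mul_mem_unitary _ (Unitary.star_mem hW), CStarRing.norm_mem_unitary_mul _ hW]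

theorem psl (hW : LWStmt.{u}) : PSLStmt.{u} := by
  intro ε hε
  obtain ⟨δ₁, h₁, H₁⟩ := hW (min 1 (ε / 2)) (by positivity)
  refine ⟨min (1 / 10 ^ 6) (min (δ₁ / 10 ^ 8) (ε / 10 ^ 7)), by positivity,
    fun K _ _ _ M N ξ hξ P hc => ?_⟩
  set δ := min (1 / 10 ^ 6) (min (δ₁ / 10 ^ 8) (ε / 10 ^ 7)) with hδ
  have d0 : 0 ≤ δ := by positivity
  have d2 : δ ≤ δ₁ / 10 ^ 8 := (min_le_right _ _).trans (min_le_left _ _)
  have d3 : δ ≤ ε / 10 ^ 7 := (min_le_right _ _).trans (min_le_right _ _)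
  obtain ⟨t1, t2, t3⟩ := P.tow
  obtain ⟨t1', t2', t3'⟩ := P.tow'
  obtain ⟨W, W1, W2, W3, W4⟩ := pert t1 t1' t2 t2' hc d0 (min_le_left _ _)
  obtain ⟨n1, n2⟩ := KK.near_vnConj W1 W2 d0 hc.mn hc.nm
  have m1 : ∀ k a, P.D k a ∈ KK.vnConj W N := fun k a => (KK.mem_vnConj W1).2 (W3 k a)
  have m2 : ∀ k a, P.D' k a ∈ (KK.vnConj W N).commutant := fun k a =>
    (KK.mem_vnConj_comm W1).2 (W4 k a)
  obtain ⟨U, _, ξ₀, c1, c2, c3, c4⟩ := cor_vec M ξ
  have c5 : Cor (KK.vnConj W N) U.subtypeL (projOn (orb M.commutant ξ)) (projOn (orb M ξ)) :=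
    ⟨c1.proj, c1.proj', t3 0 ▸ sum_mem fun a _ => m1 0 a, t3' 0 ▸ sum_mem fun a _ => m2 0 a, c1.iso⟩
  obtain ⟨D⟩ := P.ms_cor c1 c5 (ξ₀ := ξ₀) c2 m1 m2
  obtain ⟨Φ₀, hΦ⟩ := H₁ U _ _ ξ₀ (by rw [← hξ, ← c2]; rfl) c3 c4 D
    ((c1.cl c5 (by positivity) (cl_of_ni n1 n2 (by positivity))).mono (by linarith))
  obtain ⟨p, L, p1, p2, p3, -, L1, L2, -⟩ := c5.lift
  let R : Op K →ₗ[ℂ] Op U :=
    { toFun := rstC U.subtypeL, map_add' := fun x y => by ext; simp [rstC_apply]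
      map_smul' := fun c x => by ext; simp [rstC_apply] }
  have hs : star W * W = 1 := Unitary.star_mul_self_of_mem W1
  have hs' : W * star W = 1 := Unitary.mul_star_self_of_mem W1
  refine ⟨W * p * star W, (LinearMap.mulRight ℂ (star W)) ∘ₗ (LinearMap.mulLeft ℂ W) ∘ₗ L ∘ₗ Φ₀ ∘ₗ R,
    ⟨?_, ?_⟩, (KK.mem_vnConj W1).1 p1, ?_, fun x hx => ?_⟩
  · change W * p * star W * (W * p * star W) = W * p * star W
    calc _ = W * (p * (star W * W) * p) * star W := by simp only [mul_assoc]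
      _ = _ := by rw [hs, mul_one, p2.isIdempotentElem.eq]
  · change star (W * p * star W) = W * p * star W
    rw [star_mul, star_mul, star_star, p2.isSelfAdjoint.star_eq, mul_assoc]
  · have e : p ξ = ξ := by rw [← c2]; exact p3 ξ₀
    have e2 : ξ - (W * p * star W) ξ = -((W * p * star W - p) ξ) := by simp [e]
    rw [e2, norm_neg]
    refine (ContinuousLinearMap.le_opNorm _ _).trans ?_
    have h1 := KK.norm_conj_sub W1 p
    have h2 := p2.norm_le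
    have h3 := mul_le_mul W2 h2 (norm_nonneg _) (by positivity)
    rw [hξ]
    linarith
  change W * L (Φ₀ (rstC U.subtypeL x)) * star W ∈ N ∧ ‖W * L (Φ₀ (rstC U.subtypeL x)) * star W‖ ≤ _ ∧
    ‖_ * (x - W * L (Φ₀ (rstC U.subtypeL x)) * star W) * _‖ ≤ _
  obtain ⟨a1, a2⟩ := hΦ _ (c1.C_mem hx)
  obtain ⟨b1, b2, b3⟩ := L1 _ a1
  have a3 := c1.iso.norm_C x
  have a4 : ‖Φ₀ (rstC U.subtypeL x) - rstC U.subtypeL x‖ ≤ min 1 (ε / 2) * ‖x‖ :=
    a2.trans (mul_le_mul_of_nonneg_left a3 (by positivity))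
  have a5 := mul_le_mul_of_nonneg_right (min_le_left 1 (ε / 2)) (norm_nonneg x)
  have a6 := mul_le_mul_of_nonneg_right (min_le_right 1 (ε / 2)) (norm_nonneg x)
  refine ⟨(KK.mem_vnConj W1).1 b1, ?_, ?_⟩
  · rw [cps_conj W1]
    linarith [norm_le_insert' (Φ₀ (rstC U.subtypeL x)) (rstC U.subtypeL x)]
  obtain ⟨n, hn, h1⟩ := n1 x hx
  set T := Φ₀ (rstC U.subtypeL x) with hT
  have e1 : p * L T * p = L T := by rw [← L2 _ b1, b3]
  have e2 : W * p * star W * (x - W * L T * star W) * (W * p * star W) =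
      W * (p * ((star W * x * star (star W) - x) + (x - n)) * p + L (rstC U.subtypeL n - T)) *
        star W := by
    rw [map_sub, L2 _ hn, star_star]
    calc _ = W * (p * (star W * x * W) * p - p * (star W * W) * L T * (star W * W) * p) * star W := by
          noncomm_ring
      _ = _ := by
          rw [hs, mul_one, mul_one, e1]
          noncomm_ring
  rw [e2, cps_conj W1]
  have f1 := KK.norm_conj_sub (Unitary.star_mem W1) x
  rw [show star W - 1 = star (W - 1) by simp, norm_star] at f1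
  have f2 : ∀ y : Op K, ‖p * y * p‖ ≤ ‖y‖ := fun y =>
    calc _ ≤ ‖p‖ * ‖y‖ * ‖p‖ := (norm_mul_le _ _).trans (by gcongr; exact norm_mul_le _ _)
      _ ≤ 1 * ‖y‖ * 1 := by gcongr <;> exact p2.norm_le
      _ = _ := by ring
  have f3 := (L1 _ (sub_mem (c5.C_mem hn) a1)).2.1
  have f4 : ‖rstC U.subtypeL n - rstC U.subtypeL x‖ ≤ ‖x - n‖ := by
    have := c1.iso.norm_C (n - x)
    rw [norm_sub_rev x]
    exact le_of_eq_of_le (congrArg _ (R.map_sub n x).symm) this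
  have f5 := norm_sub_le_norm_sub_add_norm_sub (rstC U.subtypeL n) (rstC U.subtypeL x) T
  rw [norm_sub_rev _ T] at f5
  have f6 := mul_le_mul_of_nonneg_right W2 (norm_nonneg x)
  have f7 := mul_le_mul_of_nonneg_right d3 (norm_nonneg x)
  have f8 := mul_nonneg hε.le (norm_nonneg x)
  refine (norm_add_le _ _).trans ((add_le_add ((f2 _).trans (norm_add_le _ _)) f3).trans ?_)
  rw [norm_sub_rev _ T]
  rw [norm_sub_rev T] at f5 ⊢
  rw [norm_sub_rev] at a4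
  linarith

end Vale.Agent.P096
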