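import Vale.Agent.P096.CDefs
import Vale.Agent.P096.CPs1Col
import Vale.Agent.P096.Cor

/-!
# P096 C: cutting the system down to the supports of the vector
`s = [M' ξ] ∈ M`, `s' = [M ξ] ∈ M'` (`projOn_comm`). `d (y ξ) = y (d' ξ)` for `y ∈ M'`, so `d` commutes with `s` (`projOn_comm'`); `(∑ a, d k a) (y ξ) = y ξ`, so `∑ a, d k a * s = s`.
`Tow.ref`: `B' = filter (parent b ∈ B)`, `d k a * d l b` is `d l b` for the parent and `0` otherwise; multiply by `s = ∑ b, d l b * s`. The statements for `d'` are symmetric (define `PS`-free lemmas once).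
`PS.ms_cor`: reindex by `Fintype.equivFin`; `d̃ = rstC i (d * s)`, `d̃' = rstC i (d' * s')`; both `d s` and `d' s'` commute with `s s' = i i*`, so `rstC` is multiplicative on them and `d̃ (i* η) = i* (d η)` for `η = s η`..., `rstC s = 1`.
The vectors `η ∈ K` with `∀ ε, ∀ᶠ k, ∃ c, ∑ a, ‖d a (d' a η) - c a • d a ξ‖² ≤ ε` form a closed subspace (`∑ ‖d a d' a η‖² ≤ ‖η‖²`, `l2` triangle inequality), which contains `x ξ` for `x ∈ gen`
(`d d' x ξ = d x d ξ`; passing from level `k` to `l ≥ k` with `c b = c (parent b)` does not increase the sum, because `d b d' b (d a d' a η - c d a ξ) = d b d' b η - c d b ξ`), hence the range of `s'`, which contains `i η₀`.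
-/

namespace Vale.Agent.P096

open Vale.Agent.P104 Vale.Agent.P132 Filter Topology
open scoped InnerProductSpace

variable {K : Type*} [NormedAddCommGroup K] [InnerProductSpace ℂ K] [CompleteSpace K]
  {U : Type*} [NormedAddCommGroup U] [InnerProductSpace ℂ U] [CompleteSpace U]
  {M N : VonNeumannAlgebra K} {ξ : K}

/-- the projections cut down to the support of the vector -/
noncomputable def PS.D (P : PS M ξ) (k : ℕ) (a : P.ι k) : Op K :=
  P.d k a * projOn (orb M.commutant ξ)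

noncomputable def PS.D' (P : PS M ξ) (k : ℕ) (a : P.ι k) : Op K := P.d' k a * projOn (orb M ξ)

theorem cps1_tow {ι : ℕ → Type} [∀ k, Fintype (ι k)] {d : (k : ℕ) → ι k → Op K} {s : Op K}
    (hs : IsStarProjection s) (hp : ∀ k a, IsStarProjection (d k a))
    (ho : ∀ k a b, a ≠ b → d k a * d k b = 0)
    (hr : ∀ k l, k ≤ l → ∀ b, ∃ a, d k a * d l b = d l b) (hc : ∀ k a, d k a * s = s * d k a)
    (h1 : ∀ k, ∑ a, d k a * s = s) : Tow fun k a => d k a * s := by
  classical
  refine ⟨fun k a => (hp k a).mul hs (hc k a), fun k a b h => ?_, fun k l hkl B => ?_⟩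
  · rw [mul_assoc, ← mul_assoc s, ← hc, ← mul_assoc, ← mul_assoc, ho k a b h]
    simp
  · choose f hf using hr k l hkl
    refine ⟨Finset.univ.filter fun b => f b ∈ B, ?_⟩
    conv_lhs => rw [← h1 l]
    simp only [Finset.mul_sum, ← mul_assoc, cps1_par (ho k) (hf _)]
    rw [Finset.sum_comm, Finset.sum_filter]
    refine Finset.sum_congr rfl fun b _ => ?_
    simp only [ite_mul, zero_mul, Finset.sum_ite_eq']

theorem cps1_comm {Q : VonNeumannAlgebra K} {d d' : Op K} (hp : IsStarProjection d)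
    (hd : d ∈ Q.commutant) (hd' : d' ∈ Q) (h : d ξ = d' ξ) :
    d * projOn (orb Q ξ) = projOn (orb Q ξ) * d := by
  have key : ∀ η ∈ orb Q ξ, d η ∈ closure (orb Q ξ) := by
    rintro _ ⟨y, hy, rfl⟩
    refine subset_closure ⟨y * d', mul_mem hy hd', ?_⟩
    rw [← mul_apply_eq_comp, comm_of_mem hd hy, mul_apply_eq_comp, h, mul_apply_eq_comp]
  exact projOn_comm' key (by rwa [hp.isSelfAdjoint.star_eq])

theorem cps1_sum {Q : VonNeumannAlgebra K} {ι : ℕ → Type} [∀ k, Fintype (ι k)]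
    {d : (k : ℕ) → ι k → Op K} (hd : ∀ k a, d k a ∈ Q.commutant) (h : ∀ k, ∑ a, d k a ξ = ξ)
    (k : ℕ) : ∑ a, d k a * projOn (orb Q ξ) = projOn (orb Q ξ) := by
  have e : (∑ a, d k a - 1) * projOn (orb Q ξ) = 0 := mul_projOn_eq_zero <| by
    rintro _ ⟨y, hy, rfl⟩
    rw [← mul_apply_eq_comp, comm_of_mem (sub_mem (sum_mem fun a _ => hd k a) (one_mem _)) hy,
      mul_apply_eq_comp, _root_.sub_apply, _root_.sum_apply, h]
    simp
  rwa [sub_mul, one_mul, sub_eq_zero, Finset.sum_mul] at e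

theorem PS.cps1_c (P : PS M ξ) (k : ℕ) (a : P.ι k) :
    P.d k a * projOn (orb M.commutant ξ) = projOn (orb M.commutant ξ) * P.d k a :=
  cps1_comm (P.proj k a) (by simpa using P.mem k a) (P.mem' k a) (P.vec k a)

theorem PS.cps1_c' (P : PS M ξ) (k : ℕ) (a : P.ι k) :
    P.d' k a * projOn (orb M ξ) = projOn (orb M ξ) * P.d' k a :=
  cps1_comm (P.proj' k a) (P.mem' k a) (P.mem k a) (P.vec k a).symm

/-- the vectors which are approximately diagonal -/
def PS.Good (P : PS M ξ) (η : K) : Prop := ∀ ε : ℝ, 0 < ε → ∀ᶠ k in atTop, ∃ c : P.ι k → ℂ,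
  l2 (fun a => P.d k a (P.d' k a η) - c a • P.d k a ξ) ≤ ε

theorem PS.cps1_col (P : PS M ξ) (k : ℕ) : Col (fun a => P.d k a * P.d' k a) 1 := fun η =>
  (l2_mono fun a => (PIso.of_proj (P.proj k a)).norm_apply_le _).trans
    (P096.cps1_col (P.proj' k) (P.orth' k) η)

theorem PS.cps1_closed (P : PS M ξ) : IsClosed {η | P.Good η} := by
  refine isClosed_of_closure_subset fun η hη ε hε => ?_
  obtain ⟨η', h', h1⟩ := Metric.mem_closure_iff.1 hη (ε / 2) (by positivity)
  refine (h' (ε / 2) (by positivity)).mono fun k ⟨c, hc⟩ => ⟨c, ?_⟩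
  refine (l2_le_add_sub _ fun a => P.d k a (P.d' k a η') - c a • P.d k a ξ).trans ?_
  have h2 := P.cps1_col k (η - η')
  simp only [mul_apply_eq_comp, map_sub, one_mul, ← dist_eq_norm η η'] at h2
  simp only [sub_sub_sub_cancel_right]
  linarith

theorem PS.cps1_gen (P : PS M ξ) {x : Op K} (hx : x ∈ P.gen) : P.Good (x ξ) := by
  intro ε hε
  obtain ⟨k, c, hc⟩ := P.ms x hx (ε ^ 2) (by positivity)
  refine (eventually_ge_atTop k).mono fun l hl => ?_
  choose f hf hf' using P.ref k l hl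
  refine ⟨fun b => c (f b), le_trans (le_of_eq (congrArg l2 (funext fun b => ?_)))
    ((cps1_l2 (P.cps1_col l) _ f).trans ((l2_le_iff hε.le).2 hc))⟩
  have e := congrArg star (hf b)
  rw [star_mul, (P.proj _ _).isSelfAdjoint.star_eq, (P.proj _ _).isSelfAdjoint.star_eq] at e
  have e' := congrArg star (hf' b)
  rw [star_mul, (P.proj' _ _).isSelfAdjoint.star_eq, (P.proj' _ _).isSelfAdjoint.star_eq] at e'
  have cm : ∀ y ∈ M, ∀ m a η, P.d' m a (y η) = y (P.d' m a η) := fun y hy m a η =>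
    DFunLike.congr_fun (comm_of_mem (P.mem' m a) hy) η
  have e1 : ∀ η, P.d l b (P.d k (f b) η) = P.d l b η := DFunLike.congr_fun e
  have e2 : P.d' l b (P.d k (f b) ξ) = P.d' l b ξ := by
    rw [P.vec]
    exact DFunLike.congr_fun e' ξ
  have e3 : P.d l b (P.d' l b ξ) = P.d l b ξ := by
    rw [← P.vec]
    exact DFunLike.congr_fun (P.proj l b).isIdempotentElem.eq ξ
  simp only [_root_.sub_apply, _root_.smul_apply, mul_apply_eq_comp, map_sub,
    ← Complex.coe_smul, map_smul]
  rw [e2, e3, cm _ (P.mem _ _), e1, cm x (P.genM x hx) l b (P.d k (f b) ξ), e2,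
    cm x (P.genM x hx)]

theorem PS.cps1_good (P : PS M ξ) {η : K} (hη : η ∈ closure (orb (M : Set (Op K)) ξ)) :
    P.Good η := by
  refine closure_minimal ?_ P.cps1_closed hη
  rintro _ ⟨x, hx, rfl⟩
  refine closure_minimal (fun ζ hζ => ?_) P.cps1_closed (P.dense x hx)
  induction hζ using Submodule.span_induction with
  | mem _ h =>
    obtain ⟨y, hy, rfl⟩ := h
    exact P.cps1_gen hy
  | zero => exact fun ε hε => .of_forall fun k => ⟨0, by simpa [l2] using hε.le⟩
  | add ζ ζ' _ _ h h' =>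
    intro ε hε
    filter_upwards [h (ε / 2) (by positivity), h' (ε / 2) (by positivity)] with k ⟨c, hc⟩ ⟨c', hc'⟩
    refine ⟨c + c', le_trans (le_of_eq (congrArg l2 (funext fun a => ?_)))
      ((l2_add_le _ _).trans ((add_le_add hc hc').trans_eq (add_halves ε)))⟩
    simp only [map_add, Pi.add_apply, add_smul]
    abel
  | smul t ζ _ h =>
    intro ε hε
    refine (h (ε / (‖t‖ + 1)) (by positivity)).mono fun k ⟨c, hc⟩ => ⟨t • c, ?_⟩
    rw [le_div_iff₀' (by positivity)] at hc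
    refine (l2_le_mul (by positivity) fun a => ?_).trans hc
    rw [map_smul, map_smul, Pi.smul_apply, smul_assoc, ← smul_sub, norm_smul]
    exact mul_le_mul_of_nonneg_right (by linarith) (norm_nonneg _)

theorem PS.tow (P : PS M ξ) : Tow P.D ∧ (∀ k a, P.D k a ∈ M) ∧
    ∀ k, ∑ a, P.D k a = projOn (orb M.commutant ξ) := by
  have h := cps1_sum (Q := M.commutant) (fun k a => by simpa using P.mem k a) P.sum
  exact ⟨cps1_tow (projOn_proj _) P.proj P.orth (fun k l hkl b => (P.ref k l hkl b).imp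
    fun _ h => h.1) P.cps1_c h, fun k a => mul_mem (P.mem k a)
    (by simpa using cor_orb M.commutant ξ), h⟩

theorem PS.tow' (P : PS M ξ) : Tow P.D' ∧ (∀ k a, P.D' k a ∈ M.commutant) ∧
    ∀ k, ∑ a, P.D' k a = projOn (orb M ξ) := by
  have h := cps1_sum (Q := M) P.mem' fun k => by simpa only [P.vec] using P.sum k
  exact ⟨cps1_tow (projOn_proj _) P.proj' P.orth' (fun k l hkl b => (P.ref k l hkl b).imp
    fun _ h => h.2) P.cps1_c' h, fun k a => mul_mem (P.mem' k a) (cor_orb M ξ), h⟩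

theorem PS.ms_cor (P : PS M ξ) {i : U →L[ℂ] K}
    (hM : Cor M i (projOn (orb M.commutant ξ)) (projOn (orb M ξ)))
    (hN : Cor N i (projOn (orb M.commutant ξ)) (projOn (orb M ξ))) {ξ₀ : U} (hξ : i ξ₀ = ξ)
    (h1 : ∀ k a, P.D k a ∈ N) (h2 : ∀ k a, P.D' k a ∈ N.commutant) :
    Nonempty (MS (rstAlg i M) (rstAlg i N) ξ₀) := by
  obtain ⟨t1, m1, s1⟩ := P.tow
  obtain ⟨t2, m2, s2⟩ := P.tow'
  have hs := hM.proj.isIdempotentElem.eq
  have hs' := hM.proj'.isIdempotentElem.eq
  have c1 : ∀ k a, projOn (orb M.commutant ξ) * projOn (orb M ξ) * P.D k a =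
      P.D k a * (projOn (orb M.commutant ξ) * projOn (orb M ξ)) := fun k a => by
    rw [mul_assoc, comm_of_mem hM.mem' (m1 k a), ← mul_assoc, ← mul_assoc, PS.D, ← mul_assoc,
      ← P.cps1_c]
  have c2 : ∀ k a, projOn (orb M.commutant ξ) * projOn (orb M ξ) * P.D' k a =
      P.D' k a * (projOn (orb M.commutant ξ) * projOn (orb M ξ)) := fun k a => by
    rw [← hM.sc, mul_assoc, ← comm_of_mem (m2 k a) hM.mem, ← mul_assoc, ← mul_assoc, PS.D',
      ← mul_assoc, ← P.cps1_c']
  have a1 : ∀ k a η, i (rstC i (P.D k a) η) = P.d k a (i η) := fun k a η => by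
    rw [hM.iso.i_C (c1 k a), PS.D, mul_apply_eq_comp, hM.s_i]
  have a2 : ∀ k a η, i (rstC i (P.D' k a) η) = P.d' k a (i η) := fun k a η => by
    rw [hM.iso.i_C (c2 k a), PS.D', mul_apply_eq_comp]
    exact congrArg _ (by simpa using hM.comm.s_i η)
  have inj : ∀ η η', i η = i η' → η = η' := fun η η' h => by
    rw [← hM.iso.left η, h, hM.iso.left]
  have ex : ∀ T T' : Op U, (∀ η, i (T η) = i (T' η)) → T = T' := fun T T' h =>
    ContinuousLinearMap.ext fun η => inj _ _ (h η)
  have pr : ∀ q : Op K, IsStarProjection q → projOn (orb M.commutant ξ) * projOn (orb M ξ) * q =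
      q * (projOn (orb M.commutant ξ) * projOn (orb M ξ)) → IsStarProjection (rstC i q) :=
    fun q hq hc => ⟨(hM.iso.C_mul q hc).trans (by rw [hq.isIdempotentElem.eq]),
      (rstC_star i q).trans (by rw [hq.isSelfAdjoint.star_eq])⟩
  let e := fun k => (Fintype.equivFin (P.ι k)).symm
  refine ⟨{
    n := fun k => Fintype.card (P.ι k)
    d := fun k a => rstC i (P.D k (e k a))
    d' := fun k a => rstC i (P.D' k (e k a))
    proj := fun k a => pr _ (t1.proj k _) (c1 k _)
    proj' := fun k a => pr _ (t2.proj k _) (c2 k _)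
    dM := fun k a => hM.C_mem (m1 k _)
    dN := fun k a => hN.C_mem (h1 k _)
    dM' := fun k a => rstC_mem_commutant (m2 k _)
    dN' := fun k a => rstC_mem_commutant (h2 k _)
    orth := fun k a b h => ex _ _ fun η => ?_
    orth' := fun k a b h => ex _ _ fun η => ?_
    sum := fun k => ex _ _ fun η => ?_
    sum' := fun k => ex _ _ fun η => ?_
    ref := fun k l hkl b => ?_
    vec := fun k a => inj _ _ (by rw [a1, a2, hξ, P.vec])
    ms := fun η ε hε => ?_ }⟩
  · rw [mul_apply_eq_comp, a1, a1, ← mul_apply_eq_comp, P.orth k _ _ ((e k).injective.ne h)]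
    simp
  · rw [mul_apply_eq_comp, a2, a2, ← mul_apply_eq_comp, P.orth' k _ _ ((e k).injective.ne h)]
    simp
  · rw [_root_.sum_apply, map_sum]
    simp only [hM.iso.i_C (c1 _ _)]
    rw [(e k).sum_comp fun a => P.D k a (i η), ← _root_.sum_apply, s1, hM.s_i]
    rfl
  · rw [_root_.sum_apply, map_sum]
    simp only [hM.iso.i_C (c2 _ _)]
    rw [(e k).sum_comp fun a => P.D' k a (i η), ← _root_.sum_apply, s2]
    simpa using hM.comm.s_i η
  · obtain ⟨a, ha, ha'⟩ := P.ref k l hkl (e l b)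
    refine ⟨(e k).symm a, ex _ _ fun η => ?_, ex _ _ fun η => ?_⟩
    · rw [mul_apply_eq_comp, a1, a1, Equiv.apply_symm_apply, ← mul_apply_eq_comp, ha]
    · rw [mul_apply_eq_comp, a2, a2, Equiv.apply_symm_apply, ← mul_apply_eq_comp, ha']
  · have hη : i η ∈ closure (orb (M : Set (Op K)) ξ) :=
      (projOn_orb_iff M ξ _).1 (by simpa using hM.comm.s_i η)
    refine (P.cps1_good hη _ (Real.sqrt_pos.2 hε)).mono fun k ⟨c, hc⟩ => ⟨fun a => c (e k a), ?_⟩
    rw [l2_le_iff (Real.sqrt_nonneg _), Real.sq_sqrt hε.le, ← (e k).sum_comp] at hc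
    refine le_of_eq_of_le (Finset.sum_congr rfl fun a _ => ?_) hc
    rw [← hM.iso.norm_i, map_sub, map_smul, a1, a1, a2, hξ]

end Vale.Agent.P096
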