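import Vale.Agent.P096.Basic
import Vale.Agent.P132.Sm

/-!
# P096 C: Riemann sums and the damped Plancherel formula
* `rs`: the integral is in the closure of the convex cone of the finite positive combinations. Otherwise separate (`geometric_hahn_banach_point_closed`): `f ≥ 0` on the cone, `f (∫ F) = ∫ f F ≥ 0`.
* `continuous_G`: `‖G s w x - G s' w x‖ ≤ ‖x‖ ∫ kap w t |e^{-its} - e^{-its'}|` (`norm_si_le`), dominated convergence.
* `planch`: Fubini; `∫ s, gau 0 a⁻¹..`: `∫ exp (-(s / a) ^ 2 / 2) exp (i s (t - t')) ds = 2 π kap a (t - t')` (`integral_kap_exp` with `w = a⁻¹`, `kap a⁻¹ s = (a √(2π))⁻¹ exp (-(s/a)²/2)`).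
-/

namespace Vale.Agent.P096

open Vale.Agent.P104 Vale.Agent.P132 Filter Topology
open scoped InnerProductSpace

open MeasureTheory

universe u

theorem rs {E : Type*} [NormedAddCommGroup E] [NormedSpace ℝ E] [CompleteSpace E] {F : ℝ → E}
    (hF : Integrable F) {ε : ℝ} (hε : 0 < ε) :
    ∃ (n : ℕ) (s h : Fin n → ℝ), (∀ j, 0 ≤ h j) ∧ ‖∑ j, h j • F (s j) - ∫ t, F t‖ ≤ ε := by
  by_contra hcon
  push Not at hcon
  set C : Set E := (Submodule.span NNReal (Set.range F) : Set E) with hC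
  have hconv : Convex ℝ C := fun x hx y hy a b ha hb _ =>
    add_mem (Submodule.smul_mem _ (⟨a, ha⟩ : NNReal) hx)
      (Submodule.smul_mem _ (⟨b, hb⟩ : NNReal) hy)
  have hx : (∫ t, F t) ∉ closure C := by
    intro h
    obtain ⟨y, hy, hd⟩ := Metric.mem_closure_iff.1 h ε hε
    obtain ⟨n, f, g, rfl⟩ := Submodule.mem_span_set'.1 hy
    choose s hs using fun j => (g j).2
    have h1 := hcon n s (fun j => f j) fun j => (f j).2
    rw [dist_comm, dist_eq_norm] at hd
    simp only [hs] at h1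
    exact lt_asymm h1 hd
  obtain ⟨f, u, h1, h2⟩ := geometric_hahn_banach_point_closed hconv.closure isClosed_closure hx
  have h0 : u < 0 := by simpa using h2 0 (subset_closure (Submodule.zero_mem _))
  have h3 : ∀ t, 0 ≤ f (F t) := by
    intro t
    by_contra hn
    push Not at hn
    have hc : 0 ≤ u / f (F t) := div_nonneg_of_nonpos h0.le hn.le
    have h4 := h2 ((u / f (F t)) • F t) (subset_closure
      (Submodule.smul_mem _ (⟨_, hc⟩ : NNReal) (Submodule.subset_span ⟨t, rfl⟩)))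
    rw [map_smul, smul_eq_mul, div_mul_cancel₀ _ hn.ne] at h4
    exact lt_irrefl _ h4
  rw [← f.integral_comp_comm hF] at h1
  linarith [integral_nonneg (μ := volume) (f := fun t => f (F t)) h3]

variable {H : Type u} [NormedAddCommGroup H] [InnerProductSpace ℂ H] [CompleteSpace H]

theorem continuous_G (F : FC H) {w : ℝ} (hw : 0 < w) (x : Op H) :
    Continuous fun s => F.G s w x := by
  have hb := fun t => (F.norm_σ t x).le
  have hk := continuous_kap w
  refine continuous_iff_continuousAt.2 fun s₀ => tendsto_iff_norm_sub_tendsto_zero.2 ?_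
  have h2 : ∀ s, ‖F.G s w x - F.G s₀ w x‖ ≤ ‖x‖ * ∫ t : ℝ,
      ‖(kap w t : ℂ) * Complex.exp (-(Complex.I * t * s)) -
        (kap w t : ℂ) * Complex.exp (-(Complex.I * t * s₀))‖ := by
    intro s
    refine ContinuousLinearMap.opNorm_le_bound _ (mul_nonneg (norm_nonneg _)
      (integral_nonneg fun _ => norm_nonneg _)) fun η => ?_
    rw [sub_apply, F.G_apply s hw, F.G_apply s₀ hw,
      ← integral_sub (si_integrable (sm_int s hw) (F.continuous_σ x) hb _)
      (si_integrable (sm_int s₀ hw) (F.continuous_σ x) hb _)]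
    have h4 := sm_norm_le ((sm_int s hw).sub (sm_int s₀ hw)) hb η
    simpa only [Pi.sub_apply, ← sub_smul] using h4
  have h3 : Continuous fun s : ℝ => ∫ t : ℝ,
      ‖(kap w t : ℂ) * Complex.exp (-(Complex.I * t * s)) -
        (kap w t : ℂ) * Complex.exp (-(Complex.I * t * s₀))‖ := by
    refine continuous_of_dominated (bound := fun t => kap w t + kap w t)
      (fun s => Continuous.aestronglyMeasurable (by fun_prop))
      (fun s => Eventually.of_forall fun t => ?_) ((integrable_kap hw).add (integrable_kap hw))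
      (Eventually.of_forall fun t => by fun_prop)
    rw [norm_norm]
    exact (norm_sub_le _ _).trans (by rw [sm_norm s hw, sm_norm s₀ hw])
  have h4 := (h3.tendsto s₀).const_mul ‖x‖
  simp only [sub_self, norm_zero, integral_zero, mul_zero] at h4
  exact squeeze_zero (fun _ => norm_nonneg _) h2 h4

/-- the kernel of the double integral -/
noncomputable def crsK (w s : ℝ) (p : ℝ × ℝ) : ℂ :=
  (kap w p.1 : ℂ) * (kap w p.2 : ℂ) * Complex.exp (Complex.I * s * (p.1 - p.2 : ℝ))

theorem crs_norm {w : ℝ} (hw : 0 < w) (s : ℝ) (p : ℝ × ℝ) :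
    ‖crsK w s p‖ = kap w p.1 * kap w p.2 := by
  have : Complex.I * s * (p.1 - p.2 : ℝ) = ((s * (p.1 - p.2) : ℝ) : ℂ) * Complex.I := by
    push_cast
    ring
  rw [crsK, norm_mul, norm_mul, this, Complex.norm_exp_ofReal_mul_I, mul_one, Complex.norm_real,
    Complex.norm_real, Real.norm_of_nonneg (kap_pos hw _).le, Real.norm_of_nonneg (kap_pos hw _).le]

theorem crs_cont (w : ℝ) : Continuous fun q : ℝ × ℝ × ℝ => crsK w q.1 q.2 := by
  have hk := continuous_kap w
  unfold crsK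
  fun_prop

theorem crs_int {w : ℝ} (hw : 0 < w) (s : ℝ) {Q : ℝ × ℝ → ℂ} (hQ : Continuous Q) {B : ℝ}
    (hB : ∀ p, ‖Q p‖ ≤ B) : Integrable (fun p => crsK w s p * Q p) (volume.prod volume) := by
  refine Integrable.mono' (((integrable_kap hw).mul_prod (integrable_kap hw)).mul_const B)
    (Continuous.aestronglyMeasurable
      (((crs_cont w).comp (continuous_const.prodMk continuous_id)).mul hQ))
    (Eventually.of_forall fun p => ?_)
  rw [norm_mul, crs_norm hw]
  exact mul_le_mul_of_nonneg_left (hB p) (mul_pos (kap_pos hw _) (kap_pos hw _)).le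

theorem crs_gau {a : ℝ} (ha : 0 < a) (s : ℝ) : gau 0 a s = a * √(2 * Real.pi) * kap a⁻¹ s := by
  have hp : 0 < √(2 * Real.pi) := Real.sqrt_pos.2 (by positivity)
  have e : -(s - 0) ^ 2 / (2 * a ^ 2) = -(a⁻¹ ^ 2 * s ^ 2) / 2 := by
    field_simp
    ring
  unfold gau kap
  rw [e]
  field_simp

theorem crs_integrable_gau {a : ℝ} (ha : 0 < a) : Integrable (gau 0 a) := by
  have h := (integrable_kap (inv_pos.2 ha)).const_mul (a * √(2 * Real.pi))
  exact h.congr (Eventually.of_forall fun s => (crs_gau ha s).symm)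

theorem crs_fourier {a : ℝ} (ha : 0 < a) (v : ℝ) :
    ∫ s : ℝ, (gau 0 a s : ℂ) * Complex.exp (Complex.I * s * v) =
      ((2 * Real.pi * kap a v : ℝ) : ℂ) := by
  have hp : 0 < √(2 * Real.pi) := Real.sqrt_pos.2 (by positivity)
  have h1 : ∀ s : ℝ, (gau 0 a s : ℂ) * Complex.exp (Complex.I * s * v) =
      ((a * √(2 * Real.pi) : ℝ) : ℂ) * ((kap a⁻¹ s : ℂ) * Complex.exp (Complex.I * s * v)) := by
    intro s
    rw [crs_gau ha, Complex.ofReal_mul, mul_assoc]
  simp only [h1]
  rw [integral_const_mul, integral_kap_exp (inv_pos.2 ha), ← Complex.ofReal_mul]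
  congr 1
  have e : -(v - 0) ^ 2 / (2 * a⁻¹ ^ 2) = -(a ^ 2 * v ^ 2) / 2 := by
    field_simp
    ring
  have e2 : 2 * Real.pi = √(2 * Real.pi) * √(2 * Real.pi) :=
    (Real.mul_self_sqrt (by positivity)).symm
  unfold gau kap
  rw [e]
  nth_rewrite 2 [e2]
  field_simp

theorem crs_swap {w a : ℝ} (hw : 0 < w) (ha : 0 < a) {Q : ℝ × ℝ → ℂ} (hQ : Continuous Q) {B : ℝ}
    (hB : ∀ p, ‖Q p‖ ≤ B) :
    Integrable (fun p : ℝ × ℝ => ((2 * Real.pi * kap w p.1 * kap w p.2 * kap a (p.1 - p.2) : ℝ) : ℂ)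
        * Q p) (volume.prod volume) ∧
      ∫ s, (gau 0 a s : ℂ) * ∫ p, crsK w s p * Q p ∂(volume.prod volume) =
        ∫ p : ℝ × ℝ, ((2 * Real.pi * kap w p.1 * kap w p.2 * kap a (p.1 - p.2) : ℝ) : ℂ) * Q p
          ∂(volume.prod volume) := by
  have hg := continuous_gau 0 a
  have hi : Integrable (Function.uncurry fun (s : ℝ) (p : ℝ × ℝ) =>
      (gau 0 a s : ℂ) * (crsK w s p * Q p)) (volume.prod (volume.prod volume)) := by
    refine Integrable.mono' ((crs_integrable_gau ha).mul_prod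
      (((integrable_kap hw).mul_prod (integrable_kap hw)).mul_const B))
      (Continuous.aestronglyMeasurable ((Complex.continuous_ofReal.comp (hg.comp continuous_fst)).mul
        ((crs_cont w).mul (hQ.comp continuous_snd)))) (Eventually.of_forall fun q => ?_)
    rw [Function.uncurry, norm_mul, norm_mul, crs_norm hw, Complex.norm_real,
      Real.norm_of_nonneg (gau_pos _ _ _).le]
    exact mul_le_mul_of_nonneg_left (mul_le_mul_of_nonneg_left (hB _)
      (mul_pos (kap_pos hw _) (kap_pos hw _)).le) (gau_pos _ _ _).le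
  have h1 : ∀ p : ℝ × ℝ, ∫ s, (gau 0 a s : ℂ) * (crsK w s p * Q p) =
      ((2 * Real.pi * kap w p.1 * kap w p.2 * kap a (p.1 - p.2) : ℝ) : ℂ) * Q p := by
    intro p
    have h2 : ∀ s : ℝ, (gau 0 a s : ℂ) * (crsK w s p * Q p) =
        (gau 0 a s : ℂ) * Complex.exp (Complex.I * s * (p.1 - p.2 : ℝ)) *
          ((kap w p.1 : ℂ) * (kap w p.2 : ℂ) * Q p) := by
      intro s
      unfold crsK
      ring
    simp only [h2]
    rw [integral_mul_const, crs_fourier ha]
    push_cast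
    ring
  refine ⟨hi.integral_prod_right.congr (Eventually.of_forall h1), ?_⟩
  simp only [← integral_const_mul]
  rw [integral_integral_swap hi]
  simp only [h1]

theorem crs_Q (F : FC H) (v y : Op H) (η ζ : H) :
    (Continuous fun p : ℝ × ℝ => ⟪F.σ p.1 v η, y (F.σ p.2 v ζ)⟫_ℂ) ∧
      ∀ p : ℝ × ℝ, ‖⟪F.σ p.1 v η, y (F.σ p.2 v ζ)⟫_ℂ‖ ≤ ‖v‖ * ‖η‖ * (‖y‖ * (‖v‖ * ‖ζ‖)) := by
  refine ⟨((F.continuous_σ v η).comp continuous_fst).inner
    (y.continuous.comp ((F.continuous_σ v ζ).comp continuous_snd)), fun p => ?_⟩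
  have h1 : ∀ t ξ, ‖F.σ t v ξ‖ ≤ ‖v‖ * ‖ξ‖ := fun t ξ => by
    rw [← F.norm_σ t v]
    exact (F.σ t v).le_opNorm ξ
  refine (norm_inner_le_norm _ _).trans (mul_le_mul (h1 _ _) ((y.le_opNorm _).trans
    (mul_le_mul_of_nonneg_left (h1 _ _) (norm_nonneg _))) (norm_nonneg _) (by positivity))

theorem crs_inner (F : FC H) {w : ℝ} (hw : 0 < w) (s : ℝ) (v y : Op H) (η ζ : H) :
    ⟪F.G s w v η, y (F.G s w v ζ)⟫_ℂ =
      ∫ p, crsK w s p * ⟪F.σ p.1 v η, y (F.σ p.2 v ζ)⟫_ℂ ∂(volume.prod volume) := by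
  have hb := fun t => (F.norm_σ t v).le
  rw [integral_prod _ (crs_int hw s (crs_Q F v y η ζ).1 (crs_Q F v y η ζ).2), ← inner_conj_symm,
    FC.G, inner_si (sm_int s hw) (F.continuous_σ v) hb, ← integral_conj]
  refine integral_congr_ae (Eventually.of_forall fun t => ?_)
  simp only
  rw [map_mul, inner_conj_symm, ← inner_star_left, inner_si (sm_int s hw) (F.continuous_σ v) hb,
    ← integral_const_mul]
  refine integral_congr_ae (Eventually.of_forall fun t' => ?_)
  have e : Complex.exp (Complex.I * s * (t - t' : ℝ)) =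
      Complex.exp (Complex.I * t * s) * Complex.exp (-(Complex.I * t' * s)) := by
    rw [← Complex.exp_add]
    congr 1
    push_cast
    ring
  simp only [crsK, e, inner_star_left, map_mul, Complex.conj_ofReal, ← Complex.exp_conj, map_neg,
    Complex.conj_I, neg_mul, neg_neg]
  ring

theorem planch (F : FC H) {w a : ℝ} (hw : 0 < w) (ha : 0 < a) (v y : Op H) (η ζ : H) :
    ∫ s, (gau 0 a s : ℂ) * ⟪F.G s w v η, y (F.G s w v ζ)⟫_ℂ =
      ∫ t, ∫ t', ((2 * Real.pi * kap w t * kap w t' * kap a (t - t') : ℝ) : ℂ) *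
        ⟪F.σ t v η, y (F.σ t' v ζ)⟫_ℂ := by
  simp only [crs_inner F hw]
  obtain ⟨h1, h2⟩ := crs_swap hw ha (crs_Q F v y η ζ).1 (crs_Q F v y η ζ).2
  rw [h2, integral_prod _ h1]

theorem crs_mass {w a : ℝ} (hw : 0 < w) (ha : 0 < a) :
    ∫ p : ℝ × ℝ, 2 * Real.pi * kap w p.1 * kap w p.2 * kap a (p.1 - p.2) ∂(volume.prod volume) ≤
      √Real.pi * w := by
  obtain ⟨-, h2⟩ := crs_swap hw ha (Q := fun _ => 1) continuous_const (B := 1) fun _ => by simp
  have h3 : ∀ s : ℝ, ∫ p, crsK w s p * 1 ∂(volume.prod volume) =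
      ((gau 0 w s * gau 0 w s : ℝ) : ℂ) := by
    intro s
    have e : ∀ p : ℝ × ℝ, crsK w s p * 1 = ((kap w p.1 : ℂ) * Complex.exp (Complex.I * p.1 * s)) *
        ((kap w p.2 : ℂ) * Complex.exp (Complex.I * p.2 * (-s : ℝ))) := by
      intro p
      have e1 : Complex.exp (Complex.I * s * (p.1 - p.2 : ℝ)) =
          Complex.exp (Complex.I * p.1 * s) * Complex.exp (Complex.I * p.2 * (-s : ℝ)) := by
        rw [← Complex.exp_add]
        congr 1
        push_cast
        ring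
      rw [crsK, e1]
      ring
    have e2 : gau 0 w (-s) = gau 0 w s := by
      unfold gau
      congr 2
      ring
    simp only [e]
    rw [integral_prod_mul (fun t : ℝ => (kap w t : ℂ) * Complex.exp (Complex.I * t * s))
      (fun t : ℝ => (kap w t : ℂ) * Complex.exp (Complex.I * t * (-s : ℝ))),
      integral_kap_exp hw, integral_kap_exp hw, e2, Complex.ofReal_mul]
  simp only [h3] at h2
  simp only [mul_one, ← Complex.ofReal_mul, integral_complex_ofReal, Complex.ofReal_inj] at h2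
  rw [← h2]
  have h4 := FC.pl_gauss hw 0 0 0 0
  have e3 : ∀ s : ℝ, gau (s + 0) w 0 = gau 0 w s := by
    intro s
    unfold gau
    congr 2
    ring
  have e4 : gau 0 (√2 * w) (0 - 0 + -0 + 0) = 1 := by simp [gau]
  simp only [e3, e4, mul_one] at h4
  rw [← h4]
  have hg := continuous_gau 0 w
  refine integral_mono_of_nonneg (Eventually.of_forall fun s => ?_)
    (Integrable.mono' (crs_integrable_gau hw) (Continuous.aestronglyMeasurable (by fun_prop))
      (Eventually.of_forall fun s => ?_)) (Eventually.of_forall fun s => ?_)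
  · exact (mul_pos (gau_pos _ _ _) (mul_pos (gau_pos _ _ _) (gau_pos _ _ _))).le
  · rw [Real.norm_of_nonneg (mul_pos (gau_pos _ _ _) (gau_pos _ _ _)).le]
    exact mul_le_of_le_one_right (gau_pos _ _ _).le (gau_le_one _ _ _)
  · exact mul_le_of_le_one_left (mul_pos (gau_pos _ _ _) (gau_pos _ _ _)).le (gau_le_one _ _ _)

/-- the scalar estimate: `2 π ∫∫ kap kap kap_a p(t) q(t') ≤ √π w` bounds -/
theorem planch_col (F : FC H) {w a : ℝ} (hw : 0 < w) (ha : 0 < a) {ι : Type*} [Fintype ι]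
    {v : ι → Op H} (hv : Col v 1) (ζ : H) :
    ∫ s, gau 0 a s * ∑ k, ‖F.G s w (v k) ζ‖ ^ 2 ≤ √Real.pi * w * ‖ζ‖ ^ 2 := by
  set Q : ℝ × ℝ → ℂ := fun p => ∑ k, ⟪F.σ p.1 (v k) ζ, (1 : Op H) (F.σ p.2 (v k) ζ)⟫_ℂ with hQ
  have hQc : Continuous Q := continuous_finsetSum _ fun k _ => (crs_Q F (v k) 1 ζ ζ).1
  have hl : ∀ t, l2 (fun k => F.σ t (v k) ζ) ≤ ‖ζ‖ := by
    intro t
    have h1 := hv (F.Δ (-t) ζ)
    rw [one_mul, F.norm_Δ] at h1
    refine le_trans (le_of_eq (l2_congr fun k => ?_)) h1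
    rw [F.σ_apply, F.norm_Δ]
  have hB : ∀ p, ‖Q p‖ ≤ ‖ζ‖ ^ 2 := by
    intro p
    refine (norm_sum_inner_le _ _).trans ?_
    rw [sq]
    exact mul_le_mul (hl _) (hl _) (l2_nonneg _) (norm_nonneg _)
  obtain ⟨h1, h2⟩ := crs_swap hw ha hQc hB
  have h3 : ∀ s : ℝ, ∫ p, crsK w s p * Q p ∂(volume.prod volume) =
      ((∑ k, ‖F.G s w (v k) ζ‖ ^ 2 : ℝ) : ℂ) := by
    intro s
    simp only [hQ, Finset.mul_sum]
    rw [integral_finsetSum _ fun k _ =>
      crs_int hw s (crs_Q F (v k) 1 ζ ζ).1 (crs_Q F (v k) 1 ζ ζ).2, Complex.ofReal_sum]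
    refine Finset.sum_congr rfl fun k _ => ?_
    rw [← crs_inner F hw, one_apply_eq_self, inner_self_eq_norm_sq_to_K]
    norm_cast
  simp only [h3, ← Complex.ofReal_mul, integral_complex_ofReal] at h2
  have h4 : ∀ p : ℝ × ℝ, 0 ≤ 2 * Real.pi * kap w p.1 * kap w p.2 * kap a (p.1 - p.2) := fun p => by
    have := kap_pos hw p.1
    have := kap_pos hw p.2
    have := kap_pos ha (p.1 - p.2)
    positivity
  obtain ⟨h5, -⟩ := crs_swap hw ha (Q := fun _ => 1) continuous_const (B := 1) fun _ => by simp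
  have h6 : Integrable (fun p : ℝ × ℝ => 2 * Real.pi * kap w p.1 * kap w p.2 * kap a (p.1 - p.2))
      (volume.prod volume) := by
    refine h5.norm.congr (Eventually.of_forall fun p => ?_)
    simp only
    rw [mul_one, Complex.norm_real, Real.norm_of_nonneg (h4 p)]
  refine (le_abs_self _).trans ?_
  rw [← Real.norm_eq_abs, ← Complex.norm_real, h2]
  refine (norm_integral_le_of_norm_le (h6.mul_const (‖ζ‖ ^ 2))
    (Eventually.of_forall fun p => ?_)).trans ?_
  · rw [norm_mul, Complex.norm_real, Real.norm_of_nonneg (h4 p)]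
    exact mul_le_mul_of_nonneg_left (hB p) (h4 p)
  · rw [integral_mul_const]
    exact mul_le_mul_of_nonneg_right (crs_mass hw ha) (sq_nonneg _)

end Vale.Agent.P096
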