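import Vale.Agent.P096.CMid

/-!
# P096 C: one stage
Apply `mid` to each `ζ a = d a ζ` (fresh by `Fresh.left`; `d a`, `d' a` fix it) and `choose`. New index type `Σ a, ι a`, legs `T.S ∪ ⋃ a, S' a`, vector `ζ' = ∑ (a, j), q a j (q' a j (ζ a))`
(fresh: `freshSub`, `Fresh.left`, `Fresh.right`). `q a j ζ' = q a j (q' a j (ζ a)) = q' a j ζ'` (`q ≤ d a`, `q' ≤ d' a`, `comm_of_mem`). `ζ' - ζ` is a sum of vectors in the ranges of the `d a`: Pythagoras, `∑ ‖ζ a‖² = ‖ζ‖²`.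
-/

namespace Vale.Agent.P096

open Vale.Agent.P104 Vale.Agent.P132 Filter Topology
open scoped InnerProductSpace

universe u

variable {K : Type u} [NormedAddCommGroup K] [InnerProductSpace ℂ K] [CompleteSpace K]

theorem cstep_pyth {I : Type*} [Fintype I] {d : I → Op K} (hd : ∀ a, IsStarProjection (d a))
    (ho : ∀ a b, a ≠ b → d a * d b = 0) {v : I → K} (hv : ∀ a, d a (v a) = v a) :
    ‖∑ a, v a‖ ^ 2 = ∑ a, ‖v a‖ ^ 2 := by
  simp only [← @inner_self_eq_norm_sq ℂ]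
  rw [← map_sum, sum_inner]
  congr 1
  refine Finset.sum_congr rfl fun a _ => ?_
  rw [inner_sum, Finset.sum_eq_single a (fun b _ hb => ?_) (by simp)]
  rw [← hv a, ← hv b, ← (hd a).isSelfAdjoint.star_eq, ContinuousLinearMap.star_eq_adjoint,
    ContinuousLinearMap.adjoint_inner_left, ← mul_apply_eq_comp, ho a b (Ne.symm hb)]
  simp

theorem cstep_orth {I : Type} {J : I → Type} {d : I → Op K} {q : (a : I) → J a → Op K}
    (hd : ∀ a, IsStarProjection (d a)) (ho : ∀ a b, a ≠ b → d a * d b = 0)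
    (hq : ∀ a j, IsStarProjection (q a j)) (h1 : ∀ a j, d a * q a j = q a j)
    (h2 : ∀ a j k, j ≠ k → q a j * q a k = 0) (p p' : Σ a, J a) (h : p ≠ p') :
    q p.1 p.2 * q p'.1 p'.2 = 0 := by
  obtain ⟨a, j⟩ := p
  obtain ⟨b, k⟩ := p'
  by_cases hab : a = b
  · subst hab
    exact h2 a j k fun e => h (by rw [e])
  · have e : q a j * d a = q a j := by
      simpa only [star_mul, (hd a).isSelfAdjoint.star_eq, (hq a j).isSelfAdjoint.star_eq] using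
        congrArg star (h1 a j)
    show q a j * q b k = 0
    rw [← e, ← h1 b k, mul_assoc, ← mul_assoc (d a), ho a b hab, zero_mul, mul_zero]

theorem cstep_pick {I : Type*} [Fintype I] {q : I → Op K} (hq : ∀ a, IsStarProjection (q a))
    (ho : ∀ a b, a ≠ b → q a * q b = 0) (v : I → K) (a : I) :
    q a (∑ b, q b (v b)) = q a (v a) := by
  rw [map_sum, Finset.sum_eq_single a (fun b _ hb => ?_) (by simp)]
  · rw [← mul_apply_eq_comp, (hq a).isIdempotentElem.eq]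
  · rw [← mul_apply_eq_comp, ho a b (Ne.symm hb)]
    rfl

theorem Legs.step {Λ : Legs K} {A : VonNeumannAlgebra K} (hA : Λ.LA A) (T : Λ.Stage A) {x : Op K}
    (hx : x ∈ Λ.sub A T.S) (hs : IsSelfAdjoint x) {ε : ℝ} (hε : 0 < ε) :
    ∃ T' : Λ.Stage A, T.Ref T' ∧ ‖T'.ζ - T.ζ‖ ≤ ε ∧ ∃ c : T'.ι → ℝ,
      ∑ a, ‖(T'.d a * x * T'.d a - c a • T'.d a) T'.ζ‖ ^ 2 ≤ ε ^ 2 ∧ ∀ a, |c a| ≤ ‖x‖ := by
  have hd : ∀ a, T.d a (T.d a T.ζ) = T.d a T.ζ := fun a => by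
    rw [← mul_apply_eq_comp, (T.pr a).proj.isIdempotentElem.eq]
  have hd' : ∀ a, T.d' a (T.d a T.ζ) = T.d a T.ζ := fun a => by
    rw [T.vec, ← mul_apply_eq_comp, (T.pr a).proj'.isIdempotentElem.eq]
  have hf : ∀ a, Λ.Fresh T.S (T.d a T.ζ) := fun a =>
    T.fresh.left hA (T.pr a).mem (T.pr a).ce
  have hε0 : 0 < ε ^ 2 / (‖T.ζ‖ ^ 2 + 1) := by positivity
  choose S' ι fin q q' lam h1 h2 h3 h4 h5 h6 h7 h8 h9 h10 using fun a =>
    Legs.mid hA T.cnt (hf a) (T.pr a) (hd a) (hd' a) hx hs hε0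
  have hsum : ∑ a, ε ^ 2 / (‖T.ζ‖ ^ 2 + 1) * ‖T.d a T.ζ‖ ^ 2 ≤ ε ^ 2 := by
    rw [← Finset.mul_sum, ← cstep_pyth (fun a => (T.pr a).proj) T.orth hd, T.sum,
      div_mul_eq_mul_div, div_le_iff₀ (by positivity)]
    nlinarith [sq_nonneg ε]
  have hpr : ∀ p : Σ a, ι a, Λ.Pr A (T.S ∪ ⋃ a, S' a) (q p.1 p.2) (q' p.1 p.2) := fun p =>
    (h3 p.1 p.2).mono ((Set.subset_iUnion S' p.1).trans Set.subset_union_right)
  have ho := cstep_orth (fun a => (T.pr a).proj) T.orth (fun a j => (h3 a j).proj) h4 h6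
  have ho' := cstep_orth (fun a => (T.pr a).proj') T.orth' (fun a j => (h3 a j).proj') h5 h7
  have hc : ∀ (p : Σ a, ι a) η, q p.1 p.2 (q' p.1 p.2 η) = q' p.1 p.2 (q p.1 p.2 η) := by
    intro p η
    rw [← mul_apply_eq_comp, ← comm_of_mem (hpr p).mem' (hpr p).mem, mul_apply_eq_comp]
  have e1 := cstep_pick (fun p => (hpr p).proj) ho fun p => q' p.1 p.2 (T.d p.1 T.ζ)
  have e2 := cstep_pick (fun p => (hpr p).proj') ho' fun p => q p.1 p.2 (T.d p.1 T.ζ)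
  simp only [← hc] at e2
  refine ⟨⟨T.S ∪ ⋃ a, S' a, T.cnt.union (Set.countable_iUnion h2),
    ∑ p : Σ a, ι a, q p.1 p.2 (q' p.1 p.2 (T.d p.1 T.ζ)), ?_, Σ a, ι a, fun p => q p.1 p.2,
    fun p => q' p.1 p.2, hpr, ho, ho', fun p => ?_, ?_⟩,
    ⟨Set.subset_union_left, fun p => ⟨p.1, h4 _ _, h5 _ _⟩⟩, ?_, fun p => lam p.1 p.2, ?_,
    fun p => h8 _ _⟩
  · refine (Λ.freshSub _).sum_mem fun p _ => ?_
    exact (((hf p.1).mono Set.subset_union_left).right hA (hpr p).mem' (hpr p).cf).left hA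
      (hpr p).mem (hpr p).ce
  · rw [e1, e2]
  · simp only [e1]
  · refine abs_le_of_sq_le_sq' ?_ hε.le |>.2
    have e : T.ζ - ∑ p : Σ a, ι a, q p.1 p.2 (q' p.1 p.2 (T.d p.1 T.ζ)) =
        ∑ a, (T.d a T.ζ - ∑ j, q a j (q' a j (T.d a T.ζ))) := by
      rw [Finset.sum_sub_distrib, T.sum, Fintype.sum_sigma]
    rw [norm_sub_rev]
    refine (congrArg (fun η => ‖η‖ ^ 2) e).trans_le ?_
    rw [cstep_pyth (fun a => (T.pr a).proj) T.orth fun a => ?_]
    · exact (Finset.sum_le_sum fun a _ => h9 a).trans hsum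
    · rw [map_sub, hd, map_sum]
      simp only [← mul_apply_eq_comp (T.d a) (q a _), h4]
  · refine le_trans (le_of_eq ?_) ((Finset.sum_le_sum fun a _ => h10 a).trans hsum)
    rw [Fintype.sum_sigma]
    refine Finset.sum_congr rfl fun a _ => Finset.sum_congr rfl fun j _ => ?_
    have := e1 ⟨a, j⟩
    simp only [_root_.sub_apply, mul_apply_eq_comp, _root_.smul_apply, this]

end Vale.Agent.P096
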