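import Vale.Agent.P096.CDefs
import Vale.Agent.P096.Cor

/-!
# P096 C: the Hilbert space with all the legs (elementary matrix units)
`Cfg = (l : Leg) → l.I × l.I` (all configurations, the zero is `(0,0)`; the operators are obtained from `cor_ext`), `K = lp (fun _ : Cfg => H) 2`.
General construction: for `P : Cfg → Prop`, `τ : Cfg → Cfg` injective on `P` and `x : Op H`, the map `η ↦ fun c => if P c then x (η (τ c)) else 0` is bounded by `‖x‖`
(`Memℓp` and the norm by comparison of `tsum`s along the injection). `ε l p q`: `P c := c l = p`, `τ c := c.update l q`, `x = 1`; `π x`: `P = True`, `τ = id`.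
All algebraic identities by `lp.ext` and case distinctions (`DFinsupp.update`, `Function.update` lemmas). Adjoints: test on `lp.single` vectors (`lp.inner_single_left`, dense span:
`lp.hasSum_single`), or show `⟪η, T ζ⟫ = ⟪T' η, ζ⟫` by reindexing `tsum`s with the bijection `{c | c l = p} ≃ {c | c l = q}`. `V = lp.single 2 0` as a continuous linear map.
`nor`: with `J c = lp.single 2 c`, `π x (J c ξ) = J c (x ξ)`; `(J c)* Q (J c')` commutes with `d`, `d*`, so it is in `vnComm D` and commutes with `y`; the ranges of the `J c` span a dense subspace.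
-/

namespace Vale.Agent.P096

open Vale.Agent.P104 Vale.Agent.P132 Filter Topology
open scoped InnerProductSpace

universe u

/-- elementary matrix units -/
structure PreW (H K : Type*) [NormedAddCommGroup H] [InnerProductSpace ℂ H] [CompleteSpace H]
    [NormedAddCommGroup K] [InnerProductSpace ℂ K] [CompleteSpace K] where
  ε : (l : Leg) → l.I × l.I → l.I × l.I → Op K
  εU : ∀ l, MUnits (ε l)
  ε1 : ∀ l, ∑ p, ε l p p = 1
  εε : ∀ l l', l ≠ l' → ∀ p q p' q', ε l p q * ε l' p' q' = ε l' p' q' * ε l p q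
  π : Op H →⋆ₐ[ℂ] Op K
  V : H →L[ℂ] K
  iso : ∀ ξ, V.adjoint (V ξ) = ξ
  πV : ∀ x ξ, π x (V ξ) = V (x ξ)
  πε : ∀ x l p q, ε l p q * π x = π x * ε l p q
  εV : ∀ l p q ξ, q ≠ (0, 0) → ε l p q (V ξ) = 0
  nor : ∀ (D : Set (Op H)) (Q : Op K),
    (∀ d ∈ D, π d * Q = Q * π d ∧ π (star d) * Q = Q * π (star d)) →
      ∀ y ∈ (vnComm D).commutant, π y * Q = Q * π y

section Sum

variable {H K C : Type*} [NormedAddCommGroup H] [InnerProductSpace ℂ H] [CompleteSpace H]
  [NormedAddCommGroup K] [InnerProductSpace ℂ K] [CompleteSpace K] [DecidableEq C]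
  {J : C → H →L[ℂ] K}

/-- `K` is the Hilbert sum of copies of `H` -/
structure CW1 (J : C → H →L[ℂ] K) : Prop where
  inner : ∀ c d ξ η, ⟪J c ξ, J d η⟫_ℂ = if c = d then ⟪ξ, η⟫_ℂ else 0
  ext : ∀ S T : Op K, (∀ c ξ, S (J c ξ) = T (J c ξ)) → S = T
  vext : ∀ a b : K, (∀ c ξ, ⟪J c ξ, a⟫_ℂ = ⟪J c ξ, b⟫_ℂ) → a = b

omit [CompleteSpace H] in
theorem CW1.star_eq (h : CW1 J) {S T : Op K}
    (e : ∀ c d ξ η, ⟪J d η, T (J c ξ)⟫_ℂ = ⟪S (J d η), J c ξ⟫_ℂ) : star S = T :=
  h.ext _ _ fun c ξ => h.vext _ _ fun d η => by rw [e, inner_star_right]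

omit [CompleteSpace H] in
theorem CW1.shift (h : CW1 J) (P : C → Prop) [DecidablePred P] (τ : C → C)
    (hτ : ∀ c d, P c → P d → τ c = τ d → c = d) :
    ∃ X : Op K, ∀ c ξ, X (J c ξ) = if P c then J (τ c) ξ else 0 := by
  obtain ⟨X, -, h2, -⟩ := cor_ext (fun a : C × H => J a.1 a.2)
    (fun a => if P a.1 then J (τ a.1) a.2 else 0) (fun a => if P a.1 then 0 else J a.1 a.2)
    zero_le_one (by
      rintro ⟨c, ξ⟩ ⟨d, η⟩
      by_cases hcd : c = d
      · subst hcd
        by_cases hc : P c <;> simp [hc, h.inner]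
      · by_cases hc : P c <;> by_cases hd : P d
        · have : τ c ≠ τ d := fun e => hcd (hτ c d hc hd e)
          simp [hc, hd, h.inner, hcd, this]
        all_goals simp [hc, hd, h.inner, hcd])
  exact ⟨X, fun c ξ => h2 (c, ξ)⟩

theorem CW1.diag (h : CW1 J) (x : Op H) : ∃ X : Op K, ∀ c ξ, X (J c ξ) = J c (x ξ) := by
  have hA0 : 0 ≤ (‖x‖ ^ 2 : ℝ) • (1 : Op H) - star x * x :=
    nonneg_iff_qf.2 ⟨by simp [IsSelfAdjoint], fun η => by
      rw [qf_sub, qf_rsmul, qf_one, qf_star_mul_self, sub_nonneg, ← mul_pow]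
      exact pow_le_pow_left₀ (norm_nonneg _) (x.le_opNorm η) 2⟩
  obtain ⟨S, hS⟩ := CStarAlgebra.nonneg_iff_eq_star_mul_self.1 hA0
  obtain ⟨X, -, h2, -⟩ := cor_ext (fun a : C × H => J a.1 a.2) (fun a => J a.1 (x a.2))
    (fun a => J a.1 (S a.2)) (norm_nonneg x) (by
      rintro ⟨c, ξ⟩ ⟨d, η⟩
      simp only [h.inner]
      split_ifs
      · rw [← inner_star_right, ← inner_star_right, ← inner_add_right, ← mul_apply_eq_comp,
          ← mul_apply_eq_comp, ← add_apply, ← hS, add_sub_cancel, ← inner_smul_right]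
        rfl
      · simp)
  exact ⟨X, fun c ξ => h2 (c, ξ)⟩

theorem CW1.rep (h : CW1 J) : ∃ π : Op H →⋆ₐ[ℂ] Op K, ∀ x c ξ, π x (J c ξ) = J c (x ξ) := by
  choose π hπ using h.diag
  exact ⟨{ toFun := π
           map_one' := h.ext _ _ fun c ξ => by simp [hπ]
           map_mul' := fun x y => h.ext _ _ fun c ξ => by simp [hπ]
           map_zero' := h.ext _ _ fun c ξ => by simp [hπ]
           map_add' := fun x y => h.ext _ _ fun c ξ => by simp [hπ]
           commutes' := fun r => h.ext _ _ fun c ξ => by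
             simp [hπ, Algebra.algebraMap_eq_smul_one]
           map_star' := fun x => (h.star_eq fun c d ξ η => by
             simp only [hπ, h.inner, inner_star_right]).symm }, hπ⟩

theorem CW1.nor (h : CW1 J) {π : Op H →⋆ₐ[ℂ] Op K} (hπ : ∀ x c ξ, π x (J c ξ) = J c (x ξ))
    (D : Set (Op H)) (Q : Op K)
    (hQ : ∀ d ∈ D, π d * Q = Q * π d ∧ π (star d) * Q = Q * π (star d)) {y : Op H}
    (hy : y ∈ (vnComm D).commutant) : π y * Q = Q * π y := by
  have h1 : ∀ x c ζ, (J c).adjoint (π x ζ) = x ((J c).adjoint ζ) := fun x c ζ =>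
    ext_inner_left ℂ fun ξ => by
      rw [ContinuousLinearMap.adjoint_inner_right, ← inner_star_left, ← map_star, hπ,
        ← inner_star_left x, ContinuousLinearMap.adjoint_inner_right]
  have h2 : ∀ c d x, π x * Q = Q * π x → x * ((J c).adjoint ∘L Q ∘L J d) =
      ((J c).adjoint ∘L Q ∘L J d) * x := fun c d x hx => by
    ext ξ
    have := DFunLike.congr_fun hx (J d ξ)
    simp only [mul_apply_eq_comp, hπ] at this
    simp only [mul_apply_eq_comp, ContinuousLinearMap.comp_apply, ← h1, this]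
  refine h.ext _ _ fun d η => h.vext _ _ fun c ξ => ?_
  have h3 := DFunLike.congr_fun (comm_of_mem hy (mem_vnComm.2 fun x hx =>
    ⟨h2 c d x (hQ x hx).1, h2 c d _ (hQ x hx).2⟩)) η
  simp only [mul_apply_eq_comp, ContinuousLinearMap.comp_apply] at h3
  simp only [mul_apply_eq_comp, ← ContinuousLinearMap.adjoint_inner_right, h1, hπ, h3]

theorem cw1_lp (H C : Type*) [NormedAddCommGroup H] [InnerProductSpace ℂ H] [CompleteSpace H]
    [DecidableEq C] : CW1 fun c : C => lp.singleContinuousLinearMap ℂ (fun _ : C => H) 2 c := by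
  refine ⟨fun c d ξ η => ?_, fun S T e => lp.ext_continuousLinearMap (by simp) fun c => ?_,
    fun a b e => lp.ext (funext fun c => ext_inner_left ℂ fun ξ => ?_)⟩
  · rw [lp.singleContinuousLinearMap_apply, lp.singleContinuousLinearMap_apply,
      lp.inner_single_left]
    split_ifs with hcd
    · rw [hcd, lp.single_apply_self]
    · rw [lp.single_apply_ne _ _ _ hcd, inner_zero_right]
  · ext1 ξ
    exact e c ξ
  · simpa only [lp.singleContinuousLinearMap_apply, lp.inner_single_left] using e c ξ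

end Sum

theorem cw1_preW {H K : Type*} [NormedAddCommGroup H] [InnerProductSpace ℂ H] [CompleteSpace H]
    [NormedAddCommGroup K] [InnerProductSpace ℂ K] [CompleteSpace K]
    [DecidableEq ((l : Leg) → l.I × l.I)] {J : ((l : Leg) → l.I × l.I) → H →L[ℂ] K}
    (h : CW1 J) : Nonempty (PreW H K) := by
  classical
  obtain ⟨π, hπ⟩ := h.rep
  choose ε hε using fun (l : Leg) (p q : l.I × l.I) => h.shift (fun c => c l = q)
    (fun c => Function.update c l p) fun c d hc hd e => by
      have h1 := congrArg (fun f => Function.update f l q) e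
      simp only [Function.update_idem] at h1
      rw [← Function.update_eq_self l c, ← Function.update_eq_self l d, hc, hd, h1]
  refine ⟨⟨ε, fun l => ⟨fun p q => h.star_eq fun c d ξ η => ?_, fun p q p' q' => ?_⟩, fun l => ?_,
    fun l l' hl p q p' q' => ?_, π, J 0, fun ξ => ?_, fun x ξ => hπ x 0 ξ, fun x l p q => ?_,
    fun l p q ξ hq => ?_, fun D Q hQ y hy => h.nor hπ D Q hQ hy⟩⟩
  · rw [hε, hε]
    by_cases h1 : c l = p <;> by_cases h2 : d l = q
    · rw [if_pos h1, if_pos h2, h.inner, h.inner]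
      refine if_congr ⟨fun e => ?_, fun e => ?_⟩ rfl rfl
      · rw [e, Function.update_idem, ← h1, Function.update_eq_self]
      · rw [← e, Function.update_idem, ← h2, Function.update_eq_self]
    · rw [if_pos h1, if_neg h2, h.inner, if_neg fun e => h2 (by simp [e]), inner_zero_left]
    · rw [if_neg h1, if_pos h2, h.inner, if_neg fun e => h1 (by simp [← e]), inner_zero_right]
    · rw [if_neg h1, if_neg h2, inner_zero_left, inner_zero_right]
  · refine h.ext _ _ fun c ξ => ?_
    by_cases h1 : c l = q' <;> by_cases h2 : q = p'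
    · simp [hε, h1, h2]
    · simp [hε, h1, h2, Ne.symm h2]
    · simp [hε, h1, h2]
    · simp [hε, h1, h2]
  · refine h.ext _ _ fun c ξ => ?_
    simp [hε]
  · refine h.ext _ _ fun c ξ => ?_
    by_cases h1 : c l = q <;> by_cases h2 : c l' = q' <;>
      simp [hε, h1, h2, Function.update_of_ne hl, Function.update_of_ne hl.symm,
        Function.update_comm hl]
  · refine ext_inner_left ℂ fun η => ?_
    rw [ContinuousLinearMap.adjoint_inner_right, h.inner, if_pos rfl]
  · refine h.ext _ _ fun c ξ => ?_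
    by_cases h1 : c l = q <;> simp [hε, hπ, h1]
  · rw [hε, if_neg fun e => hq e.symm]

theorem exists_preW (H : Type u) [NormedAddCommGroup H] [InnerProductSpace ℂ H] [CompleteSpace H] :
    ∃ (K : Type u) (_ : NormedAddCommGroup K) (_ : InnerProductSpace ℂ K) (_ : CompleteSpace K),
      Nonempty (PreW H K) := by
  classical
  exact ⟨lp (fun _ : (l : Leg) → l.I × l.I => H) 2, inferInstance, inferInstance, inferInstance,
    cw1_preW (cw1_lp H _)⟩

end Vale.Agent.P096
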