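import Vale.Agent.P096.DDiag

/-!
# P096 part D: the decomposition lemma (Hahn - Banach)
* `form_op`: a bounded form is given by an operator (dense ranges).
* `split_form`: Hahn - Banach on two copies of the free module over `E × F`, compare `P104/DistHB.lean`.
-/

namespace Vale.Agent.P096

open Vale.Agent.P104 Vale.Agent.P132
open scoped InnerProductSpace ComplexConjugate

variable {H : Type*} [NormedAddCommGroup H] [InnerProductSpace ℂ H]
  {E F : Type*} [AddCommGroup E] [Module ℂ E] [AddCommGroup F] [Module ℂ F]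

theorem form_op [CompleteSpace H] (a : E →ₗ[ℂ] H) (b : F →ₗ⋆[ℂ] H) (ha : DenseRange a)
    (hb : DenseRange b) (g : E →ₗ[ℂ] F →ₗ[ℂ] ℂ) {κ : ℝ} (hκ : 0 ≤ κ)
    (hg : ∀ x s, ‖g x s‖ ≤ κ * (‖a x‖ * ‖b s‖)) :
    ∃ T : Op H, ‖T‖ ≤ κ ∧ ∀ x s, g x s = ⟪b s, T (a x)⟫_ℂ := by
  let b₁ : F →ₗ[ℂ] StrongDual ℂ H := (InnerProductSpace.toDual ℂ H).toLinearEquiv.toLinearMap.comp b
  have hb₁ : ∀ s, b₁ s = InnerProductSpace.toDual ℂ H (b s) := fun _ => rfl
  have hd : DenseRange b₁ := (InnerProductSpace.toDual ℂ H).surjective.denseRange.comp hb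
    (InnerProductSpace.toDual ℂ H).continuous
  have h1 : ∀ s x, ‖g.flip s x‖ ≤ κ * ‖b s‖ * ‖a x‖ := fun s x =>
    (hg x s).trans (le_of_eq (by ring))
  have h2 : ∀ s x, (g.flip s).extendOfNorm a (a x) = g x s := fun s x =>
    LinearMap.extendOfNorm_eq ha ⟨_, h1 s⟩ x
  let ψ : F →ₗ[ℂ] StrongDual ℂ H :=
    { toFun := fun s => (g.flip s).extendOfNorm a
      map_add' := fun s t => ContinuousLinearMap.ext fun v => ha.induction_on v
        (isClosed_eq (by fun_prop) (by fun_prop)) fun x => by rw [add_apply, h2, h2, h2, map_add]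
      map_smul' := fun c s => ContinuousLinearMap.ext fun v => ha.induction_on v
        (isClosed_eq (by fun_prop) (by fun_prop)) fun x => by
          rw [smul_apply, h2, h2, map_smul, RingHom.id_apply] }
  have h3 : ∀ s, ‖ψ s‖ ≤ κ * ‖b₁ s‖ := fun s => by
    rw [hb₁, LinearIsometryEquiv.norm_map]
    exact LinearMap.opNorm_extendOfNorm_le ha (by positivity) (h1 s)
  let S : H →L[ℂ] H := (InnerProductSpace.toDual ℂ H).symm.toContinuousLinearEquiv.toContinuousLinearMap ∘SL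
    (ψ.extendOfNorm b₁ ∘SL (InnerProductSpace.toDual ℂ H).toContinuousLinearEquiv.toContinuousLinearMap)
  have hS : ∀ v, S v = (InnerProductSpace.toDual ℂ H).symm
    (ψ.extendOfNorm b₁ (InnerProductSpace.toDual ℂ H v)) := fun _ => rfl
  refine ⟨star S, ?_, fun x s => ?_⟩
  · rw [norm_star]
    refine S.opNorm_le_bound hκ fun v => ?_
    rw [hS, LinearIsometryEquiv.norm_map]
    exact (LinearMap.norm_extendOfNorm_apply_le hd κ h3 _).trans
      (by rw [LinearIsometryEquiv.norm_map])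
  · rw [inner_star_right, hS, InnerProductSpace.toDual_symm_apply, ← hb₁,
      LinearMap.extendOfNorm_eq hd ⟨_, h3⟩]
    exact (h2 s x).symm

/-- the weighted sum of the absolute values of the coefficients -/
noncomputable def wN {T : Type*} (w : T → ℝ) (hw : ∀ t, 0 ≤ w t) : Seminorm ℂ (T →₀ ℂ) :=
  Seminorm.of (fun f => f.sum fun p z => ‖z‖ * w p)
    (fun f g => by
      classical
      rw [Finsupp.sum_of_support_subset (f + g) Finsupp.support_add _ (by simp),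
        Finsupp.sum_of_support_subset f (s := f.support ∪ g.support) Finset.subset_union_left _
          (by simp),
        Finsupp.sum_of_support_subset g (s := f.support ∪ g.support) Finset.subset_union_right _
          (by simp), ← Finset.sum_add_distrib]
      refine Finset.sum_le_sum fun p _ => ?_
      rw [← add_mul]
      exact mul_le_mul_of_nonneg_right (norm_add_le _ _) (hw p))
    (fun z f => by
      rw [Finsupp.sum_smul_index' (by simp), Finsupp.sum, Finsupp.sum, Finset.mul_sum]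
      refine Finset.sum_congr rfl fun p _ => ?_
      rw [norm_smul]; ring)

theorem wN_apply {T : Type*} (w : T → ℝ) (hw : ∀ t, 0 ≤ w t) (f : T →₀ ℂ) :
    wN w hw f = ∑ p ∈ f.support, ‖f p‖ * w p := rfl

theorem wN_single {T : Type*} (w : T → ℝ) (hw : ∀ t, 0 ≤ w t) (t : T) :
    wN w hw (Finsupp.single t 1) = w t := by
  rw [wN_apply, Finsupp.support_single _ one_ne_zero]
  simp

theorem dhb_scale (p q : ℝ) (hp : 0 ≤ p) (hq : 0 ≤ q) {ε : ℝ} (hε : 0 < ε) :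
    ∃ t : ℝ, 0 < t ∧ (t * p) ^ 2 + (t⁻¹ * q) ^ 2 ≤ 2 * (p * q) + ε := by
  obtain ⟨e, he, h1⟩ : ∃ e : ℝ, 0 < e ∧ e * (p + q) ≤ ε :=
    ⟨ε / (p + q + 1), by positivity, by
      rw [div_mul_eq_mul_div, div_le_iff₀ (by positivity)]; nlinarith⟩
  refine ⟨√((q + e) / (p + e)), by positivity, ?_⟩
  rw [mul_pow, mul_pow, inv_pow, Real.sq_sqrt (by positivity), inv_div]
  have h2 : (q + e) / (p + e) * p ^ 2 ≤ (q + e) * p := by
    rw [div_mul_eq_mul_div, div_le_iff₀ (by positivity)]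
    have : 0 ≤ (q + e) * p * e := by positivity
    nlinarith
  have h3 : (p + e) / (q + e) * q ^ 2 ≤ (p + e) * q := by
    rw [div_mul_eq_mul_div, div_le_iff₀ (by positivity)]
    have : 0 ≤ (p + e) * q * e := by positivity
    nlinarith
  nlinarith

/-- balanced representation of a formal combination -/
theorem dhb_rep (u : E → ℝ) (v : F → ℝ) (hu0 : ∀ x, 0 ≤ u x) (hv0 : ∀ s, 0 ≤ v s)
    (hu : ∀ (z : ℂ) x, u (z • x) = ‖z‖ * u x) (hv : ∀ (z : ℂ) s, v (z • s) = ‖z‖ * v s)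
    (f : (E × F) →₀ ℂ) {ε : ℝ} (hε : 0 < ε) : ∃ (x : f.support → E) (s : f.support → F),
      (∀ B : E →ₗ[ℂ] F →ₗ[ℂ] ℂ, ∑ i, B (x i) (s i) = Finsupp.linearCombination ℂ (fun p : E × F => B p.1 p.2) f) ∧
      (∑ i, u (x i) ^ 2 + ∑ i, v (s i) ^ 2) / 2 ≤ ∑ p ∈ f.support, ‖f p‖ * (u p.1 * v p.2) + ε := by
  have hn : (0 : ℝ) < f.support.card + 1 := by positivity
  choose t ht0 ht using fun p : E × F => dhb_scale (‖f p‖ * u p.1) (v p.2)
    (mul_nonneg (norm_nonneg _) (hu0 _)) (hv0 _) (div_pos hε hn)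
  refine ⟨fun p => (t p : ℂ) • f p • p.1.1, fun p => (((t p)⁻¹ : ℝ) : ℂ) • p.1.2, fun B => ?_, ?_⟩
  · rw [Finsupp.linearCombination_apply, Finsupp.sum, ← Finset.sum_coe_sort f.support]
    refine Finset.sum_congr rfl fun p _ => ?_
    have : (t p : ℂ) ≠ 0 := by exact_mod_cast (ht0 p).ne'
    simp only [map_smul, LinearMap.smul_apply, smul_smul]
    congr 1
    push_cast
    field_simp
  · have h1 : ∀ p, ‖(t p : ℂ)‖ = t p := fun p => by
      rw [Complex.norm_real, Real.norm_of_nonneg (ht0 p).le]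
    have h2 : ∀ p, ‖(((t p)⁻¹ : ℝ) : ℂ)‖ = (t p)⁻¹ := fun p => by
      rw [Complex.norm_real, Real.norm_of_nonneg (inv_pos.2 (ht0 p)).le]
    simp only [hu, hv, h1, h2]
    rw [← Finset.sum_add_distrib, Finset.sum_coe_sort f.support
      fun p => (t p * (‖f p‖ * u p.1)) ^ 2 + ((t p)⁻¹ * v p.2) ^ 2]
    have h3 := Finset.sum_le_sum fun p (_ : p ∈ f.support) => ht p
    rw [Finset.sum_add_distrib (f := fun p => 2 * (‖f p‖ * u p.1 * v p.2)), ← Finset.mul_sum,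
      Finset.sum_const, nsmul_eq_mul] at h3
    have h4 : f.support.card * (ε / (f.support.card + 1)) ≤ ε := by
      rw [mul_div_assoc', div_le_iff₀ hn]; nlinarith
    simp only [mul_assoc] at h3
    linarith

theorem split_form (a : E →ₗ[ℂ] H) (a' : E →ₗ⋆[ℂ] H) (b : F →ₗ⋆[ℂ] H) (b' : F →ₗ[ℂ] H)
    (g : E →ₗ[ℂ] F →ₗ[ℂ] ℂ) {κ : ℝ} (hκ : 0 ≤ κ)
    (hg : ∀ x s, ‖g x s‖ ≤ κ * (‖a x‖ * ‖b s‖ + ‖a' x‖ * ‖b' s‖)) :
    ∃ g₁ g₂ : E →ₗ[ℂ] F →ₗ[ℂ] ℂ, g = g₁ + g₂ ∧ (∀ x s, ‖g₁ x s‖ ≤ κ * (‖a x‖ * ‖b s‖)) ∧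
      ∀ x s, ‖g₂ x s‖ ≤ κ * (‖a' x‖ * ‖b' s‖) := by
  let ev : (E →ₗ[ℂ] F →ₗ[ℂ] ℂ) → ((E × F) →₀ ℂ) →ₗ[ℂ] ℂ :=
    fun B => Finsupp.linearCombination ℂ fun p : E × F => B p.1 p.2
  have hev : ∀ B x s, ev B (Finsupp.single (x, s) 1) = B x s := fun B x s => by simp [ev]
  let S : Submodule ℂ (((E × F) →₀ ℂ) × ((E × F) →₀ ℂ)) :=
    { carrier := {f | ∀ B, ev B f.1 = ev B f.2}
      add_mem' := fun {f g} hf hg B => by rw [Prod.fst_add, Prod.snd_add, map_add, map_add, hf, hg]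
      zero_mem' := fun _ => rfl
      smul_mem' := fun z f hf B => by rw [Prod.smul_fst, Prod.smul_snd, map_smul, map_smul, hf] }
  let p₁ := wN (fun p : E × F => κ * (‖a p.1‖ * ‖b p.2‖)) fun _ => by positivity
  let p₂ := wN (fun p : E × F => κ * (‖a' p.1‖ * ‖b' p.2‖)) fun _ => by positivity
  let P := p₁.comp (LinearMap.fst ℂ _ ((E × F) →₀ ℂ)) + p₂.comp (LinearMap.snd ℂ ((E × F) →₀ ℂ) _)
  have hP : ∀ f, P f = p₁ f.1 + p₂ f.2 := fun _ => rfl
  have hbound : ∀ f : S, ‖(ev g ∘ₗ LinearMap.fst ℂ _ _ ∘ₗ S.subtype) f‖ ≤ P f := by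
    rintro ⟨⟨f₁, f₂⟩, hf⟩
    refine le_of_forall_pos_le_add fun ε hε => ?_
    have he : 0 < ε / (2 * κ + 1) := by positivity
    obtain ⟨x, s, e1, n1⟩ := dhb_rep (fun x => ‖a x‖) (fun s => ‖b s‖) (fun _ => norm_nonneg _)
      (fun _ => norm_nonneg _) (fun z x => by rw [map_smul, norm_smul])
      (fun z x => by rw [LinearMap.map_smulₛₗ, norm_smul, RCLike.norm_conj]) f₁ he
    obtain ⟨y, r, e2, n2⟩ := dhb_rep (fun x => ‖a' x‖) (fun s => ‖b' s‖) (fun _ => norm_nonneg _)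
      (fun _ => norm_nonneg _) (fun z x => by rw [LinearMap.map_smulₛₗ, norm_smul, RCLike.norm_conj])
      (fun z x => by rw [map_smul, norm_smul]) f₂ he
    have h1 := diag_bound a a' b b' g hκ hg x s y r fun φ => by
      rw [← sub_eq_zero, ← Module.forall_dual_apply_eq_zero_iff ℂ]
      intro ψ
      have h2 := e1 (φ.smulRight ψ)
      have h3 := e2 (φ.smulRight ψ)
      have h4 := hf (φ.smulRight ψ)
      simp only [LinearMap.smulRight_apply, LinearMap.smul_apply] at h2 h3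
      simp only [map_sub, map_sum, map_smul, h2, h3]
      exact sub_eq_zero.2 h4
    rw [e1] at h1
    refine h1.trans ((mul_le_mul_of_nonneg_left (add_le_add n1 n2) hκ).trans ?_)
    have h5 : ε / (2 * κ + 1) * (2 * κ + 1) = ε := by field_simp
    have h6 : ∀ (f : (E × F) →₀ ℂ) (w : E × F → ℝ), ∑ p ∈ f.support, ‖f p‖ * (κ * w p) =
        κ * ∑ p ∈ f.support, ‖f p‖ * w p := fun f w => by
      rw [Finset.mul_sum]
      exact Finset.sum_congr rfl fun _ _ => by ring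
    simp only [hP, p₁, p₂, wN_apply, h6]
    linarith
  obtain ⟨L, hL, hLN⟩ := Module.Dual.exists_extension_of_le_seminorm S _ hbound
  have hL' : ∀ f₁ f₂, (∀ B, ev B f₁ = ev B f₂) → L (f₁, f₂) = ev g f₁ :=
    fun f₁ f₂ hf => hL ⟨(f₁, f₂), hf⟩
  let L₁ := L ∘ₗ LinearMap.inl ℂ _ _
  have h1 : ∀ f₁ f₂, (∀ B, ev B f₁ = ev B f₂) → L₁ f₁ = L₁ f₂ := fun f₁ f₂ h => by
    have := hL' (f₁ - f₂) 0 fun B => by rw [map_sub, h, sub_self, map_zero]
    rw [map_sub, h, sub_self] at this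
    rw [← sub_eq_zero, ← map_sub]
    exact this
  let g₁ : E →ₗ[ℂ] F →ₗ[ℂ] ℂ := LinearMap.mk₂ ℂ (fun x s => L₁ (Finsupp.single (x, s) 1))
    (fun x y s => by rw [← map_add]; exact h1 _ _ fun B => by simp only [map_add, hev]; rfl)
    (fun z x s => by rw [← map_smul]; exact h1 _ _ fun B => by simp only [map_smul, hev]; rfl)
    (fun x s t => by rw [← map_add]; exact h1 _ _ fun B => by simp only [map_add, hev])
    (fun z x s => by rw [← map_smul]; exact h1 _ _ fun B => by simp only [map_smul, hev])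
  have hg₁ : ∀ x s, g₁ x s = L (Finsupp.single (x, s) 1, 0) := fun _ _ => rfl
  refine ⟨g₁, g - g₁, by abel, fun x s => ?_, fun x s => ?_⟩
  · refine (hLN _).trans (le_of_eq ?_)
    simp only [hP, p₁, LinearMap.inl_apply, wN_single, map_zero, add_zero]
  · have h2 : (g - g₁) x s = L (0, Finsupp.single (x, s) 1) := by
      rw [LinearMap.sub_apply, LinearMap.sub_apply, hg₁, ← hev g, ← hL' _ _ fun _ => rfl, ← map_sub]
      simp
    rw [h2]
    refine (hLN _).trans (le_of_eq ?_)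
    simp only [hP, p₂, wN_single, map_zero, zero_add]

theorem decomp [CompleteSpace H] (a : E →ₗ[ℂ] H) (a' : E →ₗ⋆[ℂ] H) (b : F →ₗ⋆[ℂ] H) (b' : F →ₗ[ℂ] H)
    (ha : DenseRange a) (ha' : DenseRange a') (hb : DenseRange b) (hb' : DenseRange b')
    (g : E →ₗ[ℂ] F →ₗ[ℂ] ℂ) {κ : ℝ} (hκ : 0 ≤ κ)
    (hg : ∀ x s, ‖g x s‖ ≤ κ * (‖a x‖ * ‖b s‖ + ‖a' x‖ * ‖b' s‖)) :
    ∃ T₁ T₂ : Op H, ‖T₁‖ ≤ κ ∧ ‖T₂‖ ≤ κ ∧
      ∀ x s, g x s = ⟪b s, T₂ (a x)⟫_ℂ - ⟪T₁ (a' x), b' s⟫_ℂ := by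
  obtain ⟨g₁, g₂, e, h1, h2⟩ := split_form a a' b b' g hκ hg
  obtain ⟨T₂, n2, e2⟩ := form_op a b ha hb g₁ hκ h1
  obtain ⟨T₁, n1, e1⟩ := form_op b' a' hb' ha' g₂.flip hκ fun s x =>
    (h2 x s).trans (le_of_eq (by ring))
  refine ⟨-star T₁, T₂, by simpa using n1, n2, fun x s => ?_⟩
  rw [e, LinearMap.add_apply, LinearMap.add_apply, e2, neg_apply, inner_neg_left, inner_star_left,
    ← e1, sub_neg_eq_add, LinearMap.flip_apply]

end Vale.Agent.P096
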