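import Vale.Agent.P096.DPart
import Vale.Agent.P096.DHB

/-! # P096 part D: the intertwining pair -/

namespace Vale.Agent.P096

open Vale.Agent.P104 Vale.Agent.P132 Filter Topology
open scoped InnerProductSpace

variable {H : Type*} [NormedAddCommGroup H] [InnerProductSpace ℂ H] [CompleteSpace H]
  {M N : VonNeumannAlgebra H} {ξ : H} {κ : ℝ}

/-- simultaneous approximation -/
def Apx (M N : VonNeumannAlgebra H) (ξ : H) (κ : ℝ) : Prop :=
  ∀ x ∈ M, ∀ ε : ℝ, 0 < ε → ∃ y ∈ N,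
    ‖(x - y) ξ‖ ≤ κ * ‖x ξ‖ + ε ∧ ‖star (x - y) ξ‖ ≤ κ * ‖star x ξ‖ + ε

/-- the intertwining relation -/
def RelD (M N : VonNeumannAlgebra H) (ξ : H) (A B : Op H) : Prop :=
  ∀ x ∈ M, ∀ s ∈ N.commutant, ⟪star s ξ, A (x ξ)⟫_ℂ = ⟪B (star x ξ), s ξ⟫_ℂ

theorem dab_dense (h : Apx M N ξ κ) (hκ : κ < 1) (hc : Dense (orb M ξ)) : Dense (orb N ξ) := by
  set P := projOn (orb (N : Set (Op H)) ξ) with hP
  have hp : IsStarProjection (1 - P) := (projOn_proj _).one_sub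
  have h1 : ∀ ζ, ‖(1 - P) ζ‖ ≤ κ * ‖ζ‖ := fun ζ => by
    refine hc.induction (P := fun ζ => ‖(1 - P) ζ‖ ≤ κ * ‖ζ‖) ?_ ?_ ζ
    swap
    · exact isClosed_le (by fun_prop) (by fun_prop)
    · rintro _ ⟨x, hx, rfl⟩
      refine le_of_forall_pos_le_add fun ε hε => ?_
      obtain ⟨y, hy, h2, -⟩ := h x hx ε hε
      have h3 : P (y ξ) = y ξ := projOn_apply_of_mem ⟨y, hy, rfl⟩
      have h4 : (1 - P) (x ξ) = (1 - P) ((x - y) ξ) := by simp [h3]
      rw [h4]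
      exact ((PIso.of_proj hp).norm_apply_le _).trans h2
  intro η
  rw [← projOn_orb_iff, ← hP]
  have h2 := h1 ((1 - P) η)
  rw [← mul_apply_eq_comp, hp.isIdempotentElem.eq] at h2
  have h3 : ‖(1 - P) η‖ = 0 := by nlinarith [norm_nonneg ((1 - P) η)]
  rw [norm_eq_zero, sub_apply, sub_eq_zero] at h3
  exact h3.symm

/-- the algebra as a subspace -/
def sbm (M : VonNeumannAlgebra H) : Submodule ℂ (Op H) where
  carrier := M
  add_mem' := add_mem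
  zero_mem' := zero_mem M
  smul_mem' c _ hx := SMulMemClass.smul_mem c hx

noncomputable def evL (M : VonNeumannAlgebra H) (ξ : H) : sbm M →ₗ[ℂ] H where
  toFun x := x.1 ξ
  map_add' _ _ := rfl
  map_smul' _ _ := rfl

noncomputable def evS (M : VonNeumannAlgebra H) (ξ : H) : sbm M →ₗ⋆[ℂ] H where
  toFun x := star x.1 ξ
  map_add' _ _ := by simp
  map_smul' _ _ := by simp

theorem evL_dense (hc : Dense (orb M ξ)) : DenseRange (evL M ξ) :=
  Dense.mono (by rintro _ ⟨x, hx, rfl⟩; exact ⟨⟨x, hx⟩, rfl⟩) hc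

theorem evS_dense (hc : Dense (orb M ξ)) : DenseRange (evS M ξ) :=
  Dense.mono (by rintro _ ⟨x, hx, rfl⟩; exact ⟨⟨star x, star_mem (s := M) hx⟩, by simp [evS]⟩) hc

noncomputable def gform {E F : Type*} [AddCommGroup E] [Module ℂ E] [AddCommGroup F] [Module ℂ F]
    (a : E →ₗ[ℂ] H) (a' : E →ₗ⋆[ℂ] H) (b : F →ₗ⋆[ℂ] H) (b' : F →ₗ[ℂ] H) : E →ₗ[ℂ] F →ₗ[ℂ] ℂ :=
  LinearMap.mk₂ ℂ (fun x s => ⟪b s, a x⟫_ℂ - ⟪a' x, b' s⟫_ℂ)
    (fun _ _ _ => by simp only [map_add, inner_add_left, inner_add_right]; ring)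
    (fun _ _ _ => by simp [mul_sub, mul_comm])
    (fun _ _ _ => by simp only [map_add, inner_add_left, inner_add_right]; ring)
    (fun _ _ _ => by simp [mul_sub, mul_comm])

omit [CompleteSpace H] in
theorem gform_apply {E F : Type*} [AddCommGroup E] [Module ℂ E] [AddCommGroup F] [Module ℂ F]
    (a : E →ₗ[ℂ] H) (a' : E →ₗ⋆[ℂ] H) (b : F →ₗ⋆[ℂ] H) (b' : F →ₗ[ℂ] H) (x : E) (s : F) :
    gform a a' b b' x s = ⟪b s, a x⟫_ℂ - ⟪a' x, b' s⟫_ℂ := rfl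

theorem evL_apply (x : sbm M) : evL M ξ x = x.1 ξ := rfl

theorem evS_apply (x : sbm M) : evS M ξ x = star x.1 ξ := rfl

theorem dab_bound (h : Apx M N ξ κ) {x s : Op H} (hx : x ∈ M) (hs : s ∈ N.commutant) :
    ‖⟪star s ξ, x ξ⟫_ℂ - ⟪star x ξ, s ξ⟫_ℂ‖ ≤ κ * (‖x ξ‖ * ‖star s ξ‖ + ‖star x ξ‖ * ‖s ξ‖) := by
  refine le_of_forall_pos_le_add fun ε hε => ?_
  have h0 : 0 < ‖star s ξ‖ + ‖s ξ‖ + 1 := by positivity
  obtain ⟨y, hy, h1, h2⟩ := h x hx (ε / (‖star s ξ‖ + ‖s ξ‖ + 1)) (by positivity)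
  have h3 : ⟪star s ξ, x ξ⟫_ℂ - ⟪star x ξ, s ξ⟫_ℂ =
      ⟪star s ξ, (x - y) ξ⟫_ℂ - ⟪star (x - y) ξ, s ξ⟫_ℂ := by
    have h4 : ⟪star s ξ, y ξ⟫_ℂ = ⟪star y ξ, s ξ⟫_ℂ := by
      rw [inner_star_left, inner_star_left, ← mul_apply_eq_comp, comm_of_mem hs hy,
        mul_apply_eq_comp]
    simp only [star_sub, sub_apply, inner_sub_left, inner_sub_right, h4]
    ring
  obtain ⟨e, he⟩ : ∃ e, e = ε / (‖star s ξ‖ + ‖s ξ‖ + 1) := ⟨_, rfl⟩
  rw [← he] at h1 h2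
  have h5 : e * (‖star s ξ‖ + ‖s ξ‖ + 1) = ε := by rw [he]; field_simp
  have h6 : 0 < e := by rw [he]; positivity
  rw [h3]
  calc _ ≤ ‖star s ξ‖ * ‖(x - y) ξ‖ + ‖star (x - y) ξ‖ * ‖s ξ‖ :=
      (norm_sub_le _ _).trans (add_le_add (norm_inner_le_norm _ _) (norm_inner_le_norm _ _))
    _ ≤ ‖star s ξ‖ * (κ * ‖x ξ‖ + e) + (κ * ‖star x ξ‖ + e) * ‖s ξ‖ := by gcongr
    _ ≤ _ := by linarith

theorem dab_rel (h : Apx M N ξ κ) (hκ : 0 ≤ κ) (hc : Dense (orb M ξ))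
    (hc' : Dense (orb N.commutant ξ)) : ∃ A B : Op H, ‖A - 1‖ ≤ κ ∧ ‖B - 1‖ ≤ κ ∧ RelD M N ξ A B := by
  obtain ⟨T₁, T₂, h1, h2, h3⟩ := decomp (evL M ξ) (evS M ξ) (evS N.commutant ξ) (evL N.commutant ξ)
    (evL_dense hc) (evS_dense hc) (evS_dense hc')
    (evL_dense hc') (gform (evL M ξ) (evS M ξ) (evS N.commutant ξ) (evL N.commutant ξ)) hκ
    fun x s => by
      simp only [gform_apply, evL_apply, evS_apply]
      exact dab_bound h x.2 s.2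
  refine ⟨1 - T₂, 1 - T₁, by simpa using h2, by simpa using h1, fun x hx s hs => ?_⟩
  have h4 := h3 ⟨x, hx⟩ ⟨s, hs⟩
  simp only [gform_apply, evL_apply, evS_apply] at h4
  simp only [sub_apply, one_apply_eq_self, inner_sub_left, inner_sub_right]
  linear_combination h4

/-- pinching -/
noncomputable def pin {ι : Type*} [Fintype ι] (d d' : ι → Op H) (A : Op H) : Op H :=
  ∑ p : ι × ι, d p.1 * d' p.2 * A * (d p.1 * d' p.2)

section
variable {ι : Type*} [Fintype ι] {d d' : ι → Op H}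

theorem pin_norm (L : Lev M N ξ d d') {A : Op H} (hA : ‖A - 1‖ ≤ κ) : ‖pin d d' A - 1‖ ≤ κ := by
  have h1 : pin d d' A - 1 = ∑ p : ι × ι, d p.1 * d' p.2 * (A - 1) * (d p.1 * d' p.2) := by
    simp only [mul_sub, sub_mul, mul_one, Finset.sum_sub_distrib, L.pu2.idem, L.pu2.sum, pin]
  rw [h1]
  exact L.pu2.norm_diag_le _ ((norm_nonneg _).trans hA) fun _ => hA

theorem pin_rel (L : Lev M N ξ d d') {A B : Op H} (h : RelD M N ξ A B) :
    RelD M N ξ (pin d d' A) (pin d d' B) := by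
  intro x hx s hs
  simp only [pin, _root_.sum_apply, inner_sum, sum_inner, mul_apply_eq_comp]
  rw [← Equiv.sum_comp (Equiv.prodComm ι ι)]
  refine Finset.sum_congr rfl fun ⟨b, a⟩ _ => ?_
  have h1 := h (d a * x * d b) (mul_mem (mul_mem (L.dM a) hx) (L.dM b)) (d' a * s * d' b)
    (mul_mem (mul_mem (L.dN' a) hs) (L.dN' b))
  have c1 : ∀ z ∈ M, ∀ a, z (d a ξ) = d' a (z ξ) := fun z hz =>
    L.apply_d fun a => comm_of_mem (L.dM' a) hz
  have c2 : ∀ z ∈ N.commutant, ∀ a, z (d' a ξ) = d a (z ξ) := fun z hz a => by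
    rw [← L.vec, ← mul_apply_eq_comp, comm_of_mem hz (L.dN a), mul_apply_eq_comp]
  have c3 : ∀ a b v, d' b (d a v) = d a (d' b v) := fun a b v => by
    rw [← mul_apply_eq_comp, ← L.comm, mul_apply_eq_comp]
  simp only [star_mul, L.pu.star_eq, L.pu'.star_eq, mul_apply_eq_comp, c1 x hx,
    c1 _ (star_mem hx), c2 s hs, c2 _ (star_mem hs)] at h1
  simp only [Equiv.prodComm_apply, Prod.swap_prod_mk]
  rw [← L.pu.inner_left, ← L.pu'.inner_left, h1, L.pu.inner_left, L.pu'.inner_left]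

omit [CompleteSpace H] in
theorem pin_comm {A u : Op H}
    (h : ∀ p : ι × ι, ∃ c : ℂ, u * (d p.1 * d' p.2) = c • (d p.1 * d' p.2) ∧
      d p.1 * d' p.2 * u = c • (d p.1 * d' p.2)) : pin d d' A * u = u * pin d d' A := by
  rw [pin, Finset.sum_mul, Finset.mul_sum]
  refine Finset.sum_congr rfl fun p _ => ?_
  obtain ⟨c, h1, h2⟩ := h p
  rw [mul_assoc _ _ u, h2, ← mul_assoc u, ← mul_assoc u, h1, mul_smul_comm, smul_mul_assoc,
    smul_mul_assoc]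

end

theorem dab_ref {ι : Type*} [Fintype ι] {e : ι → Op H} (h : PU e) {f : Op H} (hf : IsStarProjection f)
    {a₀ : ι} (h0 : e a₀ * f = f) (a : ι) : ∃ c : ℂ, e a * f = c • f ∧ f * e a = c • f := by
  have h1 : ∀ c : ℝ, e a * f = (c : ℂ) • f → f * e a = (c : ℂ) • f := fun c hc => by
    have := congrArg star hc
    rwa [star_mul, star_smul, h.star_eq, hf.isSelfAdjoint.star_eq, Complex.star_def,
      Complex.conj_ofReal] at this
  by_cases ha : a = a₀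
  · have h2 : e a * f = ((1 : ℝ) : ℂ) • f := by simp [ha, h0]
    exact ⟨_, h2, h1 _ h2⟩
  · have h2 : e a * f = ((0 : ℝ) : ℂ) • f := by
      rw [← h0, ← mul_assoc, h.orth _ _ ha]; simp
    exact ⟨_, h2, h1 _ h2⟩

theorem dab_pin (D : MS M N ξ) {A B : Op H} (hA : ‖A - 1‖ ≤ κ) (hB : ‖B - 1‖ ≤ κ)
    (h : RelD M N ξ A B) : ∃ A B : Op H, ‖A - 1‖ ≤ κ ∧ ‖B - 1‖ ≤ κ ∧
      (∀ k a, A * D.d k a = D.d k a * A ∧ A * D.d' k a = D.d' k a * A) ∧ RelD M N ξ A B := by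
  let U : Ultrafilter ℕ := Ultrafilter.of atTop
  have hU : (U : Filter ℕ) ≤ atTop := Ultrafilter.of_le _
  have hb : ∀ T : Op H, ‖T - 1‖ ≤ κ → ∃ L, W U (fun k => pin (D.d k) (D.d' k) T) L ∧ ‖L - 1‖ ≤ κ :=
    fun T hT => by
    obtain ⟨L, hL⟩ := exists_W U (fun k => pin (D.d k) (D.d' k) T - 1)
      (.of_forall fun k => pin_norm (D.lev k) hT)
    refine ⟨L + 1, by simpa using hL.add (W.const 1), ?_⟩
    rw [add_sub_cancel_right]
    exact hL.norm_le (.of_forall fun k => pin_norm (D.lev k) hT)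
  obtain ⟨A', hA1, hA2⟩ := hb A hA
  obtain ⟨B', hB1, hB2⟩ := hb B hB
  refine ⟨A', B', hA2, hB2, fun k a => ⟨?_, ?_⟩, fun x hx s hs => ?_⟩
  · refine ((hA1.mul_right _).congr ?_).unique (hA1.mul_left _)
    filter_upwards [hU (eventually_ge_atTop k)] with l hl
    refine pin_comm fun p => ?_
    obtain ⟨a₀, h0, -⟩ := D.ref k l hl p.1
    obtain ⟨c, h1, h2⟩ := dab_ref (D.lev k).pu (D.proj l p.1) h0 a
    refine ⟨c, by rw [← mul_assoc, h1, smul_mul_assoc], ?_⟩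
    rw [(D.lev l).comm, mul_assoc, h2, mul_smul_comm]
  · refine ((hA1.mul_right _).congr ?_).unique (hA1.mul_left _)
    filter_upwards [hU (eventually_ge_atTop k)] with l hl
    refine pin_comm fun p => ?_
    obtain ⟨a₀, -, h0⟩ := D.ref k l hl p.2
    obtain ⟨c, h1, h2⟩ := dab_ref (D.lev k).pu' (D.proj' l p.2) h0 a
    refine ⟨c, ?_, by rw [mul_assoc, h2, mul_smul_comm]⟩
    rw [(D.lev l).comm, ← mul_assoc, h1, smul_mul_assoc]
  · have h1 := hA1 (x ξ) (star s ξ)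
    have h2 := (hB1 (star x ξ) (s ξ)).star
    simp only [Complex.star_def, inner_conj_symm] at h2
    exact tendsto_nhds_unique (h1.congr fun k => pin_rel (D.lev k) h x hx s hs) h2

end Vale.Agent.P096
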