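import Vale.Agent.P096.DS0
import Vale.Agent.P096.DAB

/-! P096 part D (notes/P096F.md, section D): assembly. -/

namespace Vale.Agent.P096

open Vale.Agent.P104 Vale.Agent.P132

universe u

theorem partD0 : S0Stmt.{u} := ds0

theorem partD : ABStmt.{u} := by
  intro κ hκ
  obtain ⟨δ, hδ, H₁⟩ := partD0.{u} (min κ (1 / 2)) (by positivity)
  refine ⟨δ, hδ, fun H _ _ _ M N ξ D h1 hc hc' hcl => ?_⟩
  have hlt : min κ (1 / 2) < 1 := (min_le_right _ _).trans_lt (by norm_num)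
  have a1 : Apx M N ξ (min κ (1 / 2)) := H₁ H M N ξ h1 hc' D hcl
  have a2 : Apx M.commutant N.commutant ξ (min κ (1 / 2)) :=
    H₁ H _ _ ξ h1 (by simpa using hc) D.comm hcl.comm
  have hN' := dab_dense a2 hlt hc'
  obtain ⟨A, B, hA, hB, hR⟩ := dab_rel a1 (by positivity) hc hN'
  exact ⟨dab_dense a1 hlt hc, hN', dab_pin D (hA.trans (min_le_left _ _))
    (hB.trans (min_le_left _ _)) hR⟩

end Vale.Agent.P096
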