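import Vale.Agent.P132.L2

/-!
# P096 part D: simultaneous diagonalization of two representations of a tensor
* `exists_diag`: `π : EuclideanSpace ℂ (I ⊕ J) → E`, `W = (ker π)ᗮ`, orthonormal eigenbasis `w k` of the compression to `W` of the
  projection onto the `I` coordinates, `c k = π (w k)`.
* `pair_bound`: orthogonality of the rows and Bessel.
-/

namespace Vale.Agent.P096

open Vale.Agent.P104 Vale.Agent.P132
open scoped InnerProductSpace ComplexConjugate

variable {H : Type*} [NormedAddCommGroup H] [InnerProductSpace ℂ H]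
  {E F : Type*} [AddCommGroup E] [Module ℂ E] [AddCommGroup F] [Module ℂ F]
  {I J K : Type*} [Fintype I] [Fintype J] [Fintype K] [DecidableEq K]

/-- the rows are orthogonal -/
def Ort (X : K → I → ℂ) (l : K → ℝ) : Prop :=
  ∀ k k', ∑ i, X k i * conj (X k' i) = if k = k' then (l k : ℂ) else 0

theorem exists_diag (x : I → E) (y : J → E) : ∃ (n : ℕ) (c : Fin n → E) (X : Fin n → I → ℂ)
    (Y : Fin n → J → ℂ) (l m : Fin n → ℝ), LinearIndependent ℂ c ∧ (∀ i, x i = ∑ k, X k i • c k) ∧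
      (∀ j, y j = ∑ k, Y k j • c k) ∧ Ort X l ∧ Ort Y m := by
  classical
  let z : I ⊕ J → E := Sum.elim x y
  let π : EuclideanSpace ℂ (I ⊕ J) →ₗ[ℂ] E :=
    Fintype.linearCombination ℂ z ∘ₗ (WithLp.linearEquiv 2 ℂ (I ⊕ J → ℂ)).toLinearMap
  have hπ : ∀ i, π (EuclideanSpace.single i 1) = z i := fun i => by
    simp [π, Fintype.linearCombination_apply, Pi.single_apply]
  let W : Submodule ℂ (EuclideanSpace ℂ (I ⊕ J)) := (LinearMap.ker π)ᗮ
  let D : EuclideanSpace ℂ (I ⊕ J) →ₗ[ℂ] EuclideanSpace ℂ (I ⊕ J) :=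
    { toFun := fun v => WithLp.toLp 2 (Sum.elim (fun i => v (.inl i)) fun _ => 0)
      map_add' := fun v w => by ext (i | j) <;> simp
      map_smul' := fun c v => by ext (i | j) <;> simp }
  have hD : ∀ v w, ⟪v, D w⟫_ℂ = ∑ i, conj (v (.inl i)) * w (.inl i) := fun v w => by
    simp [D, PiLp.inner_apply, Fintype.sum_sum_type, mul_comm]
  let T : W →ₗ[ℂ] W := W.orthogonalProjectionOnto.toLinearMap ∘ₗ D ∘ₗ W.subtype
  have hT1 : ∀ v w : W, ⟪v, T w⟫_ℂ = ∑ i, conj (v.1 (.inl i)) * w.1 (.inl i) := fun v w => by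
    rw [← hD]
    exact Submodule.inner_orthogonalProjectionOnto_eq_of_mem_left v _
  have hT : T.IsSymmetric := fun v w => by
    rw [← inner_conj_symm, hT1, hT1, map_sum]
    exact Finset.sum_congr rfl fun i _ => by simp [mul_comm]
  let w := hT.eigenvectorBasis rfl
  have hrep : ∀ i, z i = ∑ k, conj ((w k).1 i) • π (w k) := fun i => by
    have h1 := w.orthogonalProjectionOnto_apply_eq_sum (EuclideanSpace.single i (1 : ℂ))
    have h2 : EuclideanSpace.single i (1 : ℂ) - W.starProjection (EuclideanSpace.single i 1) ∈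
        LinearMap.ker π := by
      have := W.sub_starProjection_mem_orthogonal (EuclideanSpace.single i (1 : ℂ))
      rwa [Submodule.orthogonal_orthogonal] at this
    rw [LinearMap.mem_ker, map_sub, hπ, sub_eq_zero, Submodule.starProjection_apply, h1] at h2
    rw [h2]
    simp [EuclideanSpace.inner_single_right]
  have h1 : Ort (fun k i => conj ((w k).1 (.inl i))) (hT.eigenvalues rfl) := fun k k' => by
    have := hT1 (w k) (w k')
    rw [hT.apply_eigenvectorBasis, inner_smul_right, orthonormal_iff_ite.1 w.orthonormal] at this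
    simp only [Complex.conj_conj, ← this]
    split_ifs with h <;> simp [h]
  refine ⟨_, fun k => π (w k), fun k i => conj ((w k).1 (.inl i)), fun k j => conj ((w k).1 (.inr j)),
    hT.eigenvalues rfl, fun k => 1 - hT.eigenvalues rfl k, ?_, fun i => hrep (.inl i),
    fun j => hrep (.inr j), h1, fun k k' => ?_⟩
  · have h2 : LinearIndependent ℂ w := w.toBasis.linearIndependent
    refine h2.map' (π ∘ₗ W.subtype) ?_
    rw [LinearMap.ker_eq_bot']
    intro v hv
    have h3 : v.1 ∈ LinearMap.ker π ⊓ (LinearMap.ker π)ᗮ := ⟨hv, v.2⟩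
    rw [Submodule.inf_orthogonal_eq_bot] at h3
    exact Subtype.ext h3
  · have h2 := orthonormal_iff_ite.1 w.orthonormal k k'
    have h3 := h1 k k'
    rw [Submodule.coe_inner, PiLp.inner_apply, Fintype.sum_sum_type] at h2
    simp only [Complex.conj_conj, RCLike.inner_apply, mul_comm] at h2 h3 ⊢
    rw [h3] at h2
    split_ifs at h2 ⊢ with h
    · push_cast; linear_combination h2
    · linear_combination h2

omit [Fintype K] in
theorem Ort.conj {X : K → I → ℂ} {l : K → ℝ} (hX : Ort X l) : Ort (fun k i => conj (X k i)) l := by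
  intro k k'
  have := congrArg conj (hX k k')
  rw [map_sum] at this
  simp only [map_mul] at this
  rw [this]
  split_ifs <;> simp

omit [Fintype K] in
theorem Ort.diag {X : K → I → ℂ} {l : K → ℝ} (hX : Ort X l) (k : K) : l k = ∑ i, ‖X k i‖ ^ 2 := by
  have := hX k k
  simp only [Complex.mul_conj', if_true] at this
  exact_mod_cast this.symm

theorem Ort.sum_sq {X : K → I → ℂ} {l : K → ℝ} (hX : Ort X l) (v : K → H) :
    ∑ i, ‖∑ k, X k i • v k‖ ^ 2 = ∑ k, l k * ‖v k‖ ^ 2 := by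
  have h1 : ∑ i, ⟪∑ k, X k i • v k, ∑ k, X k i • v k⟫_ℂ = ∑ k, l k * ⟪v k, v k⟫_ℂ := by
    simp only [sum_inner, inner_sum, inner_smul_left, inner_smul_right]
    rw [Finset.sum_comm]
    refine Finset.sum_congr rfl fun k _ => ?_
    simp only [Finset.mul_sum]
    rw [Finset.sum_comm]
    simp only [← mul_assoc, ← Finset.sum_mul, hX k]
    simp
  simp only [inner_self_eq_norm_sq_to_K] at h1
  apply Complex.ofReal_injective
  push_cast
  exact h1

theorem Ort.bessel {X : K → I → ℂ} {l : K → ℝ} (hX : Ort X l) (w : I → H) :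
    ∑ k, (l k)⁻¹ * ‖∑ i, X k i • w i‖ ^ 2 ≤ ∑ i, ‖w i‖ ^ 2 := by
  set u : K → H := fun k => ∑ i, X k i • w i with hu
  set S : ℝ := ∑ k, (l k)⁻¹ * ‖u k‖ ^ 2 with hS
  have hl : ∀ k, 0 ≤ l k := fun k => by rw [hX.diag]; positivity
  have hS0 : 0 ≤ S := Finset.sum_nonneg fun k _ => mul_nonneg (inv_nonneg.2 (hl k)) (sq_nonneg _)
  let q : I → H := fun i => ∑ k, conj (X k i) • (((l k)⁻¹ : ℝ) : ℂ) • u k
  have h1 : ∑ i, ⟪q i, w i⟫_ℂ = S := by
    simp only [q, sum_inner, inner_smul_left, Complex.conj_conj]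
    rw [Finset.sum_comm, hS]
    push_cast
    refine Finset.sum_congr rfl fun k _ => ?_
    have h2 : ⟪u k, u k⟫_ℂ = ∑ i, X k i * ⟪u k, w i⟫_ℂ := by
      conv_lhs => enter [3]; rw [hu]
      simp only [inner_sum, inner_smul_right]
    rw [inner_self_eq_norm_sq_to_K] at h2
    erw [h2]
    rw [Finset.mul_sum]
    exact Finset.sum_congr rfl fun i _ => by simp; ring
  have h2 : l2 q ^ 2 = S := by
    rw [l2_sq, hX.conj.sum_sq]
    refine Finset.sum_congr rfl fun k _ => ?_
    rw [norm_smul, Complex.norm_real, Real.norm_of_nonneg (inv_nonneg.2 (hl k)), mul_pow]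
    rcases (hl k).eq_or_lt with h | h
    · simp [← h]
    · field_simp
  have h3 : S ≤ l2 q * l2 w := by
    have := norm_sum_inner_le q w
    rwa [h1, Complex.norm_real, Real.norm_of_nonneg hS0] at this
  rw [← l2_sq, ← h2]
  exact pow_le_pow_left₀ (l2_nonneg _) (l2_cancel (l2_nonneg _) (l2_nonneg _) (h2 ▸ h3)) 2

theorem pair_bound {X X' : K → I → ℂ} {l : K → ℝ} (hX : Ort X l) (hX' : Ort X' l) (v : K → H)
    (w : I → H) : ∑ k, ‖v k‖ * ‖∑ i, X' k i • w i‖ ≤
      (∑ i, ‖∑ k, X k i • v k‖ ^ 2 + ∑ i, ‖w i‖ ^ 2) / 2 := by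
  rw [hX.sum_sq]
  refine le_trans ?_ (div_le_div_of_nonneg_right (add_le_add le_rfl (hX'.bessel w)) two_pos.le)
  rw [← Finset.sum_add_distrib, Finset.sum_div]
  refine Finset.sum_le_sum fun k _ => ?_
  have hl : 0 ≤ l k := by rw [hX.diag]; positivity
  rcases hl.eq_or_lt with h | h
  · have h1 := hX'.diag k
    rw [← h, eq_comm, Finset.sum_eq_zero_iff_of_nonneg fun i _ => sq_nonneg _] at h1
    have h2 : ∀ i, X' k i = 0 := fun i => by simpa using h1 i (Finset.mem_univ _)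
    simp [h2, ← h]
  · set p := ‖v k‖
    set q := ‖∑ i, X' k i • w i‖
    have h1 : (l k * p ^ 2 + (l k)⁻¹ * q ^ 2) / 2 - p * q = (l k * p - q) ^ 2 / (2 * l k) := by
      field_simp; ring
    have h2 : 0 ≤ (l k * p - q) ^ 2 / (2 * l k) := by positivity
    linarith

theorem diag_bound (a : E →ₗ[ℂ] H) (a' : E →ₗ⋆[ℂ] H) (b : F →ₗ⋆[ℂ] H) (b' : F →ₗ[ℂ] H)
    (g : E →ₗ[ℂ] F →ₗ[ℂ] ℂ) {κ : ℝ} (hκ : 0 ≤ κ)
    (hg : ∀ x s, ‖g x s‖ ≤ κ * (‖a x‖ * ‖b s‖ + ‖a' x‖ * ‖b' s‖))
    (x : I → E) (s : I → F) (y : J → E) (r : J → F)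
    (h : ∀ φ : E →ₗ[ℂ] ℂ, ∑ i, φ (x i) • s i = ∑ j, φ (y j) • r j) :
    ‖∑ i, g (x i) (s i)‖ ≤ κ * ((∑ i, ‖a (x i)‖ ^ 2 + ∑ i, ‖b (s i)‖ ^ 2) / 2 +
      (∑ j, ‖a' (y j)‖ ^ 2 + ∑ j, ‖b' (r j)‖ ^ 2) / 2) := by
  classical
  obtain ⟨n, c, X, Y, l, m, hc, hx, hy, hX, hY⟩ := exists_diag x y
  have hs : ∀ k, ∑ i, X k i • s i = ∑ j, Y k j • r j := fun k => by
    obtain ⟨φ, hφ⟩ := (Finsupp.lapply k ∘ₗ hc.repr).exists_extend
    have h1 : ∀ k', φ (c k') = if k' = k then 1 else 0 := fun k' => by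
      have h2 := LinearMap.congr_fun hφ ⟨c k', Submodule.subset_span ⟨k', rfl⟩⟩
      rw [LinearMap.comp_apply, LinearMap.comp_apply, hc.repr_eq_single k' _ rfl] at h2
      simpa [Finsupp.single_apply] using h2
    have h2 := h φ
    simp only [hx, hy, map_sum, map_smul, h1] at h2
    simpa using h2
  have h1 : ∑ i, g (x i) (s i) = ∑ k, g (c k) (∑ i, X k i • s i) := by
    simp only [hx, map_sum, map_smul, LinearMap.sum_apply, LinearMap.smul_apply]
    exact Finset.sum_comm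
  rw [h1]
  refine (norm_sum_le _ _).trans ((Finset.sum_le_sum fun k _ => hg _ _).trans ?_)
  rw [← Finset.mul_sum, Finset.sum_add_distrib]
  refine mul_le_mul_of_nonneg_left (add_le_add ?_ ?_) hκ
  · have := pair_bound hX hX.conj (fun k => a (c k)) fun i => b (s i)
    simpa only [hx, map_sum, map_smul, LinearMap.map_smulₛₗ] using this
  · have := pair_bound hY.conj hY (fun k => a' (c k)) fun j => b' (r j)
    simpa only [hs, hy, map_sum, map_smul, LinearMap.map_smulₛₗ] using this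

end Vale.Agent.P096
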