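import Vale.Agent.P096.DPart

/-!
# P096 part D: multiplicities and the analytic estimates
`rat z d ξ a = ‖z d ξ‖² / ‖d ξ‖²` is the best scalar approximation of `d z* z d ξ` by multiples of `d ξ`.
-/

namespace Vale.Agent.P096

open Vale.Agent.P104 Vale.Agent.P132 Filter Topology
open scoped InnerProductSpace

variable {H : Type*} [NormedAddCommGroup H] [InnerProductSpace ℂ H] [CompleteSpace H]
  {M N : VonNeumannAlgebra H} {ξ : H} {ι : Type*}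

noncomputable def rat (z : Op H) (d : ι → Op H) (ξ : H) (a : ι) : ℝ :=
  ‖z (d a ξ)‖ ^ 2 / ‖d a ξ‖ ^ 2

noncomputable def mult (s : ℝ) (z : Op H) (d : ι → Op H) (ξ : H) (a : ι) : ℕ :=
  ⌊s * rat z d ξ a⌋₊ + 1

omit [CompleteSpace H] in
theorem rat_nonneg (z : Op H) (d : ι → Op H) (ξ : H) (a : ι) : 0 ≤ rat z d ξ a := by
  unfold rat; positivity

omit [CompleteSpace H] in
theorem rat_mul (z : Op H) (d : ι → Op H) (ξ : H) (a : ι) :
    rat z d ξ a * ‖d a ξ‖ ^ 2 = ‖z (d a ξ)‖ ^ 2 := by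
  by_cases h : d a ξ = 0
  · simp [h]
  · rw [rat, div_mul_cancel₀ _ (by simpa using h)]

omit [CompleteSpace H] in
theorem one_le_mult (s : ℝ) (z : Op H) (d : ι → Op H) (ξ : H) (a : ι) :
    (1 : ℝ) ≤ mult s z d ξ a := by
  rw [mult]; push_cast; simp

omit [CompleteSpace H] in
theorem mult_inv_le (s : ℝ) (z : Op H) (d : ι → Op H) (ξ : H) (a : ι) :
    (mult s z d ξ a : ℝ)⁻¹ ≤ 1 := inv_le_one_of_one_le₀ (one_le_mult s z d ξ a)

omit [CompleteSpace H] in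
theorem mult_inv_rat {s : ℝ} (hs : 0 < s) (z : Op H) (d : ι → Op H) (ξ : H) (a : ι) :
    (mult s z d ξ a : ℝ)⁻¹ * rat z d ξ a ≤ s⁻¹ := by
  have h1 := one_le_mult s z d ξ a
  rw [inv_mul_le_iff₀ (by linarith), ← div_eq_mul_inv, le_div_iff₀ hs, mul_comm, mult]
  push_cast
  exact (Nat.lt_floor_add_one _).le

theorem dmom_mass [Fintype ι] {d d' : ι → Op H} (L : Lev M N ξ d d') {z : Op H} (hz : z ∈ M) {s : ℝ}
    (hs : 0 < s) : ∑ a, (mult s z d ξ a : ℝ) * ‖d a ξ‖ ^ 2 ≤ s * ‖z ξ‖ ^ 2 + ‖ξ‖ ^ 2 := by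
  rw [← L.sum_norm_sq fun a => comm_of_mem (L.dM' a) hz, ← L.pu.sum_norm_sq ξ, Finset.mul_sum,
    ← Finset.sum_add_distrib]
  refine Finset.sum_le_sum fun a _ => ?_
  rw [← rat_mul, ← mul_assoc, ← add_one_mul, mult]
  push_cast
  gcongr
  exact Nat.floor_le (mul_nonneg hs.le (rat_nonneg _ _ _ _))

theorem dmom_best (D : MS M N ξ) {z : Op H} (hz : z ∈ M) {ε : ℝ} (hε : 0 < ε) :
    ∀ᶠ k in atTop, ∑ a, ‖D.d k a (star z (z (D.d k a ξ))) - rat z (D.d k) ξ a • D.d k a ξ‖ ^ 2 ≤ ε := by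
  filter_upwards [D.ms (star z (z ξ)) ε hε] with k ⟨c, hc⟩
  refine le_trans (Finset.sum_le_sum fun a _ => ?_) hc
  have L := D.lev k
  have h1 : D.d' k a (star z (z ξ)) = star z (z (D.d k a ξ)) :=
    (L.apply_d (z := star z * z) (fun a => comm_of_mem (L.dM' a) (mul_mem (star_mem hz) hz)) a).symm
  rw [h1]
  set v := D.d k a (star z (z (D.d k a ξ))) with hv
  set w := D.d k a ξ with hw
  set r := rat z (D.d k) ξ a with hr
  have h2 : ⟪w, v - r • w⟫_ℂ = 0 := by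
    have h3 : ⟪w, v⟫_ℂ = ((r * ‖w‖ ^ 2 : ℝ) : ℂ) := by
      rw [hv, ← L.pu.inner_left, hw, L.pu.apply_apply, inner_star_right, hr, rat_mul,
        inner_self_eq_norm_sq_to_K]
      simp
    rw [inner_sub_right, h3, ← Complex.coe_smul, inner_smul_right, inner_self_eq_norm_sq_to_K]
    simp
  have h4 : v - c a • w = ((r : ℂ) - c a) • w + (v - r • w) := by
    rw [sub_smul, Complex.coe_smul]; abel
  rw [h4, norm_add_sq (𝕜 := ℂ), inner_smul_left, h2]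
  simp

theorem dmom_diag (D : MS M N ξ) {z : Op H} (hz : z ∈ M) {s ε : ℝ} (hs : 0 < s) (hε : 0 < ε) :
    ∀ᶠ k in atTop, ∑ a, (mult s z (D.d k) ξ a : ℝ)⁻¹ * ‖D.d k a (star z (z (D.d k a ξ)))‖ ^ 2 ≤
      2 * (‖z ξ‖ ^ 2 / s) + ε := by
  filter_upwards [dmom_best D hz (half_pos hε)] with k hk
  have L := D.lev k
  have h1 : ∀ a, (mult s z (D.d k) ξ a : ℝ)⁻¹ * ‖D.d k a (star z (z (D.d k a ξ)))‖ ^ 2 ≤
      2 * (‖z (D.d k a ξ)‖ ^ 2 / s) +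
        2 * ‖D.d k a (star z (z (D.d k a ξ))) - rat z (D.d k) ξ a • D.d k a ξ‖ ^ 2 := fun a => by
    set v := D.d k a (star z (z (D.d k a ξ)))
    have h0 := rat_nonneg z (D.d k) ξ a
    have h2 := mult_inv_rat hs z (D.d k) ξ a
    have h3 := mult_inv_le s z (D.d k) ξ a
    rw [← rat_mul z (D.d k) ξ a]
    set r := rat z (D.d k) ξ a
    set w := D.d k a ξ
    set μ := (mult s z (D.d k) ξ a : ℝ)⁻¹
    have h4 : 0 ≤ μ := by positivity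
    have h5 : ‖v‖ ≤ r * ‖w‖ + ‖v - r • w‖ := by
      have := norm_add_le (r • w) (v - r • w)
      rwa [add_sub_cancel, norm_smul, Real.norm_of_nonneg h0] at this
    have h6 : ‖v‖ ^ 2 ≤ 2 * (r * ‖w‖) ^ 2 + 2 * ‖v - r • w‖ ^ 2 :=
      (pow_le_pow_left₀ (norm_nonneg _) h5 2).trans
        (by nlinarith [sq_nonneg (r * ‖w‖ - ‖v - r • w‖)])
    calc μ * ‖v‖ ^ 2 ≤ μ * (2 * (r * ‖w‖) ^ 2 + 2 * ‖v - r • w‖ ^ 2) := by gcongr
      _ = 2 * (μ * r * (r * ‖w‖ ^ 2)) + 2 * (μ * ‖v - r • w‖ ^ 2) := by ring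
      _ ≤ 2 * (s⁻¹ * (r * ‖w‖ ^ 2)) + 2 * (1 * ‖v - r • w‖ ^ 2) := by gcongr
      _ = _ := by ring
  refine (Finset.sum_le_sum fun a _ => h1 a).trans ?_
  rw [Finset.sum_add_distrib, ← Finset.mul_sum, ← Finset.mul_sum, ← Finset.sum_div,
    L.sum_norm_sq fun a => comm_of_mem (L.dM' a) hz]
  linarith

theorem dmom_op [Fintype ι] {d d' : ι → Op H} (L : Lev M N ξ d d') {z : Op H} (hz : z ∈ M) {s : ℝ}
    (hs : 0 < s) : ∃ T ∈ M, ‖T‖ ≤ ‖z‖ ^ 2 + s⁻¹ ∧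
      ‖T ξ‖ ^ 2 ≤ ∑ a, ‖d a (star z (z (d a ξ))) - rat z d ξ a • d a ξ‖ ^ 2 ∧
      ∀ ζ, ∑ a, (mult s z d ξ a : ℝ)⁻¹ * ‖z (d a ζ)‖ ^ 2 ≤ ‖ζ‖ ^ 2 / s + qf T ζ := by
  have h0 : ∀ a, 0 ≤ (mult s z d ξ a : ℝ)⁻¹ := fun a => by positivity
  refine ⟨∑ a, d a * ((mult s z d ξ a : ℝ)⁻¹ • (star z * z - rat z d ξ a • 1)) * d a,
    sum_mem fun a _ => mul_mem (mul_mem (L.dM a) (vn_rsmul_mem _ (sub_mem
      (mul_mem (star_mem hz) hz) (vn_rsmul_mem _ (one_mem _))))) (L.dM a),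
    L.pu.norm_diag_le _ (by positivity) fun a => ?_, ?_, fun ζ => ?_⟩
  · rw [smul_sub, smul_smul]
    refine (norm_sub_le _ _).trans (add_le_add ?_ ?_)
    · rw [norm_smul, Real.norm_of_nonneg (h0 a), CStarRing.norm_star_mul_self, ← sq]
      exact mul_le_of_le_one_left (sq_nonneg _) (mult_inv_le s z d ξ a)
    · rw [norm_smul, Real.norm_of_nonneg (mul_nonneg (h0 a) (rat_nonneg _ _ _ _))]
      exact (mul_le_of_le_one_right (mul_nonneg (h0 a) (rat_nonneg _ _ _ _))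
        ContinuousLinearMap.norm_id_le).trans (mult_inv_rat hs z d ξ a)
  · simp only [_root_.sum_apply, mul_apply_eq_comp]
    rw [L.pu.norm_sum_sq]
    refine Finset.sum_le_sum fun a _ => pow_le_pow_left₀ (norm_nonneg _) ?_ 2
    simp only [smul_apply, sub_apply, mul_apply_eq_comp, one_apply_eq_self,
      ContinuousLinearMap.map_smul_of_tower, map_sub, L.pu.apply_apply, norm_smul,
      Real.norm_of_nonneg (h0 a)]
    exact mul_le_of_le_one_left (norm_nonneg _) (mult_inv_le s z d ξ a)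
  · rw [qf_sum, ← L.pu.sum_norm_sq ζ, Finset.sum_div, ← Finset.sum_add_distrib]
    refine Finset.sum_le_sum fun a _ => ?_
    have h1 := qf_conj ((mult s z d ξ a : ℝ)⁻¹ • (star z * z - rat z d ξ a • 1)) (d a) ζ
    rw [L.pu.star_eq] at h1
    rw [h1, qf_rsmul, qf_sub, qf_rsmul, qf_one, qf_star_mul_self]
    have h2 := mul_le_mul_of_nonneg_right (mult_inv_rat hs z d ξ a) (sq_nonneg ‖d a ζ‖)
    rw [div_eq_inv_mul]
    linarith

theorem dmom_off (D : MS M N ξ) (hc : Dense (orb M.commutant ξ)) {z : Op H} (hz : z ∈ M) (ζ : H)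
    {s ε : ℝ} (hs : 0 < s) (hε : 0 < ε) :
    ∀ᶠ k in atTop, ∑ a, (mult s z (D.d k) ξ a : ℝ)⁻¹ * ‖z (D.d k a ζ)‖ ^ 2 ≤ ‖ζ‖ ^ 2 / s + ε := by
  obtain ⟨K, hK⟩ : ∃ K, K = ‖z‖ ^ 2 + s⁻¹ := ⟨_, rfl⟩
  have hK0 : 0 < K := by rw [hK]; positivity
  obtain ⟨e, he⟩ : ∃ e, e = ε / (‖ζ‖ + 1) / 2 := ⟨_, rfl⟩
  have he0 : 0 < e := by rw [he]; positivity
  obtain ⟨C, hC, hu⟩ := ua_of_cyc hc ζ (div_pos he0 hK0)
  have h0 : 0 < e / (C + 1) := by positivity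
  filter_upwards [dmom_best D hz (pow_pos h0 2)] with k hk
  obtain ⟨T, hT, n1, n2, h1⟩ := dmom_op (D.lev k) hz hs
  refine (h1 ζ).trans (add_le_add le_rfl ?_)
  have h2 : ‖T ξ‖ ≤ e / (C + 1) := (abs_le_of_sq_le_sq' (n2.trans hk) h0.le).2
  have h3 : ‖T ζ‖ ≤ e + e := by
    refine (hu T hT).trans (add_le_add ?_ ?_)
    · rw [div_mul_eq_mul_div, div_le_iff₀ hK0, hK]
      gcongr
    · refine (mul_le_mul_of_nonneg_left h2 hC).trans ?_
      rw [mul_div_assoc', div_le_iff₀ (by positivity)]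
      nlinarith
  have h4 : qf T ζ ≤ ‖ζ‖ * ‖T ζ‖ := (Complex.re_le_norm _).trans (norm_inner_le_norm _ _)
  have h5 : (‖ζ‖ + 1) * (e + e) = ε := by rw [he]; field_simp; ring
  have h6 := mul_le_mul_of_nonneg_left h3 (norm_nonneg ζ)
  linarith

end Vale.Agent.P096
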