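import Vale.Agent.P096.Basic

/-!
# P096 part D: partitions of unity, one level of a maximal abelian system
-/

namespace Vale.Agent.P096

open Vale.Agent.P104 Vale.Agent.P132 Filter Topology
open scoped InnerProductSpace

variable {H : Type*} [NormedAddCommGroup H] [InnerProductSpace ℂ H] [CompleteSpace H]
  {M N : VonNeumannAlgebra H} {ξ : H} {ι κ : Type*} [Fintype ι] [Fintype κ]

/-- a finite partition of unity -/
structure PU (e : ι → Op H) : Prop where
  proj : ∀ a, IsStarProjection (e a)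
  orth : ∀ a b, a ≠ b → e a * e b = 0
  sum : ∑ a, e a = 1

/-- one level of a maximal abelian system -/
structure Lev (M N : VonNeumannAlgebra H) (ξ : H) (d d' : ι → Op H) : Prop where
  pu : PU d
  pu' : PU d'
  dM : ∀ a, d a ∈ M
  dN : ∀ a, d a ∈ N
  dM' : ∀ a, d' a ∈ M.commutant
  dN' : ∀ a, d' a ∈ N.commutant
  vec : ∀ a, d a ξ = d' a ξ

theorem MS.lev (D : MS M N ξ) (k : ℕ) : Lev M N ξ (D.d k) (D.d' k) :=
  ⟨⟨D.proj k, D.orth k, D.sum k⟩, ⟨D.proj' k, D.orth' k, D.sum' k⟩, D.dM k, D.dN k, D.dM' k,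
    D.dN' k, D.vec k⟩

variable {e : ι → Op H} {f : κ → Op H}

theorem PU.star_eq (h : PU e) (a : ι) : star (e a) = e a := (h.proj a).isSelfAdjoint.star_eq

theorem PU.idem (h : PU e) (a : ι) : e a * e a = e a := (h.proj a).isIdempotentElem.eq

theorem PU.apply_apply (h : PU e) (a : ι) (v : H) : e a (e a v) = e a v := by
  rw [← mul_apply_eq_comp, h.idem]

theorem PU.inner_left (h : PU e) (a : ι) (v w : H) : ⟪e a v, w⟫_ℂ = ⟪v, e a w⟫_ℂ := by
  rw [← inner_star_left, h.star_eq]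

theorem PU.norm_apply_le (h : PU e) (a : ι) (v : H) : ‖e a v‖ ≤ ‖v‖ :=
  (PIso.of_proj (h.proj a)).norm_apply_le v

theorem PU.sum_apply (h : PU e) (v : H) : ∑ a, e a v = v := by
  rw [← _root_.sum_apply, h.sum, one_apply_eq_self]

theorem PU.norm_sum_sq (h : PU e) (v : ι → H) :
    ‖∑ a, e a (v a)‖ ^ 2 = ∑ a, ‖e a (v a)‖ ^ 2 := by
  have h1 : ⟪∑ a, e a (v a), ∑ a, e a (v a)⟫_ℂ = ∑ a, ⟪e a (v a), e a (v a)⟫_ℂ := by
    rw [sum_inner]
    refine Finset.sum_congr rfl fun a _ => ?_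
    rw [inner_sum, Finset.sum_eq_single a _ (by simp)]
    intro b _ hb
    rw [h.inner_left, ← mul_apply_eq_comp, h.orth a b hb.symm]
    simp
  simp only [inner_self_eq_norm_sq_to_K] at h1
  exact_mod_cast h1

theorem PU.sum_norm_sq (h : PU e) (v : H) : ∑ a, ‖e a v‖ ^ 2 = ‖v‖ ^ 2 := by
  rw [← h.norm_sum_sq fun _ => v, h.sum_apply]

theorem PU.norm_sum_sq_le (h : PU e) (v : ι → H) :
    ‖∑ a, e a (v a)‖ ^ 2 ≤ ∑ a, ‖v a‖ ^ 2 := by
  rw [h.norm_sum_sq]
  exact Finset.sum_le_sum fun a _ => pow_le_pow_left₀ (norm_nonneg _) (h.norm_apply_le a _) 2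

theorem PU.prod (h : PU e) (h' : PU f) (hc : ∀ a b, e a * f b = f b * e a) :
    PU fun p : ι × κ => e p.1 * f p.2 where
  proj p := (h.proj p.1).mul (h'.proj p.2) (hc _ _)
  orth p q hpq := by
    by_cases h1 : p.1 = q.1
    · have h2 : p.2 ≠ q.2 := fun h2 => hpq (Prod.ext h1 h2)
      rw [hc q.1, mul_assoc, ← mul_assoc (f p.2), h'.orth _ _ h2, zero_mul, mul_zero]
    · rw [hc p.1, mul_assoc, ← mul_assoc (e p.1), h.orth _ _ h1, zero_mul, mul_zero]
  sum := by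
    rw [Fintype.sum_prod_type]
    simp only [← Finset.mul_sum, h'.sum, mul_one, h.sum]

/-- block diagonal operators -/
theorem PU.norm_diag_le (h : PU e) (T : ι → Op H) {c : ℝ} (hc : 0 ≤ c) (hT : ∀ a, ‖T a‖ ≤ c) :
    ‖∑ a, e a * T a * e a‖ ≤ c := by
  refine ContinuousLinearMap.opNorm_le_bound _ hc fun v => ?_
  refine abs_le_of_sq_le_sq' ?_ (by positivity) |>.2
  simp only [_root_.sum_apply, mul_apply_eq_comp]
  refine (h.norm_sum_sq_le _).trans ?_
  rw [mul_pow, ← h.sum_norm_sq v, Finset.mul_sum]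
  refine Finset.sum_le_sum fun a _ => ?_
  rw [← mul_pow]
  exact pow_le_pow_left₀ (norm_nonneg _) (((T a).le_opNorm _).trans
    (mul_le_mul_of_nonneg_right (hT a) (norm_nonneg _))) 2

variable {d d' : ι → Op H}

theorem Lev.swap (L : Lev M N ξ d d') : Lev N M ξ d d' :=
  ⟨L.pu, L.pu', L.dN, L.dM, L.dN', L.dM', L.vec⟩

theorem Lev.comm (L : Lev M N ξ d d') (a b : ι) : d a * d' b = d' b * d a :=
  (comm_of_mem (L.dM' b) (L.dM a)).symm

theorem Lev.pu2 (L : Lev M N ξ d d') : PU fun p : ι × ι => d p.1 * d' p.2 :=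
  L.pu.prod L.pu' L.comm

/-- an operator which commutes with the `d'` -/
theorem Lev.apply_d (L : Lev M N ξ d d') {z : Op H} (hz : ∀ a, d' a * z = z * d' a) (a : ι) :
    z (d a ξ) = d' a (z ξ) := by
  rw [L.vec, ← mul_apply_eq_comp, ← hz, mul_apply_eq_comp]

theorem Lev.sum_norm_sq (L : Lev M N ξ d d') {z : Op H} (hz : ∀ a, d' a * z = z * d' a) :
    ∑ a, ‖z (d a ξ)‖ ^ 2 = ‖z ξ‖ ^ 2 := by
  simp only [L.apply_d hz]
  exact L.pu'.sum_norm_sq _

end Vale.Agent.P096
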