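import Vale.Agent.P096.DPart

/-!
# P096 part D: the matrix with repeated blocks, reconstruction and moment sums
-/

namespace Vale.Agent.P096

open Vale.Agent.P104 Vale.Agent.P132 Filter Topology
open scoped InnerProductSpace

variable {H : Type*} [NormedAddCommGroup H] [InnerProductSpace ℂ H] [CompleteSpace H]
  {M N : VonNeumannAlgebra H} {ξ : H} {ι : Type*} [Fintype ι] {d d' : ι → Op H}

/-- the index set with multiplicities -/
abbrev Idx (m : ι → ℕ) : Type _ := Σ a, Fin (m a)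

/-- the weight -/
noncomputable def wgt (m k : ι → ℕ) (r : Idx m) (c : Idx k) : ℝ := (√(m r.1))⁻¹ * (√(k c.1))⁻¹

/-- the unsigned matrix -/
noncomputable def blk (d : ι → Op H) (x : Op H) (m k : ι → ℕ) (r : Idx m) (c : Idx k) : Op H :=
  wgt m k r c • (d r.1 * x * d c.1)

/-- reconstruction -/
noncomputable def rec0 (d : ι → Op H) (m k : ι → ℕ) (ε : Idx m → Idx k → ℝ)
    (Y : Idx m → Idx k → Op H) : Op H :=
  ∑ r, ∑ c, (ε r c * wgt m k r c) • (d r.1 * Y r c * d c.1)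

variable {m k : ι → ℕ} {ε : Idx m → Idx k → ℝ}

omit [Fintype ι] in
theorem wgt_comm (r : Idx m) (c : Idx k) : wgt m k r c = wgt k m c r := mul_comm _ _

omit [Fintype ι] in
theorem wgt_sq (r : Idx m) (c : Idx k) :
    wgt m k r c * wgt m k r c = (m r.1 : ℝ)⁻¹ * (k c.1 : ℝ)⁻¹ := by
  rw [wgt, mul_mul_mul_comm, ← mul_inv, ← mul_inv, Real.mul_self_sqrt (Nat.cast_nonneg _),
    Real.mul_self_sqrt (Nat.cast_nonneg _)]

theorem sum_idx {V : Type*} [AddCommGroup V] [Module ℝ V] (hm : ∀ a, 0 < m a) (f : ι → V) :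
    ∑ r : Idx m, (m r.1 : ℝ)⁻¹ • f r.1 = ∑ a, f a := by
  rw [Fintype.sum_sigma]
  refine Finset.sum_congr rfl fun a _ => ?_
  have : (m a : ℝ) ≠ 0 := by exact_mod_cast (hm a).ne'
  simp only [Finset.sum_const, Finset.card_univ, Fintype.card_fin]
  rw [← Nat.cast_smul_eq_nsmul ℝ, smul_smul, mul_inv_cancel₀ this, one_smul]

theorem sum_idx2 {V : Type*} [AddCommMonoid V] (f : Idx m → Idx k → V) : ∑ r, ∑ c, f r c =
    ∑ p : ι × ι, ∑ q : Fin (m p.1) × Fin (k p.2), f ⟨p.1, q.1⟩ ⟨p.2, q.2⟩ := by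
  simp only [Fintype.sum_sigma, Fintype.sum_prod_type]
  exact Finset.sum_congr rfl fun a _ => Finset.sum_comm

theorem star_blk (h : PU d) (x : Op H) (r : Idx m) (c : Idx k) :
    star (blk d x m k r c) = blk d (star x) k m c r := by
  simp only [blk, star_smul, star_trivial, star_mul, h.star_eq, mul_assoc, wgt_comm r c]

theorem star_rec0 (h : PU d) (Y : Idx m → Idx k → Op H) :
    star (rec0 d m k ε Y) = rec0 d k m (fun c r => ε r c) fun c r => star (Y r c) := by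
  rw [rec0, rec0, Finset.sum_comm]
  simp only [star_sum, star_smul, star_trivial, star_mul, h.star_eq, mul_assoc]
  exact Finset.sum_congr rfl fun c _ => Finset.sum_congr rfl fun r _ => by rw [wgt_comm]

omit [CompleteSpace H] in
theorem rec0_sub (Y Z : Idx m → Idx k → Op H) :
    rec0 d m k ε (fun r c => Y r c - Z r c) = rec0 d m k ε Y - rec0 d m k ε Z := by
  simp only [rec0, mul_sub, sub_mul, smul_sub, Finset.sum_sub_distrib]

theorem rec0_blk (h : PU d) (hm : ∀ a, 0 < m a) (hk : ∀ a, 0 < k a) (hε : ∀ r c, ε r c * ε r c = 1)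
    (x : Op H) : rec0 d m k ε (fun r c => ε r c • blk d x m k r c) = x := by
  have h1 : ∀ r c, (ε r c * wgt m k r c) • (d r.1 * (ε r c • blk d x m k r c) * d c.1) =
      (m r.1 : ℝ)⁻¹ • (k c.1 : ℝ)⁻¹ • (d r.1 * x * d c.1) := fun r c => by
    simp only [blk, mul_smul_comm, smul_mul_assoc, smul_smul]
    rw [← mul_assoc (d r.1), ← mul_assoc (d r.1), h.idem, mul_assoc _ (d c.1), h.idem,
      mul_mul_mul_comm, hε, one_mul, wgt_sq]
  simp only [rec0, h1, ← Finset.smul_sum]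
  rw [sum_idx hm fun a => ∑ c : Idx k, (k c.1 : ℝ)⁻¹ • (d a * x * d c.1)]
  have h2 : ∀ a, ∑ c : Idx k, (k c.1 : ℝ)⁻¹ • (d a * x * d c.1) = d a * x := fun a => by
    rw [sum_idx hk fun b => d a * x * d b, ← Finset.mul_sum, h.sum, mul_one]
  simp only [h2, ← Finset.sum_mul, h.sum, one_mul]

theorem rec0_norm (L : Lev M N ξ d d') (hε : ∀ r c, ε r c * ε r c = 1) (Z : Idx m → Idx k → Op H)
    (hZ : ∀ r c a, d' a * Z r c = Z r c * d' a) :
    ‖rec0 d m k ε Z ξ‖ ≤ l2 fun p : Idx m × Idx k => Z p.1 p.2 (d p.2.1 ξ) := by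
  let v : ι × ι → H := fun p => ∑ q : Fin (m p.1) × Fin (k p.2),
    (ε ⟨p.1, q.1⟩ ⟨p.2, q.2⟩ * wgt m k ⟨p.1, q.1⟩ ⟨p.2, q.2⟩) • Z ⟨p.1, q.1⟩ ⟨p.2, q.2⟩ (d p.2 ξ)
  have h1 : rec0 d m k ε Z ξ = ∑ p : ι × ι, (d p.1 * d' p.2) (v p) := by
    rw [rec0, sum_idx2, _root_.sum_apply]
    refine Finset.sum_congr rfl fun p _ => ?_
    simp only [v, _root_.sum_apply, map_sum, smul_apply, ContinuousLinearMap.map_smul_of_tower,
      mul_apply_eq_comp]
    refine Finset.sum_congr rfl fun q _ => ?_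
    rw [L.apply_d (hZ _ _), L.pu'.apply_apply]
  refine (abs_le_of_sq_le_sq' ?_ (l2_nonneg _)).2
  rw [l2_sq, Fintype.sum_prod_type, sum_idx2, h1]
  refine (L.pu2.norm_sum_sq_le v).trans (Finset.sum_le_sum fun p _ => ?_)
  refine (pow_le_pow_left₀ (norm_nonneg _) (norm_sum_le _ _) 2).trans ?_
  simp only [norm_smul]
  refine (Finset.sum_mul_sq_le_sq_mul_sq _ _ _).trans (mul_le_of_le_one_left (by positivity) ?_)
  have h2 : ∀ r c, ‖ε r c * wgt m k r c‖ ^ 2 = (m r.1 : ℝ)⁻¹ * (k c.1 : ℝ)⁻¹ := fun r c => by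
    rw [Real.norm_eq_abs, sq_abs, sq, mul_mul_mul_comm, hε, one_mul, wgt_sq]
  simp only [h2, Finset.sum_const, Finset.card_univ, Fintype.card_prod, Fintype.card_fin,
    nsmul_eq_mul, Nat.cast_mul, ← mul_inv]
  exact mul_inv_le_one

theorem blk_mom (L : Lev M N ξ d d') (hm : ∀ a, 0 < m a) (hk : ∀ a, 0 < k a) {x : Op H}
    (hx : x ∈ M) :
    ∑ c : Idx k, ‖∑ r : Idx m, star (blk d x m k r c) (blk d x m k r c (d c.1 ξ))‖ ^ 2 +
      ∑ c' : Idx k, ∑ c : Idx k, ∑ r : Idx m,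
        ‖star (blk d x m k r c') (blk d x m k r c (d c.1 ξ))‖ ^ 2 =
    ∑ b, (k b : ℝ)⁻¹ * ‖d b (star x (x (d b ξ)))‖ ^ 2 +
      ∑ a, (m a : ℝ)⁻¹ * ‖star x (d a (x ξ))‖ ^ 2 := by
  have h1 : ∀ (r : Idx m) (c' c : Idx k), star (blk d x m k r c') (blk d x m k r c (d c.1 ξ)) =
      (wgt m k r c' * wgt m k r c) • d c'.1 (star x (d r.1 (x (d c.1 ξ)))) := fun r c' c => by
    simp only [blk, star_smul, star_trivial, star_mul, L.pu.star_eq, smul_apply,
      ContinuousLinearMap.map_smul_of_tower, mul_apply_eq_comp, L.pu.apply_apply, smul_smul]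
  simp only [h1]
  congr 1
  · rw [← sum_idx hk fun b => (k b : ℝ)⁻¹ * ‖d b (star x (x (d b ξ)))‖ ^ 2]
    refine Finset.sum_congr rfl fun c _ => ?_
    simp only [wgt_sq, mul_smul]
    rw [sum_idx hm fun a => (k c.1 : ℝ)⁻¹ • d c.1 (star x (d a (x (d c.1 ξ)))), ← Finset.smul_sum,
      ← map_sum, ← map_sum, L.pu.sum_apply, norm_smul, Real.norm_eq_abs, mul_pow, sq_abs,
      smul_eq_mul]
    ring
  · let g : ι → ι → ι → ℝ := fun b' b a => (m a : ℝ)⁻¹ * ‖d b' (star x (d a (x (d b ξ))))‖ ^ 2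
    have h2 : ∀ (r : Idx m) (c' c : Idx k),
        ‖(wgt m k r c' * wgt m k r c) • d c'.1 (star x (d r.1 (x (d c.1 ξ))))‖ ^ 2 =
          (k c'.1 : ℝ)⁻¹ • (k c.1 : ℝ)⁻¹ • (m r.1 : ℝ)⁻¹ • g c'.1 c.1 r.1 := fun r c' c => by
      rw [norm_smul, Real.norm_eq_abs, mul_pow, sq_abs, sq, mul_mul_mul_comm, wgt_sq, wgt_sq]
      simp only [smul_eq_mul, g]
      ring
    simp only [h2, ← Finset.smul_sum, sum_idx hm (g _ _)]
    have h3 : ∀ b', ∑ c : Idx k, (k c.1 : ℝ)⁻¹ • ∑ a, g b' c.1 a = ∑ b, ∑ a, g b' b a :=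
      fun b' => sum_idx hk fun b => ∑ a, g b' b a
    simp only [h3]
    rw [sum_idx hk fun b' => ∑ b, ∑ a, g b' b a, Finset.sum_comm]
    have h4 : ∀ b, ∑ b', ∑ a, g b' b a = ∑ a, (m a : ℝ)⁻¹ * ‖star x (d a (x (d b ξ)))‖ ^ 2 :=
      fun b => by
        rw [Finset.sum_comm]
        simp only [g, ← Finset.mul_sum, L.pu.sum_norm_sq]
    simp only [h4]
    rw [Finset.sum_comm]
    refine Finset.sum_congr rfl fun a _ => ?_
    rw [← Finset.mul_sum]
    exact congrArg _ (L.sum_norm_sq (z := star x * d a * x) fun b =>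
      comm_of_mem (L.dM' b) (mul_mem (mul_mem (star_mem hx) (L.dM a)) hx))

end Vale.Agent.P096
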