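import Vale.Agent.P132.L2

/-!
# P096 part D: random signs, fourth moments
`Ω = R × C → Bool`; for `r ≠ r'`, `c ≠ c'` the flip of the sign at `(r, c)` shows that the average of the product of the four signs vanishes.
-/

namespace Vale.Agent.P096

open Vale.Agent.P104 Vale.Agent.P132
open scoped InnerProductSpace

variable {H : Type*} [NormedAddCommGroup H] [InnerProductSpace ℂ H]
  {R C : Type*} [Fintype R] [Fintype C]

theorem dsign_orth {Ω : Type*} [Fintype Ω] (s : Ω → R → ℝ) (h1 : ∀ ω r, s ω r * s ω r = 1)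
    (h2 : ∀ r r', r ≠ r' → ∑ ω, s ω r * s ω r' = 0) (v : R → H) :
    ∑ ω, ‖∑ r, s ω r • v r‖ ^ 2 = Fintype.card Ω * ∑ r, ‖v r‖ ^ 2 := by
  let _ : InnerProductSpace ℝ H := InnerProductSpace.complexToReal
  simp only [← real_inner_self_eq_norm_sq, sum_inner, inner_sum, real_inner_smul_left,
    real_inner_smul_right]
  rw [Finset.sum_comm, Finset.mul_sum]
  refine Finset.sum_congr rfl fun r _ => ?_
  rw [Finset.sum_comm, Finset.sum_eq_single r _ (by simp)]
  · simp [← mul_assoc, h1]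
  · intro r' _ hr
    simp only [← mul_assoc]
    rw [← Finset.sum_mul, h2 _ _ hr.symm, zero_mul]

theorem dsign_mean {Ω : Type*} [Fintype Ω] (e : Ω → R → C → ℝ) (h1 : ∀ ω r c, e ω r c * e ω r c = 1)
    (h2 : ∀ r r' c c', r ≠ r' → c ≠ c' → ∑ ω, e ω r c' * e ω r c * (e ω r' c' * e ω r' c) = 0)
    (u : R → C → C → H) :
    ∑ ω, ∑ c', ∑ c, ‖∑ r, (e ω r c' * e ω r c) • u r c' c‖ ^ 2 ≤
      Fintype.card Ω * (∑ c, ‖∑ r, u r c c‖ ^ 2 + ∑ c', ∑ c, ∑ r, ‖u r c' c‖ ^ 2) := by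
  classical
  have h3 : ∑ c, ‖∑ r, u r c c‖ ^ 2 = ∑ c', ∑ c, if c = c' then ‖∑ r, u r c c‖ ^ 2 else 0 := by simp
  rw [h3, ← Finset.sum_add_distrib, Finset.mul_sum, Finset.sum_comm]
  refine Finset.sum_le_sum fun c' _ => ?_
  rw [← Finset.sum_add_distrib, Finset.mul_sum, Finset.sum_comm]
  refine Finset.sum_le_sum fun c _ => ?_
  split_ifs with h
  · subst h
    simp only [h1, one_smul, Finset.sum_const, Finset.card_univ, nsmul_eq_mul, mul_add]
    exact le_add_of_nonneg_right (by positivity)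
  · rw [zero_add, dsign_orth (fun ω r => e ω r c' * e ω r c)
      (fun ω r => by rw [mul_mul_mul_comm, h1, h1, mul_one]) fun r r' hr => h2 _ _ _ _ hr h]

/-- the sign of a bit -/
def sg (b : Bool) : ℝ := if b then 1 else -1

theorem sg_sq (b : Bool) : sg b * sg b = 1 := by cases b <;> simp [sg]

theorem sg_not (b : Bool) : sg (!b) = -sg b := by cases b <;> simp [sg]

theorem dsign_four {T : Type*} [Fintype T] [DecidableEq T] {p q r s : T} (hq : q ≠ p) (hr : r ≠ p)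
    (hs : s ≠ p) : ∑ ω : T → Bool, sg (ω q) * sg (ω p) * (sg (ω r) * sg (ω s)) = 0 := by
  have hi : Function.Involutive fun ω : T → Bool => Function.update ω p (!ω p) := fun ω => by simp
  have h1 := Equiv.sum_comp hi.toPerm fun ω => sg (ω q) * sg (ω p) * (sg (ω r) * sg (ω s))
  simp only [Function.Involutive.coe_toPerm, Function.update_self, Function.update_of_ne hq,
    Function.update_of_ne hr, Function.update_of_ne hs, sg_not, mul_neg, neg_mul,
    Finset.sum_neg_distrib] at h1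
  linarith

theorem dsign (u : R → C → C → H) (w : C → R → R → H) {a b : ℝ} (ha : 0 < a) (hb : 0 < b)
    (hu : ∑ c, ‖∑ r, u r c c‖ ^ 2 + ∑ c', ∑ c, ∑ r, ‖u r c' c‖ ^ 2 ≤ a)
    (hw : ∑ r, ‖∑ c, w c r r‖ ^ 2 + ∑ r', ∑ r, ∑ c, ‖w c r' r‖ ^ 2 ≤ b) :
    ∃ ε : R → C → ℝ, (∀ r c, ε r c * ε r c = 1) ∧
      ∑ c', ∑ c, ‖∑ r, (ε r c' * ε r c) • u r c' c‖ ^ 2 ≤ 2 * a ∧
      ∑ r', ∑ r, ‖∑ c, (ε r' c * ε r c) • w c r' r‖ ^ 2 ≤ 2 * b := by
  classical
  let e : (R × C → Bool) → R → C → ℝ := fun ω r c => sg (ω (r, c))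
  have h1 : ∀ ω r c, e ω r c * e ω r c = 1 := fun _ _ _ => sg_sq _
  have m1 := dsign_mean e h1 (fun r r' c c' hr hc => dsign_four (by simp [hc.symm])
    (by simp [hr.symm]) (by simp [hr.symm])) u
  have m2 := dsign_mean (fun ω c r => e ω r c) (fun _ _ _ => h1 _ _ _)
    (fun c c' r r' hc hr => dsign_four (by simp [hr.symm]) (by simp [hc.symm])
      (by simp [hc.symm])) w
  set F : (R × C → Bool) → ℝ := fun ω => ∑ c', ∑ c, ‖∑ r, (e ω r c' * e ω r c) • u r c' c‖ ^ 2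
  set G : (R × C → Bool) → ℝ := fun ω => ∑ r', ∑ r, ‖∑ c, (e ω r' c * e ω r c) • w c r' r‖ ^ 2
  have hF : ∀ ω, 0 ≤ F ω / a := fun ω => by positivity
  have hG : ∀ ω, 0 ≤ G ω / b := fun ω => by positivity
  obtain ⟨ω, -, hω⟩ := Finset.exists_le_of_sum_le (s := Finset.univ) (f := fun ω => F ω / a + G ω / b)
    (g := fun _ => 2) Finset.univ_nonempty (by
      rw [Finset.sum_add_distrib, ← Finset.sum_div, ← Finset.sum_div, Finset.sum_const,
        Finset.card_univ, nsmul_eq_mul, mul_two]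
      refine add_le_add ?_ ?_
      · rw [div_le_iff₀ ha]
        exact m1.trans (by gcongr)
      · rw [div_le_iff₀ hb]
        exact m2.trans (by gcongr))
  refine ⟨e ω, h1 ω, ?_, ?_⟩
  · rw [← div_le_iff₀ ha]
    linarith [hG ω]
  · rw [← div_le_iff₀ hb]
    linarith [hF ω]

end Vale.Agent.P096
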