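import Vale.Agent.P096.DTrunc
import Vale.Agent.P096.DSign
import Vale.Agent.P096.DMom
import Vale.Agent.P096.DRec

/-! # P096 part D: simultaneous approximation of `x ξ` and `x* ξ` -/

namespace Vale.Agent.P096

open Vale.Agent.P104 Vale.Agent.P132 Filter Topology
open scoped InnerProductSpace

universe u

section

variable {H : Type*} [NormedAddCommGroup H] [InnerProductSpace ℂ H] [CompleteSpace H]
  {M N : VonNeumannAlgebra H} {ξ : H} {ι : Type*} [Fintype ι] {d d' : ι → Op H} {δ : ℝ}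

omit [CompleteSpace H] in
theorem ds0_l2 (m : ι → ℕ) : l2 (fun c : Idx m => d c.1 ξ) = √(∑ a, (m a : ℝ) * ‖d a ξ‖ ^ 2) := by
  rw [l2, Fintype.sum_sigma]
  simp

theorem ds0_core (L : Lev M N ξ d d') (h : Cl M N δ) (hδ : 0 ≤ δ) {x : Op H} (hx : x ∈ M)
    {m k : ι → ℕ} (hm : ∀ a, 0 < m a) (hk : ∀ a, 0 < k a) {a b Λ : ℝ} (ha : 0 < a) (hb : 0 < b)
    (hΛ : 0 < Λ)
    (h1 : ∑ b, (k b : ℝ)⁻¹ * ‖d b (star x (x (d b ξ)))‖ ^ 2 +
      ∑ a, (m a : ℝ)⁻¹ * ‖star x (d a (x ξ))‖ ^ 2 ≤ a)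
    (h2 : ∑ a, (m a : ℝ)⁻¹ * ‖d a (x (star x (d a ξ)))‖ ^ 2 +
      ∑ b, (k b : ℝ)⁻¹ * ‖x (d b (star x ξ))‖ ^ 2 ≤ b) :
    ∃ y ∈ N, ‖(x - y) ξ‖ ≤ 160 * δ * Λ * √(∑ b, (k b : ℝ) * ‖d b ξ‖ ^ 2) + Λ⁻¹ * √(2 * a) ∧
      ‖star (x - y) ξ‖ ≤ 160 * δ * Λ * √(∑ a, (m a : ℝ) * ‖d a ξ‖ ^ 2) + Λ⁻¹ * √(2 * b) := by
  have e1 := blk_mom L hm hk hx
  have e2 := blk_mom L hk hm (star_mem hx)
  simp only [← star_blk L.pu x, star_star] at e2
  obtain ⟨ε, hε, hu, hw⟩ := dsign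
    (fun (r : Idx m) (c' c : Idx k) => star (blk d x m k r c') (blk d x m k r c (d c.1 ξ)))
    (fun (c : Idx k) (r' r : Idx m) => blk d x m k r' c (star (blk d x m k r c) (d r.1 ξ)))
    ha hb (e1 ▸ h1) (e2 ▸ h2)
  have hX : ∀ r c, ε r c • blk d x m k r c ∈ M := fun r c =>
    vn_rsmul_mem _ (vn_rsmul_mem _ (mul_mem (mul_mem (L.dM _) hx) (L.dM _)))
  obtain ⟨Y, hY, hc, hr⟩ := drect h hδ (fun r c => ε r c • blk d x m k r c) hX hΛ
  have hZ : ∀ r c a, d' a * (ε r c • blk d x m k r c - Y r c) =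
      (ε r c • blk d x m k r c - Y r c) * d' a := fun r c a => by
    rw [mul_sub, sub_mul, comm_of_mem (L.dM' a) (hX r c), comm_of_mem (L.dN' a) (hY r c)]
  have e3 : x - rec0 d m k ε Y = rec0 d m k ε fun r c => ε r c • blk d x m k r c - Y r c := by
    rw [rec0_sub, rec0_blk L.pu hm hk hε]
  refine ⟨rec0 d m k ε Y, sum_mem fun r _ => sum_mem fun c _ =>
    vn_rsmul_mem _ (mul_mem (mul_mem (L.dN _) (hY r c)) (L.dN _)), ?_, ?_⟩
  · rw [e3]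
    refine (rec0_norm L hε _ hZ).trans ((hc fun c => d c.1 ξ).trans ?_)
    rw [ds0_l2]
    gcongr
    refine Real.sqrt_le_sqrt (le_of_eq_of_le ?_ hu)
    rw [Fintype.sum_prod_type]
    simp only [star_smul, star_trivial, smul_apply, ContinuousLinearMap.map_smul_of_tower,
      smul_smul]
  · rw [e3, star_rec0 L.pu]
    refine (rec0_norm L (fun c r => hε r c) _ fun c r a => ?_).trans ?_
    · rw [← L.pu'.star_eq a, ← star_mul, ← star_mul, hZ]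
    rw [l2_prod, ← l2_prod' fun p : Idx m × Idx k =>
      star (ε p.1 p.2 • blk d x m k p.1 p.2 - Y p.1 p.2) (d p.1.1 ξ)]
    refine (hr fun r => d r.1 ξ).trans ?_
    rw [ds0_l2]
    gcongr
    refine Real.sqrt_le_sqrt (le_of_eq_of_le ?_ hw)
    rw [Fintype.sum_prod_type]
    simp only [star_smul, star_trivial, smul_apply, ContinuousLinearMap.map_smul_of_tower,
      smul_smul]

end

theorem ds0_arith {κ ε t B S : ℝ} (hκ : 0 < κ) (hε : 0 < ε) (ht : t = κ / ε) (hB : 0 ≤ B)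
    (hS : S ≤ t ^ 2 * B ^ 2 + 1 ^ 2) :
    160 * (κ ^ 2 / 1920) * (6 / κ / t) * √S +
      (6 / κ / t)⁻¹ * √(2 * (3 * (B ^ 2 / t ^ 2) + 2 * (ε / (κ * t)) ^ 2)) ≤ κ * B + ε := by
  have ht0 : 0 < t := by rw [ht]; positivity
  have h1 : √S ≤ t * B + 1 := by
    refine Real.sqrt_le_iff.2 ⟨by positivity, hS.trans ?_⟩
    have : 0 ≤ t * B := by positivity
    nlinarith
  have h2 : √(2 * (3 * (B ^ 2 / t ^ 2) + 2 * (ε / (κ * t)) ^ 2)) ≤
      3 * (B / t) + 2 * (ε / (κ * t)) := by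
    refine Real.sqrt_le_iff.2 ⟨by positivity, ?_⟩
    rw [← div_pow]
    have h3 : 0 ≤ B / t := by positivity
    have h4 : 0 ≤ ε / (κ * t) := by positivity
    nlinarith [mul_nonneg h3 h4]
  have h3 : 160 * (κ ^ 2 / 1920) * (6 / κ / t) * (t * B + 1) +
      (6 / κ / t)⁻¹ * (3 * (B / t) + 2 * (ε / (κ * t))) = κ * B + 5 / 6 * ε := by
    have : κ = t * ε := by rw [ht]; field_simp
    rw [this]
    field_simp
    ring
  calc _ ≤ 160 * (κ ^ 2 / 1920) * (6 / κ / t) * (t * B + 1) +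
      (6 / κ / t)⁻¹ * (3 * (B / t) + 2 * (ε / (κ * t))) := by gcongr
    _ ≤ _ := by rw [h3]; linarith

theorem ds0 : S0Stmt.{u} := by
  intro κ hκ
  refine ⟨κ ^ 2 / 1920, by positivity, fun H _ _ _ M N ξ h1 hc D hcl x hx ε hε => ?_⟩
  set t := κ / ε with ht
  have ht0 : 0 < t := by positivity
  have hs : 0 < t ^ 2 := by positivity
  have he : 0 < (ε / (κ * t)) ^ 2 := by positivity
  obtain ⟨j, ⟨a1, a2⟩, a3, a4⟩ := (((dmom_diag D hx hs he).and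
    (dmom_off D hc (star_mem hx) (x ξ) hs he)).and ((dmom_diag D (star_mem hx) hs he).and
    (dmom_off D hc hx (star x ξ) hs he))).exists
  rw [star_star] at a3
  obtain ⟨y, hy, b1, b2⟩ := ds0_core (D.lev j) hcl (by positivity) hx
    (m := mult (t ^ 2) (star x) (D.d j) ξ) (k := mult (t ^ 2) x (D.d j) ξ)
    (fun _ => Nat.succ_pos _) (fun _ => Nat.succ_pos _)
    (a := 3 * (‖x ξ‖ ^ 2 / t ^ 2) + 2 * (ε / (κ * t)) ^ 2)
    (b := 3 * (‖star x ξ‖ ^ 2 / t ^ 2) + 2 * (ε / (κ * t)) ^ 2) (Λ := 6 / κ / t)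
    (by positivity) (by positivity) (by positivity) (by linarith) (by linarith)
  refine ⟨y, hy, b1.trans (ds0_arith hκ hε ht (norm_nonneg _) ?_),
    b2.trans (ds0_arith hκ hε ht (norm_nonneg _) ?_)⟩
  · exact h1 ▸ dmom_mass (D.lev j) hx hs
  · exact h1 ▸ dmom_mass (D.lev j) (star_mem hx) hs

end Vale.Agent.P096
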