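import Vale.Agent.P096.Basic

/-!
# P096 part D: truncation and approximation of rectangular matrices
* `dtrunc`: `R = (1 + Λ⁻² X* X)⁻¹`, `R' = (1 + Λ⁻² X X*)⁻¹`, `X R = R' X`, `X₁ = X R`, `X - X₁ = Λ⁻² X₁ X* X`, `(X - X₁)* = Λ⁻² X₁* X X*`;
  `‖X₁‖ ≤ Λ` because `‖w + Λ⁻² X* X w‖² ≥ Λ⁻² ‖X w‖²`.
* `drect`: amplification with index `Option (R ⊕ C)`, `Cl.amp`.
-/

namespace Vale.Agent.P096

open Vale.Agent.P104 Vale.Agent.P132 Filter Topology
open scoped InnerProductSpace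

variable {H : Type*} [NormedAddCommGroup H] [InnerProductSpace ℂ H] [CompleteSpace H]
  {M N : VonNeumannAlgebra H} {δ : ℝ}

theorem dtrunc_inv (X : Op H) {c : ℝ} (hc : 0 ≤ c) :
    ∃ R : Op H, (1 + c • (star X * X)) * R = 1 ∧ R * (1 + c • (star X * X)) = 1 := by
  have h : IsUnit (1 + c • (star X * X)) :=
    CStarAlgebra.isUnit_of_le 1 (le_add_of_nonneg_right (smul_nonneg hc (star_mul_self_nonneg X)))
  obtain ⟨u, hu⟩ := h
  exact ⟨u.inv, by rw [← hu]; exact u.val_inv, by rw [← hu]; exact u.inv_val⟩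

theorem dtrunc {X : Op H} (hX : X ∈ M) {Λ : ℝ} (hΛ : 0 < Λ) : ∃ X₁ ∈ M, ‖X₁‖ ≤ Λ ∧
    (∀ ζ, ‖(X - X₁) ζ‖ ≤ Λ⁻¹ * ‖star X (X ζ)‖) ∧
      ∀ ζ, ‖star (X - X₁) ζ‖ ≤ Λ⁻¹ * ‖X (star X ζ)‖ := by
  set c : ℝ := Λ⁻¹ ^ 2 with hc
  have hc0 : 0 < c := by positivity
  obtain ⟨R, r1, r2⟩ := dtrunc_inv X hc0.le
  obtain ⟨R', r3, r4⟩ := dtrunc_inv (star X) hc0.le
  rw [star_star] at r3 r4
  have e0 : (1 + c • (X * star X)) * X = X * (1 + c • (star X * X)) := by
    simp only [add_mul, mul_add, one_mul, mul_one, smul_mul_assoc, mul_smul_comm, mul_assoc]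
  have e1 : X * R = R' * X := by
    calc X * R = R' * ((1 + c • (X * star X)) * X) * R := by rw [← mul_assoc R', r4, one_mul]
      _ = R' * X := by rw [e0, mul_assoc, mul_assoc, r1, mul_one]
  have hn : ‖X * R‖ ≤ Λ := by
    refine ContinuousLinearMap.opNorm_le_bound _ hΛ.le fun ζ => ?_
    have h1 : ζ = R ζ + c • star X (X (R ζ)) := by
      conv_lhs => rw [← one_apply_eq_self (F := Op H) ζ, ← r1]
      simp only [mul_apply_eq_comp, add_apply, one_apply_eq_self, smul_apply]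
    have h2 : (⟪R ζ, c • star X (X (R ζ))⟫_ℂ).re = c * ‖X (R ζ)‖ ^ 2 := by
      rw [← qf_star_mul_self, ← qf_rsmul]; rfl
    have h3 : ‖ζ‖ ^ 2 = ‖R ζ‖ ^ 2 + 2 * (c * ‖X (R ζ)‖ ^ 2) + ‖c • star X (X (R ζ))‖ ^ 2 := by
      conv_lhs => rw [h1]
      rw [← h2]
      exact norm_add_sq (𝕜 := ℂ) _ _
    have h4 : c * ‖X (R ζ)‖ ^ 2 ≤ ‖ζ‖ ^ 2 := by
      have : 0 ≤ c * ‖X (R ζ)‖ ^ 2 := by positivity
      nlinarith [sq_nonneg ‖R ζ‖, sq_nonneg ‖c • star X (X (R ζ))‖]
    refine (abs_le_of_sq_le_sq' ?_ (by positivity)).2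
    rw [mul_pow, mul_apply_eq_comp, ← inv_mul_le_iff₀ (by positivity), ← inv_pow]
    exact h4
  have e2 : X - X * R = c • (X * R * (star X * X)) := by
    have : X = X * (R * (1 + c • (star X * X))) := by rw [r2, mul_one]
    conv_lhs => enter [1]; rw [this]
    simp only [mul_add, mul_one, mul_smul_comm, mul_assoc, add_sub_cancel_left]
  have e3 : X - X * R = c • (X * star X * (X * R)) := by
    have : X = (1 + c • (X * star X)) * R' * X := by rw [r3, one_mul]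
    conv_lhs => enter [1]; rw [this]
    simp only [e1, add_mul, one_mul, smul_mul_assoc, mul_assoc, add_sub_cancel_left]
  have key : ∀ (T : Op H) (v : H), ‖T‖ ≤ Λ → ‖c • T v‖ ≤ Λ⁻¹ * ‖v‖ := fun T v hT => by
    rw [norm_smul, Real.norm_of_nonneg hc0.le]
    calc c * ‖T v‖ ≤ c * (Λ * ‖v‖) := by
          gcongr
          exact (T.le_opNorm v).trans (by gcongr)
      _ = _ := by rw [hc]; field_simp
  refine ⟨X * R, mul_mem hX (vn_inv_mem (add_mem (one_mem _)
    (vn_rsmul_mem _ (mul_mem (star_mem hX) hX))) r1 r2), hn, fun ζ => ?_, fun ζ => ?_⟩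
  · rw [e2]
    exact key _ _ hn
  · rw [e3, star_smul, star_trivial, star_mul (X * star X), star_mul X (star X), star_star]
    exact key _ _ (by rwa [norm_star])

variable {R C : Type*} [Fintype R] [Fintype C]

section
variable {K : Type*} [NormedAddCommGroup K] [InnerProductSpace ℂ K] [CompleteSpace K]
  {ι : Type*} [Fintype ι] [DecidableEq ι]

theorem drect_l2 (A : Amp H K ι) {j : R → ι} (hj : Function.Injective j) (v : K) :
    ∑ r, ‖(A.J (j r)).adjoint v‖ ^ 2 ≤ ‖v‖ ^ 2 := by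
  rw [A.norm_sq_eq]
  refine (Finset.sum_map Finset.univ ⟨j, hj⟩ fun a => ‖(A.J a).adjoint v‖ ^ 2).symm.trans_le ?_
  exact Finset.sum_le_sum_of_subset_of_nonneg (Finset.subset_univ _) fun _ _ _ => sq_nonneg _

theorem drect_norm (A : Amp H K ι) {j : R → ι} (hj : Function.Injective j) (v : R → H) :
    ‖∑ r, A.J (j r) (v r)‖ ^ 2 = ∑ r, ‖v r‖ ^ 2 := by
  have h1 : ⟪∑ r, A.J (j r) (v r), ∑ r, A.J (j r) (v r)⟫_ℂ = ∑ r, ⟪v r, v r⟫_ℂ := by
    classical
    simp only [sum_inner, inner_sum, A.inner_J, hj.eq_iff, Finset.sum_ite_eq',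
      Finset.mem_univ, if_true]
  simp only [inner_self_eq_norm_sq_to_K] at h1
  exact_mod_cast h1

/-- the operator of a rectangular matrix -/
noncomputable def rmat (A : Amp H K ι) (i : R → ι) (j : C → ι) (X : R → C → Op H) : Op K :=
  ∑ r, ∑ c, A.J (i r) ∘L X r c ∘L (A.J (j c)).adjoint

theorem rmat_J (A : Amp H K ι) (i : R → ι) {j : C → ι} (hj : Function.Injective j)
    (X : R → C → Op H) (c : C) (v : H) : rmat A i j X (A.J (j c) v) = ∑ r, A.J (i r) (X r c v) := by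
  classical
  simp [rmat, A.adj_J_apply, hj.eq_iff, apply_ite]

theorem star_rmat (A : Amp H K ι) (i : R → ι) (j : C → ι) (X : R → C → Op H) :
    star (rmat A i j X) = rmat A j i fun c r => star (X r c) := by
  rw [rmat, rmat, Finset.sum_comm]
  simp [star_sum, ContinuousLinearMap.star_eq_adjoint, ContinuousLinearMap.adjoint_comp,
    ContinuousLinearMap.comp_assoc]

theorem rmat_mem (A : Amp H K ι) (i : R → ι) (j : C → ι) {X : R → C → Op H}
    (hX : ∀ r c, X r c ∈ M) : rmat A i j X ∈ A.alg M := by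
  refine sum_mem fun r _ => sum_mem fun c _ => ?_
  have : A.J (i r) ∘L X r c ∘L (A.J (j c)).adjoint = A.E (i r) (j c) * A.amp (X r c) := by
    ext v
    simp [A.E_apply, A.adj_amp]
  rw [this]
  exact mul_mem (A.E_mem M _ _) (A.amp_mem (hX r c))

theorem drect_half (A : Amp H K ι) {i : R → ι} {j : C → ι} (hi : Function.Injective i)
    (hj : Function.Injective j) (X : R → C → Op H) (Y : Op K) {α β : ℝ} (hα : 0 ≤ α) (hβ : 0 ≤ β)
    (h : ∀ v, ‖(rmat A i j X - Y) v‖ ≤ α * ‖v‖ + β * ‖star (rmat A i j X) (rmat A i j X v)‖)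
    (ζ : C → H) :
    l2 (fun p : R × C => X p.1 p.2 (ζ p.2) - (A.J (i p.1)).adjoint (Y (A.J (j p.2) (ζ p.2)))) ≤
      α * l2 ζ + β * l2 fun p : C × C => ∑ r, star (X r p.1) (X r p.2 (ζ p.2)) := by
  classical
  rw [l2_prod', l2_prod']
  have h1 : ∀ c, l2 (fun r => X r c (ζ c) - (A.J (i r)).adjoint (Y (A.J (j c) (ζ c)))) ≤
      α * ‖ζ c‖ + β * l2 fun c' => ∑ r, star (X r c') (X r c (ζ c)) := fun c => by
    have h2 := h (A.J (j c) (ζ c))
    have h3 : star (rmat A i j X) (rmat A i j X (A.J (j c) (ζ c))) =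
        ∑ c', A.J (j c') (∑ r, star (X r c') (X r c (ζ c))) := by
      rw [star_rmat, rmat_J A i hj, map_sum]
      simp only [rmat_J A j hi, map_sum]
      exact Finset.sum_comm
    rw [A.norm_J, h3, ← Real.sqrt_sq (norm_nonneg (∑ c', _)), drect_norm A hj] at h2
    refine le_trans ?_ h2
    rw [l2_le_iff (norm_nonneg _)]
    refine le_of_eq_of_le (Finset.sum_congr rfl fun r _ => ?_) (drect_l2 A hi _)
    simp [rmat_J A i hj, A.adj_J_apply, hi.eq_iff]
  calc _ ≤ l2 fun c => α * ‖ζ c‖ + β * l2 fun c' => ∑ r, star (X r c') (X r c (ζ c)) :=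
        l2_mono fun c => by
          rw [Real.norm_of_nonneg (l2_nonneg _)]
          exact (h1 c).trans (le_abs_self _)
    _ ≤ _ := (l2_add_le _ _).trans (add_le_add
        (l2_le_mul hα fun c => by rw [norm_mul, norm_norm, Real.norm_of_nonneg hα])
        (l2_le_mul hβ fun c => by rw [norm_mul, Real.norm_of_nonneg hβ]))

end

theorem drect (h : Cl M N δ) (hδ : 0 ≤ δ) (X : R → C → Op H) (hX : ∀ r c, X r c ∈ M) {Λ : ℝ}
    (hΛ : 0 < Λ) : ∃ Y : R → C → Op H, (∀ r c, Y r c ∈ N) ∧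
      (∀ ζ : C → H, l2 (fun p : R × C => (X p.1 p.2 - Y p.1 p.2) (ζ p.2)) ≤ 160 * δ * Λ * l2 ζ +
        Λ⁻¹ * l2 fun p : C × C => ∑ r, star (X r p.1) (X r p.2 (ζ p.2))) ∧
      ∀ η : R → H, l2 (fun p : R × C => star (X p.1 p.2 - Y p.1 p.2) (η p.1)) ≤
        160 * δ * Λ * l2 η + Λ⁻¹ * l2 fun p : R × R => ∑ c, X p.1 c (star (X p.2 c) (η p.2)) := by
  classical
  obtain ⟨A, -⟩ := exists_piAmp H (Option (R ⊕ C))
  let i : R → Option (R ⊕ C) := fun r => some (.inl r)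
  let j : C → Option (R ⊕ C) := fun c => some (.inr c)
  have hi : Function.Injective i := fun _ _ h => by simpa [i] using h
  have hj : Function.Injective j := fun _ _ h => by simpa [j] using h
  obtain ⟨X₁, m1, n1, a1, a2⟩ := dtrunc (rmat_mem A i j hX) hΛ
  obtain ⟨Y, hY, hn⟩ := (h.amp hδ A).mn X₁ m1
  have hn' : ‖X₁ - Y‖ ≤ 160 * δ * Λ := hn.trans (by gcongr)
  have e : rmat A i j X - Y = X₁ - Y + (rmat A i j X - X₁) := by abel
  refine ⟨fun r c => (A.J (i r)).adjoint ∘L Y ∘L A.J (j c), fun r c => A.entry_mem hY _ _,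
    fun ζ => ?_, fun η => ?_⟩
  · refine drect_half A hi hj X Y (by positivity) (by positivity) (fun v => ?_) ζ
    rw [e, add_apply]
    exact (norm_add_le _ _).trans (add_le_add (((X₁ - Y).le_opNorm v).trans (by gcongr)) (a1 v))
  · have h1 := drect_half A hj hi (fun c r => star (X r c)) (star Y) (α := 160 * δ * Λ) (β := Λ⁻¹)
      (by positivity) (by positivity) (fun v => ?_) η
    · rw [l2_prod'] at h1
      rw [l2_prod]
      simpa [ContinuousLinearMap.star_eq_adjoint, ContinuousLinearMap.adjoint_comp] using h1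
    · rw [← star_rmat, ← star_sub, star_star, e, star_add, add_apply]
      refine (norm_add_le _ _).trans (add_le_add (((star (X₁ - Y)).le_opNorm v).trans ?_) (a2 v))
      exact mul_le_mul_of_nonneg_right ((norm_star (X₁ - Y)).trans_le hn') (norm_nonneg _)

end Vale.Agent.P096
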