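import Vale.Agent.P096.ERU

/-!
# P096 part E: all times
* `long_good`: `U = T.Δ t * S.Δ (-t)`, `U x U* = σ_T t (σ_S (-t) x)`; `s ∈ S.M'` is within `δ ‖s‖` of `s₁ ∈ T.M'`, `[σ_T t x₁, s₁] = σ_T t [x₁, σ_T (-t) s₁]` (`σ_comm`, `NI.comm_le`); `δ ≤ 1`.
* `long_gen`: `U j = T.Δ (j/8) * S.Δ (-(j/8))`, `U (j+1) - U j = T.Δ (j/8) (T.Δ (1/8) - S.Δ (1/8)) S.Δ (-((j+1)/8))`. `path`, `E = 10 ^ 8 η ^ 2 ≤ η / 10`, `L j = m j + m' j`.
  `U (j+k) = U j * S.Δ (j/8) * U k * S.Δ (-(j/8))` and `ex (L k)` commutes with `S.Δ`, so `‖ex (L (j+k)) - ex (L j + L k)‖ ≤ 3 E`. Induction on `k` with `norm_ex_sub`, `norm_le_ex`: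
  `‖L (j+k) - L j - L k‖ ≤ 6 E` (it is at most `6 E + 32 η ≤ 1/2`). Weak limits `K₁`, `K₂` of `(n+1)⁻¹ • m n`, `(n+1)⁻¹ • m' n` (norms at most `8 η`) along `hyperfilter ℕ`, `Log.lim`.
  `hyers`: `‖j (n+1)⁻¹ L n - L j‖ ≤ 6 E + C / (n+1)`, so `‖j K - L j‖ ≤ 6 E` for `j > 0` (`W.norm_le`, `le_of_forall_pos_le_add`); `j = 0` is trivial.
* `long`: `V t = ex ((8 t) • K) * S.Δ t`. For `t ≥ 0`, `j = ⌊8 t⌋₊`, `t = j/8 + r`: `V t - T.Δ t = (V (j/8) - T.Δ (j/8)) V r + T.Δ (j/8) (V r - T.Δ r)`, `‖V r - T.Δ r‖ ≤ ‖K‖ + η`. Adjoints for `t ≤ 0`.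
-/

namespace Vale.Agent.P096

open Vale.Agent.P104 Vale.Agent.P132 Filter Topology
open scoped InnerProductSpace BoundedContinuousFunction

universe u

variable {H : Type u} [NormedAddCommGroup H] [InnerProductSpace ℂ H] [CompleteSpace H]
  {S T : SF H} {δ η : ℝ}

theorem elong_unitary (F : FC H) (t : ℝ) : F.Δ t ∈ unitary (Op H) :=
  Unitary.mem_iff.2 ⟨by rw [F.star_Δ, F.Δ_neg_mul], by rw [F.star_Δ, F.Δ_mul_neg]⟩

theorem elong_comm {D : MS S.M T.M S.ξ} {m m' : Op H} (h : D.Log m m') (t : ℝ) :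
    S.Δ t * (m + m') = (m + m') * S.Δ t :=
  h.comm_of (D.cd_Θ S rfl rfl _).1 (D.cd_Θ S rfl rfl _).2

theorem long_good (hξ : S.ξ = T.ξ) (D : MS S.M T.M S.ξ) (hcl : Cl S.M T.M δ) (hδ0 : 0 ≤ δ)
    (hδ : δ ≤ 1) (t : ℝ) : D.Good (T.Δ t * S.Δ (-t)) (6 * δ) := by
  have h1 := D.swap.cd_Θ T rfl hξ.symm (eB t)
  have h2 := D.cd_Θ S rfl rfl (eB (-t))
  have hs : star (T.Δ t * S.Δ (-t)) = S.Δ t * T.Δ (-t) := by
    rw [star_mul, S.star_Δ, T.star_Δ, neg_neg]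
  refine ⟨MS.Cd.mul (D := D) h1.1 h2.1, MS.Cd.mul (D := D.comm) h1.2 h2.2, ?_, fun x hx s hs' => ?_⟩
  · rw [(Unitary.mem_iff.1 (mul_mem (elong_unitary T.toFC t) (elong_unitary S.toFC (-t)))).1,
      sub_self, norm_zero]
    positivity
  · have e : T.Δ t * S.Δ (-t) * x * star (T.Δ t * S.Δ (-t)) = T.σ t (S.σ (-t) x) := by
      rw [hs]
      simp only [FC.σ, neg_neg, mul_assoc]
    obtain ⟨s₁, k1, k2⟩ := hcl.mn' s hs'
    have k3 : ‖s₁‖ ≤ 2 * ‖s‖ := by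
      have := norm_sub_norm_le s₁ s
      rw [norm_sub_rev] at this
      nlinarith [norm_nonneg s]
    have k4 := hcl.mn.comm_le (S.σ_M x hx (-t)) (σ_comm T k1 (-t))
    rw [← T.norm_σ t, T.σ_sub, T.σ_mul, T.σ_mul, T.σ_σ t (-t) s₁, add_neg_cancel, T.σ_zero,
      S.norm_σ, T.norm_σ] at k4
    have k5 : ‖T.σ t (S.σ (-t) x)‖ = ‖x‖ := by rw [T.norm_σ, S.norm_σ]
    rw [e]
    set y := T.σ t (S.σ (-t) x)
    have e2 : y * s - s * y = (y * s₁ - s₁ * y) + (y * (s - s₁) - (s - s₁) * y) := by noncomm_ring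
    have k6 := (norm_mul_le y (s - s₁)).trans (mul_le_mul_of_nonneg_left k2 (norm_nonneg y))
    have k7 := (norm_mul_le (s - s₁) y).trans (mul_le_mul_of_nonneg_right k2 (norm_nonneg y))
    have k8 := mul_le_mul_of_nonneg_left k3 (show 0 ≤ 2 * δ * ‖x‖ by positivity)
    rw [k5] at k6 k7
    rw [e2]
    linarith [norm_add_le (y * s₁ - s₁ * y) (y * (s - s₁) - (s - s₁) * y),
      norm_sub_le (y * (s - s₁)) ((s - s₁) * y)]

theorem long_gen (hξ : S.ξ = T.ξ) (D : MS S.M T.M S.ξ) (hcl : Cl S.M T.M δ) (hδ0 : 0 ≤ δ)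
    (hδ : 6 * δ ≤ η ^ 2) (hη : η ≤ 1 / 10 ^ 9) (h : ‖S.Δ (1 / 8) - T.Δ (1 / 8)‖ ≤ η) :
    ∃ m m', D.Log m m' ∧ ‖m + m'‖ ≤ 16 * η ∧
      ∀ j : ℕ, ‖T.Δ (j / 8) * S.Δ (-(j / 8)) - ex ((j : ℝ) • (m + m'))‖ ≤ η := by
  have hη0 : 0 ≤ η := (norm_nonneg _).trans h
  have hδ1 : δ ≤ 1 := by nlinarith
  set U : ℕ → Op H := fun j => T.Δ (j / 8) * S.Δ (-(j / 8)) with hU
  have hU0 : U 0 = 1 := by simp [hU, FC.Δ_zero]
  have hUu : ∀ j, U j ∈ unitary (Op H) := fun j =>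
    mul_mem (elong_unitary T.toFC _) (elong_unitary S.toFC _)
  have hUa : ∀ j k, U (j + k) = U j * S.σ (j / 8) (U k) := fun j k => by
    simp only [hU, FC.σ]
    rw [Nat.cast_add, add_div, T.Δ_add, neg_add_rev, S.Δ_add]
    simp only [mul_assoc]
    rw [← mul_assoc (S.Δ _) (S.Δ _), S.Δ_neg_mul, one_mul]
  obtain ⟨m, m', hL, hE, a0, b0, hs⟩ := MS.path (D := D) S.cyc S.cyc' (U := U) hη
    (fun j => (long_good hξ D hcl hδ0 hδ1 _).mono hδ) (by rwa [hU0, sub_self, norm_zero])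
    fun j => by
      have e : U 1 - 1 = (T.Δ (1 / 8) - S.Δ (1 / 8)) * S.Δ (-(1 / 8)) := by
        simp only [hU, Nat.cast_one, sub_mul, S.Δ_mul_neg]
      have e2 : U (j + 1) - U j = U j * S.σ (j / 8) (U 1 - 1) := by
        rw [hUa, S.σ_sub, S.σ_one, mul_sub, mul_one]
      rw [e2, CStarRing.norm_mem_unitary_mul _ (hUu j), S.norm_σ, e,
        CStarRing.norm_mul_mem_unitary _ (elong_unitary S.toFC _), norm_sub_rev]
      exact h
  set E := 10 ^ 8 * η ^ 2 with hE'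
  have E0 : 0 ≤ E := by positivity
  have E1 : E ≤ η / 10 := by rw [hE']; nlinarith
  set L : ℕ → Op H := fun j => m j + m' j with hL'
  have hsa : ∀ j, IsSelfAdjoint (L j) := fun j => (hL j).sa_add
  have hcm : ∀ j k, L j * L k = L k * L j := fun j k => (hL j).comm (hL k)
  have hst : ∀ j, ‖L (j + 1) - L j‖ ≤ 16 * η := fun j => by
    have e : L (j + 1) - L j = (m (j + 1) - m j) + (m' (j + 1) - m' j) := by simp only [hL']; abel
    rw [e]
    linarith [norm_add_le (m (j + 1) - m j) (m' (j + 1) - m' j), (hs j).1, (hs j).2]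
  have h3 : ∀ j k, ‖ex (L (j + k) - (L j + L k)) - 1‖ ≤ 3 * E := fun j k => by
    rw [← norm_ex_sub (hsa _) ((hsa j).add (hsa k)) (by
        rw [mul_add, add_mul (L j), hcm _ j, hcm _ k]),
      ex_add (hcm j k)]
    have e1 : S.σ (j / 8) (ex (L k)) = ex (L k) :=
      (S.σ_eq_iff _ _).2 (ex_comm (elong_comm (hL k) _))
    have e : ex (L (j + k)) - ex (L j) * ex (L k) = -(U (j + k) - ex (L (j + k))) +
        (U j * S.σ (j / 8) (U k - ex (L k)) + (U j - ex (L j)) * ex (L k)) := by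
      rw [hUa, S.σ_sub, e1]
      noncomm_ring
    rw [e]
    refine (norm_add_le_of_le ((norm_neg _).le.trans (hE _)) (norm_add_le_of_le ?_ ?_)).trans
      (show E + (E + E) ≤ _ by linarith)
    · rw [CStarRing.norm_mem_unitary_mul _ (hUu j), S.norm_σ]
      exact hE k
    · rw [norm_mul_ex (hsa k)]
      exact hE j
  have h4 : ∀ j k, ‖L (j + k) - L j - L k‖ ≤ 6 * E := fun j k => by
    have key : ∀ k, ‖L (j + k) - L j - L k‖ ≤ 1 / 2 → ‖L (j + k) - L j - L k‖ ≤ 6 * E :=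
      fun k hk => by
      have := norm_le_ex (((hsa _).sub (hsa j)).sub (hsa k)) hk
      have h5 := h3 j k
      rw [← sub_sub] at h5
      linarith
    induction k with
    | zero =>
      refine key 0 ?_
      rw [add_zero, sub_self, zero_sub, norm_neg]
      linarith [norm_add_le (m 0) (m' 0)]
    | succ k ih =>
      refine key _ ?_
      have e : L (j + (k + 1)) - L j - L (k + 1) =
          (L (j + k) - L j - L k) + (L (j + k + 1) - L (j + k)) - (L (k + 1) - L k) := by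
        rw [add_assoc j]; abel
      rw [e]
      refine (norm_sub_le_of_le (norm_add_le_of_le ih (hst _)) (hst _)).trans ?_
      linarith
  have h5 : ∀ a : ℕ → Op H, ‖a 0‖ ≤ 8 * η → (∀ j, ‖a (j + 1) - a j‖ ≤ 8 * η) →
      ∀ n : ℕ, ‖((n : ℝ) + 1)⁻¹ • a n‖ ≤ 8 * η := fun a k0 k1 n => by
    have k2 : ‖a n‖ ≤ (n + 1) * (8 * η) := by
      induction n with
      | zero => simpa using k0
      | succ n ih =>
        have := norm_sub_norm_le (a (n + 1)) (a n)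
        push_cast
        linarith [k1 n]
    rw [norm_smul, norm_inv, Real.norm_of_nonneg (by positivity), inv_mul_le_iff₀ (by positivity)]
    exact k2
  have n1 := h5 m a0 fun j => (hs j).1
  have n2 := h5 m' b0 fun j => (hs j).2
  obtain ⟨K₁, w1⟩ := exists_W (hyperfilter ℕ) _ (.of_forall n1)
  obtain ⟨K₂, w2⟩ := exists_W (hyperfilter ℕ) _ (.of_forall n2)
  have hK : D.Log K₁ K₂ := MS.Log.lim (fun n => (hL n).smul _) w1 w2
  refine ⟨K₁, K₂, hK, (norm_add_le_of_le (w1.norm_le (.of_forall n1))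
    (w2.norm_le (.of_forall n2))).trans (by linarith), fun j => ?_⟩
  change ‖U j - _‖ ≤ η
  rcases j.eq_zero_or_pos with rfl | hj
  · rwa [hU0, Nat.cast_zero, zero_smul, ex_zero, sub_self, norm_zero]
  obtain ⟨C, hC⟩ := hyers h4 hj
  have h6 : ‖(j : ℝ) • (K₁ + K₂) - L j‖ ≤ 6 * E := by
    refine le_of_forall_pos_le_add fun ε hε => ?_
    refine (((w1.add w2).smul ((j : ℝ) : ℂ)).sub (W.const (L j))).norm_le ?_
    refine Eventually.filter_mono Nat.hyperfilter_le_atTop ?_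
    filter_upwards [eventually_ge_atTop ⌈(C + ‖L j‖) / ε⌉₊] with n hn
    have k1 : C + ‖L j‖ ≤ n * ε := by
      rw [← div_le_iff₀ hε]
      exact Nat.ceil_le.1 hn
    have k2 : (n : ℝ) + 1 ≠ 0 := by positivity
    have e : (j : ℝ) • (((n : ℝ) + 1)⁻¹ • m n + ((n : ℝ) + 1)⁻¹ • m' n) - L j =
        ((n : ℝ) + 1)⁻¹ • (((j : ℝ) • L n - (n : ℝ) • L j) - L j) := by
      have e0 : (n : ℝ) • L j + L j = ((n : ℝ) + 1) • L j := by rw [add_smul, one_smul]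
      rw [← smul_add, smul_comm, sub_sub, e0, smul_sub, inv_smul_smul₀ k2]
    change ‖(j : ℝ) • _ - L j‖ ≤ _
    rw [e, norm_smul, norm_inv, Real.norm_of_nonneg (by positivity),
      inv_mul_le_iff₀ (by positivity)]
    refine (norm_sub_le_of_le (hC n) le_rfl).trans ?_
    nlinarith
  have hK' := hK.smul (j : ℝ)
  have s1 := hK'.sa_add
  have s2 := hK'.comm (hL j)
  rw [← smul_add] at s1 s2
  have h7 := (norm_ex_sub s1 (hsa j) s2).le.trans ((norm_ex_sub_one (s1.sub (hsa j))).trans h6)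
  rw [norm_sub_rev] at h7
  linarith [norm_sub_le_norm_sub_add_norm_sub (U j) (ex (L j)) (ex ((j : ℝ) • (K₁ + K₂))), hE j]

theorem long (hξ : S.ξ = T.ξ) (D : MS S.M T.M S.ξ) (hcl : Cl S.M T.M δ) (hδ0 : 0 ≤ δ)
    (hδ : 6 * δ ≤ η ^ 2) (hη : η ≤ 1 / 10 ^ 9) (h : ∀ t, |t| ≤ 1 / 8 → ‖S.Δ t - T.Δ t‖ ≤ η) :
    ∃ V, Flow S.M V ∧ ∀ t, ‖V t - T.Δ t‖ ≤ 18 * η := by
  obtain ⟨m, m', hL, hK, hj⟩ := long_gen hξ D hcl hδ0 hδ hη (h _ (by rw [abs_of_pos] <;> norm_num))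
  set K := m + m' with hK'
  have hsa : ∀ r : ℝ, IsSelfAdjoint (r • K) := fun r => (IsSelfAdjoint.all r).smul hL.sa_add
  have hc : ∀ r t : ℝ, S.Δ t * ex (r • K) = ex (r • K) * S.Δ t := fun r t =>
    ex_comm (by rw [mul_smul_comm, smul_mul_assoc, elong_comm hL])
  set V : ℝ → Op H := fun t => ex ((8 * t) • K) * S.Δ t with hV
  have hF : Flow S.M V := by
    refine ⟨by simp [hV, ex_zero, FC.Δ_zero], fun s t => ?_, fun t => ?_, fun ζ => ?_,
      fun t x hx => ?_⟩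
    · simp only [hV]
      rw [mul_add, add_smul, ex_add (by simp only [mul_smul_comm, smul_mul_assoc, smul_comm (8 * s)]),
        S.Δ_add, mul_assoc, mul_assoc, ← mul_assoc (S.Δ s), hc, mul_assoc]
    · simp only [hV]
      rw [star_mul, star_ex (hsa _), S.star_Δ, ← neg_smul, hc, mul_neg]
    · exact ((continuous_ex K).comp (continuous_const_mul 8)).clm_apply (S.continuous_Δ ζ)
    · have h1 := (hL.smul (8 * t)).conj (S.σ_M x hx t)
      rw [← smul_add, ← neg_smul, ← mul_neg] at h1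
      simp only [hV]
      rw [← hc _ (-t)]
      simpa only [FC.σ, mul_assoc] using h1
  have hu : ∀ t, V t ∈ unitary (Op H) := fun t =>
    mul_mem (eexp_unitary (hsa _)) (elong_unitary S.toFC t)
  have pos : ∀ t, 0 ≤ t → ‖V t - T.Δ t‖ ≤ 18 * η := fun t ht => by
    obtain ⟨j, r, r0, r1, rfl⟩ : ∃ (j : ℕ) (r : ℝ), 0 ≤ r ∧ r ≤ 1 / 8 ∧ t = j / 8 + r :=
      ⟨⌊8 * t⌋₊, t - ⌊8 * t⌋₊ / 8, by linarith [Nat.floor_le (show 0 ≤ 8 * t by linarith)],
        by linarith [Nat.lt_floor_add_one (8 * t)], by ring⟩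
    have e : V (j / 8 + r) - T.Δ (j / 8 + r) = (V (j / 8) - T.Δ (j / 8)) * V r +
        T.Δ (j / 8) * ((ex ((8 * r) • K) - 1) * S.Δ r + (S.Δ r - T.Δ r)) := by
      rw [hF.add, T.Δ_add]
      simp only [hV]
      noncomm_ring
    have e2 : V (j / 8) - T.Δ (j / 8) =
        (ex ((j : ℝ) • K) - T.Δ (j / 8) * S.Δ (-(j / 8))) * S.Δ (j / 8) := by
      simp only [hV]
      rw [sub_mul, mul_assoc (T.Δ _), S.Δ_neg_mul, mul_one, mul_div_cancel₀ _ (by norm_num)]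
    have k1 : ‖(8 * r) • K‖ ≤ 16 * η := by
      rw [norm_smul, Real.norm_of_nonneg (by linarith)]
      exact (mul_le_of_le_one_left (norm_nonneg _) (by linarith)).trans hK
    rw [e]
    refine (norm_add_le_of_le ?_ ?_).trans (show η + (16 * η + η) ≤ _ by linarith)
    · rw [CStarRing.norm_mul_mem_unitary _ (hu r), e2,
        CStarRing.norm_mul_mem_unitary _ (elong_unitary S.toFC _), norm_sub_rev]
      exact hj j
    · rw [CStarRing.norm_mem_unitary_mul _ (elong_unitary T.toFC _)]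
      refine norm_add_le_of_le ?_ (h r (by rwa [abs_of_nonneg r0]))
      rw [CStarRing.norm_mul_mem_unitary _ (elong_unitary S.toFC _)]
      exact (norm_ex_sub_one (hsa _)).trans k1
  refine ⟨V, hF, fun t => ?_⟩
  rcases le_total 0 t with ht | ht
  · exact pos t ht
  · rw [← norm_star, star_sub, hF.star, T.star_Δ]
    exact pos _ (neg_nonneg.2 ht)

end Vale.Agent.P096
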