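import Vale.Agent.P096.EShort
import Vale.Agent.P096.ELong

/-! P096 part E (notes/P096F.md, section E): assembly. -/

namespace Vale.Agent.P096

open Vale.Agent.P104 Vale.Agent.P132

universe u

theorem partE (hD : ABStmt.{u}) : MCStmt.{u} := by
  intro ε hε
  obtain ⟨θ, hθ0, hθ, hθε⟩ : ∃ θ : ℝ, 0 < θ ∧ θ ≤ 1 / 10 ^ 13 ∧ θ ≤ ε / 360 :=
    ⟨min (1 / 10 ^ 13) (ε / 360), by positivity, min_le_left _ _, min_le_right _ _⟩
  obtain ⟨δ, hδ, hAB⟩ := hD (θ ^ 2) (by positivity)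
  refine ⟨min δ (θ ^ 2), by positivity, fun H _ _ _ S T hS hT hξ D hcl => ?_⟩
  have hcl' := hcl.mono (min_le_left _ _)
  obtain ⟨h1, h2, A, B, nA, nB, cA, rA⟩ := hAB H S.M T.M S.ξ D S.norm_ξ S.cyc S.cyc' hcl'
  obtain ⟨-, -, A₂, B₂, nA₂, nB₂, cA₂, rA₂⟩ := hAB H T.M S.M S.ξ D.swap S.norm_ξ h1 h2 hcl'.symm
  have hn : ∀ x : Op H, ‖x - 1‖ ≤ θ ^ 2 → ‖x‖ ≤ 1 + θ ^ 2 := fun x hx => by
    have h3 : ‖(1 : Op H)‖ ≤ 1 := ContinuousLinearMap.norm_id_le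
    linarith [norm_add_le (x - 1) 1, congrArg norm (sub_add_cancel x 1)]
  obtain ⟨F, hF⟩ := exists_fam T.toFC S.toFC (rel_op S T rfl hξ.symm rA) (hn A nA)
    ((norm_jj S T B).trans (hn B nB))
  obtain ⟨G, hG⟩ := exists_fam S.toFC T.toFC (rel_op T S hξ.symm rfl rA₂) (hn A₂ nA₂)
    ((norm_jj T S B₂).trans (hn B₂ nB₂))
  have h0 : 0 ≤ min δ (θ ^ 2) := by positivity
  obtain ⟨V, hV, hV'⟩ := long (η := 20 * θ) hξ D hcl h0
    (by nlinarith [min_le_right δ (θ ^ 2), sq_nonneg θ]) (by linarith)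
    (short ⟨hS, hT, hcl, nA, nB, nA₂, nB₂, hF, hG⟩ hξ D (fun k a => (cA k a).1)
      (fun k a => (cA k a).2) (fun k a => (cA₂ k a).1) (fun k a => (cA₂ k a).2) hθ0 hθ h0
      (min_le_right _ _))
  exact ⟨V, hV, fun t => (hV' t).trans (by linarith)⟩

end Vale.Agent.P096
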