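import Vale.Agent.P096.EExp
import Vale.Agent.P096.DPart

/-!
# P096 part E: the abelian algebras
* `d_comm`: for `k ≤ l` take `a₀` from `ref`; `d k a * d l b` is `d l b` if `a = a₀` and `0` otherwise (`orth`), so it is selfadjoint.
* `mem_Ab_iff`: `VonNeumannAlgebra.mem_commutant_iff`, `mem_vnComm`; if `Y` commutes with the projections so does `Y*`.
* `mem_Ab`: `ms` at `η = m ξ`: `d (d' (m ξ)) = d (m (d ξ)) = m (d ξ)`. Replace `c a` by the best scalar `⟪d ξ, m (d ξ)⟫ / ‖d ξ‖ ^ 2` (`0` if `d ξ = 0`), of modulus at most `‖m‖` (or radially retract `c a` on the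
  disc of radius `‖m‖`). `x = ∑ c a • d a` has norm at most `‖m‖`, `‖(m - x) ξ‖ ^ 2 = ∑ ‖m d ξ - c d ξ‖ ^ 2` (orthogonal ranges). `ua_of_cyc` at `ζ` and at `Y ζ`: `(Y m - m Y) ζ = Y (m - x) ζ - (m - x) Y ζ` is small.
* `pinch`: `P k T = ∑ a, d k a * T * d k a` is contractive (Pythagoras twice), fixes `Y`, and commutes with `d l b` for `l ≤ k` (`d l b * d k a` is `d k a` or `0`). `exists_W (hyperfilter ℕ)`, `W.mem`, `W.star`,
  `W.unique`, `W.norm_le`; then `mem_Ab`.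
* `Log.conj`: `ex (m + m') = ex m * ex m'`, `ex m'` commutes with `M`, `ex m ∈ M`.
-/

namespace Vale.Agent.P096

open Vale.Agent.P104 Vale.Agent.P132 Filter Topology
open scoped InnerProductSpace BoundedContinuousFunction

universe u

section

variable {H : Type*} [NormedAddCommGroup H] [InnerProductSpace ℂ H] [CompleteSpace H]
  {M N : VonNeumannAlgebra H} {ξ : H} (D : MS M N ξ) {m m' n n' Y : Op H}

namespace MS

theorem EAb_mul {k l : ℕ} (h : k ≤ l) (a : Fin (D.n k)) (b : Fin (D.n l)) :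
    D.d k a * D.d l b = D.d l b ∨ D.d k a * D.d l b = 0 := by
  obtain ⟨a₀, h1, -⟩ := D.ref k l h b
  by_cases h2 : a = a₀
  · exact Or.inl (h2 ▸ h1)
  · exact Or.inr (by rw [← h1, ← mul_assoc, D.orth k a a₀ h2, zero_mul])

theorem EAb_comm {k l : ℕ} (h : k ≤ l) (a : Fin (D.n k)) (b : Fin (D.n l)) :
    D.d k a * D.d l b = D.d l b * D.d k a := by
  have h1 : star (D.d k a * D.d l b) = D.d l b * D.d k a := by
    rw [star_mul, (D.lev k).pu.star_eq, (D.lev l).pu.star_eq]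
  rw [← h1]
  rcases D.EAb_mul h a b with h2 | h2 <;> rw [h2]
  · rw [(D.lev l).pu.star_eq]
  · rw [star_zero]

theorem d_comm (k : ℕ) (a : Fin (D.n k)) : D.Cd (D.d k a) := by
  intro l b
  rcases le_total k l with h | h
  · exact D.EAb_comm h a b
  · exact (D.EAb_comm h b a).symm

theorem mem_Ab_iff : m ∈ D.Ab ↔ ∀ Y, D.Cd Y → Y * m = m * Y := by
  refine VonNeumannAlgebra.mem_commutant_iff.trans (forall_congr' fun Y => imp_congr ?_ Iff.rfl)
  rw [mem_vnComm]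
  refine ⟨fun h k a => (h _ ⟨k, a, rfl⟩).1.symm, ?_⟩
  rintro h _ ⟨k, a, rfl⟩
  rw [(D.lev k).pu.star_eq]
  exact ⟨(h k a).symm, (h k a).symm⟩

variable {D}

theorem Cd.mul {Y Y' : Op H} (h : D.Cd Y) (h' : D.Cd Y') : D.Cd (Y * Y') := by
  intro k a
  rw [mul_assoc, h' k a, ← mul_assoc, h k a, mul_assoc]

theorem Cd.star (h : D.Cd Y) : D.Cd (star Y) := by
  intro k a
  have h1 := congrArg Star.star (h k a)
  rw [star_mul, star_mul, (D.lev k).pu.star_eq] at h1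
  exact h1.symm

theorem Cd.of_mem (h : Y ∈ M.commutant) : D.Cd Y :=
  fun k a => comm_of_mem h (D.dM k a)

theorem Ab_mem (h : m ∈ D.Ab) : m ∈ M :=
  (mem_iff_comm M).2 fun s hs => D.mem_Ab_iff.1 h s (Cd.of_mem hs)

theorem Ab_cd (h : m ∈ D.Ab) : D.Cd m :=
  fun k a => (D.mem_Ab_iff.1 h _ (D.d_comm k a)).symm

theorem EAb_d_mem (k : ℕ) (a : Fin (D.n k)) : D.d k a ∈ D.Ab :=
  D.mem_Ab_iff.2 fun _ h => h k a

omit [CompleteSpace H] in
theorem EAb_scal (m : Op H) (v : H) (c : ℂ) :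
    ∃ c' : ℂ, ‖c'‖ ≤ 2 * ‖m‖ ∧ ‖m v - c' • v‖ ≤ ‖m v - c • v‖ := by
  rcases le_total ‖c‖ (2 * ‖m‖) with h | h
  · exact ⟨c, h, le_rfl⟩
  · refine ⟨0, by rw [norm_zero]; positivity, ?_⟩
    have h1 := norm_sub_norm_le (c • v) (m v)
    have h2 := m.le_opNorm v
    have h3 := mul_le_mul_of_nonneg_right h (norm_nonneg v)
    rw [norm_smul, norm_sub_rev] at h1
    rw [zero_smul, sub_zero]
    linarith

theorem EAb_approx (hm : m ∈ M) (h : D.Cd m) {ε : ℝ} (hε : 0 < ε) :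
    ∃ x ∈ D.Ab, ‖x‖ ≤ 2 * ‖m‖ ∧ ‖m ξ - x ξ‖ ≤ ε := by
  obtain ⟨k, c, hc⟩ := (D.ms (m ξ) (ε ^ 2) (by positivity)).exists
  choose c' h1 h2 using fun a => EAb_scal m (D.d k a ξ) (c a)
  have P := (D.lev k).pu
  have e1 : ∀ a, D.d k a (m ξ) = m (D.d k a ξ) := fun a => by
    rw [← mul_apply_eq_comp, ← h k a, mul_apply_eq_comp]
  refine ⟨∑ a, c' a • D.d k a, sum_mem fun a _ => SMulMemClass.smul_mem _ (EAb_d_mem k a), ?_, ?_⟩
  · have h3 := P.norm_diag_le (fun a => c' a • D.d k a) (c := 2 * ‖m‖) (by positivity) fun a => by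
      rw [norm_smul]
      exact (mul_le_of_le_one_right (norm_nonneg _) (P.proj a).norm_le).trans (h1 a)
    simpa only [mul_smul_comm, smul_mul_assoc, P.idem] using h3
  · have e2 : m ξ - (∑ a, c' a • D.d k a) ξ = ∑ a, D.d k a (m (D.d k a ξ) - c' a • D.d k a ξ) := by
      simp only [map_sub, map_smul, ← e1, P.apply_apply, Finset.sum_sub_distrib, P.sum_apply,
        _root_.sum_apply, smul_apply]
    refine abs_le_of_sq_le_sq' ?_ hε.le |>.2
    rw [e2]
    refine (P.norm_sum_sq_le _).trans (le_trans (Finset.sum_le_sum fun a _ => ?_) hc)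
    rw [← (D.lev k).apply_d (fun b => comm_of_mem (D.dM' k b) hm), ← e1, P.apply_apply, e1]
    exact pow_le_pow_left₀ (norm_nonneg _) (h2 a) 2

theorem mem_Ab (hc : Dense (orb M.commutant ξ)) (hm : m ∈ M) (h : D.Cd m) : m ∈ D.Ab := by
  choose x h1 h2 h3 using fun j : ℕ => EAb_approx hm h (ε := 1 / ((j : ℝ) + 1)) (by positivity)
  obtain ⟨L, hL⟩ := exists_W (hyperfilter ℕ) x (.of_forall h2)
  have h4 : L ∈ D.Ab := hL.mem (.of_forall h1)
  have h5 : Tendsto (fun j => x j ξ) atTop (𝓝 (m ξ)) := by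
    rw [tendsto_iff_norm_sub_tendsto_zero]
    refine squeeze_zero (fun _ => norm_nonneg _) (fun j => ?_)
      tendsto_one_div_add_atTop_nhds_zero_nat
    rw [norm_sub_rev]
    exact h3 j
  have h6 : L ξ = m ξ := ext_inner_left ℂ fun η => tendsto_nhds_unique (hL ξ η)
    (tendsto_const_nhds.inner (h5.mono_left Nat.hyperfilter_le_atTop))
  have h7 : L - m = 0 := sep_of_cyc hc (sub_mem (Ab_mem h4) hm) (by rw [sub_apply, h6, sub_self])
  exact sub_eq_zero.1 h7 ▸ h4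

theorem pinch (D : MS M N ξ) (hc : Dense (orb M.commutant ξ)) (hm : m ∈ M)
    (hs : IsSelfAdjoint m) : ∃ m₁ ∈ D.Ab, IsSelfAdjoint m₁ ∧ ‖m₁‖ ≤ ‖m‖ ∧
      ∀ Y, D.Cd Y → ‖Y - m₁‖ ≤ ‖Y - m‖ := by
  have h1 : ∀ k (T : Op H), ‖∑ a, D.d k a * T * D.d k a‖ ≤ ‖T‖ := fun k T =>
    (D.lev k).pu.norm_diag_le (fun _ => T) (norm_nonneg T) fun _ => le_rfl
  obtain ⟨L, hL⟩ := exists_W (hyperfilter ℕ) (fun k => ∑ a, D.d k a * m * D.d k a)
    (.of_forall fun k => h1 k m)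
  refine ⟨L, mem_Ab hc (hL.mem (.of_forall fun k => sum_mem fun a _ =>
    mul_mem (mul_mem (D.dM k a) hm) (D.dM k a))) fun l b => ?_, ?_,
    hL.norm_le (.of_forall fun k => h1 k m), fun Y hY => ?_⟩
  · refine ((hL.mul_right (D.d l b)).congr ?_).unique (hL.mul_left (D.d l b))
    refine ((eventually_ge_atTop l).filter_mono Nat.hyperfilter_le_atTop).mono fun k hk => ?_
    rw [Finset.sum_mul, Finset.mul_sum]
    refine Finset.sum_congr rfl fun a _ => ?_
    rw [mul_assoc, ← D.EAb_comm hk, ← mul_assoc (D.d l b), ← mul_assoc (D.d l b)]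
    rcases D.EAb_mul hk b a with h2 | h2 <;> rw [h2]
    rw [mul_zero, zero_mul, zero_mul]
  · refine (hL.star.congr (.of_forall fun k => ?_)).unique hL
    simp only [star_sum, star_mul, (D.lev k).pu.star_eq, hs.star_eq, mul_assoc]
  · refine ((W.const Y).sub hL).norm_le (.of_forall fun k => le_of_eq_of_le ?_ (h1 k _))
    simp only [mul_sub, sub_mul, Finset.sum_sub_distrib, ← hY k, mul_assoc Y, (D.lev k).pu.idem,
      ← Finset.mul_sum, D.sum k, mul_one]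

theorem Log.zero : D.Log 0 0 :=
  ⟨zero_mem _, zero_mem _, .zero _, .zero _⟩

theorem Log.add (h : D.Log m m') (h' : D.Log n n') : D.Log (m + n) (m' + n') :=
  ⟨add_mem h.mem h'.mem, add_mem h.mem' h'.mem', h.sa.add h'.sa, h.sa'.add h'.sa'⟩

theorem Log.smul (h : D.Log m m') (t : ℝ) : D.Log (t • m) (t • m') :=
  ⟨vn_rsmul_mem t h.mem, vn_rsmul_mem t h.mem', (IsSelfAdjoint.all t).smul h.sa,
    (IsSelfAdjoint.all t).smul h.sa'⟩

theorem Log.neg (h : D.Log m m') : D.Log (-m) (-m') :=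
  ⟨neg_mem h.mem, neg_mem h.mem', h.sa.neg, h.sa'.neg⟩

theorem Log.sa_add (h : D.Log m m') : IsSelfAdjoint (m + m') := h.sa.add h.sa'

theorem Log.cd (h : D.Log m m') : D.Cd (m + m') := by
  intro k a
  rw [add_mul, mul_add, Ab_cd h.mem k a, Cd.of_mem (D := D) (Ab_mem h.mem') k a]

theorem Log.cd' (h : D.Log m m') : D.comm.Cd (m + m') := by
  intro k a
  rw [add_mul, mul_add, Ab_cd h.mem' k a, comm_of_mem (D.comm.dM k a) (Ab_mem h.mem)]

theorem Log.comm_of (h : D.Log m m') (h1 : D.Cd Y) (h2 : D.comm.Cd Y) :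
    Y * (m + m') = (m + m') * Y := by
  rw [add_mul, mul_add, D.mem_Ab_iff.1 h.mem Y h1, D.comm.mem_Ab_iff.1 h.mem' Y h2]

theorem Log.comm (h : D.Log m m') (h' : D.Log n n') :
    (m + m') * (n + n') = (n + n') * (m + m') := h'.comm_of h.cd h.cd'

theorem Log.conj (h : D.Log m m') {x : Op H} (hx : x ∈ M) :
    ex (m + m') * x * ex (-(m + m')) ∈ M := by
  have h1 := Ab_mem h.mem
  have h2 := Ab_mem h.mem'
  rw [neg_add_rev, ex_add (comm_of_mem h2 h1).symm, ex_add (comm_of_mem (neg_mem h2) (neg_mem h1)),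
    mul_assoc (ex m), comm_of_mem (ex_mem h2) hx, mul_assoc, mul_assoc, ← mul_assoc (ex m'),
    ex_mul_neg, one_mul]
  exact mul_mem (ex_mem h1) (mul_mem hx (ex_mem (neg_mem h1)))

theorem Log.conj' (h : D.Log m m') {x : Op H} (hx : x ∈ M.commutant) :
    ex (-(m + m')) * x * ex (m + m') ∈ M.commutant := by
  have h1 := Ab_mem h.mem
  have h2 := Ab_mem h.mem'
  rw [neg_add_rev, ex_add (comm_of_mem h2 h1).symm, ex_add (comm_of_mem (neg_mem h2) (neg_mem h1)),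
    mul_assoc (ex (-m')), ← comm_of_mem hx (ex_mem (neg_mem h1)), mul_assoc, mul_assoc,
    ← mul_assoc (ex (-m)), ex_neg_mul, one_mul]
  exact mul_mem (ex_mem (neg_mem h2)) (mul_mem hx (ex_mem h2))

theorem Log.lim {I : Type*} {l : Filter I} [l.NeBot] {a a' : I → Op H}
    (h : ∀ i, D.Log (a i) (a' i)) (h1 : W l a m) (h2 : W l a' m') : D.Log m m' :=
  ⟨h1.mem (.of_forall fun i => (h i).mem), h2.mem (.of_forall fun i => (h i).mem'),
    (h1.star.congr (.of_forall fun i => (h i).sa.star_eq)).unique h1,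
    (h2.star.congr (.of_forall fun i => (h i).sa'.star_eq)).unique h2⟩

end MS

end

variable {H : Type u} [NormedAddCommGroup H] [InnerProductSpace ℂ H] [CompleteSpace H]

/-- from `cen` -/
theorem MS.cd_Θ {M N : VonNeumannAlgebra H} {ξ : H} (D : MS M N ξ) (S : SF H) (hM : S.M = M)
    (hξ : S.ξ = ξ) (f : ℝ →ᵇ ℂ) : D.Cd (S.Θ f) ∧ D.comm.Cd (S.Θ f) := by
  subst hM hξ
  have h := fun k a => (cen S (D.dM k a) (D.dM' k a) (D.proj k a).isSelfAdjoint
    (D.proj' k a).isSelfAdjoint (D.vec k a)).2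
  exact ⟨fun k a => (h k a).1 f, fun k a => (h k a).2 f⟩

end Vale.Agent.P096
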