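import Vale.Agent.P096.Eig

/-! P096 part E (notes/P096F.md, section E): definitions. Sub-lead helper5. -/

namespace Vale.Agent.P096

open Vale.Agent.P104 Vale.Agent.P132 Filter Topology
open scoped InnerProductSpace BoundedContinuousFunction

universe u

/-- the open strip -/
def strip : Set ℂ := Complex.re ⁻¹' Set.Ioo 0 (1 / 2)

/-- the closed strip -/
def cstrip : Set ℂ := Complex.re ⁻¹' Set.Icc 0 (1 / 2)

/-- projection of the real line on `[-1/2, 1/2]` -/
noncomputable def clamp (x : ℝ) : ℝ := max (-(1 / 2)) (min x (1 / 2))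

theorem abs_clamp (x : ℝ) : |clamp x| ≤ 1 / 2 :=
  abs_le.2 ⟨le_max_left _ _, max_le (by norm_num) (min_le_right _ _)⟩

/-- `u ↦ exp (w u) sech u` when `|re w| ≤ 1/2` -/
noncomputable def qB (w : ℂ) : ℝ →ᵇ ℂ :=
  mkB (fun u => Complex.exp ((clamp w.re + w.im * Complex.I) * u) * (sech u : ℂ))
    (by have := continuous_sech; fun_prop) 2 (fun u => by
      rw [norm_mul, Complex.norm_exp, Complex.norm_real, Real.norm_of_nonneg (sech_pos u).le]
      have h1 : (((clamp w.re : ℂ) + w.im * Complex.I) * u).re = clamp w.re * u := by simp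
      have h2 : clamp w.re * u ≤ |u| / 2 :=
        (le_abs_self _).trans (by rw [abs_mul]; nlinarith [abs_clamp w.re, abs_nonneg u])
      calc _ ≤ Real.exp (|u| / 2) * (2 * Real.exp (-|u| / 2)) := by
            rw [h1]
            exact mul_le_mul (Real.exp_le_exp.2 h2) (sech_le_exp u) (sech_pos u).le
              (Real.exp_pos _).le
        _ = 2 := by rw [mul_left_comm, ← Real.exp_add, ← add_div, add_neg_cancel]; simp)

section

variable {H : Type*} [NormedAddCommGroup H] [InnerProductSpace ℂ H] [CompleteSpace H]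

/-- strongly analytic in the strip, strongly continuous and bounded on the closed strip -/
structure SA (F : ℂ → Op H) (c : ℝ) : Prop where
  diff : ∀ ζ, DiffContOnCl ℂ (fun z => F z ζ) strip
  bdd : ∀ z ∈ cstrip, ‖F z‖ ≤ c

/-- `J x J'` -/
noncomputable def jj (J J' : H →L⋆[ℂ] H) (x : Op H) : Op H := J.comp (x.comp J')

omit [CompleteSpace H] in
@[simp] theorem jj_apply (J J' : H →L⋆[ℂ] H) (x : Op H) (η : H) : jj J J' x η = J (x (J' η)) := rfl

/-- `x ↦ U x V` maps `M` almost into `N` -/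
def Nm (M N : VonNeumannAlgebra H) (U V : Op H) (k : ℝ) : Prop :=
  ∀ x ∈ M, ∀ s ∈ N.commutant, ‖U * x * V * s - s * (U * x * V)‖ ≤ k * ‖x‖ * ‖s‖

/-- `exp (i L)` -/
noncomputable def ex (L : Op H) : Op H := NormedSpace.exp (Complex.I • L)

variable {M N : VonNeumannAlgebra H} {ξ : H}

/-- commutation with the projections `d` -/
def MS.Cd (D : MS M N ξ) (Y : Op H) : Prop := ∀ k a, Y * D.d k a = D.d k a * Y

/-- the abelian algebra generated by the projections `d` -/
noncomputable def MS.Ab (D : MS M N ξ) : VonNeumannAlgebra H :=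
  (vnComm {x | ∃ k a, x = D.d k a}).commutant

/-- a selfadjoint element of each of the two abelian algebras -/
structure MS.Log (D : MS M N ξ) (m m' : Op H) : Prop where
  mem : m ∈ D.Ab
  mem' : m' ∈ D.comm.Ab
  sa : IsSelfAdjoint m
  sa' : IsSelfAdjoint m'

/-- an almost isometric almost normalizer which commutes with the system -/
structure MS.Good (D : MS M N ξ) (U : Op H) (k : ℝ) : Prop where
  cd : D.Cd U
  cd' : D.comm.Cd U
  iso : ‖star U * U - 1‖ ≤ k
  nm : Nm M M U (star U) k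

end

variable {H : Type u} [NormedAddCommGroup H] [InnerProductSpace ℂ H] [CompleteSpace H]

/-- the family `Δ₂ ^ z A Δ₁ ^ (-z)` -/
structure Fam (F₂ F₁ : FC H) (A B : Op H) (c : ℝ) (F : ℂ → Op H) : Prop extends SA F c where
  shift : ∀ z ∈ cstrip, ∀ t : ℝ, F (z + t * Complex.I) = F₂.Δ t * F z * F₁.Δ (-t)
  zero : F 0 = A
  half : F (1 / 2) = B
  comm : ∀ v, v * A = A * v → (∀ f, F₁.Θ f * v = v * F₁.Θ f) → (∀ f, F₂.Θ f * v = v * F₂.Θ f) →
    ∀ z ∈ cstrip, F z * v = v * F z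

/-- the two families attached to a pair of standard forms -/
structure Two (S T : SF H) (κ δ : ℝ) (A B A₂ B₂ : Op H) (F G : ℂ → Op H) : Prop where
  sS : Std S
  sT : Std T
  cl : Cl S.M T.M δ
  nA : ‖A - 1‖ ≤ κ
  nB : ‖B - 1‖ ≤ κ
  nA₂ : ‖A₂ - 1‖ ≤ κ
  nB₂ : ‖B₂ - 1‖ ≤ κ
  hF : Fam T.toFC S.toFC A (jj T.J S.J B) (1 + κ) F
  hG : Fam S.toFC T.toFC A₂ (jj S.J T.J B₂) (1 + κ) G

theorem Two.symm {S T : SF H} {κ δ : ℝ} {A B A₂ B₂ : Op H} {F G : ℂ → Op H}
    (h : Two S T κ δ A B A₂ B₂ F G) : Two T S κ δ A₂ B₂ A B G F :=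
  ⟨h.sT, h.sS, h.cl.symm, h.nA₂, h.nB₂, h.nA, h.nB, h.hG, h.hF⟩

end Vale.Agent.P096
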