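import Vale.Agent.P096.EFam

/-!
# P096 part E: estimates on the strip
* `Two.inv`: `SA.max` for `G z * F z - 1`. On the left line it is `σ t (A₂ A - 1)` (`shift`, `zero`), on the right line `σ t (jj J J (B₂ B - 1))`; `‖A₂ A - 1‖ ≤ κ (1 + κ) + κ`.
* `Two.nm`: `SA.max` for `F z x G z s - s F z x G z`. Left line: `F x G = σ_T t (A x₁ A₂)`, `x₁ = σ_S (-t) x ∈ S.M`, the commutator is `σ_T t [A x₁ A₂, s₁]`, `s₁ = σ_T (-t) s ∈ T.M'` (`σ_comm`),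
  `‖A x₁ A₂ - x₁‖ ≤ 3 κ ‖x‖`, `NI.comm_le`. Right line: `jj J_T J_S B * x₁ * jj J_S J_T B₂ = jj J_T J_T (B x₂ B₂)`, `x₂ = jj J_S J_S x₁ ∈ S.M'` (`J_M`), `s₁ = jj J_T J_T n`, `n = jj J_T J_T s₁ ∈ T.M` (`Std`),
  `cl.mn'.comm_le` (with `commutant_commutant`).
* `near_unit`: `(1 - 3 κ) ‖ζ‖ ≤ (1 + κ) ‖F ζ‖`; `norm_le_of_qf` for `F* F - 1`; `G - F* = (1 - F* F) G + F* (F G - 1)`.
* `Nm.comp`: `w = U x V` is within `80 k ‖x‖` of some `y ∈ N` (`near_of_comm'`), `‖y‖ ≤ 5 ‖x‖`.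
* `Two.good`: `Nm.comp` with `k = k' = 8 θ ^ 2` gives `5160 θ ^ 2` for the right factor `G z * F z'`, which is within `88 θ ^ 2` of `star (G z' * F z)`; `Nm.perturb` with `a = 4`.
-/

namespace Vale.Agent.P096

open Vale.Agent.P104 Vale.Agent.P132 Filter Topology
open scoped InnerProductSpace BoundedContinuousFunction

universe u

section

variable {H : Type*} [NormedAddCommGroup H] [InnerProductSpace ℂ H] [CompleteSpace H]
  {M N P : VonNeumannAlgebra H} {U V U' V' : Op H} {k k' : ℝ}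

omit [CompleteSpace H] in
theorem eest_sand {a b : Op H} {κ : ℝ} (hκ : κ ≤ 1) (ha : ‖a - 1‖ ≤ κ) (hb : ‖b - 1‖ ≤ κ)
    (x : Op H) : ‖a * x * b - x‖ ≤ 3 * κ * ‖x‖ := by
  have h0 : 0 ≤ κ := (norm_nonneg _).trans ha
  have e : a * x * b - x = (a - 1) * x * (b - 1) + (a - 1) * x + x * (b - 1) := by noncomm_ring
  have h1 : ‖(a - 1) * x‖ ≤ κ * ‖x‖ := (norm_mul_le _ _).trans (by gcongr)
  have h2 : ‖(a - 1) * x * (b - 1)‖ ≤ κ * ‖x‖ * 1 :=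
    (norm_mul_le _ _).trans (by gcongr; exact hb.trans hκ)
  have h3 : ‖x * (b - 1)‖ ≤ ‖x‖ * κ := (norm_mul_le _ _).trans (by gcongr)
  rw [e]
  exact (norm_add₃_le).trans (by linarith)

omit [CompleteSpace H] in
theorem eest_prod {a b : Op H} {κ : ℝ} (hκ : κ ≤ 1) (ha : ‖a - 1‖ ≤ κ) (hb : ‖b - 1‖ ≤ κ) :
    ‖a * b - 1‖ ≤ 3 * κ := by
  have h0 : 0 ≤ κ := (norm_nonneg _).trans ha
  have := eest_sand hκ ha hb 1
  rw [mul_one] at this
  exact this.trans (mul_le_of_le_one_right (by positivity) ContinuousLinearMap.norm_id_le)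

omit [CompleteSpace H] in
theorem eest_comm {x y s : Op H} {c e : ℝ} (h : ‖x * s - s * x‖ ≤ c) (he : ‖y - x‖ ≤ e) :
    ‖y * s - s * y‖ ≤ c + 2 * e * ‖s‖ := by
  have e1 : y * s - s * y = (x * s - s * x) + ((y - x) * s - s * (y - x)) := by noncomm_ring
  have h1 : ‖(y - x) * s‖ ≤ e * ‖s‖ := (norm_mul_le _ _).trans (by gcongr)
  have h2 : ‖s * (y - x)‖ ≤ ‖s‖ * e := (norm_mul_le _ _).trans (by gcongr)
  rw [e1]
  exact (norm_add_le _ _).trans (add_le_add h ((norm_sub_le _ _).trans (by linarith)))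

omit [CompleteSpace H] in
theorem eest_mul3 {a x b : Op H} {p q r : ℝ} (ha : ‖a‖ ≤ p) (hx : ‖x‖ ≤ q) (hb : ‖b‖ ≤ r) :
    ‖a * x * b‖ ≤ p * q * r := by
  have hp := (norm_nonneg _).trans ha
  have hq := (norm_nonneg _).trans hx
  exact (norm_mul_le _ _).trans (mul_le_mul ((norm_mul_le _ _).trans (by gcongr)) hb
    (norm_nonneg _) (by positivity))

theorem near_unit {F G : Op H} {κ : ℝ} (hκ : κ ≤ 1 / 10) (hF : ‖F‖ ≤ 1 + κ) (hG : ‖G‖ ≤ 1 + κ)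
    (h1 : ‖G * F - 1‖ ≤ 3 * κ) (h2 : ‖F * G - 1‖ ≤ 3 * κ) :
    (∀ ζ, (1 - 4 * κ) * ‖ζ‖ ≤ ‖F ζ‖) ∧ ‖star F * F - 1‖ ≤ 8 * κ ∧ ‖G - star F‖ ≤ 22 * κ := by
  have h0 : 0 ≤ κ := by linarith [norm_nonneg (G * F - 1)]
  have a1 : ∀ ζ, (1 - 4 * κ) * ‖ζ‖ ≤ ‖F ζ‖ := fun ζ => by
    have b1 : ‖(G * F - 1) ζ‖ ≤ 3 * κ * ‖ζ‖ := (G * F - 1).le_of_opNorm_le h1 ζ
    have b2 : ‖G (F ζ)‖ ≤ (1 + κ) * ‖F ζ‖ := G.le_of_opNorm_le hG _
    have b3 : ‖ζ‖ ≤ ‖G (F ζ)‖ + ‖(G * F - 1) ζ‖ := by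
      refine le_trans (le_of_eq ?_) (norm_sub_le _ _)
      simp
    refine le_of_mul_le_mul_left ?_ (show 0 < 1 + κ by linarith)
    nlinarith [mul_nonneg (sq_nonneg κ) (norm_nonneg ζ)]
  have a2 : ‖star F * F - 1‖ ≤ 8 * κ := by
    refine norm_le_of_qf ((IsSelfAdjoint.star_mul_self F).sub (IsSelfAdjoint.one _))
      (by positivity) fun ζ => ?_
    rw [qf_sub, qf_star_mul_self, qf_one, abs_le]
    have b1 := pow_le_pow_left₀ (mul_nonneg (by linarith) (norm_nonneg ζ)) (a1 ζ) 2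
    have b2 := pow_le_pow_left₀ (norm_nonneg _) (F.le_of_opNorm_le hF ζ) 2
    have b3 := mul_nonneg h0 (sq_nonneg ‖ζ‖)
    constructor <;> nlinarith [mul_nonneg (sq_nonneg κ) (sq_nonneg ‖ζ‖)]
  refine ⟨a1, a2, ?_⟩
  have e : G - star F = star F * (F * G - 1) - (star F * F - 1) * G := by noncomm_ring
  have b1 : ‖star F * (F * G - 1)‖ ≤ (1 + κ) * (3 * κ) :=
    (norm_mul_le _ _).trans (by rw [norm_star]; gcongr)
  have b2 : ‖(star F * F - 1) * G‖ ≤ 8 * κ * (1 + κ) := (norm_mul_le _ _).trans (by gcongr)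
  rw [e]
  exact (norm_sub_le _ _).trans (by nlinarith)

theorem Nm.mono (h : Nm M N U V k) (hk : k ≤ k') : Nm M N U V k' :=
  fun x hx s hs => (h x hx s hs).trans (by gcongr)

theorem Nm.perturb (h : Nm M N U V k) {a e : ℝ} (hU : ‖U‖ ≤ a) (hV : ‖V - V'‖ ≤ e) :
    Nm M N U V' (k + 2 * a * e) := fun x hx s hs => by
  have h1 : ‖U * x * V' - U * x * V‖ ≤ a * ‖x‖ * e := by
    rw [← mul_sub]
    exact eest_mul3 hU le_rfl (by rwa [norm_sub_rev])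
  exact (eest_comm (h x hx s hs) h1).trans (le_of_eq (by ring))

theorem Nm.comp (h : Nm M N U V k) (h' : Nm N P U' V' k') (hk0 : 0 ≤ k) (hk : k ≤ 1 / 80)
    (hk' : 0 ≤ k') (hU : ‖U‖ ≤ 2) (hV : ‖V‖ ≤ 2) (hU' : ‖U'‖ ≤ 2) (hV' : ‖V'‖ ≤ 2) :
    Nm M P (U' * U) (V * V') (5 * k' + 640 * k) := fun x hx s hs => by
  obtain ⟨y, hy, h1⟩ := near_of_comm' (M := N) (T := U * x * V) (c := k * ‖x‖) (by positivity)
    (h x hx)
  have h2 : ‖U * x * V‖ ≤ 2 * ‖x‖ * 2 := eest_mul3 hU le_rfl hV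
  have h3 : ‖y‖ ≤ 5 * ‖x‖ := by
    have := norm_sub_le (U * x * V) (U * x * V - y)
    rw [sub_sub_cancel] at this
    nlinarith [norm_nonneg x]
  have h4 : ‖U' * U * x * (V * V') - U' * y * V'‖ ≤ 2 * (80 * (k * ‖x‖)) * 2 := by
    rw [show U' * U * x * (V * V') - U' * y * V' = U' * (U * x * V - y) * V' by noncomm_ring]
    exact eest_mul3 hU' h1 hV'
  have h5 : k' * ‖y‖ * ‖s‖ ≤ k' * (5 * ‖x‖) * ‖s‖ := by gcongr
  exact (eest_comm ((h' y hy s hs).trans h5) h4).trans (le_of_eq (by ring))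

end

variable {H : Type u} [NormedAddCommGroup H] [InnerProductSpace ℂ H] [CompleteSpace H]
  {S T : SF H} {κ δ : ℝ} {A B A₂ B₂ : Op H} {F G : ℂ → Op H}

theorem eest_zero : (0 : ℂ) ∈ cstrip := by simp [cstrip]

theorem eest_half : (1 / 2 : ℂ) ∈ cstrip := by
  have := real_mem_cstrip (x := 1 / 2) (by norm_num) le_rfl 0
  simpa using this

theorem eest_shift (h : Two S T κ δ A B A₂ B₂ F G) {z : ℂ} (hz : z ∈ cstrip) (t : ℝ) (x : Op H) :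
    F (z + t * Complex.I) * x * G (z + t * Complex.I) = T.σ t (F z * S.σ (-t) x * G z) := by
  rw [h.hF.shift z hz, h.hG.shift z hz]
  simp only [FC.σ, neg_neg, mul_assoc]

theorem Two.inv (h : Two S T κ δ A B A₂ B₂ F G) (hκ : κ ≤ 1) :
    ∀ z ∈ cstrip, ‖G z * F z - 1‖ ≤ 3 * κ := by
  have k : ∀ z ∈ cstrip, ∀ t : ℝ,
      ‖G (z + t * Complex.I) * F (z + t * Complex.I) - 1‖ = ‖G z * F z - 1‖ := fun z hz t => by
    have := eest_shift h.symm hz t 1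
    rw [mul_one, FC.σ_one, mul_one] at this
    rw [this, ← S.norm_σ t (G z * F z - 1), FC.σ_sub, FC.σ_one]
  refine ((h.hG.toSA.mul h.hF.toSA).sub (SA.const 1)).max (fun t => ?_) fun t => ?_
  · rw [k _ eest_zero, h.hG.zero, h.hF.zero]
    exact eest_prod hκ h.nA₂ h.nA
  · rw [k _ eest_half, h.hG.half, h.hF.half, jj_mul, ← jj_one S, ← jj_sub]
    exact (norm_jj _ _ _).trans (eest_prod hκ h.nB₂ h.nB)

theorem Two.nm (h : Two S T κ δ A B A₂ B₂ F G) (hκ : κ ≤ 1) (hδ : 0 ≤ δ) :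
    ∀ z ∈ cstrip, Nm S.M T.M (F z) (G z) (6 * κ + 2 * δ) := by
  intro z hz x hx s hs
  have h0 : 0 ≤ κ := (norm_nonneg _).trans h.nA
  have k : ∀ z ∈ cstrip, ∀ t : ℝ, ‖F (z + t * Complex.I) * x * G (z + t * Complex.I) * s -
      s * (F (z + t * Complex.I) * x * G (z + t * Complex.I))‖ =
      ‖F z * S.σ (-t) x * G z * T.σ (-t) s - T.σ (-t) s * (F z * S.σ (-t) x * G z)‖ := by
    intro z hz t
    rw [eest_shift h hz, ← T.norm_σ t (_ * T.σ (-t) s - _), FC.σ_sub, T.σ_mul t _ (T.σ (-t) s),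
      T.σ_mul t (T.σ (-t) s), FC.σ_σ, add_neg_cancel, FC.σ_zero]
  have hs1 := (h.hF.toSA.mul (SA.const x)).mul h.hG.toSA
  refine ((hs1.mul (SA.const s)).sub ((SA.const s).mul hs1)).max (fun t => ?_) (fun t => ?_) z hz
  · rw [k _ eest_zero, h.hG.zero, h.hF.zero]
    refine (eest_comm (h.cl.mn.comm_le (S.σ_M x hx (-t)) (σ_comm T hs (-t)))
      (eest_sand hκ h.nA h.nA₂ _)).trans (le_of_eq ?_)
    rw [FC.norm_σ, FC.norm_σ]
    ring
  · have m1 : jj S.J S.J (S.σ (-t) x) ∈ S.M.commutant := S.J_M _ (S.σ_M x hx (-t))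
    have m2 : jj T.J T.J (T.σ (-t) s) ∈ T.M.commutant.commutant := by
      rw [VonNeumannAlgebra.commutant_commutant]
      exact h.sT _ (σ_comm T hs (-t))
    have n1 : ‖jj S.J S.J (S.σ (-t) x)‖ ≤ ‖x‖ := (norm_jj _ _ _).trans (S.norm_σ _ _).le
    have n2 : ‖jj T.J T.J (T.σ (-t) s)‖ ≤ ‖s‖ := (norm_jj _ _ _).trans (T.norm_σ _ _).le
    rw [k _ eest_half, h.hG.half, h.hF.half, ← jj_jj S (S.σ (-t) x), ← jj_jj T (T.σ (-t) s)]
    generalize jj S.J S.J (S.σ (-t) x) = x₂, jj T.J T.J (T.σ (-t) s) = n at *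
    rw [jj_mul, jj_mul, jj_mul, jj_mul, ← jj_sub]
    refine (norm_jj _ _ _).trans ((eest_comm (h.cl.mn'.comm_le m1 m2)
      (eest_sand hκ h.nB h.nB₂ _)).trans ?_)
    calc _ = (6 * κ + 2 * δ) * ‖x₂‖ * ‖n‖ := by ring
      _ ≤ _ := by gcongr

theorem Two.unit (h : Two S T κ δ A B A₂ B₂ F G) (hκ : κ ≤ 1 / 10) : ∀ z ∈ cstrip,
    (∀ ζ, (1 - 4 * κ) * ‖ζ‖ ≤ ‖F z ζ‖) ∧ ‖star (F z) * F z - 1‖ ≤ 8 * κ ∧
      ‖G z - star (F z)‖ ≤ 22 * κ := fun z hz =>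
  near_unit hκ (h.hF.bdd z hz) (h.hG.bdd z hz) (h.inv (by linarith) z hz)
    (h.symm.inv (by linarith) z hz)

theorem Two.good {θ : ℝ} (h : Two S T (θ ^ 2) δ A B A₂ B₂ F G) (hθ0 : 0 ≤ θ) (hθ : θ ≤ 1 / 100)
    (hδ0 : 0 ≤ δ) (hδ : δ ≤ θ ^ 2) {z z' : ℂ} (hz : z ∈ cstrip) (hz' : z' ∈ cstrip) :
    ‖star (G z' * F z) * (G z' * F z) - 1‖ ≤ (100 * θ) ^ 2 ∧
      Nm S.M S.M (G z' * F z) (star (G z' * F z)) ((100 * θ) ^ 2) := by
  have k0 : 0 ≤ θ ^ 2 := sq_nonneg θ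
  have k1 : θ ^ 2 ≤ 1 / 10000 := by nlinarith
  have f : ∀ w ∈ cstrip, ‖F w‖ ≤ 2 := fun w hw => (h.hF.bdd w hw).trans (by linarith)
  have g : ∀ w ∈ cstrip, ‖G w‖ ≤ 2 := fun w hw => (h.hG.bdd w hw).trans (by linarith)
  obtain ⟨-, a1, a2⟩ := h.unit (by linarith) z hz
  obtain ⟨-, b1, b2⟩ := h.symm.unit (by linarith) z' hz'
  have fs : ‖star (F z)‖ ≤ 2 := by rw [norm_star]; exact f z hz
  constructor
  · have e : star (G z' * F z) * (G z' * F z) - 1 =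
        star (F z) * (star (G z') * G z' - 1) * F z + (star (F z) * F z - 1) := by
      rw [star_mul]
      noncomm_ring
    rw [e]
    exact (norm_add_le _ _).trans ((add_le_add (eest_mul3 fs b1 (f z hz)) a1).trans (by linarith))
  · have c1 := ((h.nm (by linarith) hδ0 z hz).mono (k' := 8 * θ ^ 2) (by linarith)).comp
      ((h.symm.nm (by linarith) hδ0 z' hz').mono (k' := 8 * θ ^ 2) (by linarith))
      (by positivity) (by linarith) (by positivity) (f z hz) (g z hz) (g z' hz') (f z' hz')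
    have c2 : ‖G z' * F z‖ ≤ 2 * 2 :=
      (norm_mul_le _ _).trans (mul_le_mul (g z' hz') (f z hz) (norm_nonneg _) zero_le_two)
    have c3 : ‖G z * F z' - star (G z' * F z)‖ ≤ 22 * θ ^ 2 * 2 + 2 * (22 * θ ^ 2) := by
      rw [show G z * F z' - star (G z' * F z) =
        (G z - star (F z)) * F z' + star (F z) * (F z' - star (G z')) by
          rw [star_mul]; noncomm_ring]
      exact (norm_add_le _ _).trans (add_le_add
        ((norm_mul_le _ _).trans (mul_le_mul a2 (f z' hz') (norm_nonneg _) (by positivity)))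
        ((norm_mul_le _ _).trans (mul_le_mul fs b2 (norm_nonneg _) zero_le_two)))
    exact (c1.perturb c2 c3).mono (by linarith)

end Vale.Agent.P096
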