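import Vale.Agent.P096.EDefs

/-!
# P096 part E: exponentials
`NormedSpace.exp_add_of_commute`, `NormedSpace.star_exp`, `Commute.exp_right`, `NormedSpace.exp_continuous` (if needed `let _ : NormedAlgebra ℚ (Op H) := NormedAlgebra.restrictScalars ℚ ℂ _`).
`ex_cfc`: `CFC.complex_exp_eq_normedSpace_exp` and `cfc_comp_smul`. The norm bounds: `norm_cfc_le` (or `norm_cfc_le_iff`); a point `z` of the spectrum is real (`IsSelfAdjoint.mem_spectrum_eq_re`) with
`‖z‖ ≤ ‖L‖` (`spectrum.norm_le_norm_of_mem` needs `Nontrivial`, or `spectrum.subset_closedBall_norm_mul` / `nontriviality`); `Real.norm_exp_I_mul_ofReal_sub_one_le`, `Complex.norm_exp_sub_one_sub_id_le`.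
`hyers`: strong induction on `n`: `j L n - n L j = j (L n - L (n - j) - L j) + (j L (n - j) - (n - j) L j)` for `n ≥ j`; `C = ∑ r < j, ‖j L r - r L j‖`.
-/

namespace Vale.Agent.P096

open Vale.Agent.P104 Vale.Agent.P132 Filter Topology
open scoped InnerProductSpace BoundedContinuousFunction

universe u

variable {H : Type*} [NormedAddCommGroup H] [InnerProductSpace ℂ H] [CompleteSpace H]
  {L L' : Op H}

theorem ex_zero : ex (0 : Op H) = 1 := by
  simp [ex]

theorem ex_add (h : L * L' = L' * L) : ex (L + L') = ex L * ex L' := by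
  let _ : NormedAlgebra ℚ (Op H) := NormedAlgebra.restrictScalars ℚ ℂ _
  have hc : Commute (Complex.I • L) (Complex.I • L') :=
    ((show Commute L L' from h).smul_left _).smul_right _
  rw [ex, smul_add, NormedSpace.exp_add_of_commute hc]
  rfl

theorem star_ex (h : IsSelfAdjoint L) : star (ex L) = ex (-L) := by
  rw [ex, ex, NormedSpace.star_exp, star_smul, h.star_eq, smul_neg, ← neg_smul]
  simp

theorem ex_neg_mul (L : Op H) : ex (-L) * ex L = 1 := by
  rw [← ex_add (by simp), neg_add_cancel, ex_zero]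

theorem ex_mul_neg (L : Op H) : ex L * ex (-L) = 1 := by
  rw [← ex_add (by simp), add_neg_cancel, ex_zero]

theorem eexp_unitary (h : IsSelfAdjoint L) : ex L ∈ unitary (Op H) := by
  rw [Unitary.mem_iff, star_ex h]
  exact ⟨ex_neg_mul L, ex_mul_neg L⟩

theorem eexp_spec (h : IsSelfAdjoint L) {z : ℂ} (hz : z ∈ spectrum ℂ L) :
    ∃ x : ℝ, z = x ∧ ‖x‖ ≤ ‖L‖ := by
  refine ⟨z.re, h.mem_spectrum_eq_re hz, ?_⟩
  have h1 : ‖z‖ ≤ ‖L‖ * ‖(1 : Op H)‖ := spectrum.norm_le_norm_mul_of_mem hz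
  have h2 : ‖(1 : Op H)‖ ≤ 1 := ContinuousLinearMap.norm_id_le
  have h3 := Complex.abs_re_le_norm z
  rw [Real.norm_eq_abs]
  nlinarith [norm_nonneg L]

theorem norm_ex_apply (h : IsSelfAdjoint L) (ζ : H) : ‖ex L ζ‖ = ‖ζ‖ := by
  exact ContinuousLinearMap.norm_map_of_mem_unitary (eexp_unitary h) ζ

theorem norm_ex_le (h : IsSelfAdjoint L) : ‖ex L‖ ≤ 1 := by
  exact (ex L).opNorm_le_bound zero_le_one fun ζ => by rw [norm_ex_apply h, one_mul]

theorem norm_ex_mul (h : IsSelfAdjoint L) (x : Op H) : ‖ex L * x‖ = ‖x‖ := by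
  exact CStarRing.norm_mem_unitary_mul x (eexp_unitary h)

theorem norm_mul_ex (h : IsSelfAdjoint L) (x : Op H) : ‖x * ex L‖ = ‖x‖ := by
  exact CStarRing.norm_mul_mem_unitary x (eexp_unitary h)

theorem ex_comm {Y : Op H} (h : Y * L = L * Y) : Y * ex L = ex L * Y := by
  exact (((show Commute Y L from h).smul_right Complex.I).exp_right).eq

theorem ex_mem {M : VonNeumannAlgebra H} (h : L ∈ M) : ex L ∈ M := by
  rw [mem_iff_comm]
  exact fun s hs => ex_comm (comm_of_mem hs h)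

theorem ex_cfc (h : IsSelfAdjoint L) : ex L = cfc (fun z : ℂ => Complex.exp (Complex.I * z)) L := by
  have hn : IsStarNormal L := h.isStarNormal
  have h1 := cfc_comp_smul Complex.I Complex.exp L
  rw [CFC.complex_exp_eq_normedSpace_exp] at h1
  exact h1.symm

theorem norm_ex_sub_one (h : IsSelfAdjoint L) : ‖ex L - 1‖ ≤ ‖L‖ := by
  have hn : IsStarNormal L := h.isStarNormal
  have e : ex L - 1 = cfc (fun z : ℂ => Complex.exp (Complex.I * z) - 1) L := by
    rw [cfc_sub _ _ L, ← ex_cfc h, cfc_const_one ℂ L]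
  rw [e]
  refine norm_cfc_le (norm_nonneg _) fun z hz => ?_
  obtain ⟨x, rfl, hx⟩ := eexp_spec h hz
  exact Real.norm_exp_I_mul_ofReal_sub_one_le.trans hx

theorem norm_ex_taylor (h : IsSelfAdjoint L) (h1 : ‖L‖ ≤ 1) :
    ‖ex L - 1 - Complex.I • L‖ ≤ ‖L‖ ^ 2 := by
  have hn : IsStarNormal L := h.isStarNormal
  have e : ex L - 1 - Complex.I • L =
      cfc (fun z : ℂ => Complex.exp (Complex.I * z) - 1 - Complex.I * z) L := by
    rw [cfc_sub _ _ L, cfc_sub _ _ L, ← ex_cfc h, cfc_const_one ℂ L, cfc_const_mul_id _ L]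
  rw [e]
  refine norm_cfc_le (by positivity) fun z hz => ?_
  obtain ⟨x, rfl, hx⟩ := eexp_spec h hz
  have h2 : ‖Complex.I * (x : ℂ)‖ = ‖x‖ := by simp
  refine (Complex.norm_exp_sub_one_sub_id_le (by rw [h2]; exact hx.trans h1)).trans ?_
  rw [h2]
  exact pow_le_pow_left₀ (norm_nonneg _) hx 2

theorem norm_le_ex (h : IsSelfAdjoint L) (h1 : ‖L‖ ≤ 1 / 2) : ‖L‖ ≤ 2 * ‖ex L - 1‖ := by
  have h2 := norm_ex_taylor h (by linarith)
  have h3 : ‖Complex.I • L‖ = ‖L‖ := by rw [norm_smul, Complex.norm_I, one_mul]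
  have h4 := norm_sub_le (ex L - 1) (ex L - 1 - Complex.I • L)
  rw [sub_sub_cancel, h3] at h4
  nlinarith [norm_nonneg L]

theorem norm_ex_sub (h : IsSelfAdjoint L) (h' : IsSelfAdjoint L') (hc : L * L' = L' * L) :
    ‖ex L - ex L'‖ = ‖ex (L - L') - 1‖ := by
  have e : ex L - ex L' = (ex (L - L') - 1) * ex L' := by
    rw [sub_mul, one_mul, ← ex_add (by rw [sub_mul, mul_sub, hc]), sub_add_cancel]
  rw [e, norm_mul_ex h']

theorem continuous_ex (L : Op H) : Continuous fun t : ℝ => ex (t • L) := by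
  let _ : NormedAlgebra ℚ (Op H) := NormedAlgebra.restrictScalars ℚ ℂ _
  exact NormedSpace.exp_continuous.comp (by fun_prop)

theorem hyers {E : Type*} [NormedAddCommGroup E] [NormedSpace ℝ E] {L : ℕ → E} {c : ℝ}
    (h : ∀ j k, ‖L (j + k) - L j - L k‖ ≤ c) {j : ℕ} (hj : 0 < j) :
    ∃ C, ∀ n : ℕ, ‖(j : ℝ) • L n - (n : ℝ) • L j‖ ≤ n * c + C := by
  have hc : 0 ≤ c := (norm_nonneg _).trans (h 0 0)
  refine ⟨∑ r ∈ Finset.range j, ‖(j : ℝ) • L r - (r : ℝ) • L j‖, fun n => ?_⟩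
  induction n using Nat.strong_induction_on with
  | _ n ih =>
    rcases lt_or_ge n j with hn | hn
    · refine le_add_of_nonneg_of_le (by positivity) ?_
      exact Finset.single_le_sum (f := fun r : ℕ => ‖(j : ℝ) • L r - (r : ℝ) • L j‖)
        (fun _ _ => norm_nonneg _) (Finset.mem_range.2 hn)
    · obtain ⟨m, rfl⟩ := Nat.exists_eq_add_of_le' hn
      have h1 := ih m (by omega)
      have e : (j : ℝ) • L (m + j) - ((m + j : ℕ) : ℝ) • L j =
          (j : ℝ) • (L (m + j) - L m - L j) + ((j : ℝ) • L m - (m : ℝ) • L j) := by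
        push_cast
        module
      have h2 : ‖(j : ℝ) • (L (m + j) - L m - L j)‖ ≤ j * c := by
        rw [norm_smul, Real.norm_natCast]
        exact mul_le_mul_of_nonneg_left (h m j) (Nat.cast_nonneg j)
      rw [e]
      refine (norm_add_le _ _).trans ?_
      push_cast
      linarith

end Vale.Agent.P096
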