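import Vale.Agent.P096.EDefs

/-!
# P096 part E: analytic families on the strip
* `strip_max`: `PhragmenLindelof.vertical_strip` (growth condition with `c = 0`... any `c < π / (1/2 - 0)`, `B = 0`, `IsBigO.of_bound`); a point with `re z = 0` is `z.im * I`.
* `SA.mul`: `F z (G z ζ) - F a (G a ζ) = F z (G z ζ - G a ζ) + (F z - F a) (G a ζ)`. Derivative at an interior point `a`: if `v` is the derivative of `G · ζ` and `w` that of `F · (G a ζ)`,
  the remainder is `F z (G z ζ - G a ζ - (z - a) v) + (z - a) (F z v - F a v) + (F z (G a ζ) - F a (G a ζ) - (z - a) w)`.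
* `SA.of_dense`: `F · ζ` is the uniform limit on the closed strip of `F · (T ζ n)`; `TendstoUniformlyOn.continuousOn`, `TendstoLocallyUniformlyOn.differentiableOn`.
* `SA.schwarz`: for a unit vector `ζ`, `f₀ = F a ζ`, `n = ‖f₀‖`, `c = 1 + θ ^ 2`, `g w = ⟪f₀, F (a + w) ζ⟫ - n ^ 2` has `g 0 = 0`, `re g ≤ n (c - n) + θ ^ 2 =: μ`;
  `Complex.borelCaratheodory_zero` gives `‖g w‖ ≤ 2 μ` for `‖w‖ ≤ r / 2`. `‖f - f₀‖ ^ 2 ≤ c ^ 2 - n ^ 2 + 4 μ ≤ 6 c (c - n) + 4 θ ^ 2 ≤ 64 θ ^ 2` as `c - n ≤ 5 θ ^ 2`, `c ≤ 2`.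
-/

namespace Vale.Agent.P096

open Vale.Agent.P104 Vale.Agent.P132 Filter Topology
open scoped InnerProductSpace BoundedContinuousFunction

universe u

theorem closure_strip : closure strip = cstrip := by
  unfold strip cstrip
  rw [Complex.closure_preimage_re, closure_Ioo (by norm_num)]

theorem isOpen_strip : IsOpen strip := isOpen_Ioo.preimage Complex.continuous_re

theorem strip_subset : strip ⊆ cstrip := fun _ h => ⟨h.1.le, h.2.le⟩

theorem real_mem_cstrip {x : ℝ} (h0 : 0 ≤ x) (h1 : x ≤ 1 / 2) (t : ℝ) :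
    (x : ℂ) + t * Complex.I ∈ cstrip := by
  have e : ((x : ℂ) + t * Complex.I).re = x := by simp
  exact ⟨by rw [e]; exact h0, by rw [e]; exact h1⟩

theorem ball_subset_strip {x : ℝ} (h1 : x ≤ 1 / 4) : Metric.ball (x : ℂ) x ⊆ strip := by
  intro z hz
  rw [mem_ball_iff_norm] at hz
  have h := abs_lt.1 ((Complex.abs_re_le_norm _).trans_lt hz)
  rw [Complex.sub_re, Complex.ofReal_re] at h
  exact ⟨by linarith [h.1], by linarith [h.2]⟩

theorem strip_max {E : Type*} [NormedAddCommGroup E] [NormedSpace ℂ E] {f : ℂ → E}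
    (hd : DiffContOnCl ℂ f strip) {B C : ℝ} (hB : ∀ z ∈ cstrip, ‖f z‖ ≤ B)
    (h0 : ∀ t : ℝ, ‖f (0 + t * Complex.I)‖ ≤ C) (h1 : ∀ t : ℝ, ‖f (1 / 2 + t * Complex.I)‖ ≤ C) :
    ∀ z ∈ cstrip, ‖f z‖ ≤ C := by
  intro z hz
  refine PhragmenLindelof.vertical_strip (a := 0) (b := 1 / 2) hd ⟨0, by positivity, 0, ?_⟩
    (fun w hw => ?_) (fun w hw => ?_) hz.1 hz.2
  · refine Asymptotics.IsBigO.of_bound B (Filter.mem_inf_of_right ?_)
    intro w hw
    simpa using hB w (strip_subset hw)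
  · have e : w = 0 + (w.im : ℝ) * Complex.I := Complex.ext (by simp [hw]) (by simp)
    rw [e]
    exact h0 _
  · have e : w = 1 / 2 + (w.im : ℝ) * Complex.I := Complex.ext (by simp [hw]) (by simp)
    rw [e]
    exact h1 _

variable {H : Type*} [NormedAddCommGroup H] [InnerProductSpace ℂ H] [CompleteSpace H]
  {F G : ℂ → Op H} {c c' : ℝ}

omit [CompleteSpace H] in
theorem EStrip_app_le {x : Op H} {C : ℝ} (h : ‖x‖ ≤ C) (ζ : H) : ‖x ζ‖ ≤ C * ‖ζ‖ :=
  x.le_of_opNorm_le h ζ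

theorem EStrip_zero : (0 : ℂ) ∈ cstrip := ⟨le_refl (0 : ℝ), by norm_num⟩

theorem SA.max (h : SA F c) {C : ℝ} (h0 : ∀ t : ℝ, ‖F (0 + t * Complex.I)‖ ≤ C)
    (h1 : ∀ t : ℝ, ‖F (1 / 2 + t * Complex.I)‖ ≤ C) : ∀ z ∈ cstrip, ‖F z‖ ≤ C := by
  intro z hz
  refine ContinuousLinearMap.opNorm_le_bound _ ((norm_nonneg _).trans (h0 0)) fun ζ => ?_
  exact strip_max (h.diff ζ) (B := c * ‖ζ‖) (fun w hw => EStrip_app_le (h.bdd w hw) ζ)
    (fun t => EStrip_app_le (h0 t) ζ) (fun t => EStrip_app_le (h1 t) ζ) z hz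

theorem SA.const (x : Op H) : SA (fun _ => x) ‖x‖ :=
  ⟨fun _ => diffContOnCl_const, fun _ _ => le_rfl⟩

theorem SA.add (h : SA F c) (h' : SA G c') : SA (fun z => F z + G z) (c + c') :=
  ⟨fun ζ => (h.diff ζ).add (h'.diff ζ),
    fun z hz => (norm_add_le _ _).trans (add_le_add (h.bdd z hz) (h'.bdd z hz))⟩

theorem SA.sub (h : SA F c) (h' : SA G c') : SA (fun z => F z - G z) (c + c') :=
  ⟨fun ζ => (h.diff ζ).sub (h'.diff ζ),
    fun z hz => (norm_sub_le _ _).trans (add_le_add (h.bdd z hz) (h'.bdd z hz))⟩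

theorem SA.smul (h : SA F c) (a : ℂ) : SA (fun z => a • F z) (‖a‖ * c) :=
  ⟨fun ζ => (h.diff ζ).const_smul a, fun z hz => by
    rw [norm_smul]
    exact mul_le_mul_of_nonneg_left (h.bdd z hz) (norm_nonneg _)⟩

omit [CompleteSpace H] in
theorem EStrip_cont (h : SA F c) (ζ : H) : ContinuousOn (fun z => F z ζ) cstrip :=
  closure_strip ▸ (h.diff ζ).continuousOn

omit [CompleteSpace H] in
theorem EStrip_app (h : SA F c) {a : ℂ} (ha : a ∈ cstrip) {l : Filter ℂ} (hl : l ≤ 𝓝[cstrip] a)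
    {s : ℂ → H} {v : H} (hs : Tendsto s l (𝓝 v)) :
    Tendsto (fun z => F z (s z)) l (𝓝 (F a v)) := by
  have h1 : Tendsto (fun z => F z v) l (𝓝 (F a v)) := (EStrip_cont h v a ha).tendsto.mono_left hl
  have h2 : Tendsto (fun z => F z (s z - v)) l (𝓝 0) := by
    have h3 : Tendsto (fun z => c * ‖s z - v‖) l (𝓝 0) := by
      simpa using (tendsto_sub_nhds_zero_iff.2 hs).norm.const_mul c
    refine squeeze_zero_norm' ?_ h3
    filter_upwards [hl self_mem_nhdsWithin] with z hz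
    exact EStrip_app_le (h.bdd z hz) _
  simpa using h1.add h2

theorem SA.mul (h : SA F c) (h' : SA G c') : SA (fun z => F z * G z) (c * c') := by
  refine ⟨fun ζ => ⟨fun a ha => ?_, ?_⟩, fun z hz => (norm_mul_le _ _).trans
    (mul_le_mul (h.bdd z hz) (h'.bdd z hz) (norm_nonneg _) ((norm_nonneg _).trans (h.bdd z hz)))⟩
  · have hn : strip ∈ 𝓝 a := isOpen_strip.mem_nhds ha
    have h1 := ((h'.diff ζ).differentiableOn.differentiableAt hn).hasDerivAt
    have h2 := ((h.diff (G a ζ)).differentiableOn.differentiableAt hn).hasDerivAt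
    rw [hasDerivAt_iff_tendsto_slope] at h1 h2
    have hl : 𝓝[≠] a ≤ 𝓝[cstrip] a := by
      rw [nhdsWithin_eq_nhds.2 (mem_of_superset hn strip_subset)]
      exact nhdsWithin_le_nhds
    have h3 := (EStrip_app h (strip_subset ha) hl h1).add h2
    refine (hasDerivAt_iff_tendsto_slope.2 (h3.congr fun z => ?_)).differentiableAt
      |>.differentiableWithinAt
    simp only [slope_def_module, map_smul, map_sub, ← smul_add]
    congr 1
    change _ = F z (G z ζ) - F a (G a ζ)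
    abel
  · rw [closure_strip]
    intro a ha
    exact EStrip_app h ha le_rfl (EStrip_cont h' ζ a ha).tendsto

theorem SA.of_dense {T : Op H} (hT : DenseRange T) (hb : ∀ z ∈ cstrip, ‖F z‖ ≤ c)
    (hd : ∀ ζ, DiffContOnCl ℂ (fun z => F z (T ζ)) strip) : SA F c := by
  refine ⟨fun ζ => ?_, hb⟩
  obtain ⟨x, hx, hl⟩ := mem_closure_iff_seq_limit.1 (hT ζ)
  choose y hy using hx
  have hc : 0 ≤ c := (norm_nonneg _).trans (hb 0 EStrip_zero)
  have hu : TendstoUniformlyOn (fun n z => F z (T (y n))) (fun z => F z ζ) atTop cstrip := by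
    rw [Metric.tendstoUniformlyOn_iff]
    intro ε hε
    have h3 : Tendsto (fun n => c * ‖ζ - x n‖) atTop (𝓝 0) := by
      simpa using ((tendsto_const_nhds (x := ζ)).sub hl).norm.const_mul c
    filter_upwards [h3.eventually (gt_mem_nhds hε)] with n hn z hz
    rw [dist_eq_norm, ← map_sub, hy]
    exact (EStrip_app_le (hb z hz) _).trans_lt hn
  refine ⟨(hu.mono strip_subset).tendstoLocallyUniformlyOn.differentiableOn
    (Eventually.of_forall fun n => (hd (y n)).differentiableOn) isOpen_strip, ?_⟩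
  rw [closure_strip]
  exact hu.continuousOn (Frequently.of_forall fun n => closure_strip ▸ (hd (y n)).continuousOn)

theorem SA.tendsto_zero (h : SA F c) {x : ℕ → ℝ} (h0 : ∀ j, 0 ≤ x j) (h1 : ∀ j, x j ≤ 1 / 2)
    (hx : Tendsto x atTop (𝓝 0)) (ζ : H) : Tendsto (fun j => F (x j) ζ) atTop (𝓝 (F 0 ζ)) := by
  refine (EStrip_cont h ζ 0 EStrip_zero).tendsto.comp
    (tendsto_nhdsWithin_iff.2 ⟨?_, Eventually.of_forall fun j => ⟨h0 j, h1 j⟩⟩)
  simpa [Function.comp_def] using (Complex.continuous_ofReal.tendsto 0).comp hx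

theorem SA.schwarz {θ : ℝ} (h : SA F (1 + θ ^ 2)) (hθ : 0 < θ) (hθ1 : θ ≤ 1) {a z : ℂ} {r : ℝ}
    (hr : 0 < r) (hb : Metric.ball a r ⊆ strip) (hl : ∀ ζ, (1 - 4 * θ ^ 2) * ‖ζ‖ ≤ ‖F a ζ‖)
    (hz : ‖z - a‖ ≤ r / 2) : ‖F z - F a‖ ≤ 8 * θ := by
  refine ContinuousLinearMap.opNorm_le_of_unit_norm (by positivity) fun ζ hζ => ?_
  have hmem : ∀ w ∈ Metric.ball (0 : ℂ) r, a + w ∈ strip := fun w hw =>
    hb (by simpa [mem_ball_iff_norm] using hw)
  have hn : ∀ w ∈ strip, ‖F w ζ‖ ≤ 1 + θ ^ 2 := fun w hw => by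
    simpa [hζ] using EStrip_app_le (h.bdd w (strip_subset hw)) ζ
  have hn0 : ‖F a ζ‖ ≤ 1 + θ ^ 2 := hn a (hb (Metric.mem_ball_self hr))
  have hl0 : 1 - 4 * θ ^ 2 ≤ ‖F a ζ‖ := by simpa [hζ] using hl ζ
  set n := ‖F a ζ‖ with hnd
  have hn1 : 0 ≤ n := norm_nonneg _
  let g : ℂ → ℂ := fun w => ⟪F a ζ, F (a + w) ζ⟫_ℂ - (n ^ 2 : ℝ)
  have hμ : 0 < n * (1 + θ ^ 2 - n) + θ ^ 2 := by
    have := mul_nonneg hn1 (sub_nonneg.2 hn0)
    positivity
  have hgd : DifferentiableOn ℂ g (Metric.ball 0 r) := by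
    have h1 : DifferentiableOn ℂ (fun w => F (a + w) ζ) (Metric.ball 0 r) :=
      (h.diff ζ).differentiableOn.comp (f := fun w => a + w) (by fun_prop) hmem
    exact ((innerSL ℂ (F a ζ)).differentiable.comp_differentiableOn h1).sub_const _
  have hre : ∀ w, (g w).re = (⟪F a ζ, F (a + w) ζ⟫_ℂ).re - n ^ 2 := fun w => by
    simp only [g, Complex.sub_re, Complex.ofReal_re]
  have hg0 : g 0 = 0 := by
    simp only [g, add_zero, inner_self_eq_norm_sq_to_K, hnd]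
    simp
  have hmap : Set.MapsTo g (Metric.ball 0 r) {z | z.re ≤ n * (1 + θ ^ 2 - n) + θ ^ 2} := by
    intro w hw
    have h1 := (Complex.re_le_norm _).trans (norm_inner_le_norm (𝕜 := ℂ) (F a ζ) (F (a + w) ζ))
    have h2 := mul_le_mul_of_nonneg_left (hn _ (hmem w hw)) hn1
    change (g w).re ≤ _
    rw [hre]
    nlinarith
  have hzb : z - a ∈ Metric.ball (0 : ℂ) r := mem_ball_zero_iff.2 (by linarith)
  have hB := Complex.borelCaratheodory_zero hμ hgd hmap hr hzb hg0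
  have hB2 : ‖g (z - a)‖ ≤ 2 * (n * (1 + θ ^ 2 - n) + θ ^ 2) := by
    refine hB.trans ?_
    rw [div_le_iff₀ (by linarith)]
    exact mul_le_mul_of_nonneg_left (by linarith) (by positivity)
  have h3 := (abs_le.1 ((Complex.abs_re_le_norm _).trans hB2)).1
  rw [hre, add_sub_cancel] at h3
  have h4 := hn _ (hmem _ hzb)
  rw [add_sub_cancel] at h4
  have h5 := @norm_sub_sq ℂ _ _ _ _ (F a ζ) (F z ζ)
  rw [RCLike.re_to_complex, ← hnd] at h5
  have h6 : ‖F z ζ‖ ^ 2 ≤ (1 + θ ^ 2) ^ 2 := pow_le_pow_left₀ (norm_nonneg _) h4 2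
  have hθ2 : θ ^ 2 ≤ 1 := by nlinarith
  have h7 : (1 + θ ^ 2 - n) * (1 + θ ^ 2 + 5 * n) ≤ 5 * θ ^ 2 * 12 :=
    mul_le_mul (by linarith) (by linarith) (by positivity) (by positivity)
  rw [sub_apply, norm_sub_rev]
  refine abs_le_of_sq_le_sq' (b := 8 * θ) ?_ (by positivity) |>.2
  nlinarith

end Vale.Agent.P096
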