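import Vale.Agent.P096.EPow
import Vale.Agent.P096.EStrip

/-!
# P096 part E: the operator relation and the analytic family
* `rel_op`: the relation is closed in the pair `(x ξ, x* ξ)`, so `S.core` gives `⟪s* ξ, A (R_S ζ)⟫ = ⟪B (J_S (T_S ζ)), s ξ⟫`. Put `s = T.ρ n` (`ρ_mem`, `ρ_ξ`, `star_ρ`): `s ξ = J (n* ξ)`,
  `s* ξ = J (n ξ)`; `T.core` at `J η` gives `⟪J (R J η), A R_S ζ⟫ = ⟪B J_S T_S ζ, T (J η)⟫`; `J R J = 2 - R` and `T J = J T` (`J_Θ`, `flat rB = 2 - rB`, `flat sechB = sechB`), `inner_J`, `R_sa`, `T_sa`.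
* `exists_fam`: `K z = 2⁻¹ • (Θ₂ (qB (z - 1/2)) A Θ₁ (qB (-z)) + Θ₂ (qB z) B Θ₁ (qB (1/2 - z)))` is `SA`, and `K (z + t I) = Δ₂ t * K z * Δ₁ (-t)` (`qB_shift`; no condition on `z`).
  `K 0 = A T₁`: multiply the relation on the right by `2 - R₁` and cancel `T₁` on the right (`denseRange_T`, `T_mul_T`): `T₂ B (2 - R₁) = (2 - R₂) A T₁`.
  `K (1/2) = B T₁`: multiply on the left by `R₂` and cancel `T₂` (`T_cancel`): `T₂ A R₁ = R₂ B T₁`. `strip_max` for `z ↦ K z ζ`: `‖K z ζ‖ ≤ c ‖T₁ ζ‖`.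
  `F z = LinearMap.extendOfNorm (K z) T₁` has `F z (T₁ ζ) = K z ζ` and norm at most `c` on the closed strip; `SA.of_dense`; all identities are checked on the range of `T₁`.
  `comm`: `v` commutes with `B` because `T₂ (B v - v B) T₁ = 0`.
-/

namespace Vale.Agent.P096

open Vale.Agent.P104 Vale.Agent.P132 Filter Topology
open scoped InnerProductSpace BoundedContinuousFunction

universe u

variable {H : Type u} [NormedAddCommGroup H] [InnerProductSpace ℂ H] [CompleteSpace H]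

theorem norm_jj (S T : SF H) (x : Op H) : ‖jj T.J S.J x‖ ≤ ‖x‖ := by
  refine ContinuousLinearMap.opNorm_le_bound _ (norm_nonneg _) fun η => ?_
  rw [jj_apply, T.norm_J, ← S.norm_J η]
  exact x.le_opNorm _

theorem jj_mul (R S T : SF H) (x y : Op H) :
    jj R.J S.J x * jj S.J T.J y = jj R.J T.J (x * y) := by
  ext η
  simp only [mul_apply_eq_comp, jj_apply, S.JJ]

theorem jj_sub (S T : SF H) (x y : Op H) : jj T.J S.J (x - y) = jj T.J S.J x - jj T.J S.J y := by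
  ext η
  simp only [sub_apply, jj_apply, map_sub]

theorem jj_one (S : SF H) : jj S.J S.J 1 = 1 := by
  ext η
  simp only [jj_apply, one_apply_eq_self, S.JJ]

theorem jj_jj (S : SF H) (x : Op H) : jj S.J S.J (jj S.J S.J x) = x := by
  ext η
  simp only [jj_apply, S.JJ]

theorem jj_eq (S : SF H) (x : Op H) : jj S.J S.J x = jconj S.J x := rfl

theorem efam_two_sub (F : FC H) : 2 - F.R = F.Θ (2 - rB) := by
  rw [map_sub, map_ofNat]; rfl

theorem efam_flat_sech : flat sechB = sechB := by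
  ext u
  rw [flat_apply, sechB_apply, sechB_apply, sech_neg, Complex.conj_ofReal]

theorem efam_flat_r : flat rB = 2 - rB := by
  ext u
  rw [flat_apply, rB_apply, rr_neg, Complex.conj_ofReal]
  simp

theorem rel_op (S T : SF H) {ξ : H} (hS : S.ξ = ξ) (hT : T.ξ = ξ) {A B : Op H}
    (h : ∀ x ∈ S.M, ∀ s ∈ T.M.commutant, ⟪star s ξ, A (x ξ)⟫_ℂ = ⟪B (star x ξ), s ξ⟫_ℂ) :
    (2 - T.R) * A * S.R = T.T * jj T.J S.J B * S.T := by
  have h1 : ∀ s ∈ T.M.commutant, ∀ ζ,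
      ⟪star s ξ, A (S.R ζ)⟫_ℂ = ⟪B (S.J (S.T ζ)), s ξ⟫_ℂ := by
    intro s hs ζ
    have g : closure {p : H × H | ∃ x ∈ S.M, p = (x S.ξ, star x S.ξ)} ⊆
        {p | ⟪star s ξ, A p.1⟫_ℂ = ⟪B p.2, s ξ⟫_ℂ} := by
      refine closure_minimal ?_ (isClosed_eq (by fun_prop) (by fun_prop))
      rintro _ ⟨y, hy, rfl⟩
      rw [hS]
      exact h y hy s hs
    exact g (S.core ζ)
  ext ζ
  refine ext_inner_left ℂ fun η => ?_
  have g : closure {p : H × H | ∃ x ∈ T.M, p = (x T.ξ, star x T.ξ)} ⊆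
      {p | ⟪T.J p.1, A (S.R ζ)⟫_ℂ = ⟪B (S.J (S.T ζ)), T.J p.2⟫_ℂ} := by
    refine closure_minimal ?_ (isClosed_eq (by fun_prop) (by fun_prop))
    rintro _ ⟨n, hn, rfl⟩
    have g1 := h1 _ (T.ρ_mem hn) ζ
    rw [T.star_ρ, ← hT, T.ρ_ξ, T.ρ_ξ, star_star] at g1
    exact g1
  have g2 : ⟪T.J (T.R (T.J η)), A (S.R ζ)⟫_ℂ =
      ⟪B (S.J (S.T ζ)), T.J (T.J (T.T (T.J η)))⟫_ℂ := g (T.core (T.J η))
  have g3 : T.J (T.R (T.J η)) = (2 - T.R) η := by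
    rw [FC.R, T.J_Θ, efam_flat_r, T.JJ, ← efam_two_sub]; rfl
  have g4 : T.J (T.T (T.J η)) = T.T η := by
    rw [FC.T, T.J_Θ, efam_flat_sech, T.JJ]
  have g5 : IsSelfAdjoint (2 - T.R) := by
    rw [efam_two_sub]
    exact T.toFC.Θ_sa fun u => by simp
  rw [g3, g4, tom1_sa_left g5, T.sfb_inner_J_right, tom1_sa_left T.toFC.T_sa] at g2
  exact g2

theorem fam_cancel (F : FC H) {a b : Op H} (h : a * F.T = b * F.T) : a = b := by
  refine ContinuousLinearMap.ext fun η => ?_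
  refine F.denseRange_T.induction_on (p := fun η => a η = b η) η
    (isClosed_eq a.continuous b.continuous) fun ζ => ?_
  exact congrArg (fun x : Op H => x ζ) h

/-- the family multiplied by `T₁` -/
noncomputable def efamK (F₂ F₁ : FC H) (A B : Op H) (z : ℂ) : Op H :=
  (2⁻¹ : ℂ) • (F₂.Θ (qB (z - 1 / 2)) * A * F₁.Θ (qB (-z)) +
    F₂.Θ (qB z) * B * F₁.Θ (qB (1 / 2 - z)))

theorem efam_sa (F₂ F₁ : FC H) (A B : Op H) : ∃ c, SA (efamK F₂ F₁ A B) c :=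
  ⟨_, ((((sa_qB2 F₂).mul (SA.const A)).mul (sa_qB3 F₁)).add
    (((sa_qB1 F₂).mul (SA.const B)).mul (sa_qB4 F₁))).smul 2⁻¹⟩

theorem efam_shift (F₂ F₁ : FC H) (A B : Op H) (z : ℂ) (t : ℝ) :
    efamK F₂ F₁ A B (z + t * Complex.I) = F₂.Δ t * efamK F₂ F₁ A B z * F₁.Δ (-t) := by
  have e1 : z + t * Complex.I - 1 / 2 = (z - 1 / 2) + t * Complex.I := by ring
  have e2 : -(z + t * Complex.I) = -z + ((-t : ℝ) : ℂ) * Complex.I := by push_cast; ring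
  have e3 : 1 / 2 - (z + t * Complex.I) = (1 / 2 - z) + ((-t : ℝ) : ℂ) * Complex.I := by
    push_cast; ring
  unfold efamK
  rw [e1, e2, e3, qB_shift, qB_shift, qB_shift, qB_shift, mul_comm (eB (-t)), mul_comm (eB (-t))]
  simp only [map_mul, FC.Δ, mul_smul_comm, smul_mul_assoc, mul_add, add_mul, mul_assoc]

omit [CompleteSpace H] in
theorem efam_half_two (x : Op H) : (2⁻¹ : ℂ) • (2 * x) = x := by
  rw [two_mul, ← two_smul ℂ, smul_smul]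
  simp

theorem efam_zero (F₂ F₁ : FC H) {A B : Op H}
    (h : (2 - F₂.R) * A * F₁.R = F₂.T * B * F₁.T) : efamK F₂ F₁ A B 0 = A * F₁.T := by
  have c1 : (2 - F₁.R) * F₁.T = F₁.T * (2 - F₁.R) := by
    rw [efam_two_sub]; exact F₁.Θ_comm _ _
  have e : F₂.T * B * (2 - F₁.R) = (2 - F₂.R) * A * F₁.T := by
    apply fam_cancel F₁
    calc F₂.T * B * (2 - F₁.R) * F₁.T = F₂.T * B * F₁.T * (2 - F₁.R) := by
          rw [mul_assoc, c1, ← mul_assoc]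
      _ = (2 - F₂.R) * A * (F₁.R * (2 - F₁.R)) := by rw [← h, mul_assoc]
      _ = _ := by rw [← F₁.T_mul_T, ← mul_assoc]
  unfold efamK
  rw [zero_sub, neg_zero, sub_zero, qB_zero, qB_half, qB_neg_half, ← efam_two_sub]
  change (2⁻¹ : ℂ) • (F₂.R * A * F₁.T + F₂.T * B * (2 - F₁.R)) = _
  rw [e, ← add_mul, ← add_mul, add_sub_cancel, mul_assoc, efam_half_two]

theorem efam_half (F₂ F₁ : FC H) {A B : Op H}
    (h : (2 - F₂.R) * A * F₁.R = F₂.T * B * F₁.T) : efamK F₂ F₁ A B (1 / 2) = B * F₁.T := by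
  have c1 : F₂.R * F₂.T = F₂.T * F₂.R := F₂.Θ_comm _ _
  have e : F₂.T * A * F₁.R = F₂.R * B * F₁.T := by
    apply F₂.T_cancel
    calc F₂.T * (F₂.T * A * F₁.R) = F₂.T * F₂.T * A * F₁.R := by simp only [mul_assoc]
      _ = F₂.R * ((2 - F₂.R) * A * F₁.R) := by rw [F₂.T_mul_T]; simp only [mul_assoc]
      _ = F₂.R * F₂.T * B * F₁.T := by rw [h]; simp only [mul_assoc]
      _ = _ := by rw [c1]; simp only [mul_assoc]
  unfold efamK
  rw [sub_self, qB_zero, qB_half, qB_neg_half, ← efam_two_sub]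
  change (2⁻¹ : ℂ) • (F₂.T * A * F₁.R + (2 - F₂.R) * B * F₁.T) = _
  rw [e, ← add_mul, ← add_mul, add_sub_cancel, mul_assoc, efam_half_two]

theorem efam_bdry (F₂ F₁ : FC H) {X : Op H} {c : ℝ} (hX : ‖X‖ ≤ c) (t : ℝ) (ζ : H) :
    ‖(F₂.Δ t * (X * F₁.T) * F₁.Δ (-t)) ζ‖ ≤ c * ‖F₁.T ζ‖ := by
  have c1 : F₁.T * F₁.Δ (-t) = F₁.Δ (-t) * F₁.T := F₁.Θ_comm _ _
  have e : (F₂.Δ t * (X * F₁.T) * F₁.Δ (-t)) ζ = F₂.Δ t (X (F₁.Δ (-t) (F₁.T ζ))) := by
    rw [mul_assoc, mul_assoc, c1]; rfl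
  rw [e, F₂.norm_Δ, ← F₁.norm_Δ (-t) (F₁.T ζ)]
  exact (X.le_opNorm _).trans (mul_le_mul_of_nonneg_right hX (norm_nonneg _))

theorem efam_bound (F₂ F₁ : FC H) {A B : Op H} {c : ℝ}
    (h : (2 - F₂.R) * A * F₁.R = F₂.T * B * F₁.T) (hA : ‖A‖ ≤ c) (hB : ‖B‖ ≤ c) (ζ : H) :
    ∀ z ∈ cstrip, ‖efamK F₂ F₁ A B z ζ‖ ≤ c * ‖F₁.T ζ‖ := by
  obtain ⟨c', hc'⟩ := efam_sa F₂ F₁ A B
  refine strip_max (hc'.diff ζ) (B := c' * ‖ζ‖) (fun z hz => ?_) (fun t => ?_) (fun t => ?_)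
  · exact (ContinuousLinearMap.le_opNorm _ _).trans
      (mul_le_mul_of_nonneg_right (hc'.bdd z hz) (norm_nonneg _))
  · rw [efam_shift, efam_zero F₂ F₁ h]
    exact efam_bdry F₂ F₁ hA t ζ
  · rw [efam_shift, efam_half F₂ F₁ h]
    exact efam_bdry F₂ F₁ hB t ζ

theorem efam_comm (F₂ F₁ : FC H) {A B v : Op H}
    (h : (2 - F₂.R) * A * F₁.R = F₂.T * B * F₁.T) (hA : v * A = A * v)
    (h1 : ∀ f, F₁.Θ f * v = v * F₁.Θ f) (h2 : ∀ f, F₂.Θ f * v = v * F₂.Θ f) (z : ℂ) :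
    efamK F₂ F₁ A B z * v = v * efamK F₂ F₁ A B z := by
  have cA : Commute v A := hA
  have c1 : ∀ f, Commute v (F₁.Θ f) := fun f => (h1 f).symm
  have c2 : ∀ f, Commute v (F₂.Θ f) := fun f => (h2 f).symm
  have c3 : Commute v (F₂.T * B * F₁.T) := by
    rw [← h, efam_two_sub]
    exact ((c2 _).mul_right cA).mul_right (c1 _)
  have cB : Commute v B := by
    have t1 : v * F₁.T = F₁.T * v := (c1 sechB).eq
    have t2 : v * F₂.T = F₂.T * v := (c2 sechB).eq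
    apply F₂.T_cancel
    apply fam_cancel F₁
    calc F₂.T * (v * B) * F₁.T = v * (F₂.T * B * F₁.T) := by
          rw [← mul_assoc, ← t2]; simp only [mul_assoc]
      _ = F₂.T * B * F₁.T * v := c3.eq
      _ = _ := by rw [mul_assoc, ← t1]; simp only [mul_assoc]
  exact (((((c2 _).mul_right cA).mul_right (c1 _)).add_right
    (((c2 _).mul_right cB).mul_right (c1 _))).smul_right (2⁻¹ : ℂ)).eq.symm

theorem exists_fam (F₂ F₁ : FC H) {A B : Op H} {c : ℝ}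
    (h : (2 - F₂.R) * A * F₁.R = F₂.T * B * F₁.T) (hA : ‖A‖ ≤ c) (hB : ‖B‖ ≤ c) :
    ∃ F, Fam F₂ F₁ A B c F := by
  have hc : 0 ≤ c := (norm_nonneg _).trans hA
  have hd : DenseRange F₁.T.toLinearMap := F₁.denseRange_T
  let F : ℂ → Op H := fun z =>
    LinearMap.extendOfNorm (efamK F₂ F₁ A B z).toLinearMap F₁.T.toLinearMap
  have hF : ∀ z ∈ cstrip, ∀ ζ, F z (F₁.T ζ) = efamK F₂ F₁ A B z ζ := fun z hz ζ =>
    LinearMap.extendOfNorm_eq hd ⟨c, fun ζ => efam_bound F₂ F₁ h hA hB ζ z hz⟩ ζ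
  have hF' : ∀ z ∈ cstrip, F z * F₁.T = efamK F₂ F₁ A B z := fun z hz =>
    ContinuousLinearMap.ext (hF z hz)
  have hn : ∀ z ∈ cstrip, ‖F z‖ ≤ c := fun z hz =>
    LinearMap.opNorm_extendOfNorm_le hd hc fun ζ => efam_bound F₂ F₁ h hA hB ζ z hz
  obtain ⟨c', hc'⟩ := efam_sa F₂ F₁ A B
  refine ⟨F, SA.of_dense F₁.denseRange_T hn fun ζ => ?_, fun z hz t => ?_, ?_, ?_,
    fun v hv h1 h2 z hz => ?_⟩
  · refine ⟨(hc'.diff ζ).differentiableOn.congr fun z hz => hF z (strip_subset hz) ζ,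
      (hc'.diff ζ).continuousOn.congr fun z hz => hF z (closure_strip ▸ hz) ζ⟩
  · have hz' : z + t * Complex.I ∈ cstrip := by
      simpa [cstrip] using hz
    have c1 : F₁.T * F₁.Δ (-t) = F₁.Δ (-t) * F₁.T := F₁.Θ_comm _ _
    apply fam_cancel F₁
    rw [hF' _ hz', efam_shift, ← hF' z hz, mul_assoc, mul_assoc, c1]
    simp only [mul_assoc]
  · apply fam_cancel F₁
    rw [hF' 0 (by simp [cstrip]), efam_zero F₂ F₁ h]
  · apply fam_cancel F₁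
    rw [hF' (1 / 2) (by simp [cstrip]), efam_half F₂ F₁ h]
  · have t1 : v * F₁.T = F₁.T * v := (h1 sechB).symm
    apply fam_cancel F₁
    rw [mul_assoc, t1, ← mul_assoc, hF' z hz, efam_comm F₂ F₁ h hv h1 h2, mul_assoc, hF' z hz]

end Vale.Agent.P096
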