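import Vale.Agent.P096.Basic
import Vale.Agent.P104.Compare

/-!
# P096 part E: Kraus maps
* `kr_norm`: `|⟪η, kr T ζ⟫| ≤ ‖T‖ (∑ ‖a η‖ ‖a ζ‖ + ‖r η‖ ‖r ζ‖) ≤ ‖T‖ ‖η‖ ‖ζ‖` (Cauchy - Schwarz over `Option` / `Finset.inner_mul_le_norm_mul_norm` / `sum_mul_sq_le_sq_mul_sq`, or
  `2 ‖a η‖ ‖a ζ‖ ≤ ‖a η‖ ^ 2 + ‖a ζ‖ ^ 2` for unit vectors), `KD.pyth`.
* `WC.lim`: `Ultrafilter.map G U`.
* `exists_min`: `zorn_superset_nonempty` on the nonempty closed invariant subsets of `K`. For a nonempty chain `c` the filter `⨅ s ∈ c, 𝓟 s` is not trivial (directed), take an ultrafilter `U` below it and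
  `exists_W U id`; the limit is in every member of the chain.
* `spread`: `exists_maximal_pairwise` for `P = {a ∈ M | PIso a ∧ a ≠ 0 ∧ e a = a}`, relation `a b* = 0`. `sum_piso` for the projections `a* a` gives `V` with `HasSum (a* a ζ) (V ζ)`; `V` is a projection
  (or use `compare_sum_proj` and uniqueness). If `(1 - V) x e ≠ 0` then `e x* (1 - V) ≠ 0`, `connect` gives `v = e v (1 - V) ≠ 0`, `v b* = 0` for all `b` in the family, so `v` is in the family and `v V = v`, `v = 0`.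
  So `(1 - V) z = 0` for `z` from `csupp`. Index: `Finset` of the family, `s i = i.map (Function.Embedding.subtype _)`, `r i = 1 - ∑ a* a` (a projection), `U = Ultrafilter.of atTop`.
-/

namespace Vale.Agent.P096

open Vale.Agent.P104 Vale.Agent.P132 Filter Topology
open scoped InnerProductSpace BoundedContinuousFunction

universe u

variable {H : Type u} [NormedAddCommGroup H] [InnerProductSpace ℂ H] [CompleteSpace H]

/-- a Kraus map -/
noncomputable def kr (s : Finset (Op H)) (r T : Op H) : Op H :=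
  ∑ a ∈ s, star a * T * a + star r * T * r

/-- the data of a unital Kraus map with coefficients in `M` -/
structure KD (M : VonNeumannAlgebra H) (s : Finset (Op H)) (r : Op H) : Prop where
  mem : ∀ a ∈ s, a ∈ M
  memr : r ∈ M
  sum : ∑ a ∈ s, star a * a + star r * r = 1

/-- closed under weak limits along ultrafilters -/
def WC (K : Set (Op H)) : Prop :=
  ∀ (U : Ultrafilter (Op H)) (L : Op H), K ∈ U → W U id L → L ∈ K

/-- invariant under the Kraus maps -/
def KI (M : VonNeumannAlgebra H) (K : Set (Op H)) : Prop :=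
  ∀ s r, KD M s r → ∀ T ∈ K, kr s r T ∈ K

variable {M : VonNeumannAlgebra H} {s : Finset (Op H)} {r T T' : Op H} {K : Set (Op H)}

theorem KD.unitary {v : Op H} (hv : v ∈ M) (h : star v * v = 1) : KD M ∅ v :=
  ⟨fun a ha => absurd ha (Finset.notMem_empty a), hv, by rw [Finset.sum_empty, zero_add, h]⟩

theorem kr_empty (v T : Op H) : kr ∅ v T = star v * T * v := by
  rw [kr, Finset.sum_empty, zero_add]

theorem KD.pyth (h : KD M s r) (ζ : H) : ∑ a ∈ s, ‖a ζ‖ ^ 2 + ‖r ζ‖ ^ 2 = ‖ζ‖ ^ 2 := by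
  rw [← qf_one ζ, ← h.sum, qf_add, qf_sum]
  simp only [qf_star_mul_self]

theorem kr_sub (s : Finset (Op H)) (r T T' : Op H) : kr s r (T - T') = kr s r T - kr s r T' := by
  simp only [kr, mul_sub, sub_mul, Finset.sum_sub_distrib]
  abel

theorem kr_sa (hT : IsSelfAdjoint T) : IsSelfAdjoint (kr s r T) := by
  show star _ = _
  simp only [kr, star_add, star_sum, star_mul, star_star, hT.star_eq, mul_assoc]

theorem qf_kr (ζ : H) : qf (kr s r T) ζ = ∑ a ∈ s, qf T (a ζ) + qf T (r ζ) := by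
  rw [kr, qf_add, qf_sum]
  simp only [qf_conj]

theorem eKraus_term (a T : Op H) (η ζ : H) :
    ‖⟪η, (star a * T * a) ζ⟫_ℂ‖ ≤ (‖a η‖ ^ 2 + ‖T‖ ^ 2 * ‖a ζ‖ ^ 2) / 2 := by
  rw [mul_apply_eq_comp, mul_apply_eq_comp, inner_star_right]
  have h1 := norm_inner_le_norm (𝕜 := ℂ) (a η) (T (a ζ))
  have h2 := mul_le_mul_of_nonneg_left (T.le_opNorm (a ζ)) (norm_nonneg (a η))
  nlinarith [sq_nonneg (‖a η‖ - ‖T‖ * ‖a ζ‖)]

theorem kr_norm (h : KD M s r) (T : Op H) : ‖kr s r T‖ ≤ ‖T‖ := by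
  refine (kr s r T).opNorm_le_bound (norm_nonneg _) fun ζ => ?_
  have h1 : ∀ η, ‖⟪η, kr s r T ζ⟫_ℂ‖ ≤ (‖η‖ ^ 2 + ‖T‖ ^ 2 * ‖ζ‖ ^ 2) / 2 := by
    intro η
    rw [kr, add_apply, inner_add_right, sum_apply, inner_sum]
    refine (norm_add_le _ _).trans ((add_le_add ((norm_sum_le _ _).trans
      (Finset.sum_le_sum fun a _ => eKraus_term a T η ζ)) (eKraus_term r T η ζ)).trans_eq ?_)
    rw [← h.pyth η, ← h.pyth ζ, ← Finset.sum_div, Finset.sum_add_distrib, ← Finset.mul_sum]
    ring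
  have h2 := h1 (kr s r T ζ)
  rw [inner_self_eq_norm_sq_to_K, norm_pow, RCLike.norm_ofReal, abs_norm] at h2
  refine (pow_le_pow_iff_left₀ (norm_nonneg _) (by positivity) two_ne_zero).1 ?_
  rw [mul_pow]
  linarith

theorem eKraus_mul (h : KD M s r) {y : Op H} (hy : y ∈ M.commutant) (T : Op H) :
    kr s r (T * y) = kr s r T * y ∧ kr s r (y * T) = y * kr s r T := by
  have h1 : ∀ a ∈ M, star a * (T * y) * a = star a * T * a * y := fun a ha => by
    rw [mul_assoc, mul_assoc, comm_of_mem hy ha]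
    simp only [mul_assoc]
  have h2 : ∀ a ∈ M, star a * (y * T) * a = y * (star a * T * a) := fun a ha => by
    rw [← mul_assoc (star a), ← comm_of_mem hy (star_mem ha)]
    simp only [mul_assoc]
  constructor
  · rw [kr, kr, add_mul, Finset.sum_mul, h1 r h.memr,
      Finset.sum_congr rfl fun a ha => h1 a (h.mem a ha)]
  · rw [kr, kr, mul_add, Finset.mul_sum, h2 r h.memr,
      Finset.sum_congr rfl fun a ha => h2 a (h.mem a ha)]

theorem kr_comm (h : KD M s r) {y : Op H} (hy : y ∈ M.commutant) (T : Op H) :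
    kr s r (T * y - y * T) = kr s r T * y - y * kr s r T := by
  rw [kr_sub, (eKraus_mul h hy T).1, (eKraus_mul h hy T).2]

theorem kr_fix (h : KD M s r) {y : Op H} (hy : y ∈ M.commutant) : kr s r y = y := by
  have h1 := (eKraus_mul h hy 1).1
  have h2 : kr s r 1 = 1 := by
    simp only [kr, mul_one]
    exact h.sum
  rwa [h2, one_mul] at h1

theorem WC.lim (h : WC K) {I : Type*} {U : Ultrafilter I} {G : I → Op H} {L : Op H}
    (hG : ∀ᶠ i in U, G i ∈ K) (hL : W U G L) : L ∈ K :=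
  h (U.map G) L hG fun ξ η => hL ξ η

theorem exists_min (hne : K.Nonempty) (hc : WC K) (hi : KI M K) {C : ℝ} (hb : ∀ T ∈ K, ‖T‖ ≤ C) :
    ∃ K₀ ⊆ K, K₀.Nonempty ∧ WC K₀ ∧ KI M K₀ ∧
      ∀ K₁ ⊆ K₀, K₁.Nonempty → WC K₁ → KI M K₁ → K₀ ⊆ K₁ := by
  obtain ⟨K₀, h0, hmin⟩ := zorn_superset_nonempty
    {K₁ : Set (Op H) | K₁ ⊆ K ∧ K₁.Nonempty ∧ WC K₁ ∧ KI M K₁} (fun c hcS hchain hcne => by
      obtain ⟨s₀, hs₀⟩ := hcne
      refine ⟨⋂₀ c, ⟨(Set.sInter_subset_of_mem hs₀).trans (hcS hs₀).1, ?_, ?_, ?_⟩,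
        fun s hs => Set.sInter_subset_of_mem hs⟩
      · have hdir : Directed (· ≥ ·) fun s : c => 𝓟 (s : Set (Op H)) := by
          intro a b
          rcases hchain.total a.2 b.2 with hab | hab
          · exact ⟨a, le_rfl, principal_mono.2 hab⟩
          · exact ⟨b, principal_mono.2 hab, le_rfl⟩
        have hnb : (⨅ s : c, 𝓟 (s : Set (Op H))).NeBot :=
          iInf_neBot_of_directed hdir fun s => principal_neBot_iff.2 (hcS s.2).2.1
        have hU : ∀ s ∈ c, s ∈ Ultrafilter.of (⨅ s : c, 𝓟 (s : Set (Op H))) := fun s hs =>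
          Ultrafilter.of_le _ (mem_iInf_of_mem (⟨s, hs⟩ : c) (mem_principal_self _))
        obtain ⟨L, hL⟩ := exists_W (Ultrafilter.of (⨅ s : c, 𝓟 (s : Set (Op H)))) id (C := C)
          (mem_of_superset (hU s₀ hs₀) fun T hT => hb T ((hcS hs₀).1 hT))
        exact ⟨L, fun s hs => (hcS hs).2.2.1 _ L (hU s hs) hL⟩
      · exact fun U L hU hL s hs => (hcS hs).2.2.1 U L
          (mem_of_superset hU (Set.sInter_subset_of_mem hs)) hL
      · exact fun s r h T hT t ht => (hcS ht).2.2.2 s r h T (hT t ht))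
    K ⟨subset_rfl, hne, hc, hi⟩
  exact ⟨K₀, h0, hmin.1.2.1, hmin.1.2.2.1, hmin.1.2.2.2, fun K₁ h1 h2 h3 h4 =>
    hmin.2 ⟨h1.trans h0, h2, h3, h4⟩ h1⟩

theorem eKraus_proj_sum {I : Type*} (q : I → Op H) (hq : ∀ i, IsStarProjection (q i))
    (ho : Pairwise fun i j => q i * q j = 0) (t : Finset I) :
    IsStarProjection (∑ i ∈ t, q i) := by
  classical
  refine ⟨?_, ?_⟩
  · show _ * _ = _
    rw [Finset.sum_mul]
    refine Finset.sum_congr rfl fun i hi => ?_
    rw [Finset.mul_sum, Finset.sum_eq_single_of_mem i hi fun j _ hj => ho (Ne.symm hj)]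
    exact (hq i).isIdempotentElem
  · show star _ = _
    rw [star_sum]
    exact Finset.sum_congr rfl fun i _ => (hq i).isSelfAdjoint.star_eq

theorem spread {e : Op H} (he : IsStarProjection e) (heM : e ∈ M) :
    ∃ z, CProj M z ∧ z * e = e ∧ ∃ (I : Type u) (U : Ultrafilter I) (s : I → Finset (Op H))
      (r : I → Op H), (∀ i, KD M (s i) (r i)) ∧ (∀ i, ∀ a ∈ s i, e * a = a) ∧
        ∀ ζ, z ζ = ζ → Tendsto (fun i => r i ζ) U (𝓝 0) := by
  classical
  obtain ⟨z, hz, hze, hzf⟩ := csupp M heM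
  refine ⟨z, hz, hze, ?_⟩
  obtain ⟨F, hF, hFo, hmax⟩ := exists_maximal_pairwise
    {a : Op H | a ∈ M ∧ PIso a ∧ a ≠ 0 ∧ e * a = a} (fun a b => a * star b = 0)
    (fun a b h => by
      have := congrArg star h
      rwa [star_mul, star_star, star_zero] at this)
  let q : F → Op H := fun a => star (a : Op H) * a
  have hq : ∀ a, IsStarProjection (q a) := fun a => (hF a.2).2.1.proj_left
  have hqM : ∀ a, q a ∈ M := fun a => mul_mem (star_mem (hF a.2).1) (hF a.2).1
  have ho : Pairwise fun a b => q a * q b = 0 := fun a b hab => by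
    have h1 : (a : Op H) * star (b : Op H) = 0 := hFo a.2 b.2 fun h => hab (Subtype.ext h)
    simp only [q]
    rw [mul_assoc, ← mul_assoc (a : Op H), h1, zero_mul, mul_zero]
  have hs : ∀ a, star (q a) = q a := fun a => (hq a).isSelfAdjoint.star_eq
  obtain ⟨V, hVM, -, h1, h2, h3, -, h5, h6, -⟩ := sum_piso M q hqM (fun a => PIso.of_proj (hq a))
    (fun a b h => by simpa only [hs] using ho h) (fun a b h => by simpa only [hs] using ho h)
  simp only [hs, (hq _).isIdempotentElem.eq] at h1 h2 h6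
  have hV : IsStarProjection V := by
    refine ⟨?_, ?_⟩
    · have := h3 (V - 1) fun a => by rw [sub_mul, h1, one_mul, sub_self]
      rwa [sub_mul, one_mul, sub_eq_zero] at this
    · show star V = V
      ext ξ
      exact (h6 ξ).unique (h5 ξ)
  have hVz : (1 - V) * z = 0 := by
    refine hzf _ fun x hx => ?_
    by_contra hne
    have hne' : e * star x * (1 - V) ≠ 0 := fun h0 => hne (by
      have := congrArg star h0
      rwa [star_mul, star_mul, star_star, he.isSelfAdjoint.star_eq,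
        hV.one_sub.isSelfAdjoint.star_eq, star_zero, ← mul_assoc] at this)
    obtain ⟨v, hvM, hv, hv0, hev, hvV⟩ := connect M hV.one_sub he (sub_mem (one_mem M) hVM) heM
      (star_mem hx) hne'
    have hvq : ∀ b : F, v * q b = 0 := fun b => by
      rw [← hvV, mul_assoc, sub_mul, one_mul, h1, sub_self, mul_zero]
    have hvF : v ∈ F := hmax v ⟨hvM, hv, hv0, hev⟩ fun b hb => by
      have h7 : star b * b * star b = star b := by
        have := (hF hb).2.1.star
        rwa [PIso, star_star] at this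
      rw [← h7, ← mul_assoc]
      exact (congrArg (· * star b) (hvq ⟨b, hb⟩)).trans (zero_mul _)
    have h8 := hvq ⟨v, hvF⟩
    simp only [q] at h8
    rw [← mul_assoc, hv] at h8
    exact hv0 h8
  refine ⟨Finset F, Ultrafilter.of atTop, fun t => t.map (Function.Embedding.subtype _),
    fun t => 1 - ∑ a ∈ t, q a, fun t => ⟨fun a ha => ?_, ?_, ?_⟩, fun t a ha => ?_, fun ζ hζ => ?_⟩
  · obtain ⟨b, -, rfl⟩ := Finset.mem_map.1 ha
    exact (hF b.2).1
  · exact sub_mem (one_mem M) (sum_mem fun a _ => hqM a)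
  · have h7 := (eKraus_proj_sum q hq ho t).one_sub
    rw [Finset.sum_map, h7.isSelfAdjoint.star_eq, h7.isIdempotentElem.eq]
    exact add_sub_cancel _ _
  · obtain ⟨b, -, rfl⟩ := Finset.mem_map.1 ha
    exact (hF b.2).2.2.2
  · have h7 : V ζ = ζ := by
      have := congrArg (fun T : Op H => T ζ) hVz
      simp only [mul_apply_eq_comp, hζ, sub_apply, one_apply_eq_self, zero_apply] at this
      exact (sub_eq_zero.1 this).symm
    have h8 : Tendsto (fun t : Finset F => ∑ a ∈ t, q a ζ) atTop (𝓝 ζ) := by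
      have := h5 ζ
      rwa [h7] at this
    have h9 := (tendsto_const_nhds (x := ζ)).sub h8
    rw [sub_self] at h9
    refine (h9.mono_left (Ultrafilter.of_le _)).congr fun t => ?_
    simp only [sub_apply, one_apply_eq_self, sum_apply]

end Vale.Agent.P096
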