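import Vale.Agent.P096.EDefs
import Vale.Agent.P132.BM

/-!
# P096 part E: the functions `qB w`
* `qB_half`, `qB_neg_half`: `two_sub_rr`, `rr_eq`.
* `continuous_Θ_qB`: sequential continuity (`continuous_iff_seqContinuous`); `bm_strong` for `k n = qB (w n) - qB w`, norm at most 4; on `|u| ≤ L` the functions converge
  uniformly (`‖exp (a u) - exp (b u)‖ ≤ ...`, or uniform continuity of the jointly continuous map on a compact set, or `tendstoUniformlyOn`).
* `diff_qB`: at `w` with `|re w| < 1/2` put `r = (1/2 - |re w|) / 2`. The derivative is `u ↦ u exp (w u) sech u` (bounded because `sech u ≤ 2 exp (-|u|/2)`, `sech_le_exp`).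
  For `‖h‖ ≤ r`: `‖exp (h u) - 1 - h u‖ ≤ ‖h u‖ ^ 2 exp ‖h u‖` (`Complex.norm_exp_sub_sum_le_norm_mul_exp` with `n = 2`), so the remainder is at most
  `‖h‖ ^ 2 * u ^ 2 * 2 exp (-r |u|) ≤ ‖h‖ ^ 2 * 4 / r ^ 2`. `hasDerivAt_iff_isLittleO_nhds_zero`.
* The four families: compose with `z ↦ z`, `z - 1/2`, `-z`, `1/2 - z`; `f ↦ F.Θ f ζ` is a continuous linear map (`norm_Θ_le`).
-/

namespace Vale.Agent.P096

open Vale.Agent.P104 Vale.Agent.P132 Filter Topology
open scoped InnerProductSpace BoundedContinuousFunction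

universe u

theorem EPow_clamp {x : ℝ} (h : |x| ≤ 1 / 2) : clamp x = x := by
  obtain ⟨h1, h2⟩ := abs_le.1 h
  unfold clamp
  rw [min_eq_left h2, max_eq_right h1]

theorem EPow_apply (w : ℂ) (u : ℝ) :
    qB w u = Complex.exp ((clamp w.re + w.im * Complex.I) * u) * (sech u : ℂ) := rfl

theorem qB_apply {w : ℂ} (h : |w.re| ≤ 1 / 2) (u : ℝ) :
    qB w u = Complex.exp (w * u) * (sech u : ℂ) := by
  rw [EPow_apply, EPow_clamp h, Complex.re_add_im]

theorem EPow_bound {a : ℂ} {r : ℝ} (h : |a.re| ≤ 1 / 2 - r) (u : ℝ) :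
    ‖Complex.exp (a * u) * (sech u : ℂ)‖ ≤ 2 * Real.exp (-(r * |u|)) := by
  rw [norm_mul, Complex.norm_exp, Complex.norm_real, Real.norm_of_nonneg (sech_pos u).le]
  have h1 : (a * u).re = a.re * u := by simp
  have h2 : a.re * u ≤ (1 / 2 - r) * |u| :=
    (le_abs_self _).trans (by rw [abs_mul]; exact mul_le_mul_of_nonneg_right h (abs_nonneg u))
  calc _ ≤ Real.exp ((1 / 2 - r) * |u|) * (2 * Real.exp (-|u| / 2)) := by
        rw [h1]
        exact mul_le_mul (Real.exp_le_exp.2 h2) (sech_le_exp u) (sech_pos u).le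
          (Real.exp_pos _).le
    _ = _ := by
        rw [mul_left_comm, ← Real.exp_add]
        congr 2
        ring

theorem norm_qB (w : ℂ) : ‖qB w‖ ≤ 2 := by
  refine (BoundedContinuousFunction.norm_le (by norm_num)).2 fun u => ?_
  rw [EPow_apply]
  have := EPow_bound (a := clamp w.re + w.im * Complex.I) (r := 0)
    (by simpa using abs_clamp w.re) u
  simpa using this

theorem qB_shift (w : ℂ) (t : ℝ) : qB (w + t * Complex.I) = eB t * qB w := by
  ext u
  rw [BoundedContinuousFunction.mul_apply, EPow_apply, EPow_apply, eB_apply, ← mul_assoc,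
    ← Complex.exp_add]
  congr 2
  simp
  ring

theorem qB_zero : qB 0 = sechB := by
  ext u
  rw [qB_apply (by simp)]
  simp

theorem qB_half : qB (1 / 2) = 2 - rB := by
  ext u
  rw [qB_apply (by norm_num [abs_of_pos])]
  have h := congrArg (fun x : ℝ => (x : ℂ)) (two_sub_rr u)
  simp only [Complex.ofReal_sub, Complex.ofReal_mul, Complex.ofReal_exp, Complex.ofReal_div,
    Complex.ofReal_ofNat] at h
  have h2 : (2 - rB : ℝ →ᵇ ℂ) u = 2 - (rr u : ℂ) := rfl
  rw [h2, h]
  congr 2
  ring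

theorem qB_neg_half : qB (-(1 / 2)) = rB := by
  ext u
  rw [qB_apply (by norm_num [abs_of_pos])]
  have h := congrArg (fun x : ℝ => (x : ℂ)) (rr_eq u)
  simp only [Complex.ofReal_mul, Complex.ofReal_exp, Complex.ofReal_div,
    Complex.ofReal_ofNat, Complex.ofReal_neg] at h
  rw [rB_apply, h]
  congr 2
  ring

theorem EPow_lin {r : ℝ} (hr : 0 < r) (u : ℝ) : |u| * Real.exp (-(r * |u|)) ≤ 1 / r := by
  have h := Real.add_one_le_exp (r * |u|)
  have he := Real.exp_pos (r * |u|)
  rw [Real.exp_neg, ← div_eq_mul_inv, div_le_div_iff₀ he hr]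
  linarith

theorem EPow_sq {r : ℝ} (hr : 0 < r) (u : ℝ) :
    |u| ^ 2 * Real.exp (-(r * |u|)) ≤ 2 / r ^ 2 := by
  have h0 : 0 ≤ r * |u| := by positivity
  have h := Real.quadratic_le_exp_of_nonneg h0
  have he := Real.exp_pos (r * |u|)
  rw [Real.exp_neg, ← div_eq_mul_inv, div_le_div_iff₀ he (by positivity)]
  nlinarith

theorem diff_qB {w : ℂ} (h : |w.re| < 1 / 2) : DifferentiableAt ℂ qB w := by
  set r : ℝ := (1 / 2 - |w.re|) / 2 with hr
  have hr0 : 0 < r := by rw [hr]; linarith
  have hw : |w.re| ≤ 1 / 2 - 2 * r := by rw [hr]; linarith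
  let D : ℝ →ᵇ ℂ := mkB (fun u => (u : ℂ) * (Complex.exp (w * u) * (sech u : ℂ)))
    (by have := continuous_sech; fun_prop) (2 * (1 / (2 * r))) (fun u => by
      rw [norm_mul, Complex.norm_real, Real.norm_eq_abs]
      have h1 := EPow_bound hw u
      have h2 := EPow_lin (r := 2 * r) (by positivity) u
      calc _ ≤ |u| * (2 * Real.exp (-(2 * r * |u|))) :=
            mul_le_mul_of_nonneg_left h1 (abs_nonneg u)
        _ ≤ _ := by linarith)
  refine (hasDerivAt_iff_isLittleO_nhds_zero.2 ?_ : HasDerivAt qB D w).differentiableAt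
  have hO : (fun h' : ℂ => qB (w + h') - qB w - h' • D) =O[𝓝 0] fun h' : ℂ => h' ^ 2 := by
    refine Asymptotics.IsBigO.of_bound (4 / r ^ 2) ?_
    filter_upwards [Metric.closedBall_mem_nhds (0 : ℂ) hr0] with k hk
    rw [mem_closedBall_zero_iff] at hk
    have hk2 : |(w + k).re| ≤ 1 / 2 := by
      have h1 := Complex.abs_re_le_norm k
      have h2 := abs_add_le w.re k.re
      rw [Complex.add_re]
      linarith
    refine (BoundedContinuousFunction.norm_le (by positivity)).2 fun u => ?_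
    have e : (qB (w + k) - qB w - k • D) u = (Complex.exp (w * u) * (sech u : ℂ)) *
        (Complex.exp (k * u) - ∑ m ∈ Finset.range 2, (k * u) ^ m / (m.factorial : ℂ)) := by
      have e1 : (qB (w + k) - qB w - k • D) u = qB (w + k) u - qB w u - k * D u := rfl
      rw [e1, qB_apply hk2, qB_apply h.le, add_mul, Complex.exp_add]
      simp only [D, mkB_apply, Finset.sum_range_succ, Finset.range_zero, Finset.sum_empty]
      simp
      ring
    have h1 := EPow_bound hw u
    have h2 := Complex.norm_exp_sub_sum_le_norm_mul_exp (k * u) 2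
    have h3 : ‖k * u‖ = ‖k‖ * |u| := by rw [norm_mul, Complex.norm_real, Real.norm_eq_abs]
    have h4 : Real.exp ‖k * u‖ ≤ Real.exp (r * |u|) := by
      rw [h3]
      exact Real.exp_le_exp.2 (mul_le_mul_of_nonneg_right hk (abs_nonneg u))
    have h5 := EPow_sq hr0 u
    have h6 : Real.exp (-(2 * r * |u|)) * Real.exp (r * |u|) = Real.exp (-(r * |u|)) := by
      rw [← Real.exp_add]
      congr 1
      ring
    rw [e, norm_mul, norm_pow]
    calc _ ≤ (2 * Real.exp (-(2 * r * |u|))) * (‖k * u‖ ^ 2 * Real.exp (r * |u|)) :=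
          mul_le_mul h1 (h2.trans (mul_le_mul_of_nonneg_left h4 (by positivity))) (norm_nonneg _)
            (by positivity)
      _ = 2 * ‖k‖ ^ 2 * (|u| ^ 2 * Real.exp (-(r * |u|))) := by
          rw [h3, ← h6]
          ring
      _ ≤ 2 * ‖k‖ ^ 2 * (2 / r ^ 2) := mul_le_mul_of_nonneg_left h5 (by positivity)
      _ = _ := by ring
  exact hO.trans_isLittleO (Asymptotics.isLittleO_pow_id (by norm_num))

variable {H : Type u} [NormedAddCommGroup H] [InnerProductSpace ℂ H] [CompleteSpace H] (F : FC H)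

theorem EPow_cont : Continuous fun p : ℂ × ℝ => qB p.1 p.2 := by
  have h1 := continuous_sech
  have h2 : Continuous clamp := by unfold clamp; fun_prop
  simp only [EPow_apply]
  fun_prop

theorem continuous_Θ_qB (ζ : H) : Continuous fun w => F.Θ (qB w) ζ := by
  refine continuous_iff_seqContinuous.2 fun x w hx => ?_
  have h := F.bm_strong (k := fun n => qB (x n) - qB w) (C := 4)
    (fun n => (norm_sub_le _ _).trans (by linarith [norm_qB (x n), norm_qB w])) (fun L ε hε => ?_) ζ
  · simp only [map_sub, sub_apply] at h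
    exact tendsto_sub_nhds_zero_iff.1 h
  · have hc : Continuous fun p : ℂ × ℝ => ‖qB p.1 p.2 - qB w p.2‖ :=
      (EPow_cont.sub ((qB w).continuous.comp continuous_snd)).norm
    have h1 : ∀ᶠ a in 𝓝 w, ∀ y ∈ Set.Icc (-L) L, ‖qB a y - qB w y‖ < ε :=
      isCompact_Icc.eventually_forall_of_forall_eventually (P := fun a y => ‖qB a y - qB w y‖ < ε)
        fun y _ => hc.continuousAt.eventually_lt continuousAt_const (by simpa using hε)
    filter_upwards [hx.eventually h1] with n hn u hu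
    exact (hn u (abs_le.1 hu)).le

theorem EPow_sa {φ : ℂ → ℂ} (hφ : Differentiable ℂ φ) (h : ∀ z ∈ strip, |(φ z).re| < 1 / 2) :
    SA (fun z => F.Θ (qB (φ z))) 2 := by
  refine ⟨fun ζ => ⟨fun z hz => ?_, ((continuous_Θ_qB F ζ).comp hφ.continuous).continuousOn⟩,
    fun z _ => (F.norm_Θ_le _).trans (norm_qB _)⟩
  let L : (ℝ →ᵇ ℂ) →L[ℂ] H := LinearMap.mkContinuous
    { toFun := fun f => F.Θ f ζ
      map_add' := fun f g => by simp
      map_smul' := fun a f => by simp } ‖ζ‖ fun f => by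
      refine ((F.Θ f).le_opNorm ζ).trans ?_
      rw [mul_comm]
      exact mul_le_mul_of_nonneg_left (F.norm_Θ_le f) (norm_nonneg _)
  exact (L.differentiableAt.comp z ((diff_qB (h z hz)).comp z (hφ z))).differentiableWithinAt

theorem sa_qB1 : SA (fun z => F.Θ (qB z)) 2 :=
  EPow_sa F (φ := fun z => z) differentiable_id fun z hz =>
    abs_lt.2 ⟨by linarith [hz.1], hz.2⟩

theorem sa_qB2 : SA (fun z => F.Θ (qB (z - 1 / 2))) 2 :=
  EPow_sa F (φ := fun z => z - 1 / 2) (by fun_prop) fun z hz => by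
    have e : (z - 1 / 2 : ℂ).re = z.re - 1 / 2 := by simp
    rw [e]
    exact abs_lt.2 ⟨by linarith [hz.1], by linarith [hz.2]⟩

theorem sa_qB3 : SA (fun z => F.Θ (qB (-z))) 2 :=
  EPow_sa F (φ := fun z => -z) (by fun_prop) fun z hz => by
    rw [Complex.neg_re]
    exact abs_lt.2 ⟨by linarith [hz.2], by linarith [hz.1]⟩

theorem sa_qB4 : SA (fun z => F.Θ (qB (1 / 2 - z))) 2 :=
  EPow_sa F (φ := fun z => 1 / 2 - z) (by fun_prop) fun z hz => by
    have e : (1 / 2 - z : ℂ).re = 1 / 2 - z.re := by simp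
    rw [e]
    exact abs_lt.2 ⟨by linarith [hz.2], by linarith [hz.1]⟩

end Vale.Agent.P096
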