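import Vale.Agent.P096.EKraus
import Vale.Agent.P104.Polar

/-!
# P096 part E: an operator with small double commutators is close to `M + M'`
* `min_qf`: the set of `T ∈ K` with `qf T ζ ≤ l ‖ζ‖ ^ 2` for all `ζ = z ζ` is closed (`le_of_tendsto` for the real part) and invariant (`qf_kr`, `KD.pyth`, `z (a ζ) = a ζ`).
* `min_gap`: let `μ > c` and `e` from `cut M m μ`. If `e ≠ 0` take `spread`, and weak limits `L₁`, `L₂ ∈ K` of `kr T₁`, `kr T₂` (`exists_W`, `kr_norm`, `WC.lim`). For `ζ = z ζ`: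
  `qf (kr (T₁ - T₂)) ζ ≥ (μ - c) ∑ ‖a ζ‖ ^ 2 - 2 C ‖r ζ‖ ^ 2`, in the limit `qf L₁ ζ ≥ qf L₂ ζ + (μ - c) ‖ζ‖ ^ 2`. With `min_qf`: if `qf L₁ ≤ l` on the range of `z` then `qf L₂ ≤ l - (μ - c)`, hence
  `qf L₁ ≤ l - (μ - c)`; iterate from `l = C`; contradiction at a nonzero vector `e ζ` (`abs_qf_le`). So `e = 0` and `qf m ζ ≤ μ ‖ζ‖ ^ 2`.
* `r0`: `K₁ = {T | IsSelfAdjoint T ∧ ‖T‖ ≤ ‖h‖ ∧ ∀ y ∈ M', ∀ k ∈ M', ‖[h, y] - k‖ ≤ 80 c ‖y‖ → ‖[T, y] - k‖ ≤ 80 c ‖y‖}` is closed (`W.star`, `W.norm_le`, `W.mul_left`...), invariant (`kr_comm`, `kr_fix`, `kr_norm`), contains `h`.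
  For `y ∈ M'`: `[[h, y], x] = [[h, x], y]`, so `near_of_comm` gives `k`; hence `‖[T - T', y]‖ ≤ 160 c ‖y‖` for `T, T' ∈ K₁` and `near_of_comm_sa` (for `M.commutant`, `commutant_commutant`) gives
  `m ∈ M` selfadjoint with `‖T - T' - m‖ ≤ 6400 c`. In a minimal `K₀`: `min_gap` for `(T, T', m)` and `(T', T, -m)`, `norm_le_of_qf`: `‖m‖ ≤ 6400 c`, `‖T - T'‖ ≤ 12800 c`.
  `T' = v* T v` for a unitary `v ∈ M`; four unitaries (`r0_four`, from `CStarAlgebra.exists_sum_four_unitary` in `M.toStarSubalgebra`, `haveI := vn_isClosed M`) give `‖[T, y]‖ ≤ 25600 c ‖y‖` on `M`,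
  `m' ∈ M'` with `‖T - m'‖ ≤ 1024000 c`. `h = m' + (h - T) + (T - m')`.
-/

namespace Vale.Agent.P096

open Vale.Agent.P104 Vale.Agent.P132 Filter Topology
open scoped InnerProductSpace BoundedContinuousFunction

universe u

variable {H : Type u} [NormedAddCommGroup H] [InnerProductSpace ℂ H] [CompleteSpace H]
  {M : VonNeumannAlgebra H} {K : Set (Op H)}

theorem r0_four {T : Op H} {c : ℝ}
    (h : ∀ v ∈ M, v ∈ unitary (Op H) → ‖T * v - v * T‖ ≤ c) :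
    ∀ y ∈ M, ‖T * y - y * T‖ ≤ 2 * c * ‖y‖ := by
  intro y hy
  have : IsClosed (M.toStarSubalgebra : Set (Op H)) := vn_isClosed M
  obtain ⟨u, a, h1, h2⟩ := CStarAlgebra.exists_sum_four_unitary (⟨y, hy⟩ : M.toStarSubalgebra)
  have h3 : y = ∑ i, a i • ((u i).1.1 : Op H) := by
    have h3 := congrArg Subtype.val h1
    rw [AddSubmonoidClass.coe_finsetSum] at h3
    exact h3
  have e : T * y - y * T = ∑ i, a i • (T * (u i).1.1 - (u i).1.1 * T) := by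
    conv_lhs => rw [h3]
    simp only [Finset.mul_sum, Finset.sum_mul, mul_smul_comm, smul_mul_assoc, smul_sub,
      Finset.sum_sub_distrib]
  have h4 : ∀ i, ‖a i • (T * (u i).1.1 - (u i).1.1 * T)‖ ≤ ‖y‖ / 2 * c := fun i => by
    rw [norm_smul]
    exact mul_le_mul (h2 i) (h _ (u i).1.2 ⟨congrArg Subtype.val (u i).2.1,
      congrArg Subtype.val (u i).2.2⟩) (norm_nonneg _) (by positivity)
  rw [e]
  refine (norm_sum_le _ _).trans ((Finset.sum_le_sum fun i _ => h4 i).trans_eq ?_)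
  rw [Fin.sum_univ_four]
  ring

omit [CompleteSpace H] in
theorem er0_qf {I : Type*} {l : Filter I} {G : I → Op H} {L : Op H} (h : W l G L) (ζ : H) :
    Tendsto (fun i => qf (G i) ζ) l (𝓝 (qf L ζ)) :=
  (Complex.continuous_re.tendsto _).comp (h ζ ζ)

omit [CompleteSpace H] in
theorem er0_abs {T : Op H} {C : ℝ} (h : ‖T‖ ≤ C) (ζ : H) : |qf T ζ| ≤ C * ‖ζ‖ ^ 2 :=
  (abs_qf_le T ζ).trans (mul_le_mul_of_nonneg_right h (sq_nonneg _))

theorem min_qf (hc : WC K) (hi : KI M K)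
    (hm : ∀ K₁ ⊆ K, K₁.Nonempty → WC K₁ → KI M K₁ → K ⊆ K₁) {z : Op H} (hz : CProj M z) {l : ℝ}
    {T T' : Op H} (hT : T ∈ K) (hT' : T' ∈ K) (h : ∀ ζ, z ζ = ζ → qf T ζ ≤ l * ‖ζ‖ ^ 2) :
    ∀ ζ, z ζ = ζ → qf T' ζ ≤ l * ‖ζ‖ ^ 2 := by
  refine (hm {T | T ∈ K ∧ ∀ ζ, z ζ = ζ → qf T ζ ≤ l * ‖ζ‖ ^ 2} (fun _ h => h.1) ⟨T, hT, h⟩
    (fun U L hU hL => ⟨hc U L (mem_of_superset hU fun _ h => h.1) hL, fun ζ hζ => ?_⟩)
    (fun s r hs T hT => ⟨hi s r hs T hT.1, fun ζ hζ => ?_⟩) hT').2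
  · exact le_of_tendsto (er0_qf hL ζ) (mem_of_superset hU fun _ h => h.2 ζ hζ)
  · have k : ∀ a ∈ M, qf T (a ζ) ≤ l * ‖a ζ‖ ^ 2 := fun a ha => hT.2 _ (by
      rw [← mul_apply_eq_comp, hz.comm ha, mul_apply_eq_comp, hζ])
    rw [qf_kr, ← hs.pyth ζ, mul_add, Finset.mul_sum]
    exact add_le_add (Finset.sum_le_sum fun a ha => k a (hs.mem a ha)) (k r hs.memr)

theorem min_gap (hc : WC K) (hi : KI M K)
    (hm : ∀ K₁ ⊆ K, K₁.Nonempty → WC K₁ → KI M K₁ → K ⊆ K₁) {C : ℝ} (hb : ∀ T ∈ K, ‖T‖ ≤ C)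
    {T₁ T₂ m : Op H} (h₁ : T₁ ∈ K) (h₂ : T₂ ∈ K) (hmM : m ∈ M) (hs : IsSelfAdjoint m) {c : ℝ}
    (h : ‖T₁ - T₂ - m‖ ≤ c) (ζ : H) : qf m ζ ≤ c * ‖ζ‖ ^ 2 := by
  suffices H : ∀ μ, c < μ → qf m ζ ≤ μ * ‖ζ‖ ^ 2 by
    refine le_of_forall_pos_le_add fun ε hε => ?_
    have h1 : 0 < ε / (‖ζ‖ ^ 2 + 1) := by positivity
    have h2 : ε / (‖ζ‖ ^ 2 + 1) * (‖ζ‖ ^ 2 + 1) = ε := div_mul_cancel₀ _ (by positivity)
    have h3 := H (c + ε / (‖ζ‖ ^ 2 + 1)) (by linarith)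
    linarith
  intro μ hμ
  obtain ⟨e, heM, he, -, h1, h2, -⟩ := cut M hmM hs μ
  suffices H : e ζ = 0 by simpa only [H, sub_zero] using h2 ζ
  by_contra h0
  obtain ⟨z, hz, hze, I, U, s, r, hKD, hea, hr⟩ := spread he heM
  have hW : ∀ T ∈ K, ∃ L ∈ K, W U (fun i => kr (s i) (r i) T) L := fun T hT => by
    obtain ⟨L, hL⟩ := exists_W U (fun i => kr (s i) (r i) T) (C := C)
      (Eventually.of_forall fun i => (kr_norm (hKD i) T).trans (hb T hT))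
    exact ⟨L, hc.lim (Eventually.of_forall fun i => hi _ _ (hKD i) T hT) hL, hL⟩
  obtain ⟨L₁, hL₁, W₁⟩ := hW T₁ h₁
  obtain ⟨L₂, hL₂, W₂⟩ := hW T₂ h₂
  have key : ∀ η, z η = η → qf L₂ η + (μ - c) * ‖η‖ ^ 2 ≤ qf L₁ η := fun η hη => by
    have h3 : Tendsto (fun i => qf (kr (s i) (r i) T₂) η + (μ - c) * ‖η‖ ^ 2 -
        (μ - c + 2 * C) * ‖r i η‖ ^ 2) U (𝓝 (qf L₂ η + (μ - c) * ‖η‖ ^ 2)) := by
      simpa using ((er0_qf W₂ η).add_const ((μ - c) * ‖η‖ ^ 2)).sub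
        (((hr η hη).norm.pow 2).const_mul (μ - c + 2 * C))
    refine le_of_tendsto_of_tendsto' h3 (er0_qf W₁ η) fun i => ?_
    have h4 : ∑ a ∈ s i, (qf T₂ (a η) + (μ - c) * ‖a η‖ ^ 2) ≤ ∑ a ∈ s i, qf T₁ (a η) := by
      refine Finset.sum_le_sum fun a ha => ?_
      have h5 := h1 (a η)
      have h6 := (abs_le.1 (er0_abs h (a η))).1
      rw [← mul_apply_eq_comp, hea i a ha] at h5
      rw [qf_sub, qf_sub] at h6
      linarith
    have h5 := (abs_le.1 (er0_abs (hb _ h₁) (r i η))).1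
    have h6 := (abs_le.1 (er0_abs (hb _ h₂) (r i η))).2
    rw [Finset.sum_add_distrib, ← Finset.mul_sum] at h4
    rw [qf_kr, qf_kr, ← (hKD i).pyth η]
    linarith
  have it : ∀ n : ℕ, ∀ η, z η = η → qf L₁ η ≤ (C - n * (μ - c)) * ‖η‖ ^ 2 := by
    intro n
    induction n with
    | zero => exact fun η _ => by simpa using (abs_le.1 (er0_abs (hb _ hL₁) η)).2
    | succ n ih =>
      refine min_qf hc hi hm hz hL₂ hL₁ fun η hη => ?_
      push_cast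
      linarith [key η hη, ih η hη]
  obtain ⟨n, hn⟩ := exists_nat_gt (2 * C / (μ - c))
  rw [div_lt_iff₀ (sub_pos.2 hμ)] at hn
  have h3 := it n (e ζ) (by rw [← mul_apply_eq_comp, hze])
  have h4 := (abs_le.1 (er0_abs (hb _ hL₁) (e ζ))).1
  nlinarith [mul_pos (sub_pos.2 hn) (pow_pos (norm_pos_iff.2 h0) 2)]

theorem r0 (M : VonNeumannAlgebra H) {h : Op H} (hs : IsSelfAdjoint h) {c : ℝ} (hc : 0 ≤ c)
    (hb : ∀ x ∈ M, ∀ s ∈ M.commutant,
      ‖(h * x - x * h) * s - s * (h * x - x * h)‖ ≤ c * ‖x‖ * ‖s‖) :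
    ∃ m ∈ M, ∃ m' ∈ M.commutant, IsSelfAdjoint m ∧ IsSelfAdjoint m' ∧
      ‖m'‖ ≤ ‖h‖ + 2 * 10 ^ 6 * c ∧ ‖h - m - m'‖ ≤ 2 * 10 ^ 6 * c := by
  obtain ⟨K₁, hK₁⟩ : ∃ K₁ : Set (Op H), ∀ T, T ∈ K₁ ↔ IsSelfAdjoint T ∧ ‖T‖ ≤ ‖h‖ ∧
      ∀ y ∈ M.commutant, ∀ k ∈ M.commutant, ‖h * y - y * h - k‖ ≤ 80 * (c * ‖y‖) →
        ‖T * y - y * T - k‖ ≤ 80 * (c * ‖y‖) := ⟨{T | _}, fun _ => Iff.rfl⟩
  have hh : h ∈ K₁ := (hK₁ h).2 ⟨hs, le_rfl, fun _ _ _ _ h => h⟩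
  have wc : WC K₁ := fun U L hU hL => by
    refine (hK₁ L).2 ⟨?_, hL.norm_le (mem_of_superset hU fun T hT => ((hK₁ T).1 hT).2.1),
      fun y hy k hk h1 => ?_⟩
    · exact (hL.star.congr (mem_of_superset hU fun T hT => ((hK₁ T).1 hT).1)).unique hL
    · exact (((hL.mul_right y).sub (hL.mul_left y)).sub (W.const k)).norm_le
        (mem_of_superset hU fun T hT => ((hK₁ T).1 hT).2.2 y hy k hk h1)
  have ki : KI M K₁ := fun s r hs T hT => by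
    obtain ⟨h1, h2, h3⟩ := (hK₁ T).1 hT
    refine (hK₁ _).2 ⟨kr_sa h1, (kr_norm hs T).trans h2, fun y hy k hk h4 => ?_⟩
    rw [← kr_comm hs hy, ← kr_fix hs hk, ← kr_sub]
    exact (kr_norm hs _).trans (h3 y hy k hk h4)
  have near : ∀ T ∈ K₁, ∀ T' ∈ K₁, ∃ m ∈ M, IsSelfAdjoint m ∧ ‖T - T' - m‖ ≤ 6400 * c := by
    intro T hT T' hT'
    obtain ⟨h1, -, h3⟩ := (hK₁ T).1 hT
    obtain ⟨h1', -, h3'⟩ := (hK₁ T').1 hT'
    obtain ⟨m, hm, h4, h5⟩ := near_of_comm_sa (M := M.commutant) (h1.sub h1') (c := 160 * c)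
      (by positivity) fun y hy => by
        obtain ⟨k, hk, h6⟩ := near_of_comm (M := M) (T := h * y - y * h) (c := c * ‖y‖)
          (by positivity) fun x hx => by
            have e : (h * y - y * h) * x - x * (h * y - y * h) =
                (h * x - x * h) * y - y * (h * x - x * h) := by
              have h7 := comm_of_mem hy hx
              simp only [sub_mul, mul_sub]
              rw [mul_assoc h y, h7, ← mul_assoc h, ← mul_assoc x y, ← h7, ← mul_assoc, ← mul_assoc,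
                ← mul_assoc]
              abel
            rw [e]
            exact (hb x hx y hy).trans_eq (by ring)
        have e : (T - T') * y - y * (T - T') = (T * y - y * T - k) - (T' * y - y * T' - k) := by
          rw [sub_mul, mul_sub]
          abel
        rw [e]
        linarith [norm_sub_le (T * y - y * T - k) (T' * y - y * T' - k), h3 y hy k hk h6,
          h3' y hy k hk h6]
    rw [VonNeumannAlgebra.commutant_commutant] at hm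
    exact ⟨m, hm, h4, h5.trans_eq (by ring)⟩
  obtain ⟨K₀, hsub, ⟨T, hT⟩, wc₀, ki₀, hmin⟩ := exists_min ⟨h, hh⟩ wc ki
    fun T hT => ((hK₁ T).1 hT).2.1
  have hb₀ : ∀ T ∈ K₀, ‖T‖ ≤ ‖h‖ := fun T hT => ((hK₁ T).1 (hsub hT)).2.1
  have diam : ∀ T' ∈ K₀, ‖T' - T‖ ≤ 12800 * c := fun T' hT' => by
    obtain ⟨m, hm, h1, h2⟩ := near T' (hsub hT') T (hsub hT)
    have h3 : ‖T - T' - -m‖ ≤ 6400 * c := by
      rw [← norm_neg]
      refine le_of_eq_of_le (congrArg norm ?_) h2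
      abel
    have h4 : ‖m‖ ≤ 6400 * c := norm_le_of_qf h1 (by positivity) fun ζ => by
      have h5 := min_gap wc₀ ki₀ hmin hb₀ hT' hT hm h1 h2 ζ
      have h6 := min_gap wc₀ ki₀ hmin hb₀ hT hT' (neg_mem hm) h1.neg h3 ζ
      have h7 := qf_add m (-m) ζ
      have h8 : qf (0 : Op H) ζ = 0 := by simp [qf]
      rw [add_neg_cancel, h8] at h7
      exact abs_le.2 ⟨by linarith, h5⟩
    have h5 := norm_add_le (T' - T - m) m
    rw [sub_add_cancel] at h5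
    linarith
  obtain ⟨m', hm', h1, h2⟩ := near_of_comm_sa (M := M) ((hK₁ T).1 (hsub hT)).1
    (c := 2 * (12800 * c)) (by positivity) (r0_four fun v hv hu => by
      have h3 := diam _ (ki₀ _ _ (KD.unitary hv hu.1) T hT)
      have e : T * v - v * T = v * (kr ∅ v T - T) := by
        rw [kr_empty, mul_sub, ← mul_assoc, ← mul_assoc, hu.2, one_mul]
      rw [e]
      refine le_trans (ContinuousLinearMap.opNorm_le_bound _ (norm_nonneg _) fun η => ?_) h3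
      rw [mul_apply_eq_comp, ContinuousLinearMap.norm_map_of_mem_unitary hu]
      exact ContinuousLinearMap.le_opNorm _ _)
  obtain ⟨m, hm, h3, h4⟩ := near h hh T (hsub hT)
  refine ⟨m, hm, m', hm', h3, h1, ?_, ?_⟩
  · have h5 := norm_sub_le T (T - m')
    rw [sub_sub_cancel] at h5
    linarith [hb₀ T hT]
  · have e : h - m - m' = (h - T - m) + (T - m') := by abel
    rw [e]
    linarith [norm_add_le (h - T - m) (T - m')]

end Vale.Agent.P096
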