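import Vale.Agent.P096.EAb
import Vale.Agent.P096.ER0

/-!
# P096 part E: logarithms of almost normalizers
* `ru`: `X = T - 1 = a + i h`, `a = (X + X*)/2`, `h = (X - X*)/(2 i)` selfadjoint, `2 a = T* T - 1 - X* X`, so `‖a‖ ≤ η ^ 2`, `‖h‖ ≤ η`. `T x T* - x - i [h, x] = a x + x a + X x X*`, so the double commutators of `h` are
  bounded by `7 η ^ 2`. `r0`, then `pinch` for `D` with `Y = h - m'` and for `D.comm` (`commutant_commutant`) with `Y = h - m₁`. `‖h - m₁ - m₁'‖ ≤ 1.4 10 ^ 7 η ^ 2 ≤ η`, `‖m₁ + m₁'‖ ≤ 2 η`, `norm_ex_taylor`.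
* `Good.ex_mul`: `[v w v*, s] = v [w, v* s v] v*`, `Log.conj'`.
* `path`: recursion on `{p : Op H × Op H // D.Log p.1 p.2 ∧ ‖U j - ex (p.1 + p.2)‖ ≤ 10 ^ 8 η ^ 2}` (choose a step function, `Nat.rec`). Step: `ru` with `2 η` for `ex (-m + -m') * U (j + 1)`.
-/

namespace Vale.Agent.P096

open Vale.Agent.P104 Vale.Agent.P132 Filter Topology
open scoped InnerProductSpace BoundedContinuousFunction

universe u

variable {H : Type u} [NormedAddCommGroup H] [InnerProductSpace ℂ H] [CompleteSpace H]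
  {M N : VonNeumannAlgebra H} {ξ : H} {D : MS M N ξ}

namespace MS

theorem eru_sub {P Q : VonNeumannAlgebra H} {E : MS P Q ξ} {Y Y' : Op H} (h : E.Cd Y)
    (h' : E.Cd Y') : E.Cd (Y - Y') := fun k a => by rw [sub_mul, mul_sub, h k a, h' k a]

theorem eru_smul {P Q : VonNeumannAlgebra H} {E : MS P Q ξ} {Y : Op H} (h : E.Cd Y) (c : ℂ) :
    E.Cd (c • Y) := fun k a => by rw [smul_mul_assoc, mul_smul_comm, h k a]

theorem eru_ex {P Q : VonNeumannAlgebra H} {E : MS P Q ξ} {Y : Op H} (h : E.Cd Y) :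
    E.Cd (ex Y) := fun k a => (ex_comm (h k a).symm).symm

theorem eru_parts {T : Op H} {η : ℝ} (h0 : ‖star T * T - 1‖ ≤ η ^ 2) (h1 : ‖T - 1‖ ≤ η) :
    ∃ a h : Op H, IsSelfAdjoint a ∧ IsSelfAdjoint h ∧ ‖a‖ ≤ η ^ 2 ∧ ‖h‖ ≤ η ∧
      T = 1 + a + Complex.I • h ∧ h = (-(Complex.I * 2⁻¹)) • (T - star T) := by
  obtain ⟨X, rfl⟩ : ∃ X, T = 1 + X := ⟨T - 1, by abel⟩
  rw [add_sub_cancel_left] at h1
  have hη : 0 ≤ η := (norm_nonneg _).trans h1
  refine ⟨(2⁻¹ : ℂ) • (X + star X), (-(Complex.I * 2⁻¹)) • (X - star X), ?_, ?_, ?_, ?_, ?_, ?_⟩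
  · simp [IsSelfAdjoint, add_comm]
  · rw [IsSelfAdjoint, star_smul, star_sub, star_star, ← neg_sub X, smul_neg, ← neg_smul]
    congr 1
    simp
  · have e : X + star X = (star (1 + X) * (1 + X) - 1) - star X * X := by
      rw [star_add, star_one]; noncomm_ring
    have h2 := norm_sub_le (star (1 + X) * (1 + X) - 1) (star X * X)
    have h3 : ‖star X * X‖ ≤ η ^ 2 := by
      rw [CStarRing.norm_star_mul_self, sq]
      exact mul_le_mul h1 h1 (norm_nonneg _) hη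
    rw [norm_smul, e, norm_inv, Complex.norm_two]
    linarith
  · have h2 := norm_sub_le X (star X)
    rw [norm_star] at h2
    have h3 : ‖(-(Complex.I * 2⁻¹) : ℂ)‖ = 2⁻¹ := by simp
    rw [norm_smul, h3]
    linarith
  · simp only [smul_sub, smul_add, smul_smul, mul_neg, ← mul_assoc, Complex.I_mul_I]
    module
  · rw [star_add, star_one, add_sub_add_left_eq_sub]

theorem eru_dc {T a h : Op H} {η : ℝ} (ha : IsSelfAdjoint a) (hh : IsSelfAdjoint h)
    (na : ‖a‖ ≤ η ^ 2) (h1 : ‖T - 1‖ ≤ η) (e : T = 1 + a + Complex.I • h)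
    (hn : Nm M M T (star T) (η ^ 2)) : ∀ x ∈ M, ∀ s ∈ M.commutant,
      ‖(h * x - x * h) * s - s * (h * x - x * h)‖ ≤ 7 * η ^ 2 * ‖x‖ * ‖s‖ := by
  intro x hx s hs
  have hη : 0 ≤ η := (norm_nonneg _).trans h1
  set X := T - 1 with hX
  set R := a * x + x * a + X * x * star X with hR
  have eX : X = a + Complex.I • h := by rw [hX, e]; abel
  have eX' : star X = a - Complex.I • h := by
    rw [eX, star_add, star_smul, ha.star_eq, hh.star_eq, sub_eq_add_neg, ← neg_smul]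
    simp
  have eT : T = 1 + X := by rw [hX]; abel
  have e1 : Complex.I • (h * x - x * h) = T * x * star T - x - R := by
    have e2 : T * x * star T = x + X * x + x * star X + X * x * star X := by
      rw [eT, star_add, star_one]; noncomm_ring
    have e3 : X * x + x * star X = a * x + x * a + Complex.I • (h * x - x * h) := by
      rw [eX', eX, add_mul, mul_sub, smul_mul_assoc, mul_smul_comm, smul_sub]; abel
    rw [e2, add_assoc x, e3, hR]; abel
  have nR : ‖R‖ ≤ 3 * η ^ 2 * ‖x‖ := by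
    have r1 : ‖a * x‖ ≤ η ^ 2 * ‖x‖ :=
      (norm_mul_le _ _).trans (mul_le_mul_of_nonneg_right na (norm_nonneg _))
    have r2 : ‖x * a‖ ≤ ‖x‖ * η ^ 2 :=
      (norm_mul_le _ _).trans (mul_le_mul_of_nonneg_left na (norm_nonneg _))
    have r3 : ‖X * x * star X‖ ≤ η * ‖x‖ * η := by
      refine (norm_mul_le _ _).trans ?_
      rw [norm_star]
      exact mul_le_mul ((norm_mul_le _ _).trans (mul_le_mul_of_nonneg_right h1 (norm_nonneg _)))
        h1 (norm_nonneg _) (by positivity)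
    have r4 := norm_add₃_le (a := a * x) (b := x * a) (c := X * x * star X)
    rw [hR]
    nlinarith
  have e4 : Complex.I • ((h * x - x * h) * s - s * (h * x - x * h)) =
      (T * x * star T * s - s * (T * x * star T)) - (R * s - s * R) := by
    rw [smul_sub, ← smul_mul_assoc, ← mul_smul_comm, e1, sub_mul, sub_mul, mul_sub, mul_sub,
      comm_of_mem hs hx]
    abel
  have e5 : ‖(h * x - x * h) * s - s * (h * x - x * h)‖ =
      ‖(T * x * star T * s - s * (T * x * star T)) - (R * s - s * R)‖ := by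
    rw [← e4, norm_smul, Complex.norm_I, one_mul]
  have r5 := norm_sub_le (T * x * star T * s - s * (T * x * star T)) (R * s - s * R)
  have r6 := norm_sub_le (R * s) (s * R)
  have r7 : ‖R * s‖ ≤ 3 * η ^ 2 * ‖x‖ * ‖s‖ :=
    (norm_mul_le _ _).trans (mul_le_mul_of_nonneg_right nR (norm_nonneg _))
  have r8 : ‖s * R‖ ≤ ‖s‖ * (3 * η ^ 2 * ‖x‖) :=
    (norm_mul_le _ _).trans (mul_le_mul_of_nonneg_left nR (norm_nonneg _))
  have r9 := hn x hx s hs
  rw [e5]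
  nlinarith

theorem Good.mono {U : Op H} {k k' : ℝ} (h : D.Good U k) (hk : k ≤ k') : D.Good U k' := by
  exact ⟨h.cd, h.cd', h.iso.trans hk, fun x hx s hs => (h.nm x hx s hs).trans
    (mul_le_mul_of_nonneg_right (mul_le_mul_of_nonneg_right hk (norm_nonneg _)) (norm_nonneg _))⟩

theorem Good.ex_mul {U m m' : Op H} {k : ℝ} (h : D.Good U k) (hk : 0 ≤ k) (hL : D.Log m m') :
    D.Good (ex (m + m') * U) k := by
  have hs := hL.sa_add
  refine ⟨(eru_ex hL.cd).mul h.cd, (eru_ex hL.cd').mul h.cd', ?_, fun x hx s hs' => ?_⟩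
  · rw [star_mul, star_ex hs, mul_assoc, ← mul_assoc (ex _), ex_neg_mul, one_mul]
    exact h.iso
  · have h1 := h.nm x hx _ (hL.conj' hs')
    rw [norm_mul_ex hs, norm_ex_mul hs.neg] at h1
    have e : ex (m + m') * U * x * star (ex (m + m') * U) * s -
        s * (ex (m + m') * U * x * star (ex (m + m') * U)) =
        ex (m + m') * (U * x * star U * (ex (-(m + m')) * s * ex (m + m')) -
          ex (-(m + m')) * s * ex (m + m') * (U * x * star U)) * ex (-(m + m')) := by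
      have e1 := ex_mul_neg (m + m')
      rw [star_mul, star_ex hs]
      generalize ex (m + m') = v at e1 ⊢
      generalize ex (-(m + m')) = w at e1 ⊢
      calc _ = v * (U * x * star U) * w * s * (v * w) - (v * w) * s * v * (U * x * star U) * w := by
            rw [e1]; noncomm_ring
        _ = _ := by noncomm_ring
    rw [e, norm_mul_ex hs.neg, norm_ex_mul hs]
    exact h1

theorem ru (hc : Dense (orb M ξ)) (hc' : Dense (orb M.commutant ξ)) {T : Op H} {η : ℝ}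
    (hη : η ≤ 1 / 10 ^ 8) (hT : D.Good T (η ^ 2)) (h1 : ‖T - 1‖ ≤ η) :
    ∃ m m', D.Log m m' ∧ ‖m‖ ≤ 4 * η ∧ ‖m'‖ ≤ 4 * η ∧ ‖T - ex (m + m')‖ ≤ 2 * 10 ^ 7 * η ^ 2 := by
  have hη0 : 0 ≤ η := (norm_nonneg _).trans h1
  obtain ⟨a, h, ha, hh, na, nh, e, eh⟩ := eru_parts hT.iso h1
  obtain ⟨m, hm, m', hm', sm, sm', n1, n2⟩ := r0 M hh (c := 7 * η ^ 2) (by positivity)
    (eru_dc ha hh na h1 e hT.nm)
  have c1 : D.Cd h := by rw [eh]; exact eru_smul (eru_sub hT.cd hT.cd.star) _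
  have c2 : D.comm.Cd h := by rw [eh]; exact eru_smul (eru_sub hT.cd' hT.cd'.star) _
  obtain ⟨m₁, a1, s1, -, p1⟩ := D.pinch hc' hm sm
  obtain ⟨m₂, a2, s2, b2, p2⟩ := D.comm.pinch (by simpa using hc) hm' sm'
  have q1 := p1 (h - m') (eru_sub c1 (Cd.of_mem hm'))
  have q2 := p2 (h - m₁) (eru_sub c2 (Cd.of_mem (by simpa using Ab_mem a1)))
  rw [sub_right_comm h m' m, sub_right_comm h m' m₁] at q1
  have hηη : 2 * 10 ^ 6 * (7 * η ^ 2) ≤ η := by nlinarith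
  have q3 : ‖h - (m₁ + m₂)‖ ≤ 2 * 10 ^ 6 * (7 * η ^ 2) := by
    rw [← sub_sub]; linarith
  have q4 : ‖m₁ + m₂‖ ≤ 2 * η := by
    have := norm_sub_le h (h - (m₁ + m₂))
    rw [sub_sub_cancel] at this
    linarith
  have q5 : ‖m₂‖ ≤ 2 * η := by linarith
  have q6 : ‖m₁‖ ≤ 4 * η := by
    have := norm_sub_le (m₁ + m₂) m₂
    rw [add_sub_cancel_right] at this
    linarith
  refine ⟨m₁, m₂, ⟨a1, a2, s1, s2⟩, q6, by linarith, ?_⟩
  have q7 := norm_ex_taylor (s1.add s2) (by linarith [show (1 : ℝ) / 10 ^ 8 ≤ 1 / 2 by norm_num])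
  have q8 : ‖m₁ + m₂‖ ^ 2 ≤ (2 * η) ^ 2 := pow_le_pow_left₀ (norm_nonneg _) q4 2
  have e2 : T - ex (m₁ + m₂) = a + Complex.I • (h - (m₁ + m₂)) -
      (ex (m₁ + m₂) - 1 - Complex.I • (m₁ + m₂)) := by
    rw [smul_sub]
    nth_rw 1 [e]
    abel
  have q9 := norm_sub_le (a + Complex.I • (h - (m₁ + m₂)))
    (ex (m₁ + m₂) - 1 - Complex.I • (m₁ + m₂))
  have q10 := norm_add_le a (Complex.I • (h - (m₁ + m₂)))
  rw [norm_smul, Complex.norm_I, one_mul] at q10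
  rw [e2]
  nlinarith [sq_nonneg η]

theorem path (hc : Dense (orb M ξ)) (hc' : Dense (orb M.commutant ξ)) {U : ℕ → Op H} {η : ℝ}
    (hη : η ≤ 1 / 10 ^ 9) (hU : ∀ j, D.Good (U j) (η ^ 2)) (h0 : ‖U 0 - 1‖ ≤ η)
    (hs : ∀ j, ‖U (j + 1) - U j‖ ≤ η) :
    ∃ m m' : ℕ → Op H, (∀ j, D.Log (m j) (m' j)) ∧
      (∀ j, ‖U j - ex (m j + m' j)‖ ≤ 10 ^ 8 * η ^ 2) ∧ ‖m 0‖ ≤ 8 * η ∧ ‖m' 0‖ ≤ 8 * η ∧
      ∀ j, ‖m (j + 1) - m j‖ ≤ 8 * η ∧ ‖m' (j + 1) - m' j‖ ≤ 8 * η := by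
  have hη0 : 0 ≤ η := (norm_nonneg _).trans h0
  have step : ∀ (j : ℕ) (p : Op H × Op H),
      (D.Log p.1 p.2 ∧ ‖U j - ex (p.1 + p.2)‖ ≤ 10 ^ 8 * η ^ 2) → ∃ q : Op H × Op H,
      (D.Log q.1 q.2 ∧ ‖U (j + 1) - ex (q.1 + q.2)‖ ≤ 10 ^ 8 * η ^ 2) ∧
        ‖q.1 - p.1‖ ≤ 8 * η ∧ ‖q.2 - p.2‖ ≤ 8 * η := by
    rintro j ⟨m, m'⟩ ⟨hL, hp⟩
    have hs' := hL.sa_add
    have g1 : D.Good (ex (-m + -m') * U (j + 1)) ((2 * η) ^ 2) :=
      ((hU (j + 1)).ex_mul (sq_nonneg η) hL.neg).mono (by nlinarith [sq_nonneg η])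
    rw [← neg_add] at g1
    have g2 : ‖ex (-(m + m')) * U (j + 1) - 1‖ ≤ 2 * η := by
      rw [← ex_neg_mul (m + m'), ← mul_sub, norm_ex_mul hs'.neg]
      have g3 := norm_add_le (U (j + 1) - U j) (U j - ex (m + m'))
      rw [sub_add_sub_cancel] at g3
      have g4 : 10 ^ 8 * η ^ 2 ≤ η := by nlinarith
      linarith [hs j]
    obtain ⟨n, n', hN, b1, b2, b3⟩ := ru hc hc'
      (by linarith [show 2 * ((1 : ℝ) / 10 ^ 9) ≤ 1 / 10 ^ 8 by norm_num]) g1 g2
    refine ⟨(m + n, m' + n'), ⟨hL.add hN, ?_⟩, ?_, ?_⟩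
    · have e : U (j + 1) - ex (m + n + (m' + n')) =
          ex (m + m') * (ex (-(m + m')) * U (j + 1) - ex (n + n')) := by
        rw [add_add_add_comm, ex_add (hL.comm hN), mul_sub, ← mul_assoc, ex_mul_neg, one_mul]
      simp only
      rw [e, norm_ex_mul hs']
      nlinarith [sq_nonneg η]
    · simp only [add_sub_cancel_left]; linarith
    · simp only [add_sub_cancel_left]; linarith
  choose! f hf using step
  obtain ⟨m₀, m₀', hL, b1, b2, b3⟩ := ru hc hc'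
    (hη.trans (by norm_num)) (hU 0) h0
  let p : ℕ → Op H × Op H := fun j => Nat.rec (m₀, m₀') f j
  have hp : ∀ j, D.Log (p j).1 (p j).2 ∧ ‖U j - ex ((p j).1 + (p j).2)‖ ≤ 10 ^ 8 * η ^ 2 := by
    intro j
    induction j with
    | zero => exact ⟨hL, b3.trans (by nlinarith [sq_nonneg η])⟩
    | succ j ih => exact (hf j (p j) ih).1
  exact ⟨fun j => (p j).1, fun j => (p j).2, fun j => (hp j).1, fun j => (hp j).2,
    b1.trans (by linarith), b2.trans (by linarith), fun j => (hf j (p j) (hp j)).2⟩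

end MS

end Vale.Agent.P096
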