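import Vale.Agent.P096.EEst
import Vale.Agent.P096.ERU

/-!
# P096 part E: short times
`x j = (1/2) ^ j / 4`, `U j = G (1/4) * F (x j)`, `η = 100 θ`. `Good`: `Two.good`, `Fam.comm` with `v = d k a` and `v = d' k a` (`MS.cd_Θ` for `D` and `D.swap`). `‖U 0 - 1‖ ≤ 3 θ ^ 2` (`Two.inv`),
steps at most `2 * 8 θ` (`SA.schwarz` at `a = x j`, `r = x j`, `ball_subset_strip`, `Two.unit`). `path`: `E = 10 ^ 12 θ ^ 2 ≤ θ / 10`; `ex (m j + m' j)` commutes with `S.Δ t` (`Log.comm_of`, `ex_comm`), so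
`‖[U j, S.Δ t]‖ ≤ 2 E`; strong limit (`SA.tendsto_zero`, `Fam.zero`): `‖[G (1/4) A, S.Δ t]‖ ≤ 2 E`, `‖[G (1/4), S.Δ t]‖ ≤ 2 E + 4 θ ^ 2`. `SA.schwarz` for `G` at `1/4`, `r = 1/4` and `Fam.shift`:
`‖S.Δ t G T.Δ (-t) - G‖ ≤ 8 θ`. With `X = S.Δ t T.Δ (-t) - 1`: `‖G X‖ ≤ 8 θ + 2 E + 4 θ ^ 2`, and `(1 - 4 θ ^ 2) ‖X ζ‖ ≤ ‖G X ζ‖` (`h.symm.unit`); `S.Δ t - T.Δ t = X * T.Δ t`.
-/

namespace Vale.Agent.P096

open Vale.Agent.P104 Vale.Agent.P132 Filter Topology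
open scoped InnerProductSpace BoundedContinuousFunction

universe u

variable {H : Type u} [NormedAddCommGroup H] [InnerProductSpace ℂ H] [CompleteSpace H]

theorem eshort_norm_Δ (F : FC H) (t : ℝ) : ‖F.Δ t‖ ≤ 1 :=
  ContinuousLinearMap.opNorm_le_bound _ zero_le_one fun η => by rw [F.norm_Δ, one_mul]

omit [CompleteSpace H] in
theorem eshort_comm {U V Y : Op H} {e : ℝ} (h : ‖U - V‖ ≤ e) (hY : ‖Y‖ ≤ 1) (hc : Y * V = V * Y) :
    ‖Y * U - U * Y‖ ≤ 2 * e := by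
  have e1 : Y * U - U * Y = Y * (U - V) - (U - V) * Y := by
    rw [mul_sub, sub_mul, hc]; abel
  have h0 : 0 ≤ e := (norm_nonneg _).trans h
  have a1 : ‖Y * (U - V)‖ ≤ 1 * e :=
    (norm_mul_le _ _).trans (mul_le_mul hY h (norm_nonneg _) zero_le_one)
  have a2 : ‖(U - V) * Y‖ ≤ e * 1 := (norm_mul_le _ _).trans (mul_le_mul h hY (norm_nonneg _) h0)
  rw [e1]
  linarith [norm_sub_le (Y * (U - V)) ((U - V) * Y)]

theorem eshort_mem {x : ℝ} (h0 : 0 ≤ x) (h1 : x ≤ 1 / 2) : (x : ℂ) ∈ cstrip := by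
  simpa using real_mem_cstrip h0 h1 0

theorem short {S T : SF H} {θ δ : ℝ} {A B A₂ B₂ : Op H} {F G : ℂ → Op H}
    (h : Two S T (θ ^ 2) δ A B A₂ B₂ F G) (hξ : S.ξ = T.ξ) (D : MS S.M T.M S.ξ) (hA : D.Cd A)
    (hA' : D.comm.Cd A) (hA₂ : D.Cd A₂) (hA₂' : D.comm.Cd A₂) (hθ0 : 0 < θ) (hθ : θ ≤ 1 / 10 ^ 13)
    (hδ0 : 0 ≤ δ) (hδ : δ ≤ θ ^ 2) (t : ℝ) (ht : |t| ≤ 1 / 8) : ‖S.Δ t - T.Δ t‖ ≤ 20 * θ := by
  have hθ2 : θ ^ 2 ≤ θ / 10 ^ 13 := by nlinarith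
  have hκ : θ ^ 2 ≤ 1 / 10 := by linarith
  set x : ℕ → ℝ := fun j => (1 / 2) ^ j / 4 with hx
  have x0 : ∀ j, 0 < x j := fun j => by positivity
  have x1 : ∀ j, x j ≤ 1 / 4 := fun j => by
    have : (1 / 2 : ℝ) ^ j ≤ 1 := pow_le_one₀ (by norm_num) (by norm_num)
    simp only [hx]; linarith
  have xm : ∀ j, (x j : ℂ) ∈ cstrip := fun j => eshort_mem (x0 j).le (by linarith [x1 j])
  have xs : ∀ j, x (j + 1) = x j / 2 := fun j => by simp only [hx]; ring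
  have xt : Tendsto x atTop (𝓝 0) := by
    have := (tendsto_pow_atTop_nhds_zero_of_lt_one (r := (1 / 2 : ℝ)) (by norm_num)
      (by norm_num)).div_const 4
    rwa [zero_div] at this
  have cS := fun f => D.cd_Θ S rfl rfl f
  have cT := fun f => D.swap.cd_Θ T rfl hξ.symm f
  have cF : ∀ z ∈ cstrip, D.Cd (F z) ∧ D.comm.Cd (F z) := fun z hz =>
    ⟨fun k a => h.hF.comm _ (hA k a).symm (fun f => (cS f).1 k a) (fun f => (cT f).1 k a) z hz,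
      fun k a => h.hF.comm _ (hA' k a).symm (fun f => (cS f).2 k a) (fun f => (cT f).2 k a) z hz⟩
  have cG : ∀ z ∈ cstrip, D.Cd (G z) ∧ D.comm.Cd (G z) := fun z hz =>
    ⟨fun k a => h.hG.comm _ (hA₂ k a).symm (fun f => (cT f).1 k a) (fun f => (cS f).1 k a) z hz,
      fun k a => h.hG.comm _ (hA₂' k a).symm (fun f => (cT f).2 k a) (fun f => (cS f).2 k a) z hz⟩
  set g := G (x 0) with hg
  have ng : ‖g‖ ≤ 2 := (h.hG.bdd _ (xm 0)).trans (by linarith)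
  obtain ⟨m, m', hL, hU, -⟩ := MS.path (D := D) S.cyc S.cyc' (U := fun j => g * F (x j))
    (η := 100 * θ) (by linarith)
    (fun j => ⟨(cG _ (xm 0)).1.mul (cF _ (xm j)).1, (cG _ (xm 0)).2.mul (cF _ (xm j)).2,
      (h.good hθ0.le (by linarith) hδ0 hδ (xm j) (xm 0)).1,
      (h.good hθ0.le (by linarith) hδ0 hδ (xm j) (xm 0)).2⟩)
    ((h.inv (by linarith) _ (xm 0)).trans (by linarith))
    (fun j => by
      have a1 : ‖F (x (j + 1)) - F (x j)‖ ≤ 8 * θ :=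
        h.hF.toSA.schwarz hθ0 (by linarith) (x0 j) (ball_subset_strip (x1 j))
          (h.unit hκ _ (xm j)).1 (by
            rw [← Complex.ofReal_sub, Complex.norm_real, Real.norm_eq_abs, xs, abs_le]
            constructor <;> linarith [x0 j])
      rw [← mul_sub]
      exact (norm_mul_le _ _).trans
        ((mul_le_mul ng a1 (norm_nonneg _) zero_le_two).trans (by linarith)))
  have hE : 10 ^ 8 * (100 * θ) ^ 2 ≤ θ / 10 := by nlinarith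
  have c1 : ∀ j, ‖S.Δ t * (g * F (x j)) - g * F (x j) * S.Δ t‖ ≤ 2 * (θ / 10) := fun j =>
    eshort_comm ((hU j).trans hE) (eshort_norm_Δ _ t)
      (ex_comm ((hL j).comm_of (cS _).1 (cS _).2))
  have hW : W atTop (fun j => F (x j)) A := W.of_strong fun ζ => by
    have := h.hF.toSA.tendsto_zero (fun j => (x0 j).le) (fun j => by linarith [x1 j]) xt ζ
    rwa [h.hF.zero] at this
  have c2 : ‖S.Δ t * (g * A) - g * A * S.Δ t‖ ≤ 2 * (θ / 10) :=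
    (((hW.mul_left g).mul_left (S.Δ t)).sub ((hW.mul_left g).mul_right (S.Δ t))).norm_le
      (Eventually.of_forall c1)
  have c3 : ‖S.Δ t * g - g * S.Δ t‖ ≤ 2 * (θ / 10) + 2 * (2 * θ ^ 2) := by
    have a1 : ‖g * (A - 1) - 0‖ ≤ 2 * θ ^ 2 := by
      rw [sub_zero]
      exact (norm_mul_le _ _).trans (mul_le_mul ng h.nA (norm_nonneg _) zero_le_two)
    have a2 := eshort_comm a1 (eshort_norm_Δ S.toFC t) (by simp)
    have e : S.Δ t * g - g * S.Δ t = (S.Δ t * (g * A) - g * A * S.Δ t) -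
        (S.Δ t * (g * (A - 1)) - g * (A - 1) * S.Δ t) := by noncomm_ring
    rw [e]
    exact (norm_sub_le _ _).trans (add_le_add c2 a2)
  have c4 : ‖S.Δ t * g * T.Δ (-t) - g‖ ≤ 8 * θ := by
    rw [hg, ← h.hG.shift _ (xm 0)]
    refine h.hG.toSA.schwarz hθ0 (by linarith) (x0 0) (ball_subset_strip (x1 0))
      (h.symm.unit hκ _ (xm 0)).1 ?_
    rw [add_sub_cancel_left, norm_mul, Complex.norm_I, Complex.norm_real, Real.norm_eq_abs]
    simp only [hx]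
    linarith
  have c5 : ‖g * (S.Δ t * T.Δ (-t) - 1)‖ ≤ 9 * θ := by
    have e : g * (S.Δ t * T.Δ (-t) - 1) = (S.Δ t * g * T.Δ (-t) - g) -
        (S.Δ t * g - g * S.Δ t) * T.Δ (-t) := by noncomm_ring
    have a1 := (norm_mul_le (S.Δ t * g - g * S.Δ t) (T.Δ (-t))).trans
      (mul_le_mul c3 (eshort_norm_Δ T.toFC (-t)) (norm_nonneg _) (by positivity))
    rw [e]
    linarith [norm_sub_le (S.Δ t * g * T.Δ (-t) - g) ((S.Δ t * g - g * S.Δ t) * T.Δ (-t))]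
  refine ContinuousLinearMap.opNorm_le_bound _ (by positivity) fun ζ => ?_
  have e : (S.Δ t - T.Δ t) ζ = (S.Δ t * T.Δ (-t) - 1) (T.Δ t ζ) := by
    rw [← mul_apply_eq_comp, sub_mul, mul_assoc, FC.Δ_neg_mul, mul_one, one_mul]
  have a1 := (h.symm.unit hκ _ (xm 0)).1 ((S.Δ t * T.Δ (-t) - 1) (T.Δ t ζ))
  have a2 := (g * (S.Δ t * T.Δ (-t) - 1)).le_of_opNorm_le c5 (T.Δ t ζ)
  rw [mul_apply_eq_comp, FC.norm_Δ] at a2
  rw [e]
  nlinarith [norm_nonneg ((S.Δ t * T.Δ (-t) - 1) (T.Δ t ζ)), norm_nonneg ζ]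

end Vale.Agent.P096
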