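import Vale.Agent.P096.FAsy

/-!
# P096 F: the finite target theorem in the ultraproduct
-/

namespace Vale.Agent.P096

open Vale.Agent.P104 Vale.Agent.P132 Filter Topology MeasureTheory
open scoped InnerProductSpace ENNReal

universe u

theorem ult_lift (hB : FTStmt.{u}) {ε : ℝ} (hε : 0 < ε) : ∃ d₁ : ℝ, 0 < d₁ ∧
    ∀ (H : Type u) [NormedAddCommGroup H] [InnerProductSpace ℂ H] [CompleteSpace H]
      (M N : VonNeumannAlgebra H) (ξ : H) (K : ℕ → Type u) [∀ n, NormedAddCommGroup (K n)]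
      [∀ n, InnerProductSpace ℂ (K n)] [∀ n, CompleteSpace (K n)] (d₀ B : ℝ) (o : ℕ → ℝ)
      (Lv : ∀ n, LevF M N ξ (K n) d₀ d₁ B (o n)), Dense (orb N ξ) → Dense (orb N.commutant ξ) →
      0 < d₀ → Tendsto o atTop (𝓝 0) → ∃ Φ, LinOn M Φ ∧ ∀ x ∈ M, Φ x ∈ N ∧ ∀ ζ ζ' (c : ℝ),
        (∀ n, ‖⟪(Lv n).W ζ', (Lv n).emb x ((Lv n).W ζ)⟫_ℂ - ⟪ζ', x ζ⟫_ℂ‖ ≤ c) →
          ‖⟪ζ', (Φ x - x) ζ⟫_ℂ‖ ≤ c + ε * (‖x‖ * ‖ζ‖ * ‖ζ'‖) := by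
  obtain ⟨δ, hδ, hFT⟩ := ft_sub hB (ε := ε / 4) (by positivity)
  refine ⟨min (δ / 4) 1, by positivity, ?_⟩
  intro H _ _ _ M N ξ K _ _ _ d₀ B o Lv hc hc' hd₀ ho
  have nt : ∀ n, Nontrivial (K n) := fun n =>
    ⟨⟨(Lv n).Ξ, 0, fun h => by simpa [h] using (Lv n).nΞ⟩⟩
  have nt' : ∀ n, Nontrivial (Op (K n)) := fun n => inferInstance
  have hω : (hyperfilter ℕ : Filter ℕ) ≤ atTop :=
    hyperfilter_le_cofinite.trans Nat.cofinite_eq_atTop.le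
  obtain ⟨L, _, _, _, ⟨U⟩⟩ := exists_ult (fun n => (Lv n).Ξ) (fun n => (Lv n).nΞ) (hyperfilter ℕ)
  have nΩ : ‖U.q fun n => (Lv n).Ξ‖ = 1 :=
    tendsto_nhds_unique (U.tendsto_norm ⟨1, fun n => (Lv n).nΞ.le⟩) (by
      simp only [(Lv _).nΞ]
      exact tendsto_const_nhds)
  obtain ⟨e, ea, e1, e2, e3⟩ := ult_emb Lv hω ho
  obtain ⟨y, y', g1, g2, g3, g4, g5, g6, g7⟩ := ult_data U Lv hd₀ (min_le_right _ _)
    (δ := δ) (by linarith [min_le_left (δ / 4) 1]) _ rfl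
  obtain ⟨W, Wa, nW, bW, r1, r2, r3⟩ := ult_W U Lv hc hc'
  let _ : CStarAlgebra (lp (fun n => Op (K n)) ∞) := { }
  obtain ⟨Φ₀, p1, p2, hΦ⟩ := hFT L (lp (fun n => Op (K n)) ∞) _ U.π _ _ y y'
    (asy_closed _ _ _ _) nΩ g1 g2 g3 g4 g5 g6 g7
  refine ⟨fun x => rstC W (Φ₀ (e x)), ⟨fun x hx z hz => ?_, fun c x hx => ?_⟩,
    fun x hx => ⟨r3 _ (hΦ _).1, fun ζ ζ' c h => ?_⟩⟩
  · rw [e1 x hx z hz, p1]
    ext η
    simp [rstC_apply]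
  · rw [e2 c x hx, p2]
    ext η
    simp [rstC_apply]
  · have a1 := (hΦ (e x)).2 (W ζ) (W ζ') (r1 ζ) (r2 ζ) (r1 ζ') (r2 ζ')
    have a2 := e3 x hx
    have a3 : ‖⟪W ζ', U.π (e x).1 (W ζ)⟫_ℂ - ⟪ζ', x ζ⟫_ℂ‖ ≤ c := by
      rw [Wa, Wa, U.act _ _ (bW ζ)]
      refine le_of_tendsto (((U.inner_q _ _ (bW ζ') ((bd_lp _).app (bW ζ))).sub_const _).norm)
        (Eventually.of_forall fun n => ?_)
      rw [ea x hx]
      exact h n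
    have a4 : ⟪ζ', (rstC W (Φ₀ (e x)) - x) ζ⟫_ℂ =
        ⟪W ζ', (Φ₀ (e x) - U.π (e x).1) (W ζ)⟫_ℂ + (⟪W ζ', U.π (e x).1 (W ζ)⟫_ℂ - ⟪ζ', x ζ⟫_ℂ) := by
      rw [sub_apply, sub_apply, inner_sub_right, inner_sub_right, rstC_apply,
        ContinuousLinearMap.adjoint_inner_right]
      ring
    rw [a4]
    refine (norm_add_le _ _).trans ?_
    rw [nW, nW] at a1
    have a5 := a1.trans (mul_le_mul_of_nonneg_left (mul_le_mul_of_nonneg_right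
      (mul_le_mul_of_nonneg_right a2 (norm_nonneg ζ)) (norm_nonneg ζ')) (by positivity))
    linarith

end Vale.Agent.P096
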