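import Vale.Agent.P096.FLev
import Vale.Agent.P096.FLift

/-! P096 part F (notes/P096F.md, section F): assembly. -/

namespace Vale.Agent.P096

open Vale.Agent.P104 Vale.Agent.P132 Filter Topology MeasureTheory
open scoped InnerProductSpace ENNReal

universe u

theorem f_norm_le {H : Type u} [NormedAddCommGroup H] [InnerProductSpace ℂ H] [CompleteSpace H]
    {T : Op H} {c : ℝ} (hc : 0 ≤ c) (h : ∀ ζ ζ', ‖⟪ζ', T ζ⟫_ℂ‖ ≤ c * (‖ζ‖ * ‖ζ'‖)) : ‖T‖ ≤ c := by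
  refine T.opNorm_le_bound hc fun ζ => ?_
  have := h ζ (T ζ)
  rw [inner_self_eq_norm_sq_to_K, norm_pow, RCLike.norm_ofReal, abs_norm] at this
  exact l2_cancel (norm_nonneg _) (by positivity) (by linarith)

theorem partF (hB : FTStmt.{u}) : MLStmt.{u} := by
  intro ε hε
  obtain ⟨d₁, hd₁, hU⟩ := ult_lift hB (half_pos hε)
  refine ⟨min (d₁ / 2000) (ε / 4), by positivity, fun H _ _ _ M T V hV h1 h2 => ?_⟩
  have hδ : ∀ t, ‖V t - T.Δ t‖ ≤ d₁ / 2000 := fun t => (h1 t).trans (min_le_left _ _)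
  have key : ∀ i : ℕ, ∃ Φ, LinOn M Φ ∧ ∀ x ∈ M, Φ x ∈ T.M ∧ ∀ (ζ ζ' : H) (r c : ℝ), 0 < r → 0 ≤ c →
      (∀ u, |u| ≤ r → ‖⟪ζ', (V u * x * V (-u) - x) ζ⟫_ℂ‖ ≤ c) → ‖⟪ζ', (Φ x - x) ζ⟫_ℂ‖ ≤
        c + (ε + 1000 / ((i + 1) * r)) * (‖x‖ * ‖ζ‖ * ‖ζ'‖) := fun i => by
    have hi : (0 : ℝ) < i + 1 := by positivity
    have h0 : 0 < min (d₁ / 2000) (ε / 4) := by positivity
    choose Lv hLv using fun n : ℕ => exists_lev T hV h0.le h1 h2 hi (n + i) (by
      push_cast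
      linarith [n.cast_nonneg (α := ℝ)])
    have hle : 2000 * min (d₁ / 2000) (ε / 4) ≤ d₁ := by linarith [min_le_left (d₁ / 2000) (ε / 4)]
    obtain ⟨Φ, p1, p2⟩ := hU H M T.M T.ξ _ _ _ _
      (fun n => { Lv n with
        pair := fun c a1 a2 a3 => ((Lv n).pair c a1 a2 a3).imp fun _ => Exists.imp fun _ h =>
          ⟨h.1, h.2.1.trans hle, h.2.2.trans hle⟩ }) T.cyc T.cyc' h0
      (tendsto_const_nhds.div_atTop
        (tendsto_natCast_atTop_atTop.comp (tendsto_add_atTop_nat (i + 1))))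
    refine ⟨Φ, p1, fun x hx => ⟨(p2 x hx).1, fun ζ ζ' r c hr hc h => ?_⟩⟩
    refine ((p2 x hx).2 ζ ζ' _ fun n => hLv n x ζ ζ' r c hr hc h).trans ?_
    have h3 : 0 ≤ ‖x‖ * ‖ζ‖ * ‖ζ'‖ := by positivity
    nlinarith [min_le_right (d₁ / 2000) (ε / 4)]
  choose Φ p1 p2 using key
  have hb : ∀ x ∈ M, ∀ i, ‖Φ i x‖ ≤ (ε + 1003) * ‖x‖ := fun x hx i => by
    have h3 : ‖Φ i x - x‖ ≤ (ε + 1002) * ‖x‖ := f_norm_le (by positivity) fun ζ ζ' => by
      refine ((p2 i x hx).2 ζ ζ' 1 (2 * (‖x‖ * ‖ζ‖ * ‖ζ'‖)) one_pos (by positivity)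
        fun u _ => ?_).trans ?_
      · have a1 : ‖V u * x * V (-u) - x‖ ≤ 2 * ‖x‖ := by
          linarith [norm_sub_le (V u * x * V (-u)) x, hV.norm_conj u x]
        calc _ ≤ ‖ζ'‖ * (‖V u * x * V (-u) - x‖ * ‖ζ‖) :=
              (norm_inner_le_norm _ _).trans (by gcongr; exact ContinuousLinearMap.le_opNorm _ _)
          _ ≤ ‖ζ'‖ * (2 * ‖x‖ * ‖ζ‖) := by gcongr
          _ = _ := by ring
      · have a1 : 1000 / (((i : ℝ) + 1) * 1) ≤ 1000 :=
          div_le_self (by norm_num) (by linarith [i.cast_nonneg (α := ℝ)])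
        have a2 : 0 ≤ ‖x‖ * ‖ζ‖ * ‖ζ'‖ := by positivity
        nlinarith
    linarith [norm_le_norm_add_norm_sub' (Φ i x) x]
  have hω : (hyperfilter ℕ : Filter ℕ) ≤ atTop :=
    hyperfilter_le_cofinite.trans Nat.cofinite_eq_atTop.le
  have fex : ∀ x, ∃ y, x ∈ M → W (hyperfilter ℕ) (fun i => Φ i x) y := fun x => by
    by_cases hx : x ∈ M
    · exact (exists_W _ _ (Eventually.of_forall (hb x hx))).imp fun _ h _ => h
    · exact ⟨0, fun h => absurd h hx⟩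
  choose Ψ hΨ using fex
  refine lift_of_fun Ψ (fun x hx y hy => ?_) (fun c x hx => ?_) fun x hx => ⟨?_, ?_⟩
  · exact (hΨ _ (add_mem hx hy)).unique (((hΨ x hx).add (hΨ y hy)).congr
      (Eventually.of_forall fun i => ((p1 i).add x hx y hy).symm))
  · exact (hΨ _ (SMulMemClass.smul_mem c hx)).unique (((hΨ x hx).smul c).congr
      (Eventually.of_forall fun i => ((p1 i).smul c x hx).symm))
  · exact (hΨ x hx).mem (Eventually.of_forall fun i => (p2 i x hx).1)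
  · refine f_norm_le (by positivity) fun ζ ζ' => le_of_forall_pos_le_add fun c hc => ?_
    have a1 : Continuous fun u => ‖⟪ζ', (V u * x * V (-u) - x) ζ⟫_ℂ‖ :=
      (continuous_const.inner ((hV.cont_conj x ζ).sub continuous_const)).norm
    have a2 := a1.tendsto 0
    simp only [neg_zero, hV.zero, mul_one, one_mul, sub_self, zero_apply, inner_zero_right,
      norm_zero] at a2
    obtain ⟨r, hr, a3⟩ := Metric.eventually_nhds_iff.1 (a2.eventually (ge_mem_nhds hc))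
    have a4 : Tendsto (fun i : ℕ => c + (ε + 1000 / ((i + 1) * (r / 2))) * (‖x‖ * ‖ζ‖ * ‖ζ'‖)) atTop
        (𝓝 (c + (ε + 0) * (‖x‖ * ‖ζ‖ * ‖ζ'‖))) :=
      (((tendsto_const_nhds.div_atTop ((tendsto_atTop_add_const_right _ 1
        tendsto_natCast_atTop_atTop).atTop_mul_const (half_pos hr))).const_add ε).mul_const
          _).const_add c
    have a5 := le_of_tendsto_of_tendsto' (((hΨ x hx).sub (W.const x)) ζ ζ').norm (a4.mono_left hω)
      fun i => (p2 i x hx).2 ζ ζ' (r / 2) c (half_pos hr) hc.le fun u hu => a3 (by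
        rw [dist_zero_right, Real.norm_eq_abs]
        linarith)
    linarith

end Vale.Agent.P096
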