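import Vale.Agent.P096.Cor

/-!
# P096 F: the finite target theorem without cyclicity assumptions
-/

namespace Vale.Agent.P096

open Vale.Agent.P104 Vale.Agent.P132 Filter Topology
open scoped InnerProductSpace

universe u

section

variable {H : Type*} [NormedAddCommGroup H] [InnerProductSpace ℂ H] [CompleteSpace H]
  {K : Type*} [NormedAddCommGroup K] [InnerProductSpace ℂ K] [CompleteSpace K]

theorem Gr.comm {Q : VonNeumannAlgebra H} {Ω : H} {a a' : Op H} (h : Gr Q Ω a a') :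
    Gr Q.commutant Ω a' a := ⟨h.mem', by simpa using h.mem, h.eq.symm⟩

theorem Gr.inv {Q : VonNeumannAlgebra H} {Ω : H} {a a' : Op H} (h : Gr Q Ω a a') :
    projOn (orb Q.commutant Ω) * a * projOn (orb Q.commutant Ω) = a * projOn (orb Q.commutant Ω) := by
  have : ((1 - projOn (orb Q.commutant Ω)) * a) * projOn (orb Q.commutant Ω) = 0 := by
    refine mul_projOn_eq_zero ?_
    rintro _ ⟨b, hb, rfl⟩
    have e : a (b Ω) = (b * a') Ω := by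
      rw [← mul_apply_eq_comp, ← comm_of_mem hb h.mem, mul_apply_eq_comp, h.eq, mul_apply_eq_comp]
    rw [mul_apply_eq_comp, e, sub_apply, one_apply_eq_self,
      projOn_apply_of_mem (W := orb Q.commutant Ω) ⟨_, mul_mem hb h.mem', rfl⟩, sub_self]
  rw [sub_mul, sub_mul, one_mul, sub_eq_zero] at this
  exact this.symm

theorem fcor_sub (i : K →L[ℂ] H) (x y : Op H) : rstC i x - rstC i y = rstC i (x - y) := by
  ext η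
  simp [rstC_apply]

end

theorem ft_cor (hB : FTStmt.{u}) {ε : ℝ} (hε : 0 < ε) : ∃ δ : ℝ, 0 < δ ∧
    ∀ (K : Type u) [NormedAddCommGroup K] [InnerProductSpace ℂ K]
    [CompleteSpace K] (P : Type u) [CStarAlgebra P] (Q : VonNeumannAlgebra K) (Ω : K)
    (ρ : P →ₗ[ℂ] Op K) (y y' : unitary P → Op K), ‖Ω‖ = 1 → (∀ x, ‖ρ x‖ ≤ ‖x‖) →
      (∀ v, Gr Q Ω (y v) (y' v)) →
      (∀ v : unitary P, ‖ρ v - y v‖ ≤ δ) → (∀ v, ‖y' v‖ ≤ 1 + δ) → ‖y 1 - 1‖ ≤ δ → ‖y' 1 - 1‖ ≤ δ →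
      (∀ v w, ‖y (v * w) - y v * y w‖ ≤ δ) → (∀ v w, ‖y' (v * w) - y' w * y' v‖ ≤ δ) →
      ∃ Φ : P →ₗ[ℂ] Op K, ∀ x, Φ x ∈ Q ∧ ∀ ζ ζ', ζ ∈ closure (orb Q Ω) →
        ζ ∈ closure (orb Q.commutant Ω) → ζ' ∈ closure (orb Q Ω) →
        ζ' ∈ closure (orb Q.commutant Ω) → ‖⟪ζ', (Φ x - ρ x) ζ⟫_ℂ‖ ≤ ε * (‖x‖ * ‖ζ‖ * ‖ζ'‖) := by
  obtain ⟨δ, hδ, hFT⟩ := hB ε hε
  refine ⟨δ, hδ, fun K _ _ _ P _ Q Ω ρ y y' hΩ hρ hG h1 h2 h3 h4 h5 h6 => ?_⟩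
  obtain ⟨U, _, Ω₀, hC, e0, hc, hc'⟩ := cor_vec Q Ω
  set i := U.subtypeL with hi
  have e1 : i Ω₀ = Ω := e0
  let ρ₀ : P →ₗ[ℂ] Op U :=
    { toFun := fun x => rstC i (ρ x)
      map_add' := fun a b => by
        ext η
        simp [rstC_apply]
      map_smul' := fun c a => by
        ext η
        simp [rstC_apply] }
  have hn : ∀ a b : Op K, ‖a - b‖ ≤ δ → ‖rstC i a - rstC i b‖ ≤ δ := fun a b h => by
    rw [fcor_sub]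
    exact (hC.iso.norm_C _).trans h
  obtain ⟨Φ₀, hΦ⟩ := hFT U P (rstAlg i Q) Ω₀ ρ₀ (fun v => rstC i (y v)) (fun v => rstC i (y' v))
    (by rw [← hC.iso.norm_i, e1, hΩ]) hc hc' (fun x => (hC.iso.norm_C _).trans (hρ x))
    (fun v => ⟨hC.C_mem (hG v).mem, rstC_mem_commutant (hG v).mem', by
      rw [rstC_apply, rstC_apply, e1, (hG v).eq]⟩)
    (fun v => hn _ _ (h1 v)) (fun v => (hC.iso.norm_C _).trans (h2 v))
    (by rw [← hC.iso.C_one]; exact hn _ _ h3) (by rw [← hC.iso.C_one]; exact hn _ _ h4)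
    (fun v w => by
      rw [hC.C_mul _ (hG w).mem (hG w).inv]
      exact hn _ _ (h5 v w))
    (fun v w => by
      have := (hG v).comm.inv
      rw [VonNeumannAlgebra.commutant_commutant] at this
      rw [hC.comm.C_mul _ (hG v).mem' this]
      exact hn _ _ (h6 v w))
  obtain ⟨p, L, -, -, -, -, hL, -⟩ := hC.lift
  refine ⟨L ∘ₗ Φ₀, fun x => ⟨(hL _ (hΦ x).1).1, fun ζ ζ' a1 a2 a3 a4 => ?_⟩⟩
  have key : ∀ ζ, ζ ∈ closure (orb Q Ω) → ζ ∈ closure (orb Q.commutant Ω) →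
      i (i.adjoint ζ) = ζ := fun ζ b1 b2 => by
    rw [hC.iso.right, mul_apply_eq_comp, (projOn_orb_iff Q Ω ζ).2 b1,
      (projOn_orb_iff Q.commutant Ω ζ).2 b2]
  have e2 : ⟪ζ', ((L ∘ₗ Φ₀) x - ρ x) ζ⟫_ℂ = ⟪i.adjoint ζ', (Φ₀ x - ρ₀ x) (i.adjoint ζ)⟫_ℂ := by
    have e3 : Φ₀ x - ρ₀ x = rstC i (L (Φ₀ x) - ρ x) := by
      rw [← fcor_sub, (hL _ (hΦ x).1).2.2]
      rfl
    rw [e3, rstC_apply, ContinuousLinearMap.adjoint_inner_right, key ζ a1 a2, key ζ' a3 a4]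
    rfl
  rw [e2]
  calc _ ≤ ‖i.adjoint ζ'‖ * (‖Φ₀ x - ρ₀ x‖ * ‖i.adjoint ζ‖) :=
        (norm_inner_le_norm _ _).trans (by gcongr; exact ContinuousLinearMap.le_opNorm _ _)
    _ ≤ ‖ζ'‖ * (ε * ‖x‖ * ‖ζ‖) := by
        gcongr
        · exact hC.iso.norm_adj _
        · exact (hΦ x).2
        · exact hC.iso.norm_adj _
    _ = _ := by ring

theorem ft_sub (hB : FTStmt.{u}) {ε : ℝ} (hε : 0 < ε) : ∃ δ : ℝ, 0 < δ ∧
    ∀ (K : Type u) [NormedAddCommGroup K] [InnerProductSpace ℂ K]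
    [CompleteSpace K] (A : Type u) [CStarAlgebra A] (P : StarSubalgebra ℂ A)
    (π : A →⋆ₐ[ℂ] Op K) (Q : VonNeumannAlgebra K) (Ω : K)
    (y y' : unitary P → Op K), IsClosed (P : Set A) → ‖Ω‖ = 1 → (∀ v, Gr Q Ω (y v) (y' v)) →
      (∀ v : unitary P, ‖π (v : P).1 - y v‖ ≤ δ) → (∀ v, ‖y' v‖ ≤ 1 + δ) → ‖y 1 - 1‖ ≤ δ →
      ‖y' 1 - 1‖ ≤ δ →
      (∀ v w, ‖y (v * w) - y v * y w‖ ≤ δ) → (∀ v w, ‖y' (v * w) - y' w * y' v‖ ≤ δ) →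
      ∃ Φ : P → Op K, (∀ a b, Φ (a + b) = Φ a + Φ b) ∧ (∀ (c : ℂ) a, Φ (c • a) = c • Φ a) ∧
        ∀ x, Φ x ∈ Q ∧ ∀ ζ ζ', ζ ∈ closure (orb Q Ω) →
        ζ ∈ closure (orb Q.commutant Ω) → ζ' ∈ closure (orb Q Ω) →
        ζ' ∈ closure (orb Q.commutant Ω) →
          ‖⟪ζ', (Φ x - π x.1) ζ⟫_ℂ‖ ≤ ε * (‖x.1‖ * ‖ζ‖ * ‖ζ'‖) := by
  obtain ⟨δ, hδ, h⟩ := ft_cor hB hε
  refine ⟨δ, hδ, fun K _ _ _ A _ P π Q Ω y y' hP hΩ g1 g2 g3 g4 g5 g6 g7 => ?_⟩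
  let ρ : P →ₗ[ℂ] Op K :=
    { toFun := fun x => π x.1
      map_add' := fun a b => map_add π _ _
      map_smul' := fun c a => map_smul π _ _ }
  obtain ⟨Φ, hΦ⟩ := h K P Q Ω ρ y y' hΩ (fun x => NonUnitalStarAlgHom.norm_apply_le π x.1)
    g1 g2 g3 g4 g5 g6 g7
  exact ⟨Φ, Φ.map_add, Φ.map_smul, hΦ⟩

end Vale.Agent.P096
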