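import Vale.Agent.P096.FUlt
import Vale.Agent.P096.FCor

/-!
# P096 F: asymptotically invariant sequences, the data in the ultraproduct
-/

namespace Vale.Agent.P096

open Vale.Agent.P104 Vale.Agent.P132 Filter Topology MeasureTheory
open scoped InnerProductSpace ENNReal

universe u

section Asy

variable {K : ℕ → Type u} [∀ n, NormedAddCommGroup (K n)] [∀ n, InnerProductSpace ℂ (K n)]
  [∀ n, CompleteSpace (K n)] [∀ n, Nontrivial (Op (K n))]

theorem flift_conj {A : Type*} [CStarAlgebra A] {a : A} (ha : a ∈ unitary A) (c : A) :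
    ‖a * c * star a‖ = ‖c‖ := by
  rw [CStarRing.norm_mul_mem_unitary _ (Unitary.star_mem ha), CStarRing.norm_mem_unitary_mul _ ha]

theorem flift_mul {A : Type*} [CStarAlgebra A] {a : A} (ha : a ∈ unitary A) (c d : A) :
    ‖a * (c * d) * star a - c * d‖ ≤ ‖a * c * star a - c‖ * ‖d‖ + ‖c‖ * ‖a * d * star a - d‖ := by
  have e : a * (c * d) * star a - c * d =
      (a * c * star a - c) * (a * d * star a) + c * (a * d * star a - d) := by
    have : a * c * star a * (a * d * star a) = a * (c * d) * star a := by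
      calc _ = a * c * (star a * a) * d * star a := by simp only [mul_assoc]
        _ = _ := by rw [ha.1]; simp only [mul_assoc, mul_one]
    rw [sub_mul, mul_sub, this]
    abel
  rw [e]
  refine (norm_add_le _ _).trans (add_le_add ?_ (norm_mul_le _ _))
  rw [← flift_conj ha d]
  exact norm_mul_le _ _

/-- asymptotically invariant sequences -/
noncomputable def asy (Mn : ∀ n, VonNeumannAlgebra (K n)) (a : ∀ n, ℝ → Op (K n))
    (ha : ∀ n t, a n t ∈ unitary (Op (K n))) (ω : Ultrafilter ℕ) :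
    StarSubalgebra ℂ (lp (fun n => Op (K n)) ∞) where
  carrier := {c | (∀ n, c n ∈ Mn n) ∧ ∀ ε : ℝ, 0 < ε → ∀ᶠ n in ω, ∀ t, |t| ≤ 1 →
    ‖a n t * c n * star (a n t) - c n‖ ≤ ε}
  mul_mem' := by
    rintro c d ⟨h1, h2⟩ ⟨h3, h4⟩
    refine ⟨fun n => mul_mem (h1 n) (h3 n), fun ε hε => ?_⟩
    have hp : 0 < ‖c‖ + ‖d‖ + 1 := by positivity
    filter_upwards [h2 _ (div_pos hε hp), h4 _ (div_pos hε hp)] with n b1 b2 t ht
    refine (flift_mul (ha n t) (c n) (d n)).trans ?_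
    have b3 := lp.norm_apply_le_norm ENNReal.top_ne_zero c n
    have b4 := lp.norm_apply_le_norm ENNReal.top_ne_zero d n
    calc _ ≤ ε / (‖c‖ + ‖d‖ + 1) * ‖d‖ + ‖c‖ * (ε / (‖c‖ + ‖d‖ + 1)) := by
          gcongr
          · exact b1 t ht
          · exact b2 t ht
      _ = ε * ((‖c‖ + ‖d‖) / (‖c‖ + ‖d‖ + 1)) := by ring
      _ ≤ ε := mul_le_of_le_one_right hε.le ((div_le_one hp).2 (by linarith))
  add_mem' := by
    rintro c d ⟨h1, h2⟩ ⟨h3, h4⟩
    refine ⟨fun n => add_mem (h1 n) (h3 n), fun ε hε => ?_⟩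
    filter_upwards [h2 _ (half_pos hε), h4 _ (half_pos hε)] with n b1 b2 t ht
    have e : a n t * (c + d) n * star (a n t) - (c + d) n =
        (a n t * c n * star (a n t) - c n) + (a n t * d n * star (a n t) - d n) := by
      change a n t * (c n + d n) * star (a n t) - (c n + d n) = _
      rw [mul_add, add_mul]
      abel
    rw [e]
    linarith [norm_add_le (a n t * c n * star (a n t) - c n) (a n t * d n * star (a n t) - d n),
      b1 t ht, b2 t ht]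
  algebraMap_mem' := fun r => by
    have e : ∀ n, (algebraMap ℂ (lp (fun n => Op (K n)) ∞) r) n = r • (1 : Op (K n)) := fun n => by
      rw [Algebra.algebraMap_eq_smul_one]
      rfl
    refine ⟨fun n => ?_, fun ε hε => Eventually.of_forall fun n t _ => ?_⟩
    · rw [e]
      exact SMulMemClass.smul_mem _ (one_mem _)
    · rw [e, mul_smul_comm, mul_one, smul_mul_assoc, (ha n t).2, sub_self, norm_zero]
      exact hε.le
  star_mem' := by
    rintro c ⟨h1, h2⟩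
    refine ⟨fun n => star_mem (h1 n), fun ε hε => ?_⟩
    filter_upwards [h2 _ hε] with n b1 t ht
    have e : a n t * (star c) n * star (a n t) - (star c) n =
        star (a n t * c n * star (a n t) - c n) := by
      rw [lp.star_apply, star_sub, star_mul, star_mul, star_star, mul_assoc]
    rw [e, norm_star]
    exact b1 t ht

theorem asy_closed (Mn : ∀ n, VonNeumannAlgebra (K n)) (a : ∀ n, ℝ → Op (K n))
    (ha : ∀ n t, a n t ∈ unitary (Op (K n))) (ω : Ultrafilter ℕ) :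
    IsClosed (asy Mn a ha ω : Set (lp (fun n => Op (K n)) ∞)) := by
  refine isClosed_of_closure_subset fun c hc => ?_
  have hd : ∀ (d : lp (fun n => Op (K n)) ∞) n, ‖c n - d n‖ ≤ ‖c - d‖ := fun d n =>
    lp.norm_apply_le_norm ENNReal.top_ne_zero (c - d) n
  refine ⟨fun n => (vn_isClosed (Mn n)).closure_subset (Metric.mem_closure_iff.2 fun ε hε => ?_),
    fun ε hε => ?_⟩
  · obtain ⟨d, h1, h2⟩ := Metric.mem_closure_iff.1 hc ε hε
    rw [dist_eq_norm] at h2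
    exact ⟨d n, h1.1 n, by rw [dist_eq_norm]; exact (hd d n).trans_lt h2⟩
  · obtain ⟨d, h1, h2⟩ := Metric.mem_closure_iff.1 hc (ε / 3) (by positivity)
    rw [dist_eq_norm] at h2
    filter_upwards [h1.2 (ε / 3) (by positivity)] with n b1 t ht
    have e : a n t * c n * star (a n t) - c n =
        a n t * (c n - d n) * star (a n t) + (a n t * d n * star (a n t) - d n) - (c n - d n) := by
      rw [mul_sub, sub_mul]
      abel
    rw [e]
    have b2 := norm_sub_le (a n t * (c n - d n) * star (a n t) + (a n t * d n * star (a n t) - d n))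
      (c n - d n)
    have b3 := norm_add_le (a n t * (c n - d n) * star (a n t)) (a n t * d n * star (a n t) - d n)
    rw [flift_conj (ha n t)] at b3
    linarith [hd d n, b1 t ht]

end Asy

theorem flift_am {A : Type*} [NormedRing A] {a b c a' b' : A} {d : ℝ} (hd : d ≤ 1) (ha : ‖a‖ ≤ 1)
    (hb : ‖b‖ ≤ 1) (h1 : ‖a' - a‖ ≤ d) (h2 : ‖b' - b‖ ≤ d) (h3 : ‖c - a * b‖ ≤ d) :
    ‖c - a' * b'‖ ≤ 4 * d := by
  have e : c - a' * b' = c - a * b - ((a' - a) * (b' - b) + (a' - a) * b + a * (b' - b)) := by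
    noncomm_ring
  have h0 : 0 ≤ d := (norm_nonneg _).trans h1
  have b1 : ‖(a' - a) * (b' - b)‖ ≤ d * 1 := (norm_mul_le _ _).trans (by gcongr; linarith)
  have b2 : ‖(a' - a) * b‖ ≤ d * 1 := (norm_mul_le _ _).trans (by gcongr)
  have b3 : ‖a * (b' - b)‖ ≤ 1 * d := (norm_mul_le _ _).trans (by gcongr)
  rw [e]
  linarith [norm_sub_le (c - a * b) ((a' - a) * (b' - b) + (a' - a) * b + a * (b' - b)),
    norm_add₃_le (a := (a' - a) * (b' - b)) (b := (a' - a) * b) (c := a * (b' - b))]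

section Main

variable {H : Type u} [NormedAddCommGroup H] [InnerProductSpace ℂ H] [CompleteSpace H]
  {M N : VonNeumannAlgebra H} {ξ : H} {K : ℕ → Type u} [∀ n, NormedAddCommGroup (K n)]
  [∀ n, InnerProductSpace ℂ (K n)] [∀ n, CompleteSpace (K n)] [∀ n, Nontrivial (Op (K n))]
  {d₀ d₁ B : ℝ} {o : ℕ → ℝ} {ω : Ultrafilter ℕ}
  {L : Type u} [NormedAddCommGroup L] [InnerProductSpace ℂ L] [CompleteSpace L] (U : Ult K ω L)

/-- the von Neumann algebra generated by the product -/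
noncomputable def Ult.alg (Nn : ∀ n, VonNeumannAlgebra (K n)) : VonNeumannAlgebra L :=
  (vnComm (U.π '' {c | ∀ n, c n ∈ Nn n})).commutant

theorem Ult.mem_alg {Nn : ∀ n, VonNeumannAlgebra (K n)} {c : ∀ n, Op (K n)} (b : Bd c)
    (h : ∀ n, c n ∈ Nn n) : U.π (sq c) ∈ U.alg Nn :=
  VonNeumannAlgebra.mem_commutant_iff.2 fun _ hg =>
    (mem_vnComm.1 hg _ ⟨sq c, fun n => by rw [sq_apply b]; exact h n, rfl⟩).1.symm

theorem Ult.mem_alg' {Nn : ∀ n, VonNeumannAlgebra (K n)} {c : ∀ n, Op (K n)} (b : Bd c)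
    (h : ∀ n, c n ∈ (Nn n).commutant) : U.π (sq c) ∈ (U.alg Nn).commutant := by
  rw [Ult.alg, VonNeumannAlgebra.commutant_commutant]
  refine mem_vnComm.2 ?_
  have key : ∀ e : lp (fun n => Op (K n)) ∞, (∀ n, e n ∈ Nn n) →
      U.π e * U.π (sq c) = U.π (sq c) * U.π e := fun e he => by
    rw [← map_mul, ← map_mul]
    congr 1
    refine lp.ext (funext fun n => ?_)
    change e n * sq c n = sq c n * e n
    rw [sq_apply b, comm_of_mem (h n) (he n)]
  rintro _ ⟨e, he, rfl⟩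
  refine ⟨key e he, ?_⟩
  rw [← map_star]
  exact key _ fun n => star_mem (he n)

theorem Ult.norm_sub {c e : ∀ n, Op (K n)} (b : Bd c) (b' : Bd e) {C : ℝ}
    (h : ∀ᶠ n in ω, ‖c n - e n‖ ≤ C) : ‖U.π (sq c) - U.π (sq e)‖ ≤ C := by
  rw [← map_sub]
  refine U.norm_π_le _ (h.mono fun n h => ?_)
  change ‖sq c n - sq e n‖ ≤ C
  rwa [sq_apply b, sq_apply b']

theorem Ult.sq_mul {c e : ∀ n, Op (K n)} (b : Bd c) (b' : Bd e) {f : ∀ n, Op (K n)} (b'' : Bd f)
    (h : ∀ n, f n = c n * e n) : U.π (sq f) = U.π (sq c) * U.π (sq e) := by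
  rw [← map_mul]
  congr 1
  refine lp.ext (funext fun n => ?_)
  change sq f n = sq c n * sq e n
  rw [sq_apply b, sq_apply b', sq_apply b'', h]

omit [∀ n, CompleteSpace (K n)] [∀ n, Nontrivial (Op (K n))] in
theorem flift_sq (c : lp (fun n => Op (K n)) ∞) : sq (fun n => c n) = c :=
  lp.ext (funext fun n => sq_apply (bd_lp c) n)

variable (Lv : ∀ n, LevF M N ξ (K n) d₀ d₁ B (o n))

theorem ult_pair (hd₀ : 0 < d₀) (hd1 : d₁ ≤ 1) {c : lp (fun n => Op (K n)) ∞}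
    (hc : c ∈ asy (fun n => (Lv n).Mn) (fun n => (Lv n).a) (fun n => (Lv n).a_unit) ω)
    (h1 : ‖c‖ ≤ 1) : ∃ y y', Gr (U.alg fun n => (Lv n).Nn) (U.q fun n => (Lv n).Ξ) y y' ∧
      ‖y - U.π c‖ ≤ d₁ ∧ ‖y' - U.π (sq fun n => (Lv n).cj (c n))‖ ≤ d₁ := by
  have vn : ∀ n, ‖c n‖ ≤ 1 := fun n => (lp.norm_apply_le_norm ENNReal.top_ne_zero _ n).trans h1
  have cjn : ∀ n, ‖(Lv n).cj (c n)‖ ≤ 1 := fun n => ((Lv n).cj_norm _ (hc.1 n)).trans (vn n)
  have bΞ : Bd fun n => (Lv n).Ξ := ⟨1, fun n => (Lv n).nΞ.le⟩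
  have fex : ∀ n, ∃ y y', Gr (Lv n).Nn (Lv n).Ξ y y' ∧ ‖y‖ ≤ 2 ∧ ‖y'‖ ≤ 2 ∧
      ((∀ t, |t| ≤ 1 → ‖(Lv n).a t * c n * star ((Lv n).a t) - c n‖ ≤ d₀) →
        ‖y - c n‖ ≤ d₁ ∧ ‖y' - (Lv n).cj (c n)‖ ≤ d₁) := fun n => by
    by_cases h : ∀ t, |t| ≤ 1 → ‖(Lv n).a t * c n * star ((Lv n).a t) - c n‖ ≤ d₀
    · obtain ⟨y, y', h1, h2, h3⟩ := (Lv n).pair _ (hc.1 n) (vn n) h
      refine ⟨y, y', h1, ?_, ?_, fun _ => ⟨h2, h3⟩⟩
      · linarith [norm_le_norm_add_norm_sub' y (c n), vn n]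
      · linarith [norm_le_norm_add_norm_sub' y' ((Lv n).cj (c n)), cjn n]
    · exact ⟨0, 0, ⟨zero_mem _, zero_mem _, rfl⟩, by simp, by simp, fun h' => absurd h' h⟩
  choose y y' g1 g2 g3 g4 using fex
  have b1 : Bd y := ⟨2, g2⟩
  have b2 : Bd y' := ⟨2, g3⟩
  refine ⟨U.π (sq y), U.π (sq y'), ⟨U.mem_alg b1 fun n => (g1 n).mem,
    U.mem_alg' b2 fun n => (g1 n).mem', ?_⟩, ?_,
    U.norm_sub b2 ⟨1, cjn⟩ ((hc.2 d₀ hd₀).mono fun n h => (g4 n h).2)⟩
  · rw [U.act_sq b1 bΞ, U.act_sq b2 bΞ]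
    congr 1
    exact funext fun n => (g1 n).eq
  · rw [← flift_sq c]
    exact U.norm_sub b1 (bd_lp c) ((hc.2 d₀ hd₀).mono fun n h => (g4 n h).1)

theorem ult_W (hc : Dense (orb N ξ)) (hc' : Dense (orb N.commutant ξ)) :
    ∃ W : H →L[ℂ] L, (∀ ζ, W ζ = U.q fun n => (Lv n).W ζ) ∧ (∀ ζ, ‖W ζ‖ = ‖ζ‖) ∧
      (∀ ζ, Bd fun n => (Lv n).W ζ) ∧
      (∀ ζ, W ζ ∈ closure (orb (U.alg fun n => (Lv n).Nn) (U.q fun n => (Lv n).Ξ))) ∧
      (∀ ζ, W ζ ∈ closure (orb (U.alg fun n => (Lv n).Nn).commutant (U.q fun n => (Lv n).Ξ))) ∧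
      ∀ a ∈ U.alg fun n => (Lv n).Nn, rstC W a ∈ N := by
  have bΞ : Bd fun n => (Lv n).Ξ := ⟨1, fun n => (Lv n).nΞ.le⟩
  have nW : ∀ n ζ, ‖(Lv n).W ζ‖ = ‖ζ‖ := fun n ζ => by
    rw [norm_eq_sqrt_re_inner (𝕜 := ℂ), (Lv n).W_iso, ← norm_eq_sqrt_re_inner]
  have bW : ∀ ζ, Bd fun n => (Lv n).W ζ := fun ζ => ⟨‖ζ‖, fun n => (nW n ζ).le⟩
  have nq : ∀ ζ, ‖U.q fun n => (Lv n).W ζ‖ = ‖ζ‖ := fun ζ =>
    tendsto_nhds_unique (U.tendsto_norm (bW ζ)) (by
      simp only [nW]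
      exact tendsto_const_nhds)
  let W₀ : H →ₗ[ℂ] L :=
    { toFun := fun ζ => U.q fun n => (Lv n).W ζ
      map_add' := fun a b => by
        rw [← U.q_add (bW a) (bW b)]
        simp only [map_add]
      map_smul' := fun c a => by
        rw [RingHom.id_apply, ← U.q_smul (bW a)]
        simp only [map_smul] }
  let W : H →L[ℂ] L := W₀.mkContinuous 1 fun ζ => by
    rw [one_mul]
    exact (nq ζ).le
  have Wa : ∀ ζ, W ζ = U.q fun n => (Lv n).W ζ := fun _ => rfl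
  refine ⟨W, Wa, nq, bW, fun ζ => ?_, fun ζ => ?_, fun a ha => ?_⟩
  · refine map_mem_closure W.continuous (hc ζ) ?_
    rintro _ ⟨x, hx, rfl⟩
    choose X a1 a2 a3 using fun n => (Lv n).W_r x hx
    refine ⟨_, U.mem_alg ⟨_, a2⟩ a1, ?_⟩
    rw [U.act_sq ⟨_, a2⟩ bΞ, Wa]
    simp only [a3]
  · refine map_mem_closure W.continuous (hc' ζ) ?_
    rintro _ ⟨x, hx, rfl⟩
    choose X a1 a2 a3 using fun n => (Lv n).W_r' x hx
    refine ⟨_, U.mem_alg' ⟨_, a2⟩ a1, ?_⟩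
    rw [U.act_sq ⟨_, a2⟩ bΞ, Wa]
    simp only [a3]
  · refine (mem_iff_comm N).2 fun s hs => ?_
    choose S a1 a2 a3 a4 using fun n => (Lv n).W_int s hs
    have bS : Bd S := ⟨_, a2⟩
    have e1 : ∀ ζ, W (s ζ) = U.π (sq S) (W ζ) := fun ζ => by
      rw [Wa, Wa, U.act_sq bS (bW ζ)]
      simp only [a3]
    have e2 : ∀ ζ, W (star s ζ) = star (U.π (sq S)) (W ζ) := fun ζ => by
      rw [Wa, Wa, ← map_star, U.act _ _ (bW ζ)]
      simp only [a4, lp.star_apply, sq_apply bS]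
    ext ζ
    refine ext_inner_left ℂ fun η => ?_
    rw [mul_apply_eq_comp, mul_apply_eq_comp, ← inner_star_left, rstC_apply, rstC_apply,
      ContinuousLinearMap.adjoint_inner_right, ContinuousLinearMap.adjoint_inner_right, e2, e1,
      inner_star_left, ← mul_apply_eq_comp, comm_of_mem (U.mem_alg' bS a1) ha, mul_apply_eq_comp]

theorem ult_emb (hω : (ω : Filter ℕ) ≤ atTop) (ho : Tendsto o atTop (𝓝 0)) :
    ∃ e : Op H → asy (fun n => (Lv n).Mn) (fun n => (Lv n).a) (fun n => (Lv n).a_unit) ω,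
      (∀ x ∈ M, ∀ n, (e x).1 n = (Lv n).emb x) ∧ (∀ x ∈ M, ∀ z ∈ M, e (x + z) = e x + e z) ∧
      (∀ (c : ℂ), ∀ x ∈ M, e (c • x) = c • e x) ∧ ∀ x ∈ M, ‖(e x).1‖ ≤ 4 * ‖x‖ := by
  have bE : ∀ x, Bd fun n => (Lv n).emb x := fun x => ⟨_, fun n => (Lv n).emb_norm x⟩
  have eP : ∀ x ∈ M, sq (fun n => (Lv n).emb x) ∈
      asy (fun n => (Lv n).Mn) (fun n => (Lv n).a) (fun n => (Lv n).a_unit) ω := fun x hx => by
    refine ⟨fun n => by rw [sq_apply (bE x)]; exact (Lv n).emb_mem x hx, fun η hη => ?_⟩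
    have := (ho.mul_const ‖x‖).mono_left hω
    rw [zero_mul] at this
    filter_upwards [this.eventually (ge_mem_nhds hη)] with n hn t ht
    rw [sq_apply (bE x)]
    exact ((Lv n).emb_inv x t ht).trans hn
  classical
  let e : Op H → asy (fun n => (Lv n).Mn) (fun n => (Lv n).a) (fun n => (Lv n).a_unit) ω :=
    fun x => if hx : x ∈ M then ⟨_, eP x hx⟩ else 0
  have ea : ∀ x ∈ M, ∀ n, (e x).1 n = (Lv n).emb x := fun x hx n => by
    simp only [e, dif_pos hx, sq_apply (bE x)]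
  refine ⟨e, ea, fun x hx z hz => Subtype.ext (lp.ext (funext fun n => ?_)),
    fun c x hx => Subtype.ext (lp.ext (funext fun n => ?_)),
    fun x hx => lp.norm_le_of_forall_le (by positivity) fun n => ?_⟩
  · change (e (x + z)).1 n = (e x).1 n + (e z).1 n
    rw [ea _ (add_mem hx hz), ea _ hx, ea _ hz, map_add]
  · change (e (c • x)).1 n = c • (e x).1 n
    rw [ea _ (SMulMemClass.smul_mem _ hx), ea _ hx, map_smul]
  · rw [ea x hx]
    exact (Lv n).emb_norm x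

theorem ult_data (hd₀ : 0 < d₀) (hd1 : d₁ ≤ 1) {δ : ℝ} (hd2 : 4 * d₁ ≤ δ)
    (P : StarSubalgebra ℂ (lp (fun n => Op (K n)) ∞))
    (hP : P = asy (fun n => (Lv n).Mn) (fun n => (Lv n).a) (fun n => (Lv n).a_unit) ω) :
    ∃ y y' : unitary P → Op L,
      (∀ v, Gr (U.alg fun n => (Lv n).Nn) (U.q fun n => (Lv n).Ξ) (y v) (y' v)) ∧
      (∀ v : unitary P, ‖U.π (v : P).1 - y v‖ ≤ δ) ∧ (∀ v, ‖y' v‖ ≤ 1 + δ) ∧ ‖y 1 - 1‖ ≤ δ ∧
      ‖y' 1 - 1‖ ≤ δ ∧ (∀ v w, ‖y (v * w) - y v * y w‖ ≤ δ) ∧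
      ∀ v w, ‖y' (v * w) - y' w * y' v‖ ≤ δ := by
  have hm : ∀ c : P, c.1 ∈ asy (fun n => (Lv n).Mn) (fun n => (Lv n).a)
    (fun n => (Lv n).a_unit) ω := fun c => hP ▸ c.2
  have hu : ∀ v : unitary P, ‖(v : P).1‖ ≤ 1 := fun v => by
    have h1 : star (v : P).1 * (v : P).1 = 1 := congrArg Subtype.val v.2.1
    have h2 := CStarRing.norm_star_mul_self (x := (v : P).1)
    rw [h1] at h2
    have h3 : ‖(1 : lp (fun n => Op (K n)) ∞)‖ ≤ 1 :=
      lp.norm_le_of_forall_le zero_le_one fun n => (norm_one (α := Op (K n))).le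
    nlinarith [norm_nonneg (v : P).1]
  choose y y' g1 n1 n2 using fun v : unitary P => ult_pair U Lv hd₀ hd1 (hm v) (hu v)
  have hd3 : 0 ≤ d₁ := (norm_nonneg _).trans (n1 1)
  have cjn : ∀ (v : unitary P) n, ‖(Lv n).cj ((v : P).1 n)‖ ≤ 1 := fun v n =>
    ((Lv n).cj_norm _ ((hm v).1 n)).trans
      ((lp.norm_apply_le_norm ENNReal.top_ne_zero _ n).trans (hu v))
  have by3 : ∀ v : unitary P, Bd fun n => (Lv n).cj ((v : P).1 n) := fun v => ⟨1, cjn v⟩
  obtain ⟨j, hj⟩ : ∃ j : unitary P → Op L, ∀ v, j v = U.π (sq fun n => (Lv n).cj ((v : P).1 n)) :=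
    ⟨_, fun _ => rfl⟩
  simp only [← hj] at n2
  have n4 : ∀ v : unitary P, ‖U.π (v : P).1‖ ≤ 1 := fun v =>
    (NonUnitalStarAlgHom.norm_apply_le U.π _).trans (hu v)
  have n5 : ∀ v, ‖j v‖ ≤ 1 := fun v => by
    rw [hj]
    exact U.norm_π_le _ (Eventually.of_forall fun n => by
      rw [sq_apply (by3 v)]
      exact cjn v n)
  have m1 : ∀ v w : unitary P, U.π ((v * w : unitary P) : P).1 = U.π (v : P).1 * U.π (w : P).1 :=
    fun v w => map_mul U.π _ _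
  have m2 : ∀ v w : unitary P, j (v * w) = j w * j v := fun v w => by
    rw [hj, hj, hj]
    exact U.sq_mul (by3 w) (by3 v) (by3 _) fun n => (Lv n).cj_mul _ ((hm v).1 n) _ ((hm w).1 n)
  have m3 : U.π ((1 : unitary P) : P).1 = 1 := map_one U.π
  have m4 : j 1 = 1 := by
    rw [hj, ← map_one U.π]
    congr 1
    refine lp.ext (funext fun n => ?_)
    rw [sq_apply (by3 _)]
    exact (Lv n).cj_one
  refine ⟨y, y', g1, fun v => ?_, fun v => ?_, ?_, ?_, fun v w => ?_, fun v w => ?_⟩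
  · rw [norm_sub_rev]
    linarith [n1 v]
  · linarith [norm_le_norm_add_norm_sub' (y' v) (j v), n2 v, n5 v]
  · rw [← m3]
    linarith [n1 1]
  · rw [← m4]
    linarith [n2 1]
  · exact (flift_am hd1 (n4 v) (n4 w) (n1 v) (n1 w) (by rw [← m1]; exact n1 _)).trans hd2
  · exact (flift_am hd1 (n5 w) (n5 v) (n2 w) (n2 v) (by rw [← m2]; exact n2 _)).trans hd2

end Main

end Vale.Agent.P096
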