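import Vale.Agent.P096.Basic
import Vale.Agent.P132.Sm

/-!
# P096 part F: definitions (see `notes/P096F.md, section F`)
-/

namespace Vale.Agent.P096

open Vale.Agent.P104 Vale.Agent.P132 Filter Topology
open scoped InnerProductSpace ENNReal

universe u

/-! ### scalar functions -/

/-- `exp (-i t s)` -/
noncomputable def fex (t s : ℝ) : ℂ := Complex.exp (-(Complex.I * t * s))

/-- the tent of height `4 / T` on `[-T/4, T/4]` -/
noncomputable def tent (T t : ℝ) : ℝ := max 0 (4 / T - 16 * |t| / T ^ 2)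

/-- the Dirichlet sum -/
noncomputable def dir {ι : Type*} [Fintype ι] (s : ι → ℝ) (u : ℝ) : ℂ := ∑ j, fex u (s j)

/-- orthogonality of the exponentials on the nodes `τ` and on the period `T` -/
structure Four {ι : Type*} [Fintype ι] [DecidableEq ι] (s τ : ι → ℝ) (T : ℝ) : Prop where
  pos : 0 < T
  disc : ∀ j k, ∑ l, fex (τ l) (s j - s k) = if j = k then (Fintype.card ι : ℂ) else 0
  cont : ∀ j k, ∫ t in Set.Icc (-(T / 2)) (T / 2), fex t (s j - s k) = if j = k then (T : ℂ) else 0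

/-! ### matrices -/

section Mat

variable {H : Type*} [NormedAddCommGroup H] [InnerProductSpace ℂ H] [CompleteSpace H]
  {K : Type*} [NormedAddCommGroup K] [InnerProductSpace ℂ K] [CompleteSpace K]
  {K₂ : Type*} [NormedAddCommGroup K₂] [InnerProductSpace ℂ K₂] [CompleteSpace K₂]
  {ι : Type*} [Fintype ι] [DecidableEq ι]

/-- matrix entries -/
noncomputable def ent (A : Amp H K ι) (Y : Op K) (j k : ι) : Op H := (A.J j).adjoint ∘L Y ∘L A.J k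

/-- the operator with given entries -/
noncomputable def mat (A : Amp H K ι) (X : ι → ι → Op H) : Op K :=
  ∑ j, ∑ k, A.J j ∘L X j k ∘L (A.J k).adjoint

/-- the twisted flow `V t ⊗ diag (exp (-i t s j))` -/
noncomputable def tw (A : Amp H K ι) (s : ι → ℝ) (V : ℝ → Op H) (t : ℝ) : Op K :=
  ∑ j, fex t (s j) • (A.J j ∘L V t ∘L (A.J j).adjoint)

/-- the column `ζ ↦ (exp (-i t s j) ζ)_j` -/
noncomputable def uc (A : Amp H K ι) (s : ι → ℝ) (t : ℝ) : H →L[ℂ] K := ∑ j, fex t (s j) • A.J j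

/-- matrices over `M` in the first of two indices -/
noncomputable def big (A : Amp H K ι) (A₂ : Amp K K₂ ι) (M : VonNeumannAlgebra H) :
    VonNeumannAlgebra K₂ := (A₂.alg (A.alg M).commutant).commutant

/-- the diagonal vector with weights `w` -/
noncomputable def dv (A : Amp H K ι) (A₂ : Amp K K₂ ι) (w : ι → ℝ) (ξ : H) : K₂ :=
  ∑ j, (w j : ℂ) • A₂.J j (A.J j ξ)

/-- the slice map -/
noncomputable def sl (A : Amp H K ι) (A₂ : Amp K K₂ ι) (s τ : ι → ℝ) (D : ℝ → Op H) : H →L[ℂ] K₂ :=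
  (Fintype.card ι : ℂ)⁻¹ • ∑ l, A₂.J l ∘L uc A s (τ l) ∘L D (τ l)

end Mat

section MatU

variable {H : Type u} [NormedAddCommGroup H] [InnerProductSpace ℂ H] [CompleteSpace H]
  {K : Type u} [NormedAddCommGroup K] [InnerProductSpace ℂ K] [CompleteSpace K]
  {K₂ : Type u} [NormedAddCommGroup K₂] [InnerProductSpace ℂ K₂] [CompleteSpace K₂]
  {ι : Type*} [Fintype ι] [DecidableEq ι]

/-- the Toeplitz embedding -/
noncomputable def toe (A : Amp H K ι) (s : ι → ℝ) (T : ℝ) (V : ℝ → Op H) (x : Op H) : Op K :=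
  si (fun t => (tent T t : ℂ)) fun t => uc A s t ∘L (V t * x * V (-t)) ∘L (uc A s t).adjoint

/-- right multiplication by a matrix (acts on the second index) -/
noncomputable def rt (S : SF H) (A : Amp H K ι) (A₂ : Amp K K₂ ι) (Z : Op K) : Op K₂ :=
  mat A₂ fun k j => A.amp (S.ρ (ent A Z j k))

end MatU

/-! ### one level of the approximation -/

/-- The data at one level: `pair` holds with input tolerance `d₀` and output tolerance `d₁`. -/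
structure LevF {H : Type u} [NormedAddCommGroup H] [InnerProductSpace ℂ H] [CompleteSpace H]
    (M N : VonNeumannAlgebra H) (ξ : H) (K : Type u) [NormedAddCommGroup K]
    [InnerProductSpace ℂ K] [CompleteSpace K] (d₀ d₁ B o : ℝ) where
  Mn : VonNeumannAlgebra K
  Nn : VonNeumannAlgebra K
  Ξ : K
  nΞ : ‖Ξ‖ = 1
  a : ℝ → Op K
  a_unit : ∀ t, a t ∈ unitary (Op K)
  cj : Op K → Op K
  cj_one : cj 1 = 1
  cj_mul : ∀ c ∈ Mn, ∀ c' ∈ Mn, cj (c * c') = cj c' * cj c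
  cj_norm : ∀ c ∈ Mn, ‖cj c‖ ≤ ‖c‖
  pair : ∀ c ∈ Mn, ‖c‖ ≤ 1 → (∀ t, |t| ≤ 1 → ‖a t * c * star (a t) - c‖ ≤ d₀) →
    ∃ y y', Gr Nn Ξ y y' ∧ ‖y - c‖ ≤ d₁ ∧ ‖y' - cj c‖ ≤ d₁
  emb : Op H →ₗ[ℂ] Op K
  emb_mem : ∀ x ∈ M, emb x ∈ Mn
  emb_norm : ∀ x, ‖emb x‖ ≤ 4 * ‖x‖
  emb_inv : ∀ x t, |t| ≤ 1 → ‖a t * emb x * star (a t) - emb x‖ ≤ o * ‖x‖
  W : H →L[ℂ] K
  W_iso : ∀ ζ ζ', ⟪W ζ, W ζ'⟫_ℂ = ⟪ζ, ζ'⟫_ℂ
  W_int : ∀ s ∈ N.commutant, ∃ S ∈ Nn.commutant, ‖S‖ ≤ ‖s‖ ∧ (∀ ζ, W (s ζ) = S (W ζ)) ∧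
    ∀ ζ, W (star s ζ) = star S (W ζ)
  W_r' : ∀ s ∈ N.commutant, ∃ S ∈ Nn.commutant, ‖S‖ ≤ B * ‖s‖ ∧ W (s ξ) = S Ξ
  W_r : ∀ x ∈ N, ∃ X ∈ Nn, ‖X‖ ≤ B * ‖x‖ ∧ W (x ξ) = X Ξ

/-- a map which is linear on `M` -/
structure LinOn {H : Type u} [NormedAddCommGroup H] [InnerProductSpace ℂ H] [CompleteSpace H]
    (M : VonNeumannAlgebra H) (Φ : Op H → Op H) : Prop where
  add : ∀ x ∈ M, ∀ y ∈ M, Φ (x + y) = Φ x + Φ y
  smul : ∀ (c : ℂ), ∀ x ∈ M, Φ (c • x) = c • Φ x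

/-! ### ultraproducts -/

/-- bounded sequences -/
def Bd {E : ℕ → Type*} [∀ n, Norm (E n)] (f : ∀ n, E n) : Prop := ∃ C, ∀ n, ‖f n‖ ≤ C

open Classical in
/-- a bounded sequence as an element of `ℓ^∞` -/
noncomputable def sq {E : ℕ → Type*} [∀ n, NormedAddCommGroup (E n)] (f : ∀ n, E n) : lp E ∞ :=
  if h : Memℓp f ∞ then ⟨f, h⟩ else 0

/-- the Hilbert space ultraproduct -/
structure Ult (K : ℕ → Type u) [∀ n, NormedAddCommGroup (K n)] [∀ n, InnerProductSpace ℂ (K n)]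
    [∀ n, CompleteSpace (K n)] [∀ n, Nontrivial (Op (K n))] (ω : Ultrafilter ℕ) (L : Type u)
    [NormedAddCommGroup L] [InnerProductSpace ℂ L] [CompleteSpace L] where
  π : lp (fun n => Op (K n)) ∞ →⋆ₐ[ℂ] Op L
  q : (∀ n, K n) → L
  inner_q : ∀ η η', Bd η → Bd η' →
    Tendsto (fun n => ⟪η n, η' n⟫_ℂ) ω (𝓝 ⟪q η, q η'⟫_ℂ)
  act : ∀ c η, Bd η → π c (q η) = q fun n => (c n) (η n)
  dense : Dense (q '' {η | Bd η})

end Vale.Agent.P096
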