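import Vale.Agent.P096.FTw

/-!
# P096 F: the Toeplitz embedding
* `dom`: `inner_si` (bound `card² * c`), `‖⟪η', si η⟫‖ ≤ ∫ ‖κ t‖ * c * ‖u† η'‖ * ‖u† η‖ ≤ (θ / T) c ∫_{Icc} (λ ‖u† η'‖² + ‖u† η‖² / λ) / 2`, `pars_cont`; for unit vectors take `λ = 1`
  (`ContinuousLinearMap.opNorm_le_of_unit_norm`, or apply with `η' = si η` and `‖η‖ = 1` after scaling).
* `toe_mem`: `si_mem`, `Amp.mem_alg_of_entry`: the entry `(j, k)` of the integrand is `fex t (s j - s k) • (V t * x * V (-t))`.
* `toe_inv`: by `tw_uc`, `uc_adj_tw`, `Flow.add`: `tw r * W t * tw (-r) = W (r + t)` for the integrand `W`; so `tw r * toe x * tw (-r) = si (tent (t - r)) W` (`integral_add_left_eq_self`, see `FC.continuous_σ_G`),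
  and the difference is `si (tent (t - r) - tent t) W`; `dom` with `θ = 16 / T` (`tent_lip`, `tent_zero`, `T / 4 + 1 ≤ T / 2`).
-/

namespace Vale.Agent.P096

open Vale.Agent.P104 Vale.Agent.P132 Filter Topology MeasureTheory
open scoped InnerProductSpace ENNReal

universe u

variable {H : Type u} [NormedAddCommGroup H] [InnerProductSpace ℂ H] [CompleteSpace H]
  {K : Type u} [NormedAddCommGroup K] [InnerProductSpace ℂ K] [CompleteSpace K]
  {K₂ : Type u} [NormedAddCommGroup K₂] [InnerProductSpace ℂ K₂] [CompleteSpace K₂]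
  {ι : Type*} [Fintype ι] [DecidableEq ι]
  (A : Amp H K ι) {M : VonNeumannAlgebra H} {V : ℝ → Op H} {s τ : ι → ℝ} {T : ℝ}

theorem femb_cont {E F : Type*} [NormedAddCommGroup E] [NormedSpace ℂ E] [NormedAddCommGroup F]
    [NormedSpace ℂ F] {X : ℝ → E →L[ℂ] F} (hX : ∀ η, Continuous fun t => X t η) {c : ℝ}
    (hc : ∀ t, ‖X t‖ ≤ c) {ζ : ℝ → E} (hζ : Continuous ζ) : Continuous fun t => X t (ζ t) := by
  refine continuous_iff_continuousAt.2 fun t₀ => ?_
  have h1 : Tendsto (fun t => X t (ζ t - ζ t₀)) (𝓝 t₀) (𝓝 0) := by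
    have h2 : Tendsto (fun t => c * ‖ζ t - ζ t₀‖) (𝓝 t₀) (𝓝 0) := by
      simpa using ((hζ.sub (continuous_const (y := ζ t₀))).norm.tendsto t₀).const_mul c
    exact squeeze_zero_norm (fun t => ((X t).le_opNorm _).trans
      (mul_le_mul_of_nonneg_right (hc t) (norm_nonneg _))) h2
  have h3 := h1.add ((hX (ζ t₀)).tendsto t₀)
  simp only [map_sub, sub_add_cancel, zero_add] at h3
  exact h3

theorem femb_adj (s : ι → ℝ) (t : ℝ) : ‖(uc A s t).adjoint‖ ≤ Fintype.card ι := by
  rw [LinearIsometryEquiv.norm_map]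
  exact norm_uc_le A s t

omit [CompleteSpace K] in
theorem femb_norm {L : Op K} {C : ℝ} (hC : 0 ≤ C)
    (h : ∀ η η', ‖⟪η', L η⟫_ℂ‖ ≤ C * ((‖η'‖ ^ 2 + ‖η‖ ^ 2) / 2)) : ‖L‖ ≤ C := by
  refine L.opNorm_le_bound hC fun η => ?_
  rcases (norm_nonneg (L η)).eq_or_lt with h0 | h0
  · rw [← h0]
    positivity
  have h1 : 0 < ‖η‖ := norm_pos_iff.2 fun e => by simp [e] at h0
  have h2 := h ((‖L η‖ : ℂ) • η) ((‖η‖ : ℂ) • L η)
  rw [map_smul, inner_smul_left, inner_smul_right, inner_self_eq_norm_sq_to_K] at h2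
  simp only [norm_mul, norm_smul, RCLike.norm_conj, Complex.norm_real, norm_norm, norm_pow,
    RCLike.norm_ofReal, abs_norm] at h2
  refine le_of_mul_le_mul_left ?_ (mul_pos h1 (pow_pos h0 2))
  refine le_of_eq_of_le (by ring) (h2.trans_eq (by ring))

theorem cont_int {X : ℝ → Op H} (hX : ∀ η, Continuous fun t => X t η) {c : ℝ} (hc : ∀ t, ‖X t‖ ≤ c)
    (s : ι → ℝ) (η : K) : Continuous fun t => (uc A s t ∘L X t ∘L (uc A s t).adjoint) η := by
  exact femb_cont (continuous_uc A s) (norm_uc_le A s) (femb_cont hX hc (continuous_uc_adj A s η))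

theorem norm_int {X : ℝ → Op H} {c : ℝ} (hc : ∀ t, ‖X t‖ ≤ c) (s : ι → ℝ) (t : ℝ) :
    ‖uc A s t ∘L X t ∘L (uc A s t).adjoint‖ ≤ (Fintype.card ι : ℝ) ^ 2 * c := by
  have h0 : 0 ≤ c := (norm_nonneg _).trans (hc t)
  calc _ ≤ ‖uc A s t‖ * (‖X t‖ * ‖(uc A s t).adjoint‖) :=
        (ContinuousLinearMap.opNorm_comp_le _ _).trans (mul_le_mul_of_nonneg_left
          (ContinuousLinearMap.opNorm_comp_le _ _) (norm_nonneg _))
    _ ≤ Fintype.card ι * (c * Fintype.card ι) := by
        gcongr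
        exacts [norm_uc_le A s t, hc t, femb_adj A s t]
    _ = _ := by ring

/-- the domination lemma -/
theorem dom (h : Four s τ T) {X : ℝ → Op H} (hX : ∀ η, Continuous fun t => X t η) {c : ℝ}
    (hc : ∀ t, ‖X t‖ ≤ c) {κ : ℝ → ℂ} (hκ : Integrable κ) {θ : ℝ} (h1 : ∀ t, ‖κ t‖ ≤ θ / T)
    (h2 : ∀ t, T / 2 < |t| → κ t = 0) :
    ‖si κ fun t => uc A s t ∘L X t ∘L (uc A s t).adjoint‖ ≤ θ * c := by
  have hT := h.pos
  have hc0 : 0 ≤ c := (norm_nonneg _).trans (hc 0)
  have hθ' : 0 ≤ θ / T := (norm_nonneg _).trans (h1 0)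
  have hθ : 0 ≤ θ := by
    have := mul_nonneg hθ' hT.le
    rwa [div_mul_cancel₀ _ hT.ne'] at this
  refine femb_norm (mul_nonneg hθ hc0) fun η η' => ?_
  have hi : ∀ ζ : K, IntegrableOn (fun t => ‖(uc A s t).adjoint ζ‖ ^ 2)
      (Set.Icc (-(T / 2)) (T / 2)) := fun ζ =>
    ((continuous_uc_adj A s ζ).norm.pow 2).continuousOn.integrableOn_Icc
  have hg : IntegrableOn (fun t => θ / T * c / 2 *
      (‖(uc A s t).adjoint η'‖ ^ 2 + ‖(uc A s t).adjoint η‖ ^ 2)) (Set.Icc (-(T / 2)) (T / 2)) :=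
    Integrable.const_mul (Integrable.add (hi η') (hi η)) _
  rw [inner_si hκ (cont_int A hX hc s) (norm_int A hc s)]
  refine (norm_integral_le_of_norm_le ((integrable_indicator_iff measurableSet_Icc).2 hg)
    (Eventually.of_forall fun t => ?_)).trans_eq ?_
  · by_cases ht : t ∈ Set.Icc (-(T / 2)) (T / 2)
    · rw [Set.indicator_of_mem ht, norm_mul, ContinuousLinearMap.comp_apply,
        ContinuousLinearMap.comp_apply, ← ContinuousLinearMap.adjoint_inner_left]
      have h3 := norm_inner_le_norm (𝕜 := ℂ) ((uc A s t).adjoint η') (X t ((uc A s t).adjoint η))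
      have h4 := ((X t).le_opNorm ((uc A s t).adjoint η)).trans
        (mul_le_mul_of_nonneg_right (hc t) (norm_nonneg _))
      have h5 := h3.trans (mul_le_mul_of_nonneg_left h4 (norm_nonneg _))
      refine (mul_le_mul (h1 t) h5 (norm_nonneg _) hθ').trans ?_
      have h6 := mul_nonneg (mul_nonneg hθ' hc0)
        (sq_nonneg (‖(uc A s t).adjoint η'‖ - ‖(uc A s t).adjoint η‖))
      linarith
    · rw [Set.indicator_of_notMem ht, h2 t, zero_mul, norm_zero]
      rwa [Set.mem_Icc, ← abs_le, not_le] at ht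
  · rw [integral_indicator measurableSet_Icc, integral_const_mul, integral_add (hi η') (hi η),
      pars_cont A h, pars_cont A h]
    field_simp

theorem femb_tent (hT : 0 < T) : Integrable fun t => ((tent T t : ℝ) : ℂ) :=
  (integrable_tent hT).ofReal

theorem femb_apply (hV : Flow M V) {κ : ℝ → ℂ} (hκ : Integrable κ) (x : Op H) (η : K) :
    si κ (fun t => uc A s t ∘L (V t * x * V (-t)) ∘L (uc A s t).adjoint) η =
      ∫ t, κ t • uc A s t ((V t * x * V (-t)) ((uc A s t).adjoint η)) :=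
  si_apply hκ (cont_int A (hV.cont_conj x) (fun t => hV.norm_conj t x) s)
    (norm_int A (fun t => hV.norm_conj t x) s) η

theorem femb_int (hV : Flow M V) {κ : ℝ → ℂ} (hκ : Integrable κ) (x : Op H) (η : K) :
    Integrable fun t => κ t • uc A s t ((V t * x * V (-t)) ((uc A s t).adjoint η)) :=
  si_integrable hκ (cont_int A (hV.cont_conj x) (fun t => hV.norm_conj t x) s)
    (norm_int A (fun t => hV.norm_conj t x) s) η

theorem inner_toe (hV : Flow M V) (hT : 0 < T) (x : Op H) (η η' : K) :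
    ⟪η', toe A s T V x η⟫_ℂ = ∫ t, (tent T t : ℂ) *
      ⟪(uc A s t).adjoint η', (V t * x * V (-t)) ((uc A s t).adjoint η)⟫_ℂ := by
  rw [toe, inner_si (femb_tent hT)
    (cont_int A (hV.cont_conj x) (fun t => hV.norm_conj t x) s)
    (norm_int A (fun t => hV.norm_conj t x) s)]
  simp only [ContinuousLinearMap.comp_apply, ContinuousLinearMap.adjoint_inner_left]

theorem toe_add (hV : Flow M V) (hT : 0 < T) (x y : Op H) :
    toe A s T V (x + y) = toe A s T V x + toe A s T V y := by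
  have hκ := femb_tent hT
  ext η
  rw [add_apply, toe, toe, toe, femb_apply A hV hκ, femb_apply A hV hκ, femb_apply A hV hκ,
    ← integral_add (femb_int A hV hκ x η) (femb_int A hV hκ y η)]
  simp only [mul_add, add_mul, add_apply, map_add, smul_add]

theorem toe_smul (hV : Flow M V) (hT : 0 < T) (c : ℂ) (x : Op H) :
    toe A s T V (c • x) = c • toe A s T V x := by
  have hκ := femb_tent hT
  ext η
  rw [smul_apply, toe, toe, femb_apply A hV hκ, femb_apply A hV hκ, ← integral_smul]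
  simp only [mul_smul_comm, smul_mul_assoc, smul_apply, map_smul, smul_comm c]

theorem toe_mem (hV : Flow M V) (hT : 0 < T) {x : Op H} (hx : x ∈ M) : toe A s T V x ∈ A.alg M := by
  refine si_mem (femb_tent hT)
    (cont_int A (hV.cont_conj x) (fun t => hV.norm_conj t x) s)
    (norm_int A (fun t => hV.norm_conj t x) s) fun t => (A.mem_alg M).2 fun y hy => ?_
  ext η
  have e : (uc A s t).adjoint (A.amp y η) = y ((uc A s t).adjoint η) := by
    simp only [uc_adj, A.adj_amp, map_sum, map_smul]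
  simp only [mul_apply_eq_comp (A.amp y), mul_apply_eq_comp _ (A.amp y),
    ContinuousLinearMap.comp_apply]
  rw [amp_uc, e, ← mul_apply_eq_comp y, comm_of_mem hy (hV.mem t x hx), mul_apply_eq_comp]

theorem norm_toe (hV : Flow M V) (h : Four s τ T) (x : Op H) : ‖toe A s T V x‖ ≤ 4 * ‖x‖ := by
  refine dom A h (hV.cont_conj x) (fun t => hV.norm_conj t x) (femb_tent h.pos)
    (fun t => ?_) fun t ht => ?_
  · rw [Complex.norm_real, Real.norm_of_nonneg (tent_nonneg T t)]
    exact tent_le h.pos t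
  · rw [tent_zero h.pos (by linarith [h.pos]), Complex.ofReal_zero]

theorem toe_inv (hV : Flow M V) (h : Four s τ T) (hT : 4 ≤ T) (x : Op H) {r : ℝ} (hr : |r| ≤ 1) :
    ‖tw A s V r * toe A s T V x * tw A s V (-r) - toe A s T V x‖ ≤ 16 / T * ‖x‖ := by
  have h0 := h.pos
  have hκ := femb_tent h0
  have hκ' : Integrable fun t => ((tent T (t - r) : ℝ) : ℂ) := hκ.comp_sub_right r
  have hd : Integrable fun t => ((tent T (t - r) : ℝ) : ℂ) - (tent T t : ℝ) := hκ'.sub hκ
  have e : tw A s V r * toe A s T V x * tw A s V (-r) - toe A s T V x =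
      si (fun t => ((tent T (t - r) : ℝ) : ℂ) - (tent T t : ℝ))
        fun t => uc A s t ∘L (V t * x * V (-t)) ∘L (uc A s t).adjoint := by
    ext η
    rw [femb_apply A hV hd, sub_apply, mul_apply_eq_comp, mul_apply_eq_comp, toe,
      femb_apply A hV hκ, femb_apply A hV hκ,
      ← (tw A s V r).integral_comp_comm (femb_int A hV hκ x _)]
    simp only [sub_smul]
    rw [integral_sub (femb_int A hV hκ' x η) (femb_int A hV hκ x η),
      ← integral_add_left_eq_self (fun t => ((tent T (t - r) : ℝ) : ℂ) •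
        uc A s t ((V t * x * V (-t)) ((uc A s t).adjoint η))) r]
    congr 2
    ext t
    rw [map_smul, tw_uc, uc_adj_tw, add_sub_cancel_left, neg_add_rev, hV.add, hV.add]
    rfl
  rw [e]
  refine dom A h (hV.cont_conj x) (fun t => hV.norm_conj t x) hd (fun t => ?_) fun t ht => ?_
  · rw [← Complex.ofReal_sub, Complex.norm_real, Real.norm_eq_abs]
    refine (tent_lip h0 _ _).trans ?_
    rw [sub_sub_cancel_left, abs_neg, div_div, ← pow_two]
    gcongr
    linarith
  · have h1 := abs_sub_abs_le_abs_sub t r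
    rw [tent_zero h0 (t := t) (by linarith), tent_zero h0 (t := t - r) (by linarith), sub_self]

end Vale.Agent.P096
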