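import Vale.Agent.P096.FFour

/-!
# P096 F: concentration of the Fejer kernel
* `sin_lb`: `Real.mul_abs_le_abs_sin` for `|θ| ≤ π/2`; otherwise `Real.sin_pi_sub` and `π - |θ| ∈ [π/4, π/2]`.
* `norm_dir_le`: `dir = ∑ ζ ^ j`, `ζ = fex u η`, `(ζ - 1) * ∑ ζ ^ j = ζ ^ m - 1` has norm `≤ 2`, and `‖ζ - 1‖ = 2 |sin (u η / 2)|` (`Complex.norm_exp_I_mul_ofReal_sub_one`).
* `fej_lat`: pointwise, with `u = t - τ l`: `tent * ‖dir u‖² * h u ≤ c * (tent * ‖dir u‖²) + B * (4 / T) * (200 / η²) / (r² + u²)`: for `|u| ≤ r` the first term suffices; for `|u| > r` either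
  `tent T t = 0` or `|t| ≤ T/4`, then `|u| ≤ 3T/4` (as `|τ l| ≤ T/2`) and `‖dir u‖² ≤ 100 / (u² η²) ≤ 200 / (η² (r² + u²))`. Sum of the first terms: `Four.sum_dir` (`four_lat`), `integral_finset_sum`, `integral_tent`.
  `∫ 1 / (r² + u²) = π / r` (`integral_univ_inv_one_add_sq`, `integral_comp_div`/`integral_comp_mul_left`, `integral_sub_right_eq_self`). So the second terms give `m * B * (4 η / (2 π)) * (200 / η²) * (π / r) = m² * B * 400 / (m η r)`.
-/

namespace Vale.Agent.P096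

open Vale.Agent.P104 Vale.Agent.P132 Filter Topology MeasureTheory
open scoped InnerProductSpace ENNReal

universe u

/-- the kernel is concentrated near the nodes -/
def Fej {ι : Type*} [Fintype ι] (s τ : ι → ℝ) (T r e : ℝ) : Prop :=
  ∀ (h : ℝ → ℝ) (c B : ℝ), Continuous h → 0 ≤ c → (∀ u, 0 ≤ h u) → (∀ u, h u ≤ B) →
    (∀ u, |u| ≤ r → h u ≤ c) →
      ∑ l, ∫ t, tent T t * ‖dir s (t - τ l)‖ ^ 2 * h (t - τ l) ≤
        (Fintype.card ι : ℝ) ^ 2 * (c + B * e)

theorem sin_lb {θ : ℝ} (h : |θ| ≤ 3 * Real.pi / 4) : |θ| ≤ 5 * |Real.sin θ| := by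
  have hp := Real.pi_pos
  have hp' := Real.pi_lt_d2
  rcases le_total |θ| (Real.pi / 2) with h1 | h1
  · have h2 := Real.mul_abs_le_abs_sin h1
    rw [div_mul_eq_mul_div, div_le_iff₀ hp] at h2
    nlinarith [abs_nonneg (Real.sin θ)]
  · rw [Real.abs_sin_eq_sin_abs_of_abs_le_pi (by linarith), ← Real.sin_pi_sub]
    have h2 := Real.mul_le_sin (x := Real.pi - |θ|) (by linarith) (by linarith)
    have h3 : 1 / 2 ≤ 2 / Real.pi * (Real.pi - |θ|) := by
      rw [div_mul_eq_mul_div, le_div_iff₀ hp]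
      linarith
    linarith

theorem norm_dir_le {m : ℕ} {η u : ℝ} (hη : 0 < η) (hu : |u| ≤ 3 * (2 * Real.pi / η) / 4) :
    ‖dir (fun j : Fin m => (j : ℝ) * η) u‖ * (|u| * η) ≤ 10 := by
  have e0 : ∀ j : ℕ, fex u ((j : ℝ) * η) = fex u η ^ j := by
    intro j
    rw [← ex_nat_mul]
    unfold fex
    congr 1
    push_cast
    ring
  have e1 : dir (fun j : Fin m => (j : ℝ) * η) u = ∑ j ∈ Finset.range m, fex u η ^ j := by
    unfold dir
    simp only [e0]
    exact Fin.sum_univ_eq_sum_range (fun j => fex u η ^ j) m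
  have e2 : ‖fex u η - 1‖ = 2 * |Real.sin (u * η / 2)| := by
    have : fex u η = Complex.exp (Complex.I * ((-(u * η) : ℝ) : ℂ)) := by
      unfold fex
      congr 1
      push_cast
      ring
    rw [this, Complex.norm_exp_I_mul_ofReal_sub_one, neg_div, Real.sin_neg]
    simp
  have e3 : ‖dir (fun j : Fin m => (j : ℝ) * η) u‖ * ‖fex u η - 1‖ ≤ 2 := by
    rw [e1, ← norm_mul, geom_sum_mul]
    refine (norm_sub_le _ _).trans ?_
    rw [norm_pow, norm_ex]
    norm_num
  have e4 : |u * η / 2| = |u| * η / 2 := by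
    rw [abs_div, abs_mul, abs_of_pos hη, abs_two]
  have e5 : |u * η / 2| ≤ 3 * Real.pi / 4 := by
    rw [e4]
    have : |u| * η ≤ 3 * (2 * Real.pi / η) / 4 * η := mul_le_mul_of_nonneg_right hu hη.le
    have e : 3 * (2 * Real.pi / η) / 4 * η = 3 * Real.pi / 2 := by
      field_simp
      ring
    linarith
  have e6 := sin_lb e5
  rw [e4] at e6
  rw [e2] at e3
  nlinarith [norm_nonneg (dir (fun j : Fin m => (j : ℝ) * η) u)]

theorem fej_lat {m : ℕ} (hm : 0 < m) {η r : ℝ} (hη : 0 < η) (hr : 0 < r) :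
    Fej (fun j : Fin m => (j : ℝ) * η)
      (fun l => -(2 * Real.pi / η / 2) + (l : ℝ) * (2 * Real.pi / η / m)) (2 * Real.pi / η) r
      (500 / (m * η * r)) := by
  intro h c B hc hc0 h0 hB hr'
  have hF := four_lat hm hη
  set s : Fin m → ℝ := fun j => (j : ℝ) * η with hs
  set T := 2 * Real.pi / η with hT
  set τ : Fin m → ℝ := fun l => -(T / 2) + (l : ℝ) * (T / m) with hτ
  have hT0 : 0 < T := hF.pos
  have hm' : (0 : ℝ) < m := by exact_mod_cast hm
  have hB0 : 0 ≤ B := (h0 0).trans (hB 0)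
  have hτ' : ∀ l, |τ l| ≤ T / 2 := by
    intro l
    have h1 : ((l : ℕ) : ℝ) ≤ m := by exact_mod_cast l.2.le
    have h2 : ((l : ℕ) : ℝ) * (T / m) ≤ T := by
      calc ((l : ℕ) : ℝ) * (T / m) ≤ m * (T / m) := by gcongr
        _ = T := by field_simp
    have h3 : 0 ≤ ((l : ℕ) : ℝ) * (T / m) := by positivity
    rw [abs_le]
    constructor <;> simp only [hτ] <;> linarith
  set K := B * (4 / T) * (200 / (η ^ 2 * r ^ 2)) with hK
  have hK0 : 0 ≤ K := by positivity
  have hpt : ∀ l t, tent T t * ‖dir s (t - τ l)‖ ^ 2 * h (t - τ l) ≤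
      c * (tent T t * ‖dir s (t - τ l)‖ ^ 2) + K * (1 + ((t - τ l) / r) ^ 2)⁻¹ := by
    intro l t
    have h1 := tent_nonneg T t
    have h2 : 0 ≤ tent T t * ‖dir s (t - τ l)‖ ^ 2 := by positivity
    have h3 : 0 ≤ K * (1 + ((t - τ l) / r) ^ 2)⁻¹ := by positivity
    rcases le_total |t - τ l| r with hu | hu
    · nlinarith [hr' _ hu]
    rcases le_total (T / 4) |t| with ht | ht
    · rw [tent_zero hT0 ht]
      simpa using h3
    have h4 : |t - τ l| ≤ 3 * T / 4 := by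
      have := abs_sub t (τ l)
      linarith [hτ' l]
    have h5 := norm_dir_le (m := m) hη h4
    generalize t - τ l = u at *
    set D := ‖dir s u‖ with hD
    have hD0 : 0 ≤ D := norm_nonneg _
    have h6 : (D * (|u| * η)) ^ 2 ≤ 10 ^ 2 := by
      gcongr
    have h7 : r ^ 2 ≤ u ^ 2 := by
      rw [← sq_abs u]
      gcongr
    have h8 : D ^ 2 ≤ 200 / (η ^ 2 * r ^ 2) * (1 + (u / r) ^ 2)⁻¹ := by
      have e : 200 / (η ^ 2 * r ^ 2) * (1 + (u / r) ^ 2)⁻¹ = 200 / (η ^ 2 * (r ^ 2 + u ^ 2)) := by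
        field_simp
      rw [e, le_div_iff₀ (by positivity)]
      rw [mul_pow, mul_pow, sq_abs] at h6
      have : D ^ 2 * (η ^ 2 * r ^ 2) ≤ D ^ 2 * (η ^ 2 * u ^ 2) := by gcongr
      nlinarith
    have h9 : tent T t * D ^ 2 * h u ≤
        4 / T * (200 / (η ^ 2 * r ^ 2) * (1 + (u / r) ^ 2)⁻¹) * B := by
      have := tent_le hT0 t
      have := h0 u
      have := hB u
      gcongr
    have h10 : 0 ≤ c * (tent T t * D ^ 2) := by positivity
    have e : 4 / T * (200 / (η ^ 2 * r ^ 2) * (1 + (u / r) ^ 2)⁻¹) * B =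
        K * (1 + (u / r) ^ 2)⁻¹ := by
      rw [hK]; ring
    linarith
  have hi1 : ∀ l, Integrable fun t => tent T t * ‖dir s (t - τ l)‖ ^ 2 := by
    intro l
    refine (integrable_tent hT0).mul_bdd (c := (Fintype.card (Fin m) : ℝ) ^ 2) ?_
      (Eventually.of_forall fun t => ?_)
    · have := continuous_dir s
      exact Continuous.aestronglyMeasurable (by fun_prop)
    · rw [norm_pow, norm_norm]
      have := norm_dir_le_card s (t - τ l)
      gcongr
  have hi2 : ∀ l, Integrable fun t => (1 + ((t - τ l) / r) ^ 2)⁻¹ := fun l =>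
    (integrable_inv_one_add_sq.comp_div hr.ne').comp_sub_right (τ l)
  have hv2 : ∀ l, ∫ t, (1 + ((t - τ l) / r) ^ 2)⁻¹ = r * Real.pi := by
    intro l
    rw [integral_sub_right_eq_self (fun u : ℝ => (1 + (u / r) ^ 2)⁻¹) (τ l),
      Measure.integral_comp_div (fun u : ℝ => (1 + u ^ 2)⁻¹) r, integral_univ_inv_one_add_sq,
      abs_of_pos hr, smul_eq_mul]
  have hl : ∀ l, ∫ t, tent T t * ‖dir s (t - τ l)‖ ^ 2 * h (t - τ l) ≤
      c * (∫ t, tent T t * ‖dir s (t - τ l)‖ ^ 2) + K * (r * Real.pi) := by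
    intro l
    rw [← hv2 l, ← integral_const_mul, ← integral_const_mul,
      ← integral_add ((hi1 l).const_mul c) ((hi2 l).const_mul K)]
    refine integral_mono_of_nonneg (Eventually.of_forall fun t => ?_)
      (((hi1 l).const_mul c).add ((hi2 l).const_mul K)) (Eventually.of_forall (hpt l))
    have := tent_nonneg T t
    have := h0 (t - τ l)
    positivity
  have hsum : ∑ l, ∫ t, tent T t * ‖dir s (t - τ l)‖ ^ 2 = (Fintype.card (Fin m) : ℝ) ^ 2 := by
    rw [← integral_finsetSum _ fun l _ => hi1 l]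
    simp only [← Finset.mul_sum, hF.sum_dir]
    rw [integral_mul_const, integral_tent hT0, one_mul]
  refine (Finset.sum_le_sum fun l _ => hl l).trans ?_
  rw [Finset.sum_add_distrib, ← Finset.mul_sum, hsum]
  simp only [Finset.sum_const, Finset.card_univ, Fintype.card_fin, nsmul_eq_mul]
  have e : (m : ℝ) * (K * (r * Real.pi)) = (m : ℝ) ^ 2 * (B * (400 / (m * η * r))) := by
    have := Real.pi_pos
    rw [hK, hT]
    field_simp
    ring
  have : (m : ℝ) ^ 2 * (B * (400 / (m * η * r))) ≤ (m : ℝ) ^ 2 * (B * (500 / (m * η * r))) := by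
    gcongr
    norm_num
  rw [e]
  linarith

end Vale.Agent.P096
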