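import Vale.Agent.P096.FSl
import Vale.Agent.P096.FEmb
import Vale.Agent.P096.FTail

/-!
# P096 F: the slice of the Toeplitz embedding
`slice_eq`: `Amp.inner_eq A₂`, `Amp.adj_amp`, `adj_sl`, `inner_toe`, `uc_adj_uc` (`‖dir s (τ l - t)‖ = ‖dir s (t - τ l)‖` by `conj_ex`).
`slice_est`: by `Four.sum_dir` and `integral_tent`, `⟪ζ', x ζ⟫ = m⁻² ∑ l, ∫ tent * ‖dir‖² * ⟪ζ', x ζ⟫`. With `n = ‖x‖ ‖ζ‖ ‖ζ'‖`, `α t x = V t * x * V (-t)`:
`‖⟪Δ l ζ', α t x (Δ l ζ)⟫ - ⟪V l ζ', α t x (V l ζ)⟫‖ ≤ 2 δ n` and `⟪V l ζ', α t x (V l ζ)⟫ = ⟪ζ', α (t - τ l) x ζ⟫`. Apply `Fej` to `h u = ‖⟪ζ', (α u x - x) ζ⟫‖ ≤ 2 n`;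
the constant `2 δ n` is integrated with `Four.sum_dir` again. All integrands are continuous and bounded multiples of `tent` (`Integrable.mul_bdd`/`Integrable.mono'`, `norm_dir_le_card`).
-/

namespace Vale.Agent.P096

open Vale.Agent.P104 Vale.Agent.P132 Filter Topology MeasureTheory
open scoped InnerProductSpace ENNReal

universe u

variable {H : Type u} [NormedAddCommGroup H] [InnerProductSpace ℂ H] [CompleteSpace H]
  {K : Type u} [NormedAddCommGroup K] [InnerProductSpace ℂ K] [CompleteSpace K]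
  {K₂ : Type u} [NormedAddCommGroup K₂] [InnerProductSpace ℂ K₂] [CompleteSpace K₂]
  {ι : Type*} [Fintype ι] [DecidableEq ι]
  [Nonempty ι] (S : SF H) (A : Amp H K ι) (A₂ : Amp K K₂ ι) {M : VonNeumannAlgebra H}
  {V : ℝ → Op H} {s τ : ι → ℝ} {T : ℝ}

omit [DecidableEq ι] [Nonempty ι] in
theorem fest_dir (s : ι → ℝ) (a b : ℝ) :
    (starRingEnd ℂ) (dir s (a - b)) * dir s (a - b) = ((‖dir s (b - a)‖ ^ 2 : ℝ) : ℂ) := by
  have h : dir s (b - a) = (starRingEnd ℂ) (dir s (a - b)) := by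
    simp only [dir, map_sum, conj_ex, neg_sub]
  rw [h, Complex.norm_conj, Complex.conj_mul', Complex.ofReal_pow]

theorem slice_eq (hV : Flow M V) (hT : 0 < T) (x : Op H) (ζ ζ' : H) :
    ⟪sl A A₂ s τ S.Δ ζ', A₂.amp (toe A s T V x) (sl A A₂ s τ S.Δ ζ)⟫_ℂ =
      ((Fintype.card ι : ℂ) ^ 2)⁻¹ * ∑ l, ∫ t, ((tent T t * ‖dir s (t - τ l)‖ ^ 2 : ℝ) : ℂ) *
        ⟪S.Δ (τ l) ζ', (V t * x * V (-t)) (S.Δ (τ l) ζ)⟫_ℂ := by
  rw [A₂.inner_eq, Finset.mul_sum]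
  refine Finset.sum_congr rfl fun l _ => ?_
  rw [A₂.adj_amp, adj_sl, adj_sl, map_smul, inner_smul_left, inner_smul_right, inner_toe A hV hT,
    ← mul_assoc, map_inv₀, Complex.conj_natCast, ← mul_inv, ← pow_two]
  congr 1
  refine integral_congr_ae (Eventually.of_forall fun t => ?_)
  simp only
  rw [uc_adj_uc, uc_adj_uc, map_smul, inner_smul_left, inner_smul_right, ← mul_assoc _ (dir _ _),
    fest_dir, Complex.ofReal_mul, mul_assoc (tent T t : ℂ)]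

omit [DecidableEq ι] [Nonempty ι] in
theorem fest_int (hT : 0 < T) (s : ι → ℝ) (a : ℝ) {E : Type*} [NormedAddCommGroup E]
    [NormedSpace ℝ E] {f : ℝ → E} (hf : Continuous f) {B : ℝ} (hB : ∀ t, ‖f t‖ ≤ B) :
    Integrable fun t => (tent T t * ‖dir s (t - a)‖ ^ 2) • f t := by
  have h1 := continuous_tent T
  have h2 := continuous_dir s
  refine Integrable.mono' ((integrable_tent hT).mul_const ((Fintype.card ι : ℝ) ^ 2 * B))
    (Continuous.aestronglyMeasurable (by fun_prop)) (Eventually.of_forall fun t => ?_)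
  rw [norm_smul, Real.norm_of_nonneg (mul_nonneg (tent_nonneg _ _) (sq_nonneg _)), mul_assoc]
  refine mul_le_mul_of_nonneg_left (mul_le_mul ?_ (hB t) (norm_nonneg _) (sq_nonneg _))
    (tent_nonneg _ _)
  exact pow_le_pow_left₀ (norm_nonneg _) (norm_dir_le_card s _) 2

omit [Nonempty ι] in
theorem fest_mass (h : Four s τ T) :
    ∑ l, ∫ t, tent T t * ‖dir s (t - τ l)‖ ^ 2 = (Fintype.card ι : ℝ) ^ 2 := by
  have hi : ∀ l, Integrable fun t => tent T t * ‖dir s (t - τ l)‖ ^ 2 := fun l => by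
    simpa using fest_int h.pos s (τ l) (f := fun _ => (1 : ℝ)) continuous_const (B := 1)
      fun _ => by simp
  rw [← integral_finsetSum _ fun l _ => hi l]
  simp only [← Finset.mul_sum, h.sum_dir]
  rw [integral_mul_const, integral_tent h.pos, one_mul]

theorem fest_pt (hV : Flow M V) {δ : ℝ} (hδ : ∀ t, ‖V t - S.Δ t‖ ≤ δ) (x : Op H) (ζ ζ' : H)
    (t a : ℝ) : ‖⟪S.Δ a ζ', (V t * x * V (-t)) (S.Δ a ζ)⟫_ℂ - ⟪ζ', x ζ⟫_ℂ‖ ≤
      2 * δ * (‖x‖ * ‖ζ‖ * ‖ζ'‖) + ‖⟪ζ', (V (t - a) * x * V (-(t - a)) - x) ζ⟫_ℂ‖ := by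
  set Y := V t * x * V (-t) with hY
  have hYn : ‖Y‖ ≤ ‖x‖ := hV.norm_conj t x
  have hδ0 : 0 ≤ δ := (norm_nonneg _).trans (hδ 0)
  have e1 : ⟪V a ζ', Y (V a ζ)⟫_ℂ = ⟪ζ', (V (t - a) * x * V (-(t - a))) ζ⟫_ℂ := by
    have e : V (t - a) * x * V (-(t - a)) = star (V a) * Y * V a := by
      rw [hV.star, show t - a = -a + t by ring, show -(-a + t) = -t + a by ring, hV.add, hV.add, hY]
      simp only [mul_assoc]
    rw [e]
    exact (inner_star_right (V a) ζ' (Y (V a ζ))).symm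
  have hd : ∀ η : H, ‖S.Δ a η - V a η‖ ≤ δ * ‖η‖ := fun η => by
    rw [norm_sub_rev, ← sub_apply]
    exact ((V a - S.Δ a).le_opNorm η).trans (mul_le_mul_of_nonneg_right (hδ a) (norm_nonneg _))
  have e2 : ⟪S.Δ a ζ', Y (S.Δ a ζ)⟫_ℂ - ⟪ζ', x ζ⟫_ℂ =
      ⟪S.Δ a ζ' - V a ζ', Y (S.Δ a ζ)⟫_ℂ + ⟪V a ζ', Y (S.Δ a ζ - V a ζ)⟫_ℂ +
        ⟪ζ', (V (t - a) * x * V (-(t - a)) - x) ζ⟫_ℂ := by
    rw [sub_apply, inner_sub_right, ← e1, inner_sub_left, map_sub, inner_sub_right]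
    ring
  have b1 : ‖⟪S.Δ a ζ' - V a ζ', Y (S.Δ a ζ)⟫_ℂ‖ ≤ δ * ‖ζ'‖ * (‖x‖ * ‖ζ‖) := by
    refine (norm_inner_le_norm _ _).trans (mul_le_mul (hd _) ((Y.le_opNorm _).trans ?_)
      (norm_nonneg _) (by positivity))
    rw [S.norm_Δ]
    exact mul_le_mul_of_nonneg_right hYn (norm_nonneg _)
  have b2 : ‖⟪V a ζ', Y (S.Δ a ζ - V a ζ)⟫_ℂ‖ ≤ ‖ζ'‖ * (‖x‖ * (δ * ‖ζ‖)) := by
    refine (norm_inner_le_norm _ _).trans (mul_le_mul (hV.norm_apply _ _).le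
      ((Y.le_opNorm _).trans ?_) (norm_nonneg _) (norm_nonneg _))
    exact mul_le_mul hYn (hd _) (norm_nonneg _) (norm_nonneg _)
  rw [e2]
  refine (norm_add₃_le).trans ?_
  linarith

theorem slice_est (hV : Flow M V) (h : Four s τ T) {r e δ c : ℝ} (hF : Fej s τ T r e)
    (hδ : ∀ t, ‖V t - S.Δ t‖ ≤ δ) (x : Op H) (ζ ζ' : H) (hc0 : 0 ≤ c)
    (hc : ∀ u, |u| ≤ r → ‖⟪ζ', (V u * x * V (-u) - x) ζ⟫_ℂ‖ ≤ c) :
    ‖⟪sl A A₂ s τ S.Δ ζ', A₂.amp (toe A s T V x) (sl A A₂ s τ S.Δ ζ)⟫_ℂ - ⟪ζ', x ζ⟫_ℂ‖ ≤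
      c + (2 * δ + 2 * e) * (‖x‖ * ‖ζ‖ * ‖ζ'‖) := by
  set n := ‖x‖ * ‖ζ‖ * ‖ζ'‖ with hn
  set g : ℝ → ℝ := fun u => ‖⟪ζ', (V u * x * V (-u) - x) ζ⟫_ℂ‖ with hg
  have hgc : Continuous g := by
    simp only [hg, sub_apply]
    exact (continuous_const.inner ((hV.cont_conj x ζ).sub continuous_const)).norm
  have hgB : ∀ u, g u ≤ 2 * n := fun u => by
    have h1 : ‖V u * x * V (-u) - x‖ ≤ 2 * ‖x‖ :=
      (norm_sub_le _ _).trans (by linarith [hV.norm_conj u x])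
    have h2 := ((V u * x * V (-u) - x).le_opNorm ζ).trans
      (mul_le_mul_of_nonneg_right h1 (norm_nonneg ζ))
    refine (norm_inner_le_norm _ _).trans ((mul_le_mul_of_nonneg_left h2 (norm_nonneg _)).trans
      (le_of_eq ?_))
    rw [hn]
    ring
  have hfej := hF g c (2 * n) hgc hc0 (fun u => norm_nonneg _) hgB hc
  have hm : (0 : ℝ) < (Fintype.card ι : ℝ) ^ 2 := by
    have : (0 : ℝ) < Fintype.card ι := by exact_mod_cast Fintype.card_pos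
    positivity
  set P : ι → ℝ → ℂ := fun l t => ⟪S.Δ (τ l) ζ', (V t * x * V (-t)) (S.Δ (τ l) ζ)⟫_ℂ with hP
  set c₀ := ⟪ζ', x ζ⟫_ℂ with hc₀
  have hPc : ∀ l, Continuous (P l) := fun l => continuous_const.inner (hV.cont_conj x _)
  have hPb : ∀ l t, ‖P l t - c₀‖ ≤ 2 * δ * n + g (t - τ l) := fun l t =>
    fest_pt S hV hδ x ζ ζ' t (τ l)
  have i1 : ∀ l, Integrable fun t => (tent T t * ‖dir s (t - τ l)‖ ^ 2) • (P l t - c₀) := fun l =>
    fest_int h.pos s (τ l) ((hPc l).sub continuous_const) (B := 2 * δ * n + 2 * n)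
      fun t => (hPb l t).trans (by linarith [hgB (t - τ l)])
  have i2 : ∀ l, Integrable fun t => (tent T t * ‖dir s (t - τ l)‖ ^ 2) • c₀ := fun l =>
    fest_int h.pos s (τ l) continuous_const (B := ‖c₀‖) fun _ => le_rfl
  have i3 : ∀ l, Integrable fun t => (tent T t * ‖dir s (t - τ l)‖ ^ 2) * (2 * δ * n) := fun l =>
    fest_int h.pos s (τ l) (f := fun _ => 2 * δ * n) continuous_const (B := ‖2 * δ * n‖)
      fun _ => le_rfl
  have i4 : ∀ l, Integrable fun t => (tent T t * ‖dir s (t - τ l)‖ ^ 2) * g (t - τ l) := fun l =>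
    fest_int h.pos s (τ l) (f := fun t => g (t - τ l)) (hgc.comp (continuous_sub_right _))
      (B := 2 * n) fun t => by
        rw [Real.norm_of_nonneg (norm_nonneg _)]
        exact hgB _
  have e1 : ∀ l, ∫ t, ((tent T t * ‖dir s (t - τ l)‖ ^ 2 : ℝ) : ℂ) * P l t =
      (∫ t, (tent T t * ‖dir s (t - τ l)‖ ^ 2) • (P l t - c₀)) +
        (∫ t, tent T t * ‖dir s (t - τ l)‖ ^ 2) • c₀ := by
    intro l
    rw [← integral_smul_const, ← integral_add (i1 l) (i2 l)]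
    refine integral_congr_ae (Eventually.of_forall fun t => ?_)
    simp only [Complex.real_smul]
    ring
  have e2 : ((Fintype.card ι : ℂ) ^ 2)⁻¹ *
      (∑ l, ∫ t, ((tent T t * ‖dir s (t - τ l)‖ ^ 2 : ℝ) : ℂ) * P l t) - c₀ =
      ((Fintype.card ι : ℝ) ^ 2)⁻¹ •
        ∑ l, ∫ t, (tent T t * ‖dir s (t - τ l)‖ ^ 2) • (P l t - c₀) := by
    have hm' : ((Fintype.card ι : ℂ) ^ 2) ≠ 0 := by exact_mod_cast hm.ne'
    simp only [e1]
    rw [Finset.sum_add_distrib, ← Finset.sum_smul, fest_mass h, Complex.real_smul,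
      Complex.real_smul]
    rw [Complex.ofReal_inv, Complex.ofReal_pow, Complex.ofReal_natCast, mul_add,
      inv_mul_cancel_left₀ hm', add_sub_cancel_right]
  have b1 : ∀ l, ‖∫ t, (tent T t * ‖dir s (t - τ l)‖ ^ 2) • (P l t - c₀)‖ ≤
      (∫ t, tent T t * ‖dir s (t - τ l)‖ ^ 2) * (2 * δ * n) +
        ∫ t, tent T t * ‖dir s (t - τ l)‖ ^ 2 * g (t - τ l) := by
    intro l
    rw [← integral_mul_const, ← integral_add (i3 l) (i4 l)]
    refine norm_integral_le_of_norm_le ((i3 l).add (i4 l)) (Eventually.of_forall fun t => ?_)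
    have h0 := mul_nonneg (tent_nonneg T t) (sq_nonneg ‖dir s (t - τ l)‖)
    rw [norm_smul, Real.norm_of_nonneg h0, ← mul_add]
    exact mul_le_mul_of_nonneg_left (hPb l t) h0
  have b2 := (norm_sum_le _ _).trans (Finset.sum_le_sum fun l (_ : l ∈ Finset.univ) => b1 l)
  rw [Finset.sum_add_distrib, ← Finset.sum_mul, fest_mass h] at b2
  rw [slice_eq S A A₂ hV h.pos, e2, norm_smul, norm_inv, Real.norm_of_nonneg hm.le,
    inv_mul_le_iff₀ hm]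
  refine b2.trans ?_
  linarith

end Vale.Agent.P096
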