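import Vale.Agent.P096.FDefs

/-!
# P096 F: exponentials and the tent (pure scalar analysis)
* `four_lat`: `s j - s k = q η` with an integer `q`, `|q| < m`. Discrete sum: `fex (τ l) (q η) = fex (-(T/2)) (q η) * ζ ^ l` with `ζ = exp (-2 π i q / m)`, `ζ ^ m = 1`,
  `ζ ≠ 1` for `q ≠ 0` (`Complex.exp_eq_one_iff`), `mul_geom_sum` / `geom_sum_eq`, `Fin.sum_univ_eq_sum_range`.
  Integral: `integral_Icc_eq_integral_Ioc`, `intervalIntegral.integral_of_le`, `integral_exp_mul_complex`, and `exp (π i q) = exp (-π i q)`.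
* `Four.sum_dir`: `‖dir s u‖ ^ 2 = ∑ j k, fex u (s j - s k)`; `fex (t - τ l) (s j - s k) = fex t (s j - s k) * fex (τ l) (s k - s j)`; exchange the sums.
* `integral_tent`: `tent T` vanishes outside `[-T/4, T/4]`; `integral_comp_abs` (`∫ f |x| = 2 * ∫ x in Ioi 0, f x`) or split the interval at `0`.
-/

namespace Vale.Agent.P096

open Vale.Agent.P104 Vale.Agent.P132 Filter Topology MeasureTheory
open scoped InnerProductSpace ENNReal

universe u

theorem fex_add (t t' s : ℝ) : fex (t + t') s = fex t s * fex t' s := by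
  unfold fex
  rw [← Complex.exp_add]
  congr 1
  push_cast
  ring

theorem fex_add' (t s s' : ℝ) : fex t (s + s') = fex t s * fex t s' := by
  unfold fex
  rw [← Complex.exp_add]
  congr 1
  push_cast
  ring

theorem ex_neg (t s : ℝ) : fex t (-s) = fex (-t) s := by
  unfold fex
  congr 1
  push_cast
  ring

theorem ex_sub' (t s s' : ℝ) : fex t (s - s') = fex t s * fex (-t) s' := by
  rw [sub_eq_add_neg, fex_add', ex_neg]

theorem conj_ex (t s : ℝ) : (starRingEnd ℂ) (fex t s) = fex (-t) s := by
  unfold fex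
  rw [← Complex.exp_conj]
  congr 1
  simp

theorem fex_zero (s : ℝ) : fex 0 s = 1 := by
  simp [fex]

theorem fex_zero' (t : ℝ) : fex t 0 = 1 := by
  simp [fex]

theorem norm_ex (t s : ℝ) : ‖fex t s‖ = 1 := by
  unfold fex
  rw [Complex.norm_exp]
  simp

theorem continuous_fex (s : ℝ) : Continuous fun t => fex t s := by
  unfold fex
  fun_prop

theorem continuous_dir {ι : Type*} [Fintype ι] (s : ι → ℝ) : Continuous (dir s) := by
  unfold dir
  exact continuous_finsetSum _ fun j _ => continuous_fex (s j)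

theorem norm_dir_le_card {ι : Type*} [Fintype ι] (s : ι → ℝ) (u : ℝ) :
    ‖dir s u‖ ≤ Fintype.card ι := by
  unfold dir
  refine (norm_sum_le _ _).trans ?_
  simp [norm_ex]

theorem ex_nat_mul (t s : ℝ) (l : ℕ) : fex (l * t) s = fex t s ^ l := by
  unfold fex
  rw [← Complex.exp_nat_mul]
  congr 1
  push_cast
  ring

theorem four_lat {m : ℕ} (hm : 0 < m) {η : ℝ} (hη : 0 < η) :
    Four (fun j : Fin m => (j : ℝ) * η)
      (fun l => -(2 * Real.pi / η / 2) + (l : ℝ) * (2 * Real.pi / η / m)) (2 * Real.pi / η) := by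
  have hη' : (η : ℂ) ≠ 0 := by exact_mod_cast hη.ne'
  have hm' : (m : ℂ) ≠ 0 := by exact_mod_cast hm.ne'
  have hT : 0 < 2 * Real.pi / η := by have := Real.pi_pos; positivity
  refine ⟨hT, fun j k => ?_, fun j k => ?_⟩
  · split_ifs with hjk
    · subst hjk
      simp [fex_zero']
    · set q : ℤ := (j : ℤ) - (k : ℤ) with hq
      have e1 : (j : ℝ) * η - (k : ℝ) * η = (q : ℝ) * η := by
        rw [hq]; push_cast; ring
      simp only [e1, fex_add, ex_nat_mul]
      rw [← Finset.mul_sum, Fin.sum_univ_eq_sum_range (fun l => fex (2 * Real.pi / η / m) (q * η) ^ l) m]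
      set ζ := fex (2 * Real.pi / η / m) (q * η) with hζ
      have hζ' : ζ = Complex.exp (-(2 * Real.pi * Complex.I * q / m)) := by
        rw [hζ]
        unfold fex
        congr 1
        push_cast
        field_simp
      have h1 : ζ ^ m = 1 := by
        rw [hζ', ← Complex.exp_nat_mul, Complex.exp_eq_one_iff]
        exact ⟨-q, by push_cast; field_simp⟩
      have h2 : ζ ≠ 1 := by
        rw [hζ', Ne, Complex.exp_eq_one_iff]
        rintro ⟨n, hn⟩
        have hpi : (Real.pi : ℂ) ≠ 0 := by exact_mod_cast Real.pi_pos.ne'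
        have h3 : (q : ℂ) = -(n * m) := by
          field_simp at hn
          linear_combination -hn
        have h4 : q = -(n * m) := by exact_mod_cast h3
        have hj := j.2
        have hk := k.2
        have hne : (j : ℕ) ≠ k := fun h => hjk (Fin.ext h)
        have hm0 : (0 : ℤ) < m := by exact_mod_cast hm
        rcases lt_trichotomy n 0 with h | h | h
        · have : (m : ℤ) ≤ -(n * m) := by nlinarith
          omega
        · rw [h] at h4
          omega
        · have : (m : ℤ) ≤ n * m := by nlinarith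
          omega
      rw [geom_sum_eq h2, h1]
      simp
  · have hle : -(2 * Real.pi / η / 2) ≤ 2 * Real.pi / η / 2 := by linarith
    rw [integral_Icc_eq_integral_Ioc, ← intervalIntegral.integral_of_le hle]
    split_ifs with hjk
    · subst hjk
      simp [fex_zero']
    · set q : ℤ := (j : ℤ) - (k : ℤ) with hq
      have e1 : (j : ℝ) * η - (k : ℝ) * η = (q : ℝ) * η := by
        rw [hq]; push_cast; ring
      have hq0 : q ≠ 0 := by
        have hne : (j : ℕ) ≠ k := fun h => hjk (Fin.ext h)
        omega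
      have hq' : (q : ℂ) ≠ 0 := by exact_mod_cast hq0
      have e2 : ∀ t : ℝ, fex t ((q : ℝ) * η) = Complex.exp (-(Complex.I * q * η) * t) := by
        intro t
        unfold fex
        congr 1
        push_cast
        ring
      simp only [e1, e2]
      rw [integral_exp_mul_complex (by simp [hq', hη'])]
      rw [div_eq_zero_iff]
      left
      rw [sub_eq_zero, Complex.exp_eq_exp_iff_exists_int]
      exact ⟨-q, by push_cast; field_simp; ring⟩

theorem Four.sum_dir {ι : Type*} [Fintype ι] [DecidableEq ι] {s τ : ι → ℝ} {T : ℝ}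
    (h : Four s τ T) (t : ℝ) : ∑ l, ‖dir s (t - τ l)‖ ^ 2 = (Fintype.card ι : ℝ) ^ 2 := by
  have e1 : ∀ u : ℝ, ((‖dir s u‖ ^ 2 : ℝ) : ℂ) = ∑ j, ∑ k, fex u (s j - s k) := by
    intro u
    push_cast
    rw [← Complex.mul_conj']
    unfold dir
    rw [map_sum, Finset.sum_mul_sum]
    simp only [conj_ex, ex_sub']
  have e2 : ∀ l j k, fex (t - τ l) (s j - s k) = fex t (s j - s k) * fex (τ l) (s k - s j) := by
    intro l j k
    rw [sub_eq_add_neg t, fex_add, ← ex_neg, neg_sub]
  have e3 : ((∑ l, ‖dir s (t - τ l)‖ ^ 2 : ℝ) : ℂ) = ((Fintype.card ι : ℝ) ^ 2 : ℝ) := by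
    rw [Complex.ofReal_sum]
    simp only [e1, e2]
    rw [Finset.sum_comm]
    have : ∀ j, ∑ l, ∑ k, fex t (s j - s k) * fex (τ l) (s k - s j) = (Fintype.card ι : ℂ) := by
      intro j
      rw [Finset.sum_comm]
      simp only [← Finset.mul_sum, h.disc]
      simp [fex_zero']
    simp only [this]
    simp [pow_two]
  exact_mod_cast e3

variable {T : ℝ}

theorem tent_nonneg (T t : ℝ) : 0 ≤ tent T t := le_max_left _ _

theorem tent_le (hT : 0 < T) (t : ℝ) : tent T t ≤ 4 / T := by
  refine max_le (by positivity) ?_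
  have : 0 ≤ 16 * |t| / T ^ 2 := by positivity
  linarith

theorem tent_zero (hT : 0 < T) {t : ℝ} (h : T / 4 ≤ |t|) : tent T t = 0 := by
  refine max_eq_left ?_
  have : 4 / T ≤ 16 * |t| / T ^ 2 := by
    rw [div_le_div_iff₀ hT (by positivity)]
    nlinarith
  linarith

theorem tent_lip (hT : 0 < T) (t t' : ℝ) : |tent T t - tent T t'| ≤ 16 * |t - t'| / T ^ 2 := by
  unfold tent
  rw [max_comm, max_comm 0]
  refine (abs_max_sub_max_le_abs _ _ _).trans ?_
  have e : 4 / T - 16 * |t| / T ^ 2 - (4 / T - 16 * |t'| / T ^ 2) = 16 / T ^ 2 * (|t'| - |t|) := by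
    ring
  rw [e, abs_mul, abs_of_pos (by positivity : 0 < 16 / T ^ 2), mul_div_right_comm, abs_sub_comm t]
  exact mul_le_mul_of_nonneg_left (abs_abs_sub_abs_le_abs_sub _ _) (by positivity)

theorem continuous_tent (T : ℝ) : Continuous (tent T) := by
  unfold tent
  fun_prop

theorem integrable_tent (hT : 0 < T) : Integrable (tent T) := by
  refine (continuous_tent T).integrable_of_hasCompactSupport ?_
  refine HasCompactSupport.intro (isCompact_Icc (a := -(T / 4)) (b := T / 4)) fun t ht => ?_
  refine tent_zero hT ?_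
  rw [Set.mem_Icc, ← abs_le] at ht
  exact (not_le.1 ht).le

theorem integral_tent (hT : 0 < T) : ∫ t, tent T t = 1 := by
  have e1 : ∫ t, tent T t = 2 * ∫ t in Set.Ioi 0, max 0 (4 / T - 16 * t / T ^ 2) :=
    integral_comp_abs (f := fun t => max 0 (4 / T - 16 * t / T ^ 2))
  have e2 : ∫ t in Set.Ioi 0, max 0 (4 / T - 16 * t / T ^ 2) =
      ∫ t in Set.Ioc 0 (T / 4), max 0 (4 / T - 16 * t / T ^ 2) := by
    refine setIntegral_eq_of_subset_of_forall_sdiff_eq_zero measurableSet_Ioi Set.Ioc_subset_Ioi_self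
      fun t ht => ?_
    have h0 : 0 < t := ht.1
    have h1 : T / 4 ≤ t := by
      by_contra hc
      exact ht.2 ⟨h0, (not_le.1 hc).le⟩
    have := tent_zero hT (t := t) (by rwa [abs_of_pos h0])
    unfold tent at this
    rwa [abs_of_pos h0] at this
  have e3 : ∫ t in Set.Ioc 0 (T / 4), max 0 (4 / T - 16 * t / T ^ 2) =
      ∫ t in Set.Ioc 0 (T / 4), (4 / T - 16 / T ^ 2 * t) := by
    refine setIntegral_congr_fun measurableSet_Ioc fun t ht => ?_
    have : 16 * t / T ^ 2 ≤ 4 / T := by
      rw [div_le_div_iff₀ (by positivity) hT]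
      nlinarith [ht.2]
    rw [max_eq_right (by linarith)]
    ring
  rw [e1, e2, e3, ← intervalIntegral.integral_of_le (by positivity),
    intervalIntegral.integral_sub (by simp) (Continuous.intervalIntegrable (by fun_prop) _ _),
    intervalIntegral.integral_const_mul, integral_id]
  simp
  field_simp
  ring

end Vale.Agent.P096
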