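import Vale.Agent.P096.FRt

/-!
# P096 F: paired approximants of almost invariant elements
* `kap_mom`: `(1 + |t|) exp (-t²/4) ≤ 2`, so `kap 1 t * (1 + |t|) ≤ 2 √2 * kap (√2)⁻¹ t` (any constant `≤ 5` is fine), `integral_kap`.
* `si_near`: `(si κ W - u) η = ∫ κ t • (W t η - u η)`, and `‖b t Y b (-t) - u‖ ≤ d + 2 δ + o (1 + |t|)` (`Flow.norm_conj`, `Flow.conj_sub`, `Flow.osc`).
* `pair1`: `b = tw A s S.Δ` (`flow_Δ`, `Flow.tw`, `norm_tw_sub`), `y = si (kap 1 t * fex t 0) (b t Y b (-t))`, `Z = si (exp (1/8) * kap 1 t * fex t (-1/2)) (same)`; the integrals of the kernels are `1` by `gauss_int` at `u = 0`.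
  Entries (`ent_si`, `ent_tw`): `ent y j k = S.G (s j - s k) 1 (ent Y j k)`, `ent Z j k = exp (1/8) • S.G (s j - s k - 1/2) 1 (ent Y j k)` (`G_apply`). Then `ext_two`, `amp_dv`, `mat_dv`, `SF.G_ξ`, `SF.ρ_G`, `hw`.
-/

namespace Vale.Agent.P096

open Vale.Agent.P104 Vale.Agent.P132 Filter Topology MeasureTheory
open scoped InnerProductSpace ENNReal

universe u

variable {H : Type u} [NormedAddCommGroup H] [InnerProductSpace ℂ H] [CompleteSpace H]
  {K : Type u} [NormedAddCommGroup K] [InnerProductSpace ℂ K] [CompleteSpace K]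
  {K₂ : Type u} [NormedAddCommGroup K₂] [InnerProductSpace ℂ K₂] [CompleteSpace K₂]
  {ι : Type*} [Fintype ι] [DecidableEq ι]

theorem fpair_kap_le (t : ℝ) : kap 1 t * (1 + |t|) ≤ 4 * kap (1 / 2) t := by
  have h1 : 1 + |t| ≤ 2 * Real.exp (3 * t ^ 2 / 8) := by
    have h2 := Real.add_one_le_exp (3 * t ^ 2 / 8)
    nlinarith [sq_abs t, sq_nonneg (|t| - 1), abs_nonneg t]
  have h2 : kap 1 t * (2 * Real.exp (3 * t ^ 2 / 8)) = 4 * kap (1 / 2) t := by
    unfold kap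
    rw [show -((1 / 2 : ℝ) ^ 2 * t ^ 2) / 2 = -(1 ^ 2 * t ^ 2) / 2 + 3 * t ^ 2 / 8 by ring,
      Real.exp_add]
    ring
  rw [← h2]
  exact mul_le_mul_of_nonneg_left h1 (kap_pos one_pos t).le

theorem kap_mom : Integrable (fun t => kap 1 t * (1 + |t|)) ∧ ∫ t, kap 1 t * (1 + |t|) ≤ 5 := by
  have h0 : (0 : ℝ) < 1 / 2 := by norm_num
  have h1 := (integrable_kap h0).const_mul 4
  have h2 : Integrable fun t => kap 1 t * (1 + |t|) := by
    have := continuous_kap 1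
    refine h1.mono' (Continuous.aestronglyMeasurable (by fun_prop))
      (Eventually.of_forall fun t => ?_)
    rw [Real.norm_of_nonneg (mul_nonneg (kap_pos one_pos t).le (by positivity))]
    exact fpair_kap_le t
  refine ⟨h2, (integral_mono h2 h1 fpair_kap_le).trans ?_⟩
  rw [integral_const_mul, integral_kap h0]
  norm_num

theorem si_near {M M' : VonNeumannAlgebra K} {a b : ℝ → Op K} (ha : Flow M a) (hb : Flow M' b)
    {δ d o : ℝ} (hδ : ∀ t, ‖a t - b t‖ ≤ δ) {c Y : Op K} (hc : ‖c‖ ≤ 1) (hY : ‖c - Y‖ ≤ d)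
    (ho : ∀ t, |t| ≤ 1 → ‖a t * c * a (-t) - c‖ ≤ o) {κ : ℝ → ℂ} (hκ : Integrable κ)
    (h1 : ∫ t, κ t = 1) (h2 : ∀ t, ‖κ t‖ ≤ 2 * kap 1 t) :
    ‖si κ (fun t => b t * Y * b (-t)) - c‖ ≤ 10 * (d + 2 * δ + o) := by
  have hδ0 : 0 ≤ δ := (norm_nonneg _).trans (hδ 0)
  have hd0 : 0 ≤ d := (norm_nonneg _).trans hY
  have ho0 : 0 ≤ o := (norm_nonneg _).trans (ho 0 (by simp))
  have key : ∀ t, ‖b t * Y * b (-t) - c‖ ≤ (d + 2 * δ + o) * (1 + |t|) := fun t => by
    have e : b t * Y * b (-t) - c = (a t * c * a (-t) - c) -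
        (a t * c * a (-t) - b t * c * b (-t)) - b t * (c - Y) * b (-t) := by noncomm_ring
    have a1 := ha.osc ho t
    have a2 := (ha.conj_sub hb (t := t) hδ c).trans (mul_le_of_le_one_right (by positivity) hc)
    have a3 := (hb.norm_conj t (c - Y)).trans hY
    have a4 : 0 ≤ (d + 2 * δ) * |t| := by positivity
    rw [e]
    refine (norm_sub_le _ _).trans ((add_le_add (norm_sub_le _ _) le_rfl).trans ?_)
    nlinarith
  refine ContinuousLinearMap.opNorm_le_bound _ (by positivity) fun η => ?_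
  have hi := si_integrable hκ (hb.cont_conj Y) (fun t => hb.norm_conj t Y) η
  have e : c η = ∫ t, κ t • c η := by rw [integral_smul_const, h1, one_smul]
  rw [sub_apply, si_apply hκ (hb.cont_conj Y) (fun t => hb.norm_conj t Y), e,
    ← integral_sub hi (hκ.smul_const _)]
  refine (norm_integral_le_of_norm_le (kap_mom.1.mul_const (2 * (d + 2 * δ + o) * ‖η‖))
    (Eventually.of_forall fun t => ?_)).trans ?_
  · rw [← smul_sub, norm_smul, ← sub_apply]
    refine (mul_le_mul (h2 t) (ContinuousLinearMap.le_of_opNorm_le _ (key t) η) (norm_nonneg _)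
      (mul_nonneg zero_le_two (kap_pos one_pos t).le)).trans_eq ?_
    ring
  · rw [integral_mul_const]
    refine (mul_le_mul_of_nonneg_right kap_mom.2 (by positivity)).trans_eq ?_
    ring

theorem ent_si (A : Amp H K ι) {κ : ℝ → ℂ} {W : ℝ → Op K} {C : ℝ} (hκ : Integrable κ)
    (hW : ∀ η, Continuous fun t => W t η) (hC : ∀ t, ‖W t‖ ≤ C) (j k : ι) (η : H) :
    ent A (si κ W) j k η = ∫ t, κ t • ent A (W t) j k η := by
  rw [ent_apply, si_apply hκ hW hC,
    ← (A.J j).adjoint.integral_comp_comm (si_integrable hκ hW hC _)]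
  simp only [map_smul, ent_apply]

theorem fpair_ent (S : SF H) (A : Amp H K ι) (s : ι → ℝ) (Y : Op K) (m r : ℝ) (j k : ι) :
    ent A (si (fun t => (m : ℂ) * (kap 1 t * fex t r))
      fun t => tw A s S.Δ t * Y * tw A s S.Δ (-t)) j k =
      m • S.G (r + (s j - s k)) 1 (ent A Y j k) := by
  have hb := (flow_Δ S).tw A s
  have hi : Integrable fun t => (m : ℂ) * (kap 1 t * fex t r) := (sm_int r one_pos).const_mul _
  ext η
  rw [ent_si A hi (hb.cont_conj Y) (fun t => hb.norm_conj t Y),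
    smul_apply, S.G_apply _ one_pos, ← Complex.coe_smul, ← integral_smul]
  refine integral_congr_ae (Eventually.of_forall fun t => ?_)
  have e := fex_add' t r (s j - s k)
  simp only [ent_tw, smul_apply, smul_smul]
  unfold fex at e ⊢
  rw [e, mul_assoc, mul_assoc]
  rfl

theorem pair1 (S : SF H) (A : Amp H K ι) (A₂ : Amp K K₂ ι) {s w : ι → ℝ}
    (hw : ∀ j k, w k = w j * Real.exp ((s j - s k) / 2)) {M : VonNeumannAlgebra H} {V : ℝ → Op H}
    (hV : Flow M V) {δ d o : ℝ} (hδ : ∀ t, ‖V t - S.Δ t‖ ≤ δ) {c Y : Op K} (hc : ‖c‖ ≤ 1)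
    (hY : Y ∈ A.alg S.M) (hd : ‖c - Y‖ ≤ d)
    (ho : ∀ t, |t| ≤ 1 → ‖tw A s V t * c * tw A s V (-t) - c‖ ≤ o) :
    ∃ y ∈ A.alg S.M, ∃ Z ∈ A.alg S.M, ‖y - c‖ ≤ 10 * (d + 2 * δ + o) ∧
      ‖Z - c‖ ≤ 10 * (d + 2 * δ + o) ∧
      A₂.amp y (dv A A₂ w S.ξ) = rt S A A₂ Z (dv A A₂ w S.ξ) := by
  have hb := (flow_Δ S).tw A s
  have hi : ∀ m r : ℝ, Integrable fun t => (m : ℂ) * (kap 1 t * fex t r) := fun m r =>
    (sm_int r one_pos).const_mul _
  have hm : ∀ m r : ℝ, si (fun t => (m : ℂ) * (kap 1 t * fex t r))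
      (fun t => tw A s S.Δ t * Y * tw A s S.Δ (-t)) ∈ A.alg S.M := fun m r =>
    si_mem (hi m r) (hb.cont_conj Y) (fun t => hb.norm_conj t Y) fun t => hb.mem t Y hY
  have hn : ∀ m r : ℝ, 0 ≤ m → m ≤ 2 → m * gau r 1 0 = 1 →
      ‖si (fun t => (m : ℂ) * (kap 1 t * fex t r))
        (fun t => tw A s S.Δ t * Y * tw A s S.Δ (-t)) - c‖ ≤ 10 * (d + 2 * δ + o) := by
    intro m r h0 h2 h1
    refine si_near (hV.tw A s) hb (fun t => norm_tw_sub A s (hδ t)) hc hd ho (hi m r) ?_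
      fun t => ?_
    · have h3 := gauss_int one_pos r 0
      simp only [Complex.ofReal_zero, mul_zero, Complex.exp_zero, mul_one] at h3
      rw [integral_const_mul]
      unfold fex
      rw [h3, ← Complex.ofReal_mul, h1, Complex.ofReal_one]
    · rw [norm_mul, norm_mul, norm_ex, mul_one, Complex.norm_real, Complex.norm_real,
        Real.norm_of_nonneg h0, Real.norm_of_nonneg (kap_pos one_pos t).le]
      exact mul_le_mul_of_nonneg_right h2 (kap_pos one_pos t).le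
  have h8 : Real.exp (1 / 8) * Real.exp (-(1 / 8)) = 1 := by rw [← Real.exp_add]; simp
  refine ⟨_, hm 1 0, _, hm (Real.exp (1 / 8)) (-1 / 2), hn 1 0 zero_le_one one_le_two ?_,
    hn _ _ (Real.exp_pos _).le ?_ ?_, ext_two A A₂ fun j k => ?_⟩
  · simp [gau]
  · nlinarith [Real.add_one_le_exp (-(1 / 8) : ℝ), Real.exp_pos (1 / 8)]
  · refine Eq.trans ?_ h8
    rw [gau]
    norm_num
  · have h9 : ent A Y j k ∈ S.M := A.entry_mem hY j k
    rw [amp_dv, rt, mat_dv A A₂ w S.ξ fun a b => S.ρ (ent A _ b a), fpair_ent, fpair_ent,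
      one_smul, S.ρ_rsmul, smul_apply, S.ρ_G _ one_pos h9, S.G_ξ _ one_pos,
      smul_smul, ← Real.exp_add, Complex.coe_smul, Complex.coe_smul, smul_smul, hw j k,
      show 0 + (s j - s k) = -1 / 2 + (s j - s k) + 1 ^ 2 / 2 by ring,
      show (s j - s k) / 2 = 1 / 8 + ((-1 / 2 + (s j - s k)) / 2 + 1 ^ 2 / 8) by ring]

end Vale.Agent.P096
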