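import Vale.Agent.P096.FEst
import Vale.Agent.P096.FPair

/-!
# P096 F: construction of one level
-/

namespace Vale.Agent.P096

open Vale.Agent.P104 Vale.Agent.P132 Filter Topology MeasureTheory
open scoped InnerProductSpace ENNReal

universe u

variable {H : Type u} [NormedAddCommGroup H] [InnerProductSpace ℂ H] [CompleteSpace H]
  {K : Type u} [NormedAddCommGroup K] [InnerProductSpace ℂ K] [CompleteSpace K]
  {K₂ : Type u} [NormedAddCommGroup K₂] [InnerProductSpace ℂ K₂] [CompleteSpace K₂]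
  {ι : Type*} [Fintype ι] [DecidableEq ι]

theorem lev_gen [Nonempty ι] {M : VonNeumannAlgebra H} (S : SF H) (A : Amp H K ι)
    (A₂ : Amp K K₂ ι) {V : ℝ → Op H} (hV : Flow M V) {δ : ℝ} (hδ0 : 0 ≤ δ)
    (hδ : ∀ t, ‖V t - S.Δ t‖ ≤ δ) (hcl : Cl M S.M δ) {s τ w : ι → ℝ} {T B o : ℝ}
    (hF : Four s τ T) (hT : 4 ≤ T) (ho : 16 / T ≤ o) (hB : 0 ≤ B) (hw0 : ∀ j, 0 < w j)
    (hw1 : ∀ j, 1 ≤ B ^ 2 * Fintype.card ι * w j ^ 2) (hw2 : ∑ j, w j ^ 2 = 1)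
    (hw3 : ∀ j k, w k = w j * Real.exp ((s j - s k) / 2)) :
    ∃ Lv : LevF M S.M S.ξ K₂ δ (2000 * δ) B o, Lv.W = sl A A₂ s τ S.Δ ∧
      ∀ x, Lv.emb x = A₂.amp (toe A s T V x) := by
  obtain ⟨j₀⟩ := ‹Nonempty ι›
  have hT0 := hF.pos
  have hW := hV.tw A s
  have e0 : ∀ X : Op K, ent A₂ (A₂.amp X) j₀ j₀ = X := fun X => by rw [ent_amp, if_pos rfl]
  have e1 : ∀ t (X : Op K), A₂.amp (tw A s V t) * A₂.amp X * star (A₂.amp (tw A s V t)) - A₂.amp X =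
      A₂.amp (tw A s V t * X * tw A s V (-t) - X) := fun t X => by
    rw [← A₂.amp_star, hW.star, ← A₂.amp_mul, ← A₂.amp_mul, ← A₂.amp_sub]
  refine ⟨{
    Mn := big A A₂ M
    Nn := big A A₂ S.M
    Ξ := dv A A₂ w S.ξ
    nΞ := by
      have := norm_dv A A₂ w S.ξ
      rw [hw2, S.norm_ξ, one_pow, one_mul] at this
      exact (pow_eq_one_iff_of_nonneg (norm_nonneg _) two_ne_zero).1 this
    a := fun t => A₂.amp (tw A s V t)
    a_unit := fun t => by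
      constructor
      · rw [← A₂.amp_star, ← A₂.amp_mul, (hW.unit t).1, A₂.amp_one]
      · rw [← A₂.amp_star, ← A₂.amp_mul, (hW.unit t).2, A₂.amp_one]
    cj := fun c => rt S A A₂ (ent A₂ c j₀ j₀)
    cj_one := by rw [ent_one, if_pos rfl, rt_one]
    cj_mul := fun c hc c' hc' => by
      obtain ⟨X, -, rfl⟩ := (mem_big A A₂).1 hc
      obtain ⟨X', -, rfl⟩ := (mem_big A A₂).1 hc'
      rw [← A₂.amp_mul, e0, e0, e0, rt_mul]
    cj_norm := fun c hc => by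
      obtain ⟨X, -, rfl⟩ := (mem_big A A₂).1 hc
      rw [e0, norm_amp]
      exact norm_rt_le _ _ _ _
    pair := fun c hc h1 h2 => by
      obtain ⟨X, hX, rfl⟩ := (mem_big A A₂).1 hc
      rw [norm_amp] at h1
      obtain ⟨Y, hY, h3⟩ := (hcl.amp hδ0 A).mn X hX
      have h4 : ‖X - Y‖ ≤ 160 * δ := h3.trans (mul_le_of_le_one_right (by positivity) h1)
      obtain ⟨y, hy, Z, hZ, h5, h6, h7⟩ := pair1 S A A₂ hw3 hV hδ h1 hY h4 (o := δ) fun t ht => by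
        have := h2 t ht
        rwa [e1, norm_amp] at this
      refine ⟨A₂.amp y, rt S A A₂ Z, ⟨(mem_big A A₂).2 ⟨y, hy, rfl⟩, rt_mem S A A₂ hZ, h7⟩, ?_, ?_⟩
      · rw [← A₂.amp_sub, norm_amp]
        linarith
      · rw [e0, ← rt_sub]
        linarith [norm_rt_le S A A₂ (Z - X)]
    emb :=
      { toFun := fun x => A₂.amp (toe A s T V x)
        map_add' := fun x y => by rw [toe_add A hV hT0, A₂.amp_add]
        map_smul' := fun c x => by rw [toe_smul A hV hT0, A₂.amp_smul, RingHom.id_apply] }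
    emb_mem := fun x hx => (mem_big A A₂).2 ⟨_, toe_mem A hV hT0 hx, rfl⟩
    emb_norm := fun x => (A₂.norm_amp_le _).trans (norm_toe A hV hF x)
    emb_inv := fun x t ht => by
      change ‖A₂.amp (tw A s V t) * A₂.amp (toe A s T V x) * star (A₂.amp (tw A s V t)) -
        A₂.amp (toe A s T V x)‖ ≤ _
      rw [e1, norm_amp]
      exact (toe_inv A hV hF hT x ht).trans (mul_le_mul_of_nonneg_right ho (norm_nonneg x))
    W := sl A A₂ s τ S.Δ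
    W_iso := inner_sl S A A₂
    W_int := fun y hy => sl_int S A A₂ hy
    W_r' := fun y hy => sl_r' S A A₂ hF hB hw0 hw1 hy
    W_r := fun y hy => sl_r S A A₂ hF hB hw0 hw1 hy }, rfl, fun _ => rfl⟩

theorem lev_weights {m : ℕ} (hm : 0 < m) {L : ℝ} (hL : 0 < L) : ∃ w : Fin m → ℝ,
    (∀ j, 0 < w j) ∧ (∀ j, 1 ≤ Real.exp L ^ 2 * Fintype.card (Fin m) * w j ^ 2) ∧
      ∑ j, w j ^ 2 = 1 ∧ ∀ j k, w k = w j * Real.exp (((j : ℝ) * (L / m) - (k : ℝ) * (L / m)) / 2) := by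
  have : Nonempty (Fin m) := ⟨⟨0, hm⟩⟩
  have hm' : (0 : ℝ) < m := by exact_mod_cast hm
  set Z : ℝ := ∑ j : Fin m, Real.exp (-((j : ℝ) * (L / m))) with hZ
  have h0 : 0 < Z := Finset.sum_pos (fun _ _ => Real.exp_pos _) Finset.univ_nonempty
  have h1 : Z ≤ m := by
    have : ∀ j ∈ (Finset.univ : Finset (Fin m)), Real.exp (-((j : ℝ) * (L / m))) ≤ 1 := fun j _ =>
      Real.exp_le_one_iff.2 (neg_nonpos.2 (by positivity))
    simpa using Finset.sum_le_card_nsmul _ _ _ this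
  have h2 : ∀ j : Fin m, (Real.exp (-((j : ℝ) * (L / m)) / 2) / √Z) ^ 2 =
      Real.exp (-((j : ℝ) * (L / m))) / Z := fun j => by
    rw [div_pow, Real.sq_sqrt h0.le, pow_two, ← Real.exp_add, add_halves]
  refine ⟨fun j => Real.exp (-((j : ℝ) * (L / m)) / 2) / √Z, fun j => by positivity,
    fun j => ?_, ?_, fun j k => ?_⟩
  · have h3 : (j : ℝ) * (L / m) ≤ L := by
      have : (j : ℝ) ≤ m := by exact_mod_cast j.2.le
      calc (j : ℝ) * (L / m) ≤ m * (L / m) := by gcongr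
        _ = L := by field_simp
    have h4 : 1 ≤ Real.exp L ^ 2 * Real.exp (-((j : ℝ) * (L / m))) := by
      rw [pow_two, ← Real.exp_add, ← Real.exp_add]
      exact Real.one_le_exp (by linarith)
    rw [h2, Fintype.card_fin, ← mul_div_assoc, le_div_iff₀ h0]
    nlinarith
  · simp only [h2]
    rw [← Finset.sum_div, div_self h0.ne']
  · simp only
    rw [div_mul_eq_mul_div, ← Real.exp_add]
    congr 2
    ring

theorem exists_lev {M : VonNeumannAlgebra H} (S : SF H) {V : ℝ → Op H} (hV : Flow M V) {δ : ℝ}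
    (hδ0 : 0 ≤ δ) (hδ : ∀ t, ‖V t - S.Δ t‖ ≤ δ) (hcl : Cl M S.M δ) {L : ℝ} (hL : 0 < L) (n : ℕ)
    (hm : L ≤ (n + 1 : ℕ)) :
    ∃ Lv : LevF M S.M S.ξ (PiLp 2 fun _ : Fin (n + 1) => PiLp 2 fun _ : Fin (n + 1) => H) δ
      (2000 * δ) (Real.exp L) (3 * L / (n + 1 : ℕ)), ∀ (x : Op H) (ζ ζ' : H) (r c : ℝ), 0 < r → 0 ≤ c →
        (∀ u, |u| ≤ r → ‖⟪ζ', (V u * x * V (-u) - x) ζ⟫_ℂ‖ ≤ c) →
        ‖⟪Lv.W ζ', Lv.emb x (Lv.W ζ)⟫_ℂ - ⟪ζ', x ζ⟫_ℂ‖ ≤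
          c + (2 * δ + 1000 / (L * r)) * (‖x‖ * ‖ζ‖ * ‖ζ'‖) := by
  obtain ⟨A, -⟩ := exists_piAmp H (Fin (n + 1))
  obtain ⟨A₂, -⟩ := exists_piAmp (PiLp 2 fun _ : Fin (n + 1) => H) (Fin (n + 1))
  have hm0 : 0 < n + 1 := n.succ_pos
  have hm' : (0 : ℝ) < (n + 1 : ℕ) := by exact_mod_cast hm0
  have hη : 0 < L / (n + 1 : ℕ) := div_pos hL hm'
  obtain ⟨w, w0, w1, w2, w3⟩ := lev_weights hm0 hL
  have hF := four_lat hm0 hη
  have hp := Real.pi_gt_three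
  obtain ⟨Lv, h1, h2⟩ := lev_gen S A A₂ hV hδ0 hδ hcl (o := 3 * L / (n + 1 : ℕ)) hF
    (by
      rw [le_div_iff₀ hη]
      linarith [(div_le_one hm').2 hm])
    (by
      rw [div_div_eq_mul_div, mul_div_assoc 3, div_le_iff₀ (by positivity)]
      nlinarith)
    (Real.exp_pos L).le w0 w1 w2 w3
  refine ⟨Lv, fun x ζ ζ' r c hr hc h => ?_⟩
  rw [h1, h2]
  refine (slice_est S A A₂ hV hF (fej_lat hm0 hη hr) hδ x ζ ζ' hc h).trans (le_of_eq ?_)
  rw [mul_div_cancel₀ _ hm'.ne']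
  ring

end Vale.Agent.P096
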