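import Vale.Agent.P096.FTw

/-!
# P096 F: right multiplication by a matrix
* `rt_mul`, `rt_one`, `rt_sub`, `rt_star`: `ent_ext`, `ent_mat`, `ent_mul`, `SF.ρ_sum`, `SF.ρ_mul`, `Amp.amp_sum`, `Amp.amp_mul`.
* `norm_rt_le`: either `Z ↦ rt Z.unop` is a star algebra homomorphism from `(Op K)ᵐᵒᵖ` (`NonUnitalStarAlgHom.norm_apply_le`), or directly: with `η i j = (J i)† (J₂ j)† η`,
  `⟪η', rt Z η⟫ = ∑ i, ⟪a i, Z (b i)⟫` where `a i = ∑ j, J j (S.J (η i j))`, `b i = ∑ k, J k (S.J (η' i k))`.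
* `dv_comp`: the component `(j, k)` of the diagonal vector.
-/

namespace Vale.Agent.P096

open Vale.Agent.P104 Vale.Agent.P132 Filter Topology MeasureTheory
open scoped InnerProductSpace ENNReal

universe u

variable {H : Type u} [NormedAddCommGroup H] [InnerProductSpace ℂ H] [CompleteSpace H]
  {K : Type u} [NormedAddCommGroup K] [InnerProductSpace ℂ K] [CompleteSpace K]
  {K₂ : Type u} [NormedAddCommGroup K₂] [InnerProductSpace ℂ K₂] [CompleteSpace K₂]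
  {ι : Type*} [Fintype ι] [DecidableEq ι]
  (S : SF H) (A : Amp H K ι) (A₂ : Amp K K₂ ι)

theorem frt_ent (Z : Op K) (k j : ι) :
    ent A₂ (rt S A A₂ Z) k j = A.amp (S.ρ (ent A Z j k)) := ent_mat A₂ _ k j

theorem frt_adj (w : ι → ℝ) (ξ : H) (k : ι) :
    (A₂.J k).adjoint (dv A A₂ w ξ) = (w k : ℂ) • A.J k ξ := by
  simp [dv, A₂.adj_J_apply]

theorem rt_one : rt S A A₂ 1 = 1 := by
  refine ent_ext A₂ fun k j => ?_
  rw [frt_ent, ent_one, ent_one]
  by_cases h : j = k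
  · rw [if_pos h, if_pos h.symm, S.ρ_one, A.amp_one]
  · rw [if_neg h, if_neg (Ne.symm h), ← zero_smul ℂ (0 : Op H), S.ρ_smul, zero_smul, A.amp_zero]

theorem rt_mul (Z Z' : Op K) : rt S A A₂ (Z * Z') = rt S A A₂ Z' * rt S A A₂ Z := by
  refine ent_ext A₂ fun k j => ?_
  simp only [frt_ent, ent_mul, S.ρ_sum, S.ρ_mul, A.amp_sum, A.amp_mul]

theorem rt_sub (Z Z' : Op K) : rt S A A₂ (Z - Z') = rt S A A₂ Z - rt S A A₂ Z' := by
  refine ent_ext A₂ fun k j => ?_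
  simp only [frt_ent, ent_sub, S.ρ_sub, A.amp_sub]

theorem rt_star (Z : Op K) : rt S A A₂ (star Z) = star (rt S A A₂ Z) := by
  refine ent_ext A₂ fun k j => ?_
  simp only [frt_ent, ent_star, ← S.star_ρ, A.amp_star]

theorem norm_rt_le (Z : Op K) : ‖rt S A A₂ Z‖ ≤ ‖Z‖ := by
  let φ : (Op K)ᵐᵒᵖ →⋆ₙₐ[ℂ] Op K₂ :=
    { toFun := fun z => rt S A A₂ z.unop
      map_smul' := fun c z => ent_ext A₂ fun k j => by
        simp only [frt_ent, MulOpposite.unop_smul, ent_smul, S.ρ_smul, A.amp_smul, MonoidHom.id_apply]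
      map_zero' := by
        have e := rt_sub S A A₂ 0 0
        rwa [sub_self, sub_self] at e
      map_add' := fun z z' => ent_ext A₂ fun k j => by
        simp only [frt_ent, MulOpposite.unop_add, ent_add, S.ρ_add, A.amp_add]
      map_mul' := fun z z' => rt_mul S A A₂ _ _
      map_star' := fun z => rt_star S A A₂ _ }
  exact NonUnitalStarAlgHom.norm_apply_le φ (MulOpposite.op Z)

theorem rt_mem {Z : Op K} (hZ : Z ∈ A.alg S.M) : rt S A A₂ Z ∈ (big A A₂ S.M).commutant := by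
  exact mat_mem_big A A₂ fun k j => S.ρ_mem (A.entry_mem hZ j k)

theorem dv_comp (w : ι → ℝ) (ξ : H) (j k : ι) :
    (A.J j).adjoint ((A₂.J k).adjoint (dv A A₂ w ξ)) = if j = k then (w j : ℂ) • ξ else 0 := by
  rw [frt_adj, map_smul, A.adj_J_apply]
  split_ifs with h
  · rw [h]
  · simp

theorem ext_two {η η' : K₂}
    (h : ∀ j k, (A.J j).adjoint ((A₂.J k).adjoint η) = (A.J j).adjoint ((A₂.J k).adjoint η')) :
    η = η' := by
  exact A₂.ext_adj fun k => A.ext_adj fun j => h j k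

theorem norm_dv (w : ι → ℝ) (ξ : H) : ‖dv A A₂ w ξ‖ ^ 2 = (∑ j, w j ^ 2) * ‖ξ‖ ^ 2 := by
  rw [A₂.norm_sq_eq, Finset.sum_mul]
  refine Finset.sum_congr rfl fun k _ => ?_
  rw [frt_adj, norm_smul, A.norm_J, mul_pow, Complex.norm_real, Real.norm_eq_abs, sq_abs]

theorem amp_dv (w : ι → ℝ) (ξ : H) (Y : Op K) (j k : ι) :
    (A.J j).adjoint ((A₂.J k).adjoint (A₂.amp Y (dv A A₂ w ξ))) = (w k : ℂ) • ent A Y j k ξ := by
  rw [A₂.adj_amp, frt_adj, map_smul, map_smul, ent_apply]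

theorem mat_dv (w : ι → ℝ) (ξ : H) (X : ι → ι → Op H) (j k : ι) :
    (A.J j).adjoint ((A₂.J k).adjoint (mat A₂ (fun a b => A.amp (X a b)) (dv A A₂ w ξ))) =
      (w j : ℂ) • X k j ξ := by
  simp only [adj_mat, map_sum, A.adj_amp, dv_comp]
  simp [apply_ite]

end Vale.Agent.P096
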