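import Vale.Agent.P096.FRt
import Vale.Agent.P096.Eig

/-!
# P096 F: the slice map
Let `m = card ι`, `β l = S.σ (τ l)`.
* `sl_int`: `S' = mat A₂ (fun l k => A.amp (if l = k then β l y else 0))` (`mat_mem_big`, `σ_comm`); `(J₂ l)† (S' η) = A.amp (β l y) ((J₂ l)† η)`; its adjoint is the same matrix for `star y`.
* `sl_r'`: `S' = mat A₂ (fun l j => A.amp ((m⁻¹ (w j)⁻¹ fex (τ l) (s j)) • β l y))`. `(J₂ l)† (S' η) = A.amp (β l y) (m⁻¹ • (uc A₂ s (-τ l))† η')` where `η' = ∑ j, (w j)⁻¹ • J₂ j ((J₂ j)† η)`, `‖η'‖² ≤ B² m ‖η‖²`; `pars_disc' A₂`. The identity at the vector: `ext_two`, `mat_dv`, `SF.σ_ξ`.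
* `sl_r`: `X = A₂.amp X₁`, `X₁ = mat A (fun j l => (m⁻¹ (w l)⁻¹ fex (τ l) (s j)) • β l x)`; bound the adjoint: `(J l)† (star X₁ η) = m⁻¹ (w l)⁻¹ • β l (star x) ((uc A s (τ l))† η)`, `pars_disc A`; `Amp.norm_amp_le`, `amp_dv`, `mem_big`.
-/

namespace Vale.Agent.P096

open Vale.Agent.P104 Vale.Agent.P132 Filter Topology MeasureTheory
open scoped InnerProductSpace ENNReal

universe u

variable {H : Type u} [NormedAddCommGroup H] [InnerProductSpace ℂ H] [CompleteSpace H]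
  {K : Type u} [NormedAddCommGroup K] [InnerProductSpace ℂ K] [CompleteSpace K]
  {K₂ : Type u} [NormedAddCommGroup K₂] [InnerProductSpace ℂ K₂] [CompleteSpace K₂]
  {ι : Type*} [Fintype ι] [DecidableEq ι]
  [Nonempty ι] (S : SF H) (A : Amp H K ι) (A₂ : Amp K K₂ ι) {s τ w : ι → ℝ} {T B : ℝ}

omit [Nonempty ι] in
theorem adj_sl (D : ℝ → Op H) (l : ι) (ζ : H) : (A₂.J l).adjoint (sl A A₂ s τ D ζ) =
    (Fintype.card ι : ℂ)⁻¹ • uc A s (τ l) (D (τ l) ζ) := by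
  simp [sl, A₂.adj_J_apply]

theorem inner_sl (ζ ζ' : H) : ⟪sl A A₂ s τ S.Δ ζ, sl A A₂ s τ S.Δ ζ'⟫_ℂ = ⟪ζ, ζ'⟫_ℂ := by
  have hm : (Fintype.card ι : ℂ) ≠ 0 := Nat.cast_ne_zero.2 Fintype.card_ne_zero
  rw [A₂.inner_eq]
  simp only [adj_sl, inner_smul_left, inner_smul_right, inner_uc, FC.inner_Δ, map_inv₀,
    map_natCast, Finset.sum_const, Finset.card_univ, nsmul_eq_mul]
  field_simp

omit [Nonempty ι] in
theorem star_mat_fsl (X : ι → ι → Op H) : star (mat A X) = mat A fun j k => star (X k j) :=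
  ent_ext A fun j k => by rw [ent_star, ent_mat, ent_mat]

theorem σ_Δ_fsl (t : ℝ) (y : Op H) (ζ : H) : S.σ t y (S.Δ t ζ) = S.Δ t (y ζ) := by
  rw [FC.σ_apply, ← mul_apply_eq_comp (S.Δ (-t)), FC.Δ_neg_mul]
  rfl

theorem norm_σ_fsl (t : ℝ) (y : Op H) (ζ : H) : ‖S.σ t y ζ‖ ≤ ‖y‖ * ‖ζ‖ :=
  (S.σ t y).le_of_opNorm_le ((flow_Δ S).norm_conj t y) ζ

omit [Nonempty ι] in
theorem norm_amp_σ_fsl (t : ℝ) (y : Op H) (ζ : K) : ‖A.amp (S.σ t y) ζ‖ ≤ ‖y‖ * ‖ζ‖ :=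
  (A.amp (S.σ t y)).le_of_opNorm_le ((A.norm_amp_le _).trans ((flow_Δ S).norm_conj t y)) ζ

omit [Nonempty ι] in
theorem adj_diag_fsl (X : ι → Op H) (l : ι) (η : K₂) :
    (A₂.J l).adjoint (mat A₂ (fun l k => A.amp (if l = k then X l else 0)) η) =
      A.amp (X l) ((A₂.J l).adjoint η) := by
  rw [adj_mat, Finset.sum_eq_single l]
  · rw [if_pos rfl]
  · intro b _ hb
    rw [if_neg (Ne.symm hb), A.amp_zero]
    rfl
  · simp

omit [DecidableEq ι] [Nonempty ι] in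
theorem inv_sq_fsl (hw0 : ∀ j, 0 < w j) (hw : ∀ j, 1 ≤ B ^ 2 * Fintype.card ι * w j ^ 2) (j : ι) :
    ‖(w j : ℂ)⁻¹‖ ^ 2 ≤ B ^ 2 * Fintype.card ι := by
  rw [norm_inv, Complex.norm_real, Real.norm_of_nonneg (hw0 j).le, inv_pow,
    inv_le_iff_one_le_mul₀ (pow_pos (hw0 j) 2)]
  exact hw j

theorem sl_int {y : Op H} (hy : y ∈ S.M.commutant) : ∃ S' ∈ (big A A₂ S.M).commutant,
    ‖S'‖ ≤ ‖y‖ ∧ (∀ ζ, sl A A₂ s τ S.Δ (y ζ) = S' (sl A A₂ s τ S.Δ ζ)) ∧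
      ∀ ζ, sl A A₂ s τ S.Δ (star y ζ) = star S' (sl A A₂ s τ S.Δ ζ) := by
  have hi : ∀ (y : Op H) ζ, sl A A₂ s τ S.Δ (y ζ) =
      mat A₂ (fun l k => A.amp (if l = k then S.σ (τ l) y else 0)) (sl A A₂ s τ S.Δ ζ) := by
    intro y ζ
    refine A₂.ext_adj fun l => ?_
    rw [adj_diag_fsl, adj_sl, adj_sl, map_smul, amp_uc, σ_Δ_fsl]
  refine ⟨mat A₂ fun l k => A.amp (if l = k then S.σ (τ l) y else 0),
    mat_mem_big A A₂ fun l k => ?_, ?_, hi y, fun ζ => ?_⟩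
  · split_ifs
    exacts [σ_comm S hy _, zero_mem _]
  · refine ContinuousLinearMap.opNorm_le_bound _ (norm_nonneg _) fun η => ?_
    refine abs_le_of_sq_le_sq' ?_ (by positivity) |>.2
    rw [mul_pow, A₂.norm_sq_eq, A₂.norm_sq_eq η, Finset.mul_sum]
    refine Finset.sum_le_sum fun l _ => ?_
    rw [adj_diag_fsl, ← mul_pow]
    exact pow_le_pow_left₀ (norm_nonneg _) (norm_amp_σ_fsl S A _ _ _) 2
  · have e : (fun j k => star (A.amp (if k = j then S.σ (τ k) y else 0))) =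
        fun l k => A.amp (if l = k then S.σ (τ l) (star y) else 0) := by
      funext j k
      rw [← A.amp_star]
      by_cases h : j = k
      · rw [h, if_pos rfl, if_pos rfl, FC.σ_star]
      · rw [if_neg h, if_neg (Ne.symm h), star_zero]
    rw [hi, star_mat_fsl, e]

theorem sl_r' (h : Four s τ T) (hB : 0 ≤ B) (hw0 : ∀ j, 0 < w j)
    (hw : ∀ j, 1 ≤ B ^ 2 * Fintype.card ι * w j ^ 2) {y : Op H} (hy : y ∈ S.M.commutant) :
    ∃ S' ∈ (big A A₂ S.M).commutant, ‖S'‖ ≤ B * ‖y‖ ∧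
      sl A A₂ s τ S.Δ (y S.ξ) = S' (dv A A₂ w S.ξ) := by
  have hm : (0 : ℝ) < Fintype.card ι := Nat.cast_pos.2 Fintype.card_pos
  refine ⟨mat A₂ fun l j => A.amp
    (((Fintype.card ι : ℂ)⁻¹ * (w j : ℂ)⁻¹ * fex (τ l) (s j)) • S.σ (τ l) y),
    mat_mem_big A A₂ fun l k => SMulMemClass.smul_mem _ (σ_comm S hy _), ?_, ext_two A A₂ fun j k => ?_⟩
  · refine ContinuousLinearMap.opNorm_le_bound _ (by positivity) fun η => ?_
    refine abs_le_of_sq_le_sq' ?_ (by positivity) |>.2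
    obtain ⟨η', e⟩ : ∃ η' : K₂, ∀ j, (A₂.J j).adjoint η' = (w j : ℂ)⁻¹ • (A₂.J j).adjoint η :=
      ⟨∑ j, (w j : ℂ)⁻¹ • A₂.J j ((A₂.J j).adjoint η), fun j => by simp [A₂.adj_J_apply]⟩
    have h1 : ‖η'‖ ^ 2 ≤ B ^ 2 * Fintype.card ι * ‖η‖ ^ 2 := by
      rw [A₂.norm_sq_eq, A₂.norm_sq_eq η, Finset.mul_sum]
      refine Finset.sum_le_sum fun j _ => ?_
      rw [e, norm_smul, mul_pow]
      exact mul_le_mul_of_nonneg_right (inv_sq_fsl hw0 hw j) (sq_nonneg _)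
    have h2 : ∀ l, (A₂.J l).adjoint (mat A₂ (fun l j => A.amp
        (((Fintype.card ι : ℂ)⁻¹ * (w j : ℂ)⁻¹ * fex (τ l) (s j)) • S.σ (τ l) y)) η) =
        (Fintype.card ι : ℂ)⁻¹ • A.amp (S.σ (τ l) y) ((uc A₂ s (-τ l)).adjoint η') := by
      intro l
      rw [adj_mat, uc_adj, map_sum, Finset.smul_sum]
      refine Finset.sum_congr rfl fun j _ => ?_
      rw [e, A.amp_smul, neg_neg, map_smul, map_smul, smul_smul, smul_smul, mul_right_comm]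
      rfl
    calc _ ≤ ∑ l, ((Fintype.card ι : ℝ)⁻¹ * ‖y‖) ^ 2 * ‖(uc A₂ s (-τ l)).adjoint η'‖ ^ 2 := by
          rw [A₂.norm_sq_eq]
          refine Finset.sum_le_sum fun l _ => ?_
          rw [h2, norm_smul, norm_inv, Complex.norm_natCast, ← mul_pow, mul_assoc]
          gcongr
          exact norm_amp_σ_fsl S A _ _ _
      _ ≤ ((Fintype.card ι : ℝ)⁻¹ * ‖y‖) ^ 2 *
          (Fintype.card ι * (B ^ 2 * Fintype.card ι * ‖η‖ ^ 2)) := by
          rw [← Finset.mul_sum, pars_disc' A₂ h]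
          gcongr
      _ = _ := by field_simp
  · have hj : (w j : ℂ) ≠ 0 := Complex.ofReal_ne_zero.2 (hw0 j).ne'
    rw [mat_dv, adj_sl, map_smul, adj_uc, _root_.smul_apply, SF.σ_ξ, smul_smul, smul_smul]
    congr 1
    field_simp

theorem sl_r (h : Four s τ T) (hB : 0 ≤ B) (hw0 : ∀ j, 0 < w j)
    (hw : ∀ j, 1 ≤ B ^ 2 * Fintype.card ι * w j ^ 2) {x : Op H} (hx : x ∈ S.M) :
    ∃ X ∈ big A A₂ S.M, ‖X‖ ≤ B * ‖x‖ ∧ sl A A₂ s τ S.Δ (x S.ξ) = X (dv A A₂ w S.ξ) := by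
  have hm : (0 : ℝ) < Fintype.card ι := Nat.cast_pos.2 Fintype.card_pos
  refine ⟨A₂.amp (mat A fun j l =>
    ((Fintype.card ι : ℂ)⁻¹ * (w l : ℂ)⁻¹ * fex (τ l) (s j)) • S.σ (τ l) x),
    (mem_big A A₂).2 ⟨_, mat_mem A fun j l => SMulMemClass.smul_mem _ (S.σ_M x hx _), rfl⟩,
    (A₂.norm_amp_le _).trans ?_, ext_two A A₂ fun j k => ?_⟩
  · rw [← norm_star, star_mat_fsl]
    refine ContinuousLinearMap.opNorm_le_bound _ (by positivity) fun η => ?_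
    refine abs_le_of_sq_le_sq' ?_ (by positivity) |>.2
    have h2 : ∀ l, (A.J l).adjoint (mat A (fun l j => star
        (((Fintype.card ι : ℂ)⁻¹ * (w l : ℂ)⁻¹ * fex (τ l) (s j)) • S.σ (τ l) x)) η) =
        (w l : ℂ)⁻¹ • (Fintype.card ι : ℂ)⁻¹ •
          S.σ (τ l) (star x) ((uc A s (τ l)).adjoint η) := by
      intro l
      rw [adj_mat, uc_adj, map_sum, smul_smul, Finset.smul_sum]
      refine Finset.sum_congr rfl fun j _ => ?_
      rw [star_smul, ← FC.σ_star, map_smul, smul_smul, _root_.smul_apply, Complex.star_def,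
        map_mul, map_mul, map_inv₀, map_inv₀, map_natCast, Complex.conj_ofReal, conj_ex,
        mul_comm (w l : ℂ)⁻¹]
    calc _ ≤ ∑ l, B ^ 2 * Fintype.card ι * ((Fintype.card ι : ℝ)⁻¹ * ‖x‖) ^ 2 *
          ‖(uc A s (τ l)).adjoint η‖ ^ 2 := by
          rw [A.norm_sq_eq]
          refine Finset.sum_le_sum fun l _ => ?_
          rw [h2, norm_smul, mul_pow, mul_assoc (B ^ 2 * _), ← mul_pow (_ * ‖x‖)]
          refine mul_le_mul (inv_sq_fsl hw0 hw l) ?_ (sq_nonneg _) (by positivity)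
          rw [norm_smul, norm_inv, Complex.norm_natCast, mul_assoc, ← norm_star x]
          gcongr
          exact norm_σ_fsl S _ _ _
      _ = _ := by
          rw [← Finset.mul_sum, pars_disc A h]
          field_simp
  · have hj : (w k : ℂ) ≠ 0 := Complex.ofReal_ne_zero.2 (hw0 k).ne'
    rw [amp_dv, ent_mat, adj_sl, map_smul, adj_uc, _root_.smul_apply, SF.σ_ξ, smul_smul,
      smul_smul]
    congr 1
    field_simp

end Vale.Agent.P096
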