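import Vale.Agent.P096.FFour

/-!
# P096 F: matrix calculus, twisted flows, Parseval
Everything is proved with `Amp.ext_adj`, `Amp.op_ext`, `Amp.adj_J_apply`, `Amp.inner_eq`, `Amp.norm_sq_eq` (P104/AmpBasic). Prove `adj_tw` and `adj_uc` first.
* `pars_disc`, `pars_cont`: `‖(uc t)† η‖² = ∑ j k, fex t (s j - s k) * ⟪η j, η k⟫` with `η j = (J j)† η`; exchange the sums (or `integral_finset_sum`) and use `Four.disc`, `Four.cont`.
-/

namespace Vale.Agent.P096

open Vale.Agent.P104 Vale.Agent.P132 Filter Topology MeasureTheory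
open scoped InnerProductSpace ENNReal

universe u

variable {H : Type u} [NormedAddCommGroup H] [InnerProductSpace ℂ H] [CompleteSpace H]
  {K : Type u} [NormedAddCommGroup K] [InnerProductSpace ℂ K] [CompleteSpace K]
  {K₂ : Type u} [NormedAddCommGroup K₂] [InnerProductSpace ℂ K₂] [CompleteSpace K₂]
  {ι : Type*} [Fintype ι] [DecidableEq ι]
  (A : Amp H K ι) {M : VonNeumannAlgebra H} {V V' : ℝ → Op H}

/-! ### flows -/

theorem flow_Δ (S : SF H) : Flow S.M S.Δ := by
  exact ⟨S.Δ_zero, S.Δ_add, S.star_Δ, S.continuous_Δ, fun t x hx => S.σ_M x hx t⟩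

theorem Flow.unit (h : Flow M V) (t : ℝ) : V t ∈ unitary (Op H) := by
  refine Unitary.mem_iff.2 ⟨?_, ?_⟩
  · rw [h.star, ← h.add, neg_add_cancel, h.zero]
  · rw [h.star, ← h.add, add_neg_cancel, h.zero]

theorem Flow.norm_apply (h : Flow M V) (t : ℝ) (η : H) : ‖V t η‖ = ‖η‖ := by
  rw [← sq_eq_sq₀ (norm_nonneg _) (norm_nonneg _), ← qf_star_mul_self, (h.unit t).1, qf_one]

theorem Flow.norm_le (h : Flow M V) (t : ℝ) : ‖V t‖ ≤ 1 := by
  exact ContinuousLinearMap.opNorm_le_bound _ zero_le_one fun η => by rw [h.norm_apply, one_mul]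

theorem Flow.norm_conj (h : Flow M V) (t : ℝ) (x : Op H) : ‖V t * x * V (-t)‖ ≤ ‖x‖ := by
  refine ContinuousLinearMap.opNorm_le_bound _ (norm_nonneg _) fun η => ?_
  change ‖V t (x (V (-t) η))‖ ≤ _
  rw [h.norm_apply, ← h.norm_apply (-t) η]
  exact x.le_opNorm _

/-- as `FC.continuous_σ` -/
theorem Flow.cont_conj (h : Flow M V) (x : Op H) (η : H) :
    Continuous fun t => (V t * x * V (-t)) η := by
  have hv : Continuous fun t => x (V (-t) η) := x.continuous.comp ((h.cont η).comp continuous_neg)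
  refine continuous_iff_continuousAt.2 fun s => tendsto_iff_norm_sub_tendsto_zero.2 ?_
  have h3 := (tendsto_iff_norm_sub_tendsto_zero.1 (hv.tendsto s)).add
    (tendsto_iff_norm_sub_tendsto_zero.1 ((h.cont (x (V (-s) η))).tendsto s))
  rw [add_zero] at h3
  refine squeeze_zero (fun _ => norm_nonneg _) (fun t => ?_) h3
  rw [← h.norm_apply t (x (V (-t) η) - x (V (-s) η)), map_sub]
  exact norm_sub_le_norm_sub_add_norm_sub _ _ _

theorem Flow.conj_sub {M' : VonNeumannAlgebra H} (h : Flow M V) (h' : Flow M' V') {δ t : ℝ}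
    (hδ : ∀ t, ‖V t - V' t‖ ≤ δ) (x : Op H) :
    ‖V t * x * V (-t) - V' t * x * V' (-t)‖ ≤ 2 * δ * ‖x‖ := by
  have e : V t * x * V (-t) - V' t * x * V' (-t) =
      (V t - V' t) * x * V (-t) + V' t * x * (V (-t) - V' (-t)) := by noncomm_ring
  have h0 : 0 ≤ δ := (norm_nonneg _).trans (hδ 0)
  have e1 : ‖(V t - V' t) * x * V (-t)‖ ≤ δ * ‖x‖ * 1 := (norm_mul_le _ _).trans (mul_le_mul
    ((norm_mul_le _ _).trans (mul_le_mul_of_nonneg_right (hδ t) (norm_nonneg _))) (h.norm_le _)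
    (norm_nonneg _) (by positivity))
  have e2 : ‖V' t * x * (V (-t) - V' (-t))‖ ≤ 1 * ‖x‖ * δ := (norm_mul_le _ _).trans (mul_le_mul
    ((norm_mul_le _ _).trans (mul_le_mul_of_nonneg_right (h'.norm_le t) (norm_nonneg _))) (hδ _)
    (norm_nonneg _) (by positivity))
  rw [e]
  linarith [norm_add_le ((V t - V' t) * x * V (-t)) (V' t * x * (V (-t) - V' (-t)))]

/-- cut `t` in `⌈|t|⌉` pieces of length at most one -/
theorem Flow.osc (h : Flow M V) {x : Op H} {o : ℝ}
    (ho : ∀ t, |t| ≤ 1 → ‖V t * x * V (-t) - x‖ ≤ o) (t : ℝ) :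
    ‖V t * x * V (-t) - x‖ ≤ o * (1 + |t|) := by
  have h0 : 0 ≤ o := (norm_nonneg _).trans (ho 0 (by simp))
  have key : ∀ s, |s| ≤ 1 → ∀ n : ℕ, ‖V (n * s) * x * V (-(n * s)) - x‖ ≤ o * n := by
    intro s hs n
    induction n with
    | zero => simp [h.zero]
    | succ n ih =>
      have e : V ((n + 1 : ℕ) * s) * x * V (-((n + 1 : ℕ) * s)) - x =
          V s * (V (n * s) * x * V (-(n * s)) - x) * V (-s) + (V s * x * V (-s) - x) := by
        rw [Nat.cast_succ, add_mul, one_mul, neg_add, h.add (-(n * s)), add_comm _ s, h.add s]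
        noncomm_ring
      rw [e, Nat.cast_succ]
      linarith [norm_add_le (V s * (V (n * s) * x * V (-(n * s)) - x) * V (-s))
        (V s * x * V (-s) - x), h.norm_conj s (V (n * s) * x * V (-(n * s)) - x), ho s hs]
  have hn : (0 : ℝ) < (⌊|t|⌋₊ + 1 : ℕ) := by positivity
  have e := key (t / (⌊|t|⌋₊ + 1 : ℕ)) (by
    rw [abs_div, abs_of_pos hn, div_le_one hn, Nat.cast_succ]
    exact (Nat.lt_floor_add_one _).le) (⌊|t|⌋₊ + 1)
  rw [mul_div_cancel₀ _ hn.ne'] at e
  refine e.trans (mul_le_mul_of_nonneg_left ?_ h0)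
  rw [Nat.cast_succ]
  linarith [Nat.floor_le (abs_nonneg t)]

/-! ### entries -/

theorem ent_apply (Y : Op K) (j k : ι) (η : H) : ent A Y j k η = (A.J j).adjoint (Y (A.J k η)) := rfl

theorem ent_ext {Y Y' : Op K} (h : ∀ j k, ent A Y j k = ent A Y' j k) : Y = Y' := by
  exact A.op_ext fun a b ξ => DFunLike.congr_fun (h a b) ξ

theorem adj_mat (X : ι → ι → Op H) (j : ι) (η : K) :
    (A.J j).adjoint (mat A X η) = ∑ k, X j k ((A.J k).adjoint η) := by
  simp only [mat, _root_.sum_apply, ContinuousLinearMap.comp_apply, map_sum, A.adj_J_apply]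
  rw [Finset.sum_comm]
  simp

theorem ent_mat (X : ι → ι → Op H) (j k : ι) : ent A (mat A X) j k = X j k := by
  ext η
  simp [ent_apply, adj_mat, A.adj_J_apply, apply_ite]

theorem ent_mul (Y Y' : Op K) (j k : ι) : ent A (Y * Y') j k = ∑ l, ent A Y j l * ent A Y' l k := by
  ext η
  change (A.J j).adjoint (Y (Y' (A.J k η))) = _
  conv_lhs => rw [← A.sum_J_apply (Y' (A.J k η)), map_sum, map_sum]
  rw [_root_.sum_apply]
  rfl

theorem ent_star (Y : Op K) (j k : ι) : ent A (star Y) j k = star (ent A Y k j) := by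
  ext η
  refine ext_inner_left ℂ fun ζ => ?_
  rw [inner_star_right, ent_apply, ent_apply, ContinuousLinearMap.adjoint_inner_right,
    inner_star_right, ContinuousLinearMap.adjoint_inner_left]

theorem ent_add (Y Y' : Op K) (j k : ι) : ent A (Y + Y') j k = ent A Y j k + ent A Y' j k := by
  ext η
  simp [ent_apply]

theorem ent_sub (Y Y' : Op K) (j k : ι) : ent A (Y - Y') j k = ent A Y j k - ent A Y' j k := by
  ext η
  simp [ent_apply]

theorem ent_smul (c : ℂ) (Y : Op K) (j k : ι) : ent A (c • Y) j k = c • ent A Y j k := by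
  ext η
  simp [ent_apply]

theorem ent_amp (y : Op H) (j k : ι) : ent A (A.amp y) j k = if j = k then y else 0 := by
  ext η
  rw [ent_apply, A.amp_J, A.adj_J_apply]
  split_ifs <;> rfl

theorem ent_one (j k : ι) : ent A 1 j k = if j = k then 1 else 0 := by
  rw [← A.amp_one, ent_amp]

theorem mat_mem {X : ι → ι → Op H} (h : ∀ j k, X j k ∈ M) : mat A X ∈ A.alg M := by
  refine A.mem_alg_of_entry fun a b => ?_
  have e := h a b
  rwa [← ent_mat A X a b] at e

theorem mem_big [Nonempty ι] (A₂ : Amp K K₂ ι) {c : Op K₂} :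
    c ∈ big A A₂ M ↔ ∃ X ∈ A.alg M, c = A₂.amp X := by
  rw [big, mem_alg_commutant, VonNeumannAlgebra.commutant_commutant]

/-- matrices over the commutant in the second index -/
theorem mat_mem_big (A₂ : Amp K K₂ ι) {X : ι → ι → Op H} (h : ∀ j k, X j k ∈ M.commutant) :
    mat A₂ (fun j k => A.amp (X j k)) ∈ (big A A₂ M).commutant := by
  rw [big, VonNeumannAlgebra.commutant_commutant]
  exact mat_mem A₂ fun j k => A.amp_mem_commutant (h j k)

/-! ### twisted flows -/

variable (s : ι → ℝ)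

theorem adj_tw (V : ℝ → Op H) (t : ℝ) (j : ι) (η : K) :
    (A.J j).adjoint (tw A s V t η) = fex t (s j) • V t ((A.J j).adjoint η) := by
  simp [tw, A.adj_J_apply]

theorem ent_tw (V : ℝ → Op H) (t : ℝ) (Y : Op K) (j k : ι) :
    ent A (tw A s V t * Y * tw A s V (-t)) j k = fex t (s j - s k) • (V t * ent A Y j k * V (-t)) := by
  ext η
  have e : tw A s V (-t) (A.J k η) = fex (-t) (s k) • A.J k (V (-t) η) := A.ext_adj fun a => by
    rw [adj_tw, map_smul, A.adj_J_apply, A.adj_J_apply]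
    split_ifs with h
    · rw [h]
    · simp
  change (A.J j).adjoint (tw A s V t (Y (tw A s V (-t) (A.J k η)))) = _
  rw [adj_tw, e, ex_sub', map_smul, map_smul, map_smul, smul_smul]
  rfl

theorem Flow.tw (h : Flow M V) : Flow (A.alg M) (tw A s V) := by
  refine ⟨?_, fun t t' => ?_, fun t => ?_, fun η => ?_, fun t x hx => ?_⟩
  · ext η
    exact A.ext_adj fun a => by simp [adj_tw, fex_zero, h.zero]
  · ext η
    exact A.ext_adj fun a => by simp [adj_tw, fex_add, h.add, smul_smul]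
  · ext η
    refine ext_inner_left ℂ fun ζ => ?_
    rw [inner_star_right, A.inner_eq, A.inner_eq ζ]
    simp only [adj_tw, inner_smul_left, inner_smul_right, conj_ex, ← h.star, inner_star_right]
  · simp only [P096.tw, _root_.sum_apply, _root_.smul_apply, ContinuousLinearMap.comp_apply]
    exact continuous_finsetSum _ fun j _ =>
      (continuous_fex _).smul ((A.J j).continuous.comp (h.cont _))
  · refine A.mem_alg_of_entry fun a b => ?_
    have e : fex t (s a - s b) • (V t * ent A x a b * V (-t)) ∈ M :=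
      SMulMemClass.smul_mem _ (h.mem t _ (A.entry_mem hx a b))
    rwa [← ent_tw] at e

theorem norm_tw_sub {δ t : ℝ} (h : ‖V t - V' t‖ ≤ δ) : ‖tw A s V t - tw A s V' t‖ ≤ δ := by
  have h0 : 0 ≤ δ := (norm_nonneg _).trans h
  refine ContinuousLinearMap.opNorm_le_bound _ h0 fun ζ => ?_
  refine (sq_le_sq₀ (norm_nonneg _) (by positivity)).1 ?_
  rw [mul_pow, A.norm_sq_eq, A.norm_sq_eq ζ, Finset.mul_sum]
  refine Finset.sum_le_sum fun a _ => ?_
  rw [_root_.sub_apply, map_sub, adj_tw, adj_tw, ← smul_sub, norm_smul, norm_ex, one_mul, ← mul_pow]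
  exact pow_le_pow_left₀ (norm_nonneg _) (((V t - V' t).le_opNorm _).trans
    (mul_le_mul_of_nonneg_right h (norm_nonneg _))) 2

theorem adj_uc (t : ℝ) (j : ι) (ζ : H) : (A.J j).adjoint (uc A s t ζ) = fex t (s j) • ζ := by
  simp [uc, A.adj_J_apply]

theorem uc_adj (t : ℝ) (η : K) :
    (uc A s t).adjoint η = ∑ j, fex (-t) (s j) • (A.J j).adjoint η := by
  refine ext_inner_left ℂ fun ζ => ?_
  rw [ContinuousLinearMap.adjoint_inner_right, A.inner_eq, inner_sum]
  simp only [adj_uc, inner_smul_left, inner_smul_right, conj_ex]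

theorem uc_adj_uc (t t' : ℝ) (ζ : H) : (uc A s t).adjoint (uc A s t' ζ) = dir s (t' - t) • ζ := by
  simp only [uc_adj, adj_uc, smul_smul, dir, Finset.sum_smul, ← fex_add, neg_add_eq_sub]

theorem inner_uc (t : ℝ) (ζ ζ' : H) :
    ⟪uc A s t ζ, uc A s t ζ'⟫_ℂ = (Fintype.card ι : ℂ) * ⟪ζ, ζ'⟫_ℂ := by
  rw [← ContinuousLinearMap.adjoint_inner_right, uc_adj_uc, inner_smul_right]
  simp [dir, fex_zero]

theorem norm_uc_le (t : ℝ) : ‖uc A s t‖ ≤ Fintype.card ι := by
  refine ContinuousLinearMap.opNorm_le_bound _ (Nat.cast_nonneg _) fun ζ => ?_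
  rw [uc, _root_.sum_apply, ← nsmul_eq_mul, ← Finset.card_univ, ← Finset.sum_const]
  refine norm_sum_le_of_le _ fun j _ => ?_
  rw [_root_.smul_apply, norm_smul, norm_ex, one_mul, A.norm_J]

theorem amp_uc (y : Op H) (t : ℝ) (ζ : H) : A.amp y (uc A s t ζ) = uc A s t (y ζ) := by
  exact A.ext_adj fun a => by rw [A.adj_amp, adj_uc, adj_uc, map_smul]

theorem tw_uc (V : ℝ → Op H) (r t : ℝ) (ζ : H) :
    tw A s V r (uc A s t ζ) = uc A s (r + t) (V r ζ) := by
  exact A.ext_adj fun a => by rw [adj_tw, adj_uc, adj_uc, map_smul, smul_smul, fex_add]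

theorem uc_adj_tw (V : ℝ → Op H) (r t : ℝ) (η : K) :
    (uc A s t).adjoint (tw A s V (-r) η) = V (-r) ((uc A s (r + t)).adjoint η) := by
  simp only [uc_adj, adj_tw, map_sum, map_smul, smul_smul, ← fex_add, neg_add_rev]

theorem continuous_uc (ζ : H) : Continuous fun t => uc A s t ζ := by
  simp only [uc, _root_.sum_apply, _root_.smul_apply]
  exact continuous_finsetSum _ fun j _ => (continuous_fex _).smul continuous_const

theorem continuous_uc_adj (η : K) : Continuous fun t => (uc A s t).adjoint η := by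
  simp only [uc_adj]
  exact continuous_finsetSum _ fun j _ =>
    ((continuous_fex _).comp continuous_neg).smul continuous_const

variable {s} {τ : ι → ℝ} {T : ℝ}

theorem ftw_sq (t : ℝ) (η : K) : ((‖(uc A s t).adjoint η‖ ^ 2 : ℝ) : ℂ) =
    ∑ j, ∑ k, fex t (s j - s k) * ⟪(A.J j).adjoint η, (A.J k).adjoint η⟫_ℂ := by
  have e := inner_self_eq_norm_sq_to_K (𝕜 := ℂ) ((uc A s t).adjoint η)
  rw [Complex.ofReal_pow]
  refine Eq.trans e.symm ?_
  rw [uc_adj, sum_inner]
  refine Finset.sum_congr rfl fun j _ => ?_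
  rw [inner_sum]
  refine Finset.sum_congr rfl fun k _ => ?_
  rw [inner_smul_left, inner_smul_right, conj_ex, neg_neg, ex_sub', mul_assoc]

theorem ftw_fin (η : K) (c : ι → ι → ι → ℂ)
    (h : ∀ j k, ∑ l, c l j k = if j = k then (Fintype.card ι : ℂ) else 0) :
    ∑ l, ∑ j, ∑ k, c l j k * ⟪(A.J j).adjoint η, (A.J k).adjoint η⟫_ℂ =
      ((Fintype.card ι * ‖η‖ ^ 2 : ℝ) : ℂ) := by
  rw [Finset.sum_comm, Finset.sum_congr rfl fun j _ => Finset.sum_comm]
  simp only [← Finset.sum_mul, h, ite_mul, zero_mul, Finset.sum_ite_eq, Finset.mem_univ, if_true,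
    ← Finset.mul_sum, ← A.inner_eq]
  rw [inner_self_eq_norm_sq_to_K]
  simp

theorem pars_disc (h : Four s τ T) (η : K) :
    ∑ l, ‖(uc A s (τ l)).adjoint η‖ ^ 2 = Fintype.card ι * ‖η‖ ^ 2 := by
  refine Complex.ofReal_injective ?_
  simp only [Complex.ofReal_sum, ftw_sq]
  exact ftw_fin A η _ fun j k => h.disc j k

/-- the same with the opposite sign -/
theorem pars_disc' (h : Four s τ T) (η : K) :
    ∑ l, ‖(uc A s (-τ l)).adjoint η‖ ^ 2 = Fintype.card ι * ‖η‖ ^ 2 := by
  refine Complex.ofReal_injective ?_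
  simp only [Complex.ofReal_sum, ftw_sq]
  refine ftw_fin A η _ fun j k => ?_
  simp only [← ex_neg, neg_sub, h.disc, eq_comm]

theorem pars_cont (h : Four s τ T) (η : K) :
    ∫ t in Set.Icc (-(T / 2)) (T / 2), ‖(uc A s t).adjoint η‖ ^ 2 = T * ‖η‖ ^ 2 := by
  refine Complex.ofReal_injective ?_
  have hi : ∀ j k, IntegrableOn (fun t => fex t (s j - s k) *
      ⟪(A.J j).adjoint η, (A.J k).adjoint η⟫_ℂ) (Set.Icc (-(T / 2)) (T / 2)) := fun j k =>
    ((continuous_fex _).mul continuous_const).integrableOn_Icc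
  rw [← integral_complex_ofReal]
  simp only [ftw_sq]
  rw [integral_finsetSum _ fun j _ => integrable_finsetSum _ fun k _ => hi j k]
  simp only [integral_finsetSum _ fun k _ => hi _ k, integral_mul_const, h.cont, ite_mul, zero_mul,
    Finset.sum_ite_eq, Finset.mem_univ, if_true, ← Finset.mul_sum, ← A.inner_eq]
  rw [inner_self_eq_norm_sq_to_K]
  simp

end Vale.Agent.P096
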