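import Vale.Agent.P096.FDefs
import Vale.Agent.P132.Gns

/-!
# P096 F: the Hilbert space ultraproduct
`exists_ult`: `B = lp (fun n => Op (K n)) ∞` is a C*-algebra. `φ c = lim_ω ⟪Ξ n, c n (Ξ n)⟫` (limit of a bounded sequence along an ultrafilter: `IsCompact.ultrafilter_le_nhds` for a closed ball; linear by
uniqueness of limits, `LinearMap.mkContinuous` with `lp.norm_apply_le_norm`), positive since `φ (star c * c) = lim ‖c n Ξ n‖²`. `gns_abs` gives `L, Λ, π`. Put `q η = Λ (sq fun n => rankOne (η n) (Ξ n))`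
(`ζ ↦ ⟪Ξ n, ζ⟫ • η n`, for instance `(innerSL ℂ (Ξ n)).smulRight (η n)`). Key: `⟪Λ c, Λ c'⟫ = lim ⟪c n Ξ n, c' n Ξ n⟫`, so `Λ c = Λ c'` when `c n Ξ n = c' n Ξ n` for all `n` (expand `‖Λ c - Λ c'‖²`),
in particular `Λ c = q (c n Ξ n)`.
The other lemmas: expand `⟪a - b, a - b⟫` and use `inner_q` with `tendsto_nhds_unique`; `norm_π_le` by density (`Ult.dense`, closed condition `‖π c ζ‖ ≤ C ‖ζ‖`).
-/

namespace Vale.Agent.P096

open Vale.Agent.P104 Vale.Agent.P132 Filter Topology MeasureTheory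
open scoped InnerProductSpace ENNReal

universe u

section Sq

variable {E : ℕ → Type*} [∀ n, NormedAddCommGroup (E n)]

theorem sq_apply {f : ∀ n, E n} (h : Bd f) (n : ℕ) : sq f n = f n := by
  obtain ⟨C, hC⟩ := h
  have e : Memℓp f ∞ := memℓp_infty ⟨C, Set.forall_mem_range.2 hC⟩
  rw [sq, dif_pos e]

theorem norm_sq_le {f : ∀ n, E n} {C : ℝ} (h : ∀ n, ‖f n‖ ≤ C) : ‖sq f‖ ≤ C := by
  exact lp.norm_le_of_forall_le' C fun n => by rw [sq_apply ⟨C, h⟩]; exact h n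

theorem bd_lp (c : lp E ∞) : Bd fun n => c n := by
  exact ⟨‖c‖, lp.norm_apply_le_norm ENNReal.top_ne_zero c⟩

theorem Bd.add {f g : ∀ n, E n} (hf : Bd f) (hg : Bd g) : Bd fun n => f n + g n := by
  obtain ⟨C, hC⟩ := hf
  obtain ⟨D, hD⟩ := hg
  exact ⟨C + D, fun n => norm_add_le_of_le (hC n) (hD n)⟩

theorem Bd.sub {f g : ∀ n, E n} (hf : Bd f) (hg : Bd g) : Bd fun n => f n - g n := by
  obtain ⟨C, hC⟩ := hf
  obtain ⟨D, hD⟩ := hg
  exact ⟨C + D, fun n => norm_sub_le_of_le (hC n) (hD n)⟩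

theorem Bd.smul [∀ n, NormedSpace ℂ (E n)] {f : ∀ n, E n} (hf : Bd f) (c : ℂ) :
    Bd fun n => c • f n := by
  obtain ⟨C, hC⟩ := hf
  exact ⟨‖c‖ * C, fun n => (norm_smul_le _ _).trans (mul_le_mul_of_nonneg_left (hC n) (norm_nonneg _))⟩

end Sq

variable {K : ℕ → Type u} [∀ n, NormedAddCommGroup (K n)] [∀ n, InnerProductSpace ℂ (K n)]
  [∀ n, CompleteSpace (K n)] [∀ n, Nontrivial (Op (K n))] {ω : Ultrafilter ℕ}

theorem fult_state (Ξ : ∀ n, K n) (hΞ : ∀ n, ‖Ξ n‖ = 1) (ω : Ultrafilter ℕ) :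
    ∃ φ : lp (fun n => Op (K n)) ∞ →L[ℂ] ℂ,
      ∀ c, Tendsto (fun n => ⟪Ξ n, c n (Ξ n)⟫_ℂ) ω (𝓝 (φ c)) := by
  have hb : ∀ (c : lp (fun n => Op (K n)) ∞) (n : ℕ), ‖⟪Ξ n, c n (Ξ n)⟫_ℂ‖ ≤ ‖c‖ := fun c n => by
    refine (norm_inner_le_norm _ _).trans ?_
    rw [hΞ, one_mul]
    refine ((c n).le_opNorm _).trans ?_
    rw [hΞ, mul_one]
    exact lp.norm_apply_le_norm ENNReal.top_ne_zero c n
  have hl : ∀ c : lp (fun n => Op (K n)) ∞,
      ∃ z, Tendsto (fun n => ⟪Ξ n, c n (Ξ n)⟫_ℂ) ω (𝓝 z) := fun c => by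
    obtain ⟨z, -, hz⟩ := (isCompact_closedBall (0 : ℂ) ‖c‖).ultrafilter_le_nhds
      (ω.map fun n => ⟪Ξ n, c n (Ξ n)⟫_ℂ) (le_principal_iff.2 (mem_map.2
        (univ_mem' fun n => mem_closedBall_zero_iff.2 (hb c n))))
    exact ⟨z, hz⟩
  choose f hf using hl
  refine ⟨LinearMap.mkContinuous ⟨⟨f, fun c c' => ?_⟩, fun a c => ?_⟩ 1 fun c => ?_, hf⟩
  · exact tendsto_nhds_unique (hf _) (((hf c).add (hf c')).congr fun n =>
      (inner_add_right _ _ _).symm)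
  · exact tendsto_nhds_unique (hf _) (((hf c).const_mul a).congr fun n =>
      (inner_smul_right _ _ _).symm)
  · rw [one_mul]
    exact le_of_tendsto' (hf c).norm (hb c)

omit [∀ n, CompleteSpace (K n)] [∀ n, Nontrivial (Op (K n))] in
open scoped ComplexOrder in
theorem fult_pos {η : ∀ n, K n} {z : ℂ} (h : Tendsto (fun n => ⟪η n, η n⟫_ℂ) ω (𝓝 z)) :
    0 ≤ z := ge_of_tendsto' h fun n => by
  rw [inner_self_eq_norm_sq_to_K]
  exact pow_nonneg (Complex.zero_le_real.2 (norm_nonneg (η n))) 2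

theorem exists_ult (Ξ : ∀ n, K n) (hΞ : ∀ n, ‖Ξ n‖ = 1) (ω : Ultrafilter ℕ) :
    ∃ (L : Type u) (_ : NormedAddCommGroup L) (_ : InnerProductSpace ℂ L) (_ : CompleteSpace L),
      Nonempty (Ult K ω L) := by
  let _ : CStarAlgebra (lp (fun n => Op (K n)) ∞) := { }
  obtain ⟨φ, hφ⟩ := fult_state Ξ hΞ ω
  have key : ∀ c c' : lp (fun n => Op (K n)) ∞,
      Tendsto (fun n => ⟪c n (Ξ n), c' n (Ξ n)⟫_ℂ) ω (𝓝 (φ (star c * c'))) := fun c c' =>
    (hφ (star c * c')).congr fun n => inner_star_right (c n) (Ξ n) (c' n (Ξ n))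
  obtain ⟨L, i1, i2, i3, Λ, π, hd, hπ, hi⟩ := gns_abs φ fun x => fult_pos (key x x)
  let r : (∀ n, K n) → ∀ n, Op (K n) := fun η n => (innerSL ℂ (Ξ n)).smulRight (η n)
  have hr : ∀ η, Bd η → ∀ n, sq (r η) n (Ξ n) = η n := fun η ⟨C, hC⟩ n => by
    rw [sq_apply ⟨C, fun n => by simpa [r, hΞ] using hC n⟩]
    simp [r, inner_self_eq_norm_sq_to_K, hΞ]
  have hΛ : ∀ c c' : lp (fun n => Op (K n)) ∞, (∀ n, c n (Ξ n) = c' n (Ξ n)) → Λ c = Λ c' :=
    fun c c' h => hd.eq_of_inner_right ℂ fun z => by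
      rw [hi, hi]
      exact tendsto_nhds_unique (key z c) (by simpa only [h] using key z c')
  have hb : ∀ (c : lp (fun n => Op (K n)) ∞) (η : ∀ n, K n), Bd η → Bd fun n => c n (η n) :=
    fun c η ⟨C, hC⟩ => ⟨‖c‖ * C, fun n => ((c n).le_opNorm _).trans (mul_le_mul
      (lp.norm_apply_le_norm ENNReal.top_ne_zero c n) (hC n) (norm_nonneg _) (norm_nonneg _))⟩
  refine ⟨L, i1, i2, i3, ⟨⟨π, fun η => Λ (sq (r η)), fun η η' h h' => ?_, fun c η h => ?_, ?_⟩⟩⟩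
  · rw [hi]
    simpa only [hr η h, hr η' h'] using key (sq (r η)) (sq (r η'))
  · rw [hπ]
    refine hΛ _ _ fun n => ?_
    rw [hr _ (hb c η h)]
    exact congrArg (c n) (hr η h n)
  · refine Dense.mono ?_ hd
    rintro _ ⟨c, rfl⟩
    have h := hb c Ξ ⟨1, fun n => (hΞ n).le⟩
    exact ⟨_, h, hΛ _ _ (hr _ h)⟩

omit [∀ n, CompleteSpace (K n)] [∀ n, Nontrivial (Op (K n))] in
theorem Bd.app {c : ∀ n, Op (K n)} {η : ∀ n, K n} (hc : Bd c) (hη : Bd η) :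
    Bd fun n => c n (η n) := by
  obtain ⟨C, hC⟩ := hc
  obtain ⟨D, hD⟩ := hη
  exact ⟨C * D, fun n => ((c n).le_opNorm _).trans
    (mul_le_mul (hC n) (hD n) (norm_nonneg _) ((norm_nonneg _).trans (hC n)))⟩

variable {L : Type u} [NormedAddCommGroup L] [InnerProductSpace ℂ L] [CompleteSpace L]
  (U : Ult K ω L) {η η' : ∀ n, K n}

theorem Ult.q_congr (h : Bd η) (h' : Bd η') (e : ∀ᶠ n in ω, η n = η' n) : U.q η = U.q η' := by
  refine U.dense.eq_of_inner_right ℂ ?_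
  rintro _ ⟨z, hz, rfl⟩
  exact tendsto_nhds_unique ((U.inner_q z η hz h).congr' (e.mono fun n hn => by rw [hn]))
    (U.inner_q z η' hz h')

theorem Ult.q_add (h : Bd η) (h' : Bd η') : U.q (fun n => η n + η' n) = U.q η + U.q η' := by
  refine U.dense.eq_of_inner_right ℂ ?_
  rintro _ ⟨z, hz, rfl⟩
  refine tendsto_nhds_unique (U.inner_q z _ hz (h.add h')) ?_
  simp only [inner_add_right]
  exact (U.inner_q z η hz h).add (U.inner_q z η' hz h')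

theorem Ult.q_smul (h : Bd η) (c : ℂ) : U.q (fun n => c • η n) = c • U.q η := by
  refine U.dense.eq_of_inner_right ℂ ?_
  rintro _ ⟨z, hz, rfl⟩
  refine tendsto_nhds_unique (U.inner_q z _ hz (h.smul c)) ?_
  simp only [inner_smul_right]
  exact (U.inner_q z η hz h).const_mul c

theorem Ult.tendsto_norm (h : Bd η) : Tendsto (fun n => ‖η n‖) ω (𝓝 ‖U.q η‖) := by
  have e := (U.inner_q η η h h).norm.sqrt
  simpa only [inner_self_eq_norm_sq_to_K, norm_pow, RCLike.norm_ofReal, abs_norm,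
    Real.sqrt_sq (norm_nonneg _)] using e

theorem Ult.norm_π_le (c : lp (fun n => Op (K n)) ∞) {C : ℝ} (h : ∀ᶠ n in ω, ‖c n‖ ≤ C) :
    ‖U.π c‖ ≤ C := by
  have h0 : 0 ≤ C := (norm_nonneg _).trans h.exists.choose_spec
  refine ContinuousLinearMap.opNorm_le_bound _ h0 fun ζ => ?_
  refine U.dense.induction (P := fun ζ => ‖U.π c ζ‖ ≤ C * ‖ζ‖) ?_
    (isClosed_le (by fun_prop) (by fun_prop)) ζ
  rintro _ ⟨z, hz, rfl⟩
  rw [U.act c z hz]
  exact le_of_tendsto_of_tendsto (U.tendsto_norm ((bd_lp c).app hz))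
    ((U.tendsto_norm hz).const_mul C) (h.mono fun n hn => ((c n).le_opNorm _).trans
      (mul_le_mul_of_nonneg_right hn (norm_nonneg _)))

theorem Ult.act_sq {c : ∀ n, Op (K n)} (hc : Bd c) (h : Bd η) :
    U.π (sq c) (U.q η) = U.q fun n => c n (η n) := by
  rw [U.act _ η h]
  simp only [sq_apply hc]

end Vale.Agent.P096
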