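import Vale.Agent.P096.Top

/-! P096: the theorem in terms of the Hausdorff distance of the unit balls. -/

namespace Vale.Agent.P096

open Vale.Agent.P104 Vale.Agent.P132

universe u

theorem ni_of_dist {H : Type*} [NormedAddCommGroup H] [InnerProductSpace ℂ H] [CompleteSpace H]
    {M N : VonNeumannAlgebra H} {δ : ℝ}
    (h : Metric.hausdorffDist ((M : Set (H →L[ℂ] H)) ∩ Metric.closedBall 0 1)
      ((N : Set (H →L[ℂ] H)) ∩ Metric.closedBall 0 1) < δ) : NI M N δ := by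
  intro x hx
  rcases eq_or_ne x 0 with rfl | h0
  · exact ⟨0, zero_mem _, by simp⟩
  have hp : 0 < ‖x‖ := norm_pos_iff.2 h0
  have fin : Metric.hausdorffEDist ((M : Set (H →L[ℂ] H)) ∩ Metric.closedBall 0 1)
      ((N : Set (H →L[ℂ] H)) ∩ Metric.closedBall 0 1) ≠ ⊤ :=
    Metric.hausdorffEDist_ne_top_of_nonempty_of_bounded ⟨0, zero_mem M, by simp⟩
      ⟨0, zero_mem N, by simp⟩ (Metric.isBounded_closedBall.subset Set.inter_subset_right)
      (Metric.isBounded_closedBall.subset Set.inter_subset_right)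
  have hm : ((‖x‖⁻¹ : ℝ) : ℂ) • x ∈ (M : Set (H →L[ℂ] H)) ∩ Metric.closedBall 0 1 := by
    refine ⟨SMulMemClass.smul_mem _ hx, ?_⟩
    rw [mem_closedBall_zero_iff, norm_smul, Complex.norm_real, norm_inv, norm_norm,
      inv_mul_cancel₀ hp.ne']
  obtain ⟨y, hy, hd⟩ := Metric.exists_dist_lt_of_hausdorffDist_lt hm h fin
  refine ⟨((‖x‖ : ℝ) : ℂ) • y, SMulMemClass.smul_mem _ hy.1, ?_⟩
  have e : x - ((‖x‖ : ℝ) : ℂ) • y = ((‖x‖ : ℝ) : ℂ) • (((‖x‖⁻¹ : ℝ) : ℂ) • x - y) := by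
    rw [smul_sub, smul_smul, ← Complex.ofReal_mul, mul_inv_cancel₀ hp.ne']
    simp
  rw [e, norm_smul, Complex.norm_real, norm_norm, mul_comm, ← dist_eq_norm]
  exact mul_le_mul_of_nonneg_right hd.le hp.le

theorem strong_kk (ε : ℝ) (hε : 0 < ε) : ∃ δ : ℝ, 0 < δ ∧ ∀ (H : Type u) [NormedAddCommGroup H]
    [InnerProductSpace ℂ H] [CompleteSpace H] (M N : VonNeumannAlgebra H),
    Metric.hausdorffDist ((M : Set (H →L[ℂ] H)) ∩ Metric.closedBall 0 1)
      ((N : Set (H →L[ℂ] H)) ∩ Metric.closedBall 0 1) < δ →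
    ∃ w ∈ unitary (H →L[ℂ] H),
      (fun x => w * x * star w) '' (M : Set (H →L[ℂ] H)) = N ∧ ‖w - 1‖ < ε := by
  obtain ⟨δ, hδ, h⟩ := kk.{u} (ε / 2) (by positivity)
  refine ⟨δ, hδ, fun H _ _ _ M N hd => ?_⟩
  obtain ⟨v, hv, h1, h2⟩ := h H M N (ni_of_dist hd)
    (ni_of_dist (by rwa [Metric.hausdorffDist_comm]))
  refine ⟨v, hv, ?_, by linarith⟩
  ext y
  constructor
  · rintro ⟨x, hx, rfl⟩
    exact (h2 x).1 hx
  · intro hy
    have e : v * (star v * y * v) * star v = y := by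
      calc _ = (v * star v) * y * (v * star v) := by simp only [mul_assoc]
        _ = y := by rw [Unitary.mul_star_self_of_mem hv, one_mul, mul_one]
    exact ⟨star v * y * v, (h2 _).2 (by rw [e]; exact hy), e⟩

end Vale.Agent.P096
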