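import Vale.Agent.P096.Stmt
import Vale.Agent.P096.Eig
import Vale.Agent.P096.D

/-! P096: close algebras have close commutants. -/

namespace Vale.Agent.P096

open Vale.Agent.P104 Vale.Agent.P132

theorem stage_ni {H : Type*} [NormedAddCommGroup H] [InnerProductSpace ℂ H] [CompleteSpace H]
    {M N : VonNeumannAlgebra H} {δ : ℝ} (h : kkDist M N < δ) : NI M N δ := by
  intro x hx
  rcases eq_or_ne x 0 with rfl | h0
  · exact ⟨0, zero_mem _, by simp⟩
  have hp : 0 < ‖x‖ := norm_pos_iff.2 h0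
  have fin : Metric.hausdorffEDist ((M : Set (H →L[ℂ] H)) ∩ Metric.closedBall 0 1)
      ((N : Set (H →L[ℂ] H)) ∩ Metric.closedBall 0 1) ≠ ⊤ :=
    Metric.hausdorffEDist_ne_top_of_nonempty_of_bounded ⟨0, zero_mem M, by simp⟩
      ⟨0, zero_mem N, by simp⟩ (Metric.isBounded_closedBall.subset Set.inter_subset_right)
      (Metric.isBounded_closedBall.subset Set.inter_subset_right)
  have hm : ((‖x‖⁻¹ : ℝ) : ℂ) • x ∈ (M : Set (H →L[ℂ] H)) ∩ Metric.closedBall 0 1 := by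
    refine ⟨SMulMemClass.smul_mem _ hx, ?_⟩
    rw [mem_closedBall_zero_iff, norm_smul, Complex.norm_real, norm_inv, norm_norm,
      inv_mul_cancel₀ hp.ne']
  obtain ⟨y, hy, hd⟩ := Metric.exists_dist_lt_of_hausdorffDist_lt hm h fin
  refine ⟨((‖x‖ : ℝ) : ℂ) • y, SMulMemClass.smul_mem _ hy.1, ?_⟩
  have e : x - ((‖x‖ : ℝ) : ℂ) • y = ((‖x‖ : ℝ) : ℂ) • (((‖x‖⁻¹ : ℝ) : ℂ) • x - y) := by
    rw [smul_sub, smul_smul, ← Complex.ofReal_mul, mul_inv_cancel₀ hp.ne']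
    simp
  rw [e, norm_smul, Complex.norm_real, norm_norm, mul_comm, ← dist_eq_norm]
  exact mul_le_mul_of_nonneg_right hd.le hp.le

theorem stage_comm {H : Type*} [NormedAddCommGroup H] [InnerProductSpace ℂ H] [CompleteSpace H]
    (M N : VonNeumannAlgebra H) (δ : ℝ) (h : kkDist M N < δ) :
    ∀ s ∈ N.commutant, ∃ t ∈ M.commutant, ‖s - t‖ ≤ 160 * δ * ‖s‖ :=
  (stage_ni h).commutant (Metric.hausdorffDist_nonneg.trans h.le)

end Vale.Agent.P096
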