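import Vale.Agent.P096.Stage1
import Vale.Agent.KK.Newton
import Vale.Agent.P096.E
import Vale.Agent.P096.F

/-! P096: a linear map close to the inclusion gives a unitary. -/

namespace Vale.Agent.P096

open Vale.Agent.P104 Vale.Agent.P132

universe u

theorem stage_lin {H : Type u} [NormedAddCommGroup H] [InnerProductSpace ℂ H] [CompleteSpace H]
    (M N : VonNeumannAlgebra H) (t : ℝ) (ht0 : 0 < t) (ht : t ≤ 1 / 10 ^ 6)
    (h : kkDist N M < 1 / 4) (Φ : (H →L[ℂ] H) →ₗ[ℂ] (H →L[ℂ] H))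
    (hΦ : ∀ x ∈ M, Φ x ∈ N ∧ ‖Φ x - x‖ ≤ t * ‖x‖) :
    ∃ w ∈ unitary (H →L[ℂ] H), ‖w - 1‖ ≤ 10 ^ 6 * t ∧ ∀ x, x ∈ M ↔ w * x * star w ∈ N :=
  KK.lin_conj (M := M) (N := N) ht0 ht
    ⟨{ toFun := fun x => Φ x, map_add' := fun _ _ => map_add Φ _ _,
       map_smul' := fun _ _ => map_smul Φ _ _ }, fun x => (hΦ x x.2).1,
      fun x => by simpa using (hΦ x x.2).2⟩ (stage_ni h)

end Vale.Agent.P096
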