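import Mathlib

/-! The definition used in the statement for P096. -/

namespace Vale.Agent.P096

/-- The Kadison-Kastler distance: the Hausdorff distance of the closed unit balls in the operator
norm. -/
noncomputable def kkDist {H : Type*} [NormedAddCommGroup H] [InnerProductSpace ℂ H]
    [CompleteSpace H] (M N : VonNeumannAlgebra H) : ℝ :=
  Metric.hausdorffDist ((M : Set (H →L[ℂ] H)) ∩ Metric.closedBall 0 1)
    ((N : Set (H →L[ℂ] H)) ∩ Metric.closedBall 0 1)

end Vale.Agent.P096
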