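import Vale.Agent.KK.Newton
import Vale.Agent.P096.B
import Vale.Agent.P096.C
import Vale.Agent.P096.D
import Vale.Agent.P096.E
import Vale.Agent.P096.F

/-! P096: assembly of the parts. -/

namespace Vale.Agent.P096

open Vale.Agent.P104 Vale.Agent.P132

universe u

theorem lw : LWStmt.{u} := by
  intro ε hε
  obtain ⟨δ₁, h₁, H₁⟩ := partF partB ε hε
  obtain ⟨δ₂, h₂, H₂⟩ := partE partD δ₁ h₁
  obtain ⟨δ₃, h₃, H₃⟩ := partD 1 one_pos
  refine ⟨min δ₁ (min δ₂ δ₃), by positivity, fun H _ _ _ M N ξ h1 hc hc' D hcl => ?_⟩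
  obtain ⟨hN, hN', -⟩ := H₃ H M N ξ D h1 hc hc'
    (hcl.mono ((min_le_right _ _).trans (min_le_right _ _)))
  obtain ⟨S, rfl, rfl, hS⟩ := exists_sf' M h1 hc hc'
  obtain ⟨T, rfl, hT, hT'⟩ := exists_sf' N h1 hN hN'
  obtain ⟨V, hV, hVT⟩ := H₂ H S T hS hT' hT.symm D
    (hcl.mono ((min_le_right _ _).trans (min_le_left _ _)))
  exact H₁ H S.M T V hV hVT (hcl.mono (min_le_left _ _))

theorem kk : KKStmt.{u} := by
  intro ε hε
  obtain ⟨δ, hδ, H₁⟩ := partC lw (min (ε / 10 ^ 6) (1 / 10 ^ 6)) (by positivity)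
  refine ⟨min δ (1 / 4), by positivity, fun H _ _ _ M N h h' => ?_⟩
  obtain ⟨Φ, hΦ⟩ := H₁ H M N (h.mono (min_le_left _ _)) (h'.mono (min_le_left _ _))
  obtain ⟨v, hv, h1, h2⟩ := KK.lin_conj (M := M) (N := N) (t := min (ε / 10 ^ 6) (1 / 10 ^ 6))
    (by positivity) (min_le_right _ _)
    ⟨{ toFun := fun x => Φ x, map_add' := fun x y => map_add Φ _ _,
       map_smul' := fun c x => map_smul Φ _ _ }, fun x => (hΦ x x.2).1,
      fun x => by simpa using (hΦ x x.2).2⟩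
    (h'.mono (min_le_right _ _))
  refine ⟨v, hv, h1.trans ?_, h2⟩
  have := min_le_left (ε / 10 ^ 6) (1 / 10 ^ 6)
  linarith

end Vale.Agent.P096
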